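import Vale.Agent.P096.Dk

/-! Amplification. -/

open scoped InnerProductSpace Topology
open Filter

namespace Vale.Agent.P096

open Vale.Agent.P104 Vale.Agent.P132

universe u v w

/-- The diagonal representation on the Hilbert sum. -/
noncomputable def ampDiag (ι : Type) (K : Type u) [NormedAddCommGroup K] [InnerProductSpace ℂ K]
    [CompleteSpace K] :
    (K →L[ℂ] K) →⋆ₐ[ℂ] (lp (fun _ : ι => K) 2 →L[ℂ] lp (fun _ : ι => K) 2) where
  toFun a := lp.mapCLM 2 (fun _ => a) (norm_nonneg a) fun _ => le_rfl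
  map_one' := by
    ext1 y; ext1; rfl
  map_mul' a b := by
    ext1 y; ext1; rfl
  map_zero' := by
    ext1 y; ext1; rfl
  map_add' a b := by
    ext1 y; ext1; rfl
  commutes' c := by
    ext1 y; ext1; rfl
  map_star' a := by
    rw [ContinuousLinearMap.star_eq_adjoint (A := lp.mapCLM 2 (fun _ => a) _ _),
      ContinuousLinearMap.eq_adjoint_iff]
    intro x y
    rw [lp.inner_eq_tsum, lp.inner_eq_tsum]
    refine tsum_congr fun i => ?_
    exact inner_star_left a (x i) (y i)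

theorem exists_amp (ι : Type) (K : Type u) [NormedAddCommGroup K] [InnerProductSpace ℂ K]
    [CompleteSpace K] : ∃ (L : Type u) (_ : NormedAddCommGroup L) (_ : InnerProductSpace ℂ L)
      (_ : CompleteSpace L), Nonempty (Amp ι K L) := by
  classical
  refine ⟨lp (fun _ : ι => K) 2, inferInstance, inferInstance, inferInstance, ⟨{
    J := fun i => lp.singleContinuousLinearMap ℂ (fun _ : ι => K) 2 i
    P := fun i => lp.evalCLM ℂ (fun _ : ι => K) 2 i
    d := ampDiag ι K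
    adj := fun i η ζ => lp.inner_single_left i η ζ
    PJ := fun i η => lp.single_apply_self (E := fun _ : ι => K) 2 i η
    PJ' := fun i j hij η => lp.single_apply_ne (E := fun _ : ι => K) 2 j η hij
    sum := fun ζ => ?_
    dJ := fun x i η => ?_ }⟩⟩
  · have h := lp.hasSum_norm (p := 2) (by norm_num) ζ
    simp only [ENNReal.toReal_ofNat, Real.rpow_ofNat] at h
    exact h
  · ext1
    funext j
    show x (lp.single (E := fun _ : ι => K) 2 i η j) = lp.single (E := fun _ : ι => K) 2 i (x η) j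
    by_cases hij : j = i
    · subst hij
      rw [lp.single_apply_self, lp.single_apply_self]
    · rw [lp.single_apply_ne _ _ _ hij, lp.single_apply_ne _ _ _ hij, map_zero]

namespace Amp

section General

variable {K L : Type*} [NormedAddCommGroup K] [InnerProductSpace ℂ K] [CompleteSpace K]
  [NormedAddCommGroup L] [InnerProductSpace ℂ L] [CompleteSpace L] {ι : Type*} (A : Amp ι K L)
  {N : VonNeumannAlgebra K}

theorem P_eq (i : ι) : A.P i = ContinuousLinearMap.adjoint (A.J i) := by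
  rw [ContinuousLinearMap.eq_adjoint_iff]
  intro ζ η
  rw [← inner_conj_symm, ← A.adj, inner_conj_symm]

theorem adj' (i : ι) (ζ : L) (η : K) : ⟪ζ, A.J i η⟫_ℂ = ⟪A.P i ζ, η⟫_ℂ := by
  rw [← inner_conj_symm, A.adj, inner_conj_symm]

theorem norm_J (i : ι) (η : K) : ‖A.J i η‖ = ‖η‖ := by
  rw [norm_eq_sqrt_re_inner (𝕜 := ℂ), norm_eq_sqrt_re_inner (𝕜 := ℂ) η, A.adj, A.PJ]

theorem opNorm_J_le (i : ι) : ‖A.J i‖ ≤ 1 := by
  exact ContinuousLinearMap.opNorm_le_bound _ zero_le_one fun η => by rw [A.norm_J, one_mul]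

theorem norm_P_le (i : ι) (ζ : L) : ‖A.P i ζ‖ ≤ ‖ζ‖ := by
  exact (abs_le_of_sq_le_sq' (le_hasSum (A.sum ζ) i fun _ _ => sq_nonneg _) (norm_nonneg _)).2

theorem amp_ext {ζ ζ' : L} (h : ∀ i, A.P i ζ = A.P i ζ') : ζ = ζ' := by
  have h1 := A.sum (ζ - ζ')
  simp only [map_sub, h, sub_self, norm_zero, ne_eq, OfNat.ofNat_ne_zero, not_false_eq_true,
    zero_pow] at h1
  have h2 := h1.unique hasSum_zero
  exact sub_eq_zero.1 (norm_eq_zero.1 (pow_eq_zero_iff two_ne_zero |>.1 h2))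

theorem amp_sum (σ : ι → ι) (hσ : Function.Injective σ) (η : ι → K) {B : ℝ}
    (hB : ∀ s : Finset ι, ∑ i ∈ s, ‖η i‖ ^ 2 ≤ B) : ∃ ζ : L,
      HasSum (fun i => A.J (σ i) (η i)) ζ ∧ (∀ i, A.P (σ i) ζ = η i) ∧ ‖ζ‖ ^ 2 ≤ B := by
  obtain ⟨h1, -, h3⟩ := hasSum_of_orth (w := fun i => A.J (σ i) (η i)) (B := B)
    (fun i j hij => by
      beta_reduce
      rw [A.adj, A.PJ' _ _ (hσ.ne hij), inner_zero_right])
    (fun s => by simpa only [A.norm_J] using hB s)
  refine ⟨_, h1.hasSum, fun i => ?_, h3⟩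
  refine (h1.hasSum.mapL (A.P (σ i))).unique ?_
  have h4 := hasSum_single (f := fun j => A.P (σ i) (A.J (σ j) (η j))) i
    fun j hj => A.PJ' _ _ (hσ.ne hj.symm) _
  rwa [A.PJ] at h4

theorem hasSum_JP (ζ : L) : HasSum (fun i => A.J i (A.P i ζ)) ζ := by
  obtain ⟨ζ', h1, h2, -⟩ := A.amp_sum id Function.injective_id (fun i => A.P i ζ) (B := ‖ζ‖ ^ 2)
    fun s => sum_le_hasSum s (fun _ _ => sq_nonneg _) (A.sum ζ)
  rw [A.amp_ext h2] at h1
  exact h1

theorem hasSum_inner (ζ ζ' : L) : HasSum (fun i => ⟪A.P i ζ, A.P i ζ'⟫_ℂ) ⟪ζ, ζ'⟫_ℂ := by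
  have h := (A.hasSum_JP ζ').mapL (innerSL ℂ ζ)
  simpa only [innerSL_apply_apply, A.adj'] using h

theorem ext_vec {ζ ζ' : L} (h : ∀ i, A.P i ζ = A.P i ζ') : ζ = ζ' := by
  exact A.amp_ext h

theorem ext_J {E : Type*} [NormedAddCommGroup E] [NormedSpace ℂ E] {X Y : L →L[ℂ] E}
    (h : ∀ i η, X (A.J i η) = Y (A.J i η)) : X = Y := by
  ext ζ
  refine ((A.hasSum_JP ζ).mapL X).unique ?_
  simpa only [h] using (A.hasSum_JP ζ).mapL Y

theorem ext_ent {X Y : L →L[ℂ] L} (h : ∀ i j, A.ent X i j = A.ent Y i j) : X = Y := by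
  exact A.ext_J fun j η => A.ext_vec fun i => congrArg (fun T : K →L[ℂ] K => T η) (h i j)

theorem P_d (x : K →L[ℂ] K) (i : ι) (ζ : L) : A.P i (A.d x ζ) = x (A.P i ζ) := by
  refine ext_inner_left ℂ fun η => ?_
  rw [← A.adj, ← inner_star_left, ← map_star, A.dJ, A.adj, inner_star_left]

theorem norm_d_le (x : K →L[ℂ] K) : ‖A.d x‖ ≤ ‖x‖ := by
  exact NonUnitalStarAlgHom.norm_apply_le A.d x

theorem ent_apply (X : L →L[ℂ] L) (i j : ι) (η : K) : A.ent X i j η = A.P i (X (A.J j η)) := rfl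

theorem ent_eq_cmpr (X : L →L[ℂ] L) (i : ι) : A.ent X i i = cmpr (A.J i) X := by
  rw [ent, cmpr, A.P_eq]

theorem ent_d (x : K →L[ℂ] K) (i : ι) : A.ent (A.d x) i i = x := by
  ext η
  rw [ent_apply, A.dJ, A.PJ]

theorem star_ent (X : L →L[ℂ] L) (i j : ι) : star (A.ent X i j) = A.ent (star X) j i := by
  ext η
  refine ext_inner_left ℂ fun ζ => ?_
  rw [inner_star_right, ent_apply, ent_apply, ← A.adj, inner_star_right, A.adj']

theorem norm_ent_le (X : L →L[ℂ] L) (i j : ι) : ‖A.ent X i j‖ ≤ ‖X‖ := by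
  refine ContinuousLinearMap.opNorm_le_bound _ (norm_nonneg _) fun η => ?_
  rw [ent_apply, ← A.norm_J j η]
  exact (A.norm_P_le _ _).trans (X.le_opNorm _)

theorem amp_gen (σ : ι → ι) (hσ : Function.Injective σ) (x : ι → (K →L[ℂ] K)) {C : ℝ}
    (hC : 0 ≤ C) (h : ∀ i, ‖x i‖ ≤ C) :
    ∃ X : L →L[ℂ] L, ‖X‖ ≤ C ∧ (∀ i η, X (A.J i η) = A.J (σ i) (x i η)) ∧
      ∀ i ζ, A.P (σ i) (X ζ) = x i (A.P i ζ) := by
  have h0 := fun ζ : L => A.amp_sum σ hσ (fun i => x i (A.P i ζ)) (B := (C * ‖ζ‖) ^ 2) fun s => by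
    calc ∑ i ∈ s, ‖x i (A.P i ζ)‖ ^ 2 ≤ ∑ i ∈ s, C ^ 2 * ‖A.P i ζ‖ ^ 2 := by
          refine Finset.sum_le_sum fun i _ => ?_
          rw [← mul_pow]
          exact pow_le_pow_left₀ (norm_nonneg _) ((x i).le_of_opNorm_le (h i) _) 2
      _ = C ^ 2 * ∑ i ∈ s, ‖A.P i ζ‖ ^ 2 := by rw [Finset.mul_sum]
      _ ≤ C ^ 2 * ‖ζ‖ ^ 2 := mul_le_mul_of_nonneg_left
          (sum_le_hasSum s (fun _ _ => sq_nonneg _) (A.sum ζ)) (sq_nonneg _)
      _ = (C * ‖ζ‖) ^ 2 := by ring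
  choose X h1 h2 h3 using h0
  let X0 : L →ₗ[ℂ] L :=
    { toFun := X
      map_add' := fun a b => (h1 _).unique (by simpa only [map_add] using (h1 a).add (h1 b))
      map_smul' := fun c a => (h1 _).unique
        (by simpa only [map_smul, RingHom.id_apply] using (h1 a).const_smul c) }
  have hb : ∀ ζ, ‖X0 ζ‖ ≤ C * ‖ζ‖ := fun ζ =>
    (abs_le_of_sq_le_sq' (h3 ζ) (by positivity)).2
  refine ⟨X0.mkContinuous C hb, X0.mkContinuous_norm_le hC hb, fun i η => ?_, fun i ζ => h2 ζ i⟩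
  refine (h1 (A.J i η)).unique ?_
  have h4 := hasSum_single (f := fun j => A.J (σ j) (x j (A.P j (A.J i η)))) i
    fun j hj => by rw [A.PJ' _ _ hj, map_zero, map_zero]
  rwa [A.PJ] at h4

/-- Block diagonal operators. -/
theorem exists_diag (x : ι → (K →L[ℂ] K)) {C : ℝ} (hC : 0 ≤ C) (h : ∀ i, ‖x i‖ ≤ C) :
    ∃ X : L →L[ℂ] L, ‖X‖ ≤ C ∧ (∀ i η, X (A.J i η) = A.J i (x i η)) ∧
      ∀ i ζ, A.P i (X ζ) = x i (A.P i ζ) := by
  exact A.amp_gen id Function.injective_id x hC h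

/-- Permutation unitaries. -/
theorem exists_perm (σ : Equiv.Perm ι) : ∃ S ∈ unitary (L →L[ℂ] L),
    (∀ i η, S (A.J i η) = A.J (σ i) η) ∧ ∀ x, Commute (A.d x) S := by
  obtain ⟨S, -, h1, h2⟩ := A.amp_gen σ σ.injective (fun _ => 1) zero_le_one
    fun _ => ContinuousLinearMap.norm_id_le
  simp only [one_apply_eq_self] at h1 h2
  have h3 : ∀ i ζ, A.P i (star S ζ) = A.P (σ i) ζ := fun i ζ =>
    ext_inner_left ℂ fun η => by rw [← A.adj, inner_star_right, h1, A.adj]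
  refine ⟨S, Unitary.mem_iff.2 ⟨?_, ?_⟩, h1, fun x => A.ext_J fun i η => ?_⟩
  · ext ζ
    exact A.ext_vec fun i => (h3 i (S ζ)).trans (h2 i ζ)
  · ext ζ
    refine A.ext_vec fun i => ?_
    obtain ⟨j, rfl⟩ := σ.surjective i
    exact (h2 j (star S ζ)).trans (h3 j ζ)
  · show A.d x (S (A.J i η)) = S (A.d x (A.J i η))
    rw [h1, A.dJ, A.dJ, h1]

/-- A square summable family is a vector. -/
theorem exists_vec (η : ι → K) (h : Summable fun i => ‖η i‖ ^ 2) : ∃ ζ : L, ∀ i, A.P i ζ = η i := by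
  obtain ⟨ζ, -, h2, -⟩ := A.amp_sum id Function.injective_id η
    fun s => sum_le_hasSum s (fun _ _ => sq_nonneg _) h.hasSum
  exact ⟨ζ, h2⟩

/-- Matrices with entries in `N`. -/
noncomputable def mat (N : VonNeumannAlgebra K) : VonNeumannAlgebra L :=
  vnc (A.d '' (N.commutant : Set (K →L[ℂ] K)))

theorem amp_mem_mat {X : L →L[ℂ] L} :
    X ∈ A.mat N ↔ ∀ y ∈ N.commutant, A.d y * X = X * A.d y := by
  rw [mat, mem_vnc']
  · exact ⟨fun h y hy => h _ ⟨y, hy, rfl⟩, by rintro h _ ⟨y, hy, rfl⟩; exact h y hy⟩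
  · rintro _ ⟨y, hy, rfl⟩
    exact ⟨star y, star_mem hy, map_star _ _⟩

theorem mem_mat {X : L →L[ℂ] L} : X ∈ A.mat N ↔ ∀ i j, A.ent X i j ∈ N := by
  rw [A.amp_mem_mat]
  have e1 : ∀ y i j, A.ent (A.d y * X) i j = y * A.ent X i j := fun y i j => by
    ext η
    exact A.P_d y i _
  have e2 : ∀ y i j, A.ent (X * A.d y) i j = A.ent X i j * y := fun y i j => by
    ext η
    show A.P i (X (A.d y (A.J j η))) = A.P i (X (A.J j (y η)))
    rw [A.dJ]
  refine ⟨fun h i j => mem_of_commute N fun y hy => ?_, fun h y hy => A.ext_ent fun i j => ?_⟩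
  · show y * A.ent X i j = A.ent X i j * y
    rw [← e1, ← e2, h y hy]
  · rw [e1, e2]
    exact (commute_of_mem N hy (h i j)).eq

theorem mem_mat' {X : L →L[ℂ] L} : X ∈ A.mat N ↔ ∀ y ∈ N.commutant, A.d y * X = X * A.d y := by
  exact A.amp_mem_mat

theorem d_mem_mat {x : K →L[ℂ] K} (hx : x ∈ N) : A.d x ∈ A.mat N := by
  refine A.mem_mat'.2 fun y hy => ?_
  rw [← map_mul, ← map_mul, (commute_of_mem N hy hx).eq]

theorem JP_mem_mat (i j : ι) : (A.J i).comp (A.P j) ∈ A.mat N := by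
  refine A.mem_mat'.2 fun y _ => ?_
  ext ζ
  show A.d y (A.J i (A.P j ζ)) = A.J i (A.P j (A.d y ζ))
  rw [A.dJ, A.P_d]

/-- A finite matrix is an operator. -/
theorem exists_mat [Fintype ι] (x : ι → ι → (K →L[ℂ] K)) :
    ∃ X : L →L[ℂ] L, ∀ i j, A.ent X i j = x i j := by
  refine ⟨∑ i, ∑ j, (A.J i).comp ((x i j).comp (A.P j)), fun i j => ?_⟩
  ext η
  simp only [ent_apply, sum_apply, ContinuousLinearMap.comp_apply, map_sum]
  rw [Finset.sum_eq_single i, Finset.sum_eq_single j, A.PJ, A.PJ]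
  · intro k _ hk
    rw [A.PJ' _ _ hk, map_zero, map_zero, map_zero]
  · exact fun h => absurd (Finset.mem_univ _) h
  · intro k _ hk
    exact Finset.sum_eq_zero fun l _ => A.PJ' _ _ hk.symm _
  · exact fun h => absurd (Finset.mem_univ _) h

theorem ent_mul [Fintype ι] (X Y : L →L[ℂ] L) (i j : ι) :
    A.ent (X * Y) i j = ∑ k, A.ent X i k * A.ent Y k j := by
  ext η
  have h := (A.hasSum_JP (Y (A.J j η))).unique (hasSum_fintype _)
  show A.P i (X (Y (A.J j η))) = _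
  rw [h, map_sum, map_sum, sum_apply]
  rfl

theorem norm_sq_eq [Fintype ι] (ζ : L) : ‖ζ‖ ^ 2 = ∑ i, ‖A.P i ζ‖ ^ 2 := by
  exact (A.sum ζ).unique (hasSum_fintype _)

end General

variable {K L : Type u} [NormedAddCommGroup K] [InnerProductSpace ℂ K] [CompleteSpace K]
  [NormedAddCommGroup L] [InnerProductSpace ℂ L] [CompleteSpace L] {ι : Type*} (A : Amp ι K L)
  {N M : VonNeumannAlgebra K} {γ : ℝ}

/-- Complete closeness. -/
theorem close_mat (h : Close γ N M) (hγ : 0 ≤ γ) :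
    Close (4 * dk.{u} ^ 2 * γ) (A.mat N) (A.mat M) := by
  have h1 := one_le_dk.{u}
  have h2 := close_vnc_image A.d (h.commutant hγ) (by positivity)
  exact h2.mono (le_of_eq (by ring))

end Amp

end Vale.Agent.P096
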