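import Vale.Agent.P096.Defs
import Vale.Agent.P132.RtA

/-! Elementary facts: commutants of sets, conjugation, weak limits. -/

open scoped InnerProductSpace Topology
open Filter

namespace Vale.Agent.P096

open Vale.Agent.P104 Vale.Agent.P132

variable {K : Type*} [NormedAddCommGroup K] [InnerProductSpace ℂ K] [CompleteSpace K]
  {N M : VonNeumannAlgebra K} {γ γ' ε : ℝ}

theorem vn_closed (N : VonNeumannAlgebra K) : IsClosed (N : Set (K →L[ℂ] K)) := by
  rw [← N.centralizer_centralizer]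
  exact Set.isClosed_centralizer _

theorem vn_smul (c : ℂ) {x : K →L[ℂ] K} (hx : x ∈ N) : c • x ∈ N :=
  N.toStarSubalgebra.smul_mem hx c

/-- The von Neumann algebra of operators commuting with `S` and `S*`. -/
noncomputable def vnc (S : Set (K →L[ℂ] K)) : VonNeumannAlgebra K where
  toStarSubalgebra := StarSubalgebra.centralizer ℂ S
  centralizer_centralizer' := by
    show Set.centralizer (Set.centralizer ((StarSubalgebra.centralizer ℂ S : StarSubalgebra ℂ _) :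
      Set (K →L[ℂ] K))) = ((StarSubalgebra.centralizer ℂ S : StarSubalgebra ℂ _) : Set _)
    rw [StarSubalgebra.coe_centralizer, Set.centralizer_centralizer_centralizer]

theorem mem_vnc {S : Set (K →L[ℂ] K)} {x : K →L[ℂ] K} :
    x ∈ vnc S ↔ ∀ y ∈ S, y * x = x * y ∧ star y * x = x * star y :=
  StarSubalgebra.mem_centralizer_iff ℂ

theorem mem_vnc' {S : Set (K →L[ℂ] K)} (hS : ∀ y ∈ S, star y ∈ S) {x : K →L[ℂ] K} :
    x ∈ vnc S ↔ ∀ y ∈ S, y * x = x * y :=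
  mem_vnc.trans ⟨fun h y hy => (h y hy).1, fun h y hy => ⟨h y hy, h _ (hS y hy)⟩⟩

theorem mem_vnc_commutant {S : Set (K →L[ℂ] K)} {y : K →L[ℂ] K} (hy : y ∈ S) :
    y ∈ (vnc S).commutant :=
  VonNeumannAlgebra.mem_commutant_iff.2 fun x hx => ((mem_vnc.1 hx y hy).1).symm

theorem Near.mono {A B : Set (K →L[ℂ] K)} (h : Near γ A B) (hγ : γ ≤ γ') : Near γ' A B :=
  fun x hx => (h x hx).imp fun _ hy =>
    ⟨hy.1, hy.2.trans (mul_le_mul_of_nonneg_right hγ (norm_nonneg _))⟩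

theorem Close.mono (h : Close γ N M) (hγ : γ ≤ γ') : Close γ' N M := ⟨h.1.mono hγ, h.2.mono hγ⟩

theorem Close.symm (h : Close γ N M) : Close γ M N := ⟨h.2, h.1⟩

theorem LiftTo.mono {a : (K →L[ℂ] K) → (K →L[ℂ] K)} (h : LiftTo γ N M a) (hγ : γ ≤ γ') :
    LiftTo γ' N M a := by
  obtain ⟨θ, h1, h2⟩ := h
  exact ⟨θ, h1, fun x hx =>
    ⟨(h2 x hx).1, (h2 x hx).2.trans (mul_le_mul_of_nonneg_right hγ (norm_nonneg _))⟩⟩

/-- The algebra `u M u*`. -/
noncomputable def cj (u : K →L[ℂ] K) (M : VonNeumannAlgebra K) : VonNeumannAlgebra K :=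
  vnc ((fun y => u * y * star u) '' (M.commutant : Set (K →L[ℂ] K)))

theorem mem_cj {u x : K →L[ℂ] K} (hu : u ∈ unitary (K →L[ℂ] K)) :
    x ∈ cj u M ↔ star u * x * u ∈ M := by
  have h1 : star u * u = 1 := Unitary.star_mul_self_of_mem hu
  have h2 : u * star u = 1 := Unitary.mul_star_self_of_mem hu
  rw [cj, mem_vnc']
  · constructor
    · intro h
      refine mem_of_commute M fun y hy => ?_
      have h3 := h _ ⟨y, hy, rfl⟩
      show y * (star u * x * u) = star u * x * u * y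
      calc y * (star u * x * u) = star u * ((u * y * star u) * x) * u := by
            simp only [← mul_assoc, h1, one_mul]
        _ = star u * (x * (u * y * star u)) * u := by rw [h3]
        _ = _ := by simp only [mul_assoc, h1, mul_one]
    · rintro h _ ⟨y, hy, rfl⟩
      have h3 := (commute_of_mem M hy h).eq
      show u * y * star u * x = x * (u * y * star u)
      calc u * y * star u * x = u * (y * (star u * x * u)) * star u := by
            simp only [mul_assoc, h2, mul_one]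
        _ = u * (star u * x * u * y) * star u := by rw [h3]
        _ = _ := by simp only [← mul_assoc, h2, one_mul]
  · rintro _ ⟨y, hy, rfl⟩
    exact ⟨star y, star_mem hy, by simp [mul_assoc]⟩

theorem cj_commutant {u : K →L[ℂ] K} (hu : u ∈ unitary (K →L[ℂ] K)) :
    (cj u M).commutant = cj u M.commutant := by
  have h1 : star u * u = 1 := Unitary.star_mul_self_of_mem hu
  have h2 : u * star u = 1 := Unitary.mul_star_self_of_mem hu
  ext x
  rw [mem_cj hu, VonNeumannAlgebra.mem_commutant_iff, VonNeumannAlgebra.mem_commutant_iff]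
  constructor
  · intro h m hm
    have h4 : u * m * star u ∈ cj u M := by
      rw [mem_cj hu]
      have : star u * (u * m * star u) * u = m := by
        rw [← mul_assoc, ← mul_assoc, h1, one_mul, mul_assoc, h1, mul_one]
      rwa [this]
    have h3 := h _ h4
    calc m * (star u * x * u) = star u * ((u * m * star u) * x) * u := by
          simp only [← mul_assoc, h1, one_mul]
      _ = star u * (x * (u * m * star u)) * u := by rw [h3]
      _ = _ := by simp only [mul_assoc, h1, mul_one]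
  · intro h z hz
    have h3 := h _ ((mem_cj hu).1 hz)
    have h4 : ∀ a b : K →L[ℂ] K,
        u * (star u * a * u * (star u * b * u)) * star u = a * b := fun a b => by
      calc u * (star u * a * u * (star u * b * u)) * star u
          = (u * star u) * a * (u * star u) * b * (u * star u) := by simp only [mul_assoc]
        _ = a * b := by rw [h2, one_mul, mul_one, mul_one]
    rw [← h4 z x, h3, h4]

theorem bas_star_near {u : K →L[ℂ] K} (hε : ‖u - 1‖ ≤ ε) : ‖star u - 1‖ ≤ ε := by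
  rwa [← norm_star, star_sub, star_star, star_one]

theorem bas_conj_near {u : K →L[ℂ] K} (hu : u ∈ unitary (K →L[ℂ] K)) (hε : ‖u - 1‖ ≤ ε)
    (y : K →L[ℂ] K) : ‖u * y * star u - y‖ ≤ 2 * ε * ‖y‖ := by
  have e : u * y * star u - y = (u - 1) * y * star u + y * (star u - 1) := by noncomm_ring
  have a1 : ‖(u - 1) * y * star u‖ ≤ ε * ‖y‖ := by
    rw [CStarRing.norm_mul_mem_unitary _ (Unitary.star_mem hu)]
    exact (norm_mul_le _ _).trans (mul_le_mul_of_nonneg_right hε (norm_nonneg _))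
  have a2 : ‖y * (star u - 1)‖ ≤ ‖y‖ * ε :=
    (norm_mul_le _ _).trans (mul_le_mul_of_nonneg_left (bas_star_near hε) (norm_nonneg _))
  rw [e]
  linarith [norm_add_le ((u - 1) * y * star u) (y * (star u - 1))]

theorem Close.cj (h : Close γ N M) {u : K →L[ℂ] K} (hu : u ∈ unitary (K →L[ℂ] K))
    (hε : ‖u - 1‖ ≤ ε) (h1 : γ ≤ 1) : Close (γ + 4 * ε) N (cj u M) := by
  have k1 : star u * u = 1 := Unitary.star_mul_self_of_mem hu
  have h0 : 0 ≤ ε := (norm_nonneg _).trans hε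
  refine ⟨fun x hx => ?_, fun z hz => ?_⟩
  · obtain ⟨y, hy, hd⟩ := h.1 x hx
    refine ⟨u * y * star u, ?_, ?_⟩
    · show u * y * star u ∈ P096.cj u M
      rw [mem_cj hu]
      have : star u * (u * y * star u) * u = y := by
        rw [← mul_assoc, ← mul_assoc, k1, one_mul, mul_assoc, k1, mul_one]
      rw [this]
      exact hy
    · have a1 := bas_conj_near hu hε y
      have a2 : ‖y‖ ≤ 2 * ‖x‖ := by
        have := norm_sub_norm_le y x
        rw [norm_sub_rev] at this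
        nlinarith [norm_nonneg x]
      have a3 := norm_sub_le_norm_sub_add_norm_sub x y (u * y * star u)
      rw [norm_sub_rev y] at a3
      nlinarith
  · have hm : star u * z * u ∈ M := (mem_cj hu).1 hz
    obtain ⟨y, hy, hd⟩ := h.2 _ hm
    refine ⟨y, hy, ?_⟩
    have a0 : ‖star u * z * u‖ = ‖z‖ := by
      rw [CStarRing.norm_mul_mem_unitary _ hu,
        CStarRing.norm_mem_unitary_mul _ (Unitary.star_mem hu)]
    have a1 := bas_conj_near (Unitary.star_mem hu) (bas_star_near hε) z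
    rw [star_star] at a1
    have a3 := norm_sub_le_norm_sub_add_norm_sub z (star u * z * u) y
    rw [norm_sub_rev z (star u * z * u)] at a3
    rw [a0] at hd
    nlinarith [norm_nonneg z]

theorem Lift.of_cj {u : K →L[ℂ] K} (hu : u ∈ unitary (K →L[ℂ] K)) (hε : ‖u - 1‖ ≤ ε)
    (h : Lift γ N (cj u M)) (h1 : γ ≤ 1) : Lift (γ + 4 * ε) N M := by
  obtain ⟨θ, hl, hθ⟩ := h
  have h0 : 0 ≤ ε := (norm_nonneg _).trans hε
  refine ⟨fun x => star u * θ x * u, ⟨fun x hx y hy => ?_, fun c x hx => ?_⟩, fun x hx => ?_⟩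
  · show star u * θ (x + y) * u = star u * θ x * u + star u * θ y * u
    rw [hl.1 x hx y hy, mul_add, add_mul]
  · show star u * θ (c • x) * u = c • (star u * θ x * u)
    rw [hl.2 c x hx, mul_smul_comm, smul_mul_assoc]
  · obtain ⟨hm, hd⟩ := hθ x hx
    refine ⟨(mem_cj hu).1 hm, ?_⟩
    have a1 := bas_conj_near (Unitary.star_mem hu) (bas_star_near hε) (θ x)
    rw [star_star] at a1
    have a2 : ‖θ x‖ ≤ 2 * ‖x‖ := by
      have := norm_sub_norm_le (θ x) x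
      nlinarith [norm_nonneg x]
    have a3 := norm_sub_le_norm_sub_add_norm_sub (star u * θ x * u) (θ x) x
    show ‖star u * θ x * u - x‖ ≤ _
    nlinarith

/-- Weak limit of a bounded family of vectors along an ultrafilter. -/
theorem exists_wlim_vec {ι : Type*} (U : Ultrafilter ι) (x : ι → K) {C : ℝ}
    (h : ∀ᶠ i in (U : Filter ι), ‖x i‖ ≤ C) :
    ∃ y : K, ‖y‖ ≤ C ∧ ∀ η, Tendsto (fun i => ⟪η, x i⟫_ℂ) U (𝓝 ⟪η, y⟫_ℂ) := by
  have hb0 : ∀ η : K, ∀ᶠ i in (U : Filter ι), ‖⟪x i, η⟫_ℂ‖ ≤ C * ‖η‖ := fun η =>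
    h.mono fun i hi =>
      (norm_inner_le_norm _ _).trans (mul_le_mul_of_nonneg_right hi (norm_nonneg _))
  have hC : 0 ≤ C := by
    obtain ⟨i, hi⟩ := h.exists
    exact (norm_nonneg _).trans hi
  have hl : ∀ η : K, ∃ c : ℂ, Tendsto (fun i => ⟪x i, η⟫_ℂ) U (𝓝 c) := fun η => by
    obtain ⟨d, -, hd⟩ := (isCompact_closedBall (0 : ℂ) (C * ‖η‖)).ultrafilter_le_nhds
      (U.map fun i => ⟪x i, η⟫_ℂ) (by
        rw [le_principal_iff, Ultrafilter.coe_map, mem_map]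
        filter_upwards [hb0 η] with i hi
        simpa using hi)
    exact ⟨d, hd⟩
  choose c hc using hl
  let f : K →ₗ[ℂ] ℂ :=
    { toFun := c
      map_add' := fun a b => tendsto_nhds_unique (hc _)
        (by simpa only [inner_add_right] using (hc a).add (hc b))
      map_smul' := fun t a => tendsto_nhds_unique (hc _)
        (by simpa only [inner_smul_right, RingHom.id_apply, smul_eq_mul] using
          (hc a).const_mul t) }
  have hb : ∀ η, ‖f η‖ ≤ C * ‖η‖ := fun η => le_of_tendsto (hc η).norm (hb0 η)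
  refine ⟨(InnerProductSpace.toDual ℂ K).symm (f.mkContinuous C hb), ?_, fun η => ?_⟩
  · rw [LinearIsometryEquiv.norm_map]
    exact f.mkContinuous_norm_le hC hb
  · have h1 := (Complex.continuous_conj.tendsto _).comp (hc η)
    have h2 : ⟪η, (InnerProductSpace.toDual ℂ K).symm (f.mkContinuous C hb)⟫_ℂ =
        (starRingEnd ℂ) (c η) := by
      rw [← inner_conj_symm, InnerProductSpace.toDual_symm_apply]
      rfl
    rw [h2]
    refine h1.congr fun i => ?_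
    exact inner_conj_symm _ _

/-- Weak limit of a bounded family of operators along an ultrafilter. -/
theorem exists_wlim {ι : Type*} (U : Ultrafilter ι) (x : ι → (K →L[ℂ] K)) {C : ℝ}
    (h : ∀ᶠ i in (U : Filter ι), ‖x i‖ ≤ C) :
    ∃ y : K →L[ℂ] K, ‖y‖ ≤ C ∧ ∀ η ζ, Tendsto (fun i => ⟪η, x i ζ⟫_ℂ) U (𝓝 ⟪η, y ζ⟫_ℂ) := by
  have hC : 0 ≤ C := by
    obtain ⟨i, hi⟩ := h.exists
    exact (norm_nonneg _).trans hi
  have hl := fun ζ : K => exists_wlim_vec U (fun i => x i ζ) (C := C * ‖ζ‖)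
    (h.mono fun i hi => ((x i).le_opNorm ζ).trans (mul_le_mul_of_nonneg_right hi (norm_nonneg _)))
  choose y hy hc using hl
  let f : K →ₗ[ℂ] K :=
    { toFun := y
      map_add' := fun a b => ext_inner_left ℂ fun η => tendsto_nhds_unique (hc _ η)
        (by simpa only [map_add, inner_add_right] using (hc a η).add (hc b η))
      map_smul' := fun t a => ext_inner_left ℂ fun η => tendsto_nhds_unique (hc _ η)
        (by simpa only [map_smul, inner_smul_right, RingHom.id_apply] using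
          (hc a η).const_mul t) }
  exact ⟨f.mkContinuous C hy, f.mkContinuous_norm_le hC hy, fun η ζ => hc ζ η⟩

theorem mem_of_wlim {ι : Type*} {U : Filter ι} [U.NeBot] {x : ι → (K →L[ℂ] K)} {y : K →L[ℂ] K}
    (hx : ∀ᶠ i in U, x i ∈ M) (h : ∀ η ζ, Tendsto (fun i => ⟪η, x i ζ⟫_ℂ) U (𝓝 ⟪η, y ζ⟫_ℂ)) :
    y ∈ M := by
  refine mem_of_commute M fun z hz => ?_
  ext ζ
  refine ext_inner_left ℂ fun η => ?_
  show ⟪η, z (y ζ)⟫_ℂ = ⟪η, y (z ζ)⟫_ℂ
  rw [← inner_star_left]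
  refine tendsto_nhds_unique (h _ _) ((h η (z ζ)).congr' ?_)
  filter_upwards [hx] with i hi
  rw [inner_star_left]
  exact congrArg (fun T : K →L[ℂ] K => ⟪η, T ζ⟫_ℂ) (commute_of_mem M hz hi).eq.symm

theorem norm_le_of_wlim {ι : Type*} {U : Filter ι} [U.NeBot] {x : ι → K} {y : K} {C : ℝ}
    (hx : ∀ᶠ i in U, ‖x i‖ ≤ C) (h : ∀ η, Tendsto (fun i => ⟪η, x i⟫_ℂ) U (𝓝 ⟪η, y⟫_ℂ)) :
    ‖y‖ ≤ C := by
  have hC : 0 ≤ C := by
    obtain ⟨i, hi⟩ := hx.exists
    exact (norm_nonneg _).trans hi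
  have h1 : ‖⟪y, y⟫_ℂ‖ ≤ ‖y‖ * C := le_of_tendsto (h y).norm (hx.mono fun i hi =>
    (norm_inner_le_norm _ _).trans (mul_le_mul_of_nonneg_left hi (norm_nonneg _)))
  rw [inner_self_eq_norm_sq_to_K, norm_pow, RCLike.norm_ofReal, abs_norm] at h1
  by_contra h2
  push Not at h2
  nlinarith

/-- Limits of liftings. -/
theorem lift_of_lim {ι : Type*} (U : Ultrafilter ι) (a : ι → (K →L[ℂ] K) → (K →L[ℂ] K))
    (h : ∀ᶠ i in (U : Filter ι), LiftTo ε N M (a i)) (hb : ∀ i, ∀ x ∈ N, ‖a i x‖ ≤ ‖x‖)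
    (hl : ∀ x ∈ N, ∀ η ζ, Tendsto (fun i => ⟪η, a i x ζ⟫_ℂ) U (𝓝 ⟪η, x ζ⟫_ℂ)) : Lift ε N M := by
  have h1 : ∀ i, ∃ θ : (K →L[ℂ] K) → (K →L[ℂ] K), LiftTo ε N M (a i) →
      LinOn N θ ∧ ∀ x ∈ N, θ x ∈ M ∧ ‖θ x - a i x‖ ≤ ε * ‖x‖ := fun i => by
    by_cases hi : LiftTo ε N M (a i)
    · obtain ⟨θ, hθ⟩ := hi
      exact ⟨θ, fun _ => hθ⟩
    · exact ⟨fun x => x, fun h' => absurd h' hi⟩
  choose θ hθ using h1
  have h2 := h.mono hθ
  have h3 : ∀ x : K →L[ℂ] K, ∃ y : K →L[ℂ] K, x ∈ N →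
      ∀ η ζ, Tendsto (fun i => ⟪η, θ i x ζ⟫_ℂ) U (𝓝 ⟪η, y ζ⟫_ℂ) := fun x => by
    by_cases hx : x ∈ N
    · obtain ⟨y, -, hy⟩ := exists_wlim U (fun i => θ i x) (C := ε * ‖x‖ + ‖x‖)
        (h2.mono fun i hi => by
          have := norm_sub_norm_le (θ i x) (a i x)
          linarith [(hi.2 x hx).2, hb i x hx])
      exact ⟨y, fun _ => hy⟩
    · exact ⟨x, fun h' => absurd h' hx⟩
  choose Θ hΘ using h3
  refine ⟨Θ, ⟨fun x hx y hy => ?_, fun c x hx => ?_⟩, fun x hx => ⟨?_, ?_⟩⟩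
  · ext ζ
    refine ext_inner_left ℂ fun η => tendsto_nhds_unique (hΘ _ (add_mem hx hy) η ζ) ?_
    rw [add_apply, inner_add_right]
    refine ((hΘ x hx η ζ).add (hΘ y hy η ζ)).congr' ?_
    filter_upwards [h2] with i hi
    rw [hi.1.1 x hx y hy, add_apply, inner_add_right]
  · ext ζ
    refine ext_inner_left ℂ fun η => tendsto_nhds_unique (hΘ _ (vn_smul c hx) η ζ) ?_
    rw [smul_apply, inner_smul_right]
    refine ((hΘ x hx η ζ).const_mul c).congr' ?_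
    filter_upwards [h2] with i hi
    rw [hi.1.2 c x hx, smul_apply, inner_smul_right]
  · exact mem_of_wlim (h2.mono fun i hi => (hi.2 x hx).1) (hΘ x hx)
  · have h0 : 0 ≤ ε * ‖x‖ := by
      obtain ⟨i, hi⟩ := h2.exists
      exact (norm_nonneg _).trans (hi.2 x hx).2
    refine ContinuousLinearMap.opNorm_le_bound _ h0 fun ζ => ?_
    refine norm_le_of_wlim (U := (U : Filter ι)) (x := fun i => (θ i x - a i x) ζ)
      (h2.mono fun i hi => ((θ i x - a i x).le_opNorm ζ).trans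
        (mul_le_mul_of_nonneg_right (hi.2 x hx).2 (norm_nonneg _))) fun η => ?_
    simpa only [sub_apply, inner_sub_right] using
      (hΘ x hx η ζ).sub (hl x hx η ζ)

/-- A bounded operator prescribed on `N ξ`. -/
theorem exists_op {L : Type*} [NormedAddCommGroup L] [InnerProductSpace ℂ L] [CompleteSpace L]
    {ξ : K} (hc : Cyc N ξ) (T : (K →L[ℂ] K) → L) (ha : ∀ x ∈ N, ∀ y ∈ N, T (x + y) = T x + T y)
    (hs : ∀ c : ℂ, ∀ x ∈ N, T (c • x) = c • T x) {C : ℝ} (hC : 0 ≤ C)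
    (hb : ∀ x ∈ N, ‖T x‖ ≤ C * ‖x ξ‖) : ∃ S : K →L[ℂ] L, ‖S‖ ≤ C ∧ ∀ x ∈ N, S (x ξ) = T x := by
  let f : N.toStarSubalgebra →ₗ[ℂ] L :=
    { toFun := fun x => T x
      map_add' := fun x y => ha _ x.2 _ y.2
      map_smul' := fun c x => hs c _ x.2 }
  let e : N.toStarSubalgebra →ₗ[ℂ] K :=
    { toFun := fun x => (x : K →L[ℂ] K) ξ
      map_add' := fun _ _ => rfl
      map_smul' := fun _ _ => rfl }
  have hd : DenseRange e := Metric.denseRange_iff.2 fun η ε hε => by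
    obtain ⟨x, hx, h⟩ := hc η (ε / 2) (half_pos hε)
    refine ⟨⟨x, hx⟩, ?_⟩
    rw [dist_eq_norm]
    show ‖η - x ξ‖ < ε
    linarith
  have hn : ∀ x, ‖f x‖ ≤ C * ‖e x‖ := fun x => hb _ x.2
  exact ⟨f.extendOfNorm e, LinearMap.opNorm_extendOfNorm_le hd hC hn, fun x hx =>
    LinearMap.extendOfNorm_eq hd ⟨C, hn⟩ ⟨x, hx⟩⟩

/-- A bounded sesquilinear form on `M ξ' × N ξ` comes from an operator. -/
theorem exists_op_form {ξ ξ' : K} (hc : Cyc N ξ) (hc' : Cyc M ξ')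
    (B : (K →L[ℂ] K) → (K →L[ℂ] K) → ℂ)
    (ha : ∀ y ∈ M, ∀ x ∈ N, ∀ x' ∈ N, B y (x + x') = B y x + B y x')
    (hs : ∀ y ∈ M, ∀ c : ℂ, ∀ x ∈ N, B y (c • x) = c * B y x)
    (ha' : ∀ y ∈ M, ∀ y' ∈ M, ∀ x ∈ N, B (y + y') x = B y x + B y' x)
    (hs' : ∀ c : ℂ, ∀ y ∈ M, ∀ x ∈ N, B (c • y) x = (starRingEnd ℂ) c * B y x) {C : ℝ}
    (hC : 0 ≤ C) (hb : ∀ y ∈ M, ∀ x ∈ N, ‖B y x‖ ≤ C * (‖y ξ'‖ * ‖x ξ‖)) :
    ∃ S : K →L[ℂ] K, ‖S‖ ≤ C ∧ ∀ y ∈ M, ∀ x ∈ N, ⟪y ξ', S (x ξ)⟫_ℂ = B y x := by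
  have h1 : ∀ x : K →L[ℂ] K, ∃ v : K, x ∈ N →
      ‖v‖ ≤ C * ‖x ξ‖ ∧ ∀ y ∈ M, ⟪y ξ', v⟫_ℂ = B y x := fun x => by
    by_cases hx : x ∈ N
    · obtain ⟨S, hS, hS'⟩ := exists_op (L := ℂ) hc' (fun y => (starRingEnd ℂ) (B y x))
        (fun y hy y' hy' => by rw [ha' y hy y' hy' x hx, map_add])
        (fun c y hy => by rw [hs' c y hy x hx, map_mul, Complex.conj_conj, smul_eq_mul])
        (C := C * ‖x ξ‖) (by positivity) (fun y hy => by
          rw [RCLike.norm_conj]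
          linarith [hb y hy x hx])
      refine ⟨(InnerProductSpace.toDual ℂ K).symm S, fun _ => ⟨?_, fun y hy => ?_⟩⟩
      · rwa [LinearIsometryEquiv.norm_map]
      · rw [← inner_conj_symm, InnerProductSpace.toDual_symm_apply, hS' y hy, Complex.conj_conj]
    · exact ⟨0, fun h' => absurd h' hx⟩
  choose T hT using h1
  have hext : ∀ v w : K, (∀ y ∈ M, ⟪y ξ', v⟫_ℂ = ⟪y ξ', w⟫_ℂ) → v = w := fun v w h =>
    ext_inner_left ℂ (hc'.ext (f := fun η => ⟪η, v⟫_ℂ) (g := fun η => ⟪η, w⟫_ℂ)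
      (by fun_prop) (by fun_prop) h)
  obtain ⟨S, hS, hS'⟩ := exists_op hc T
    (fun x hx x' hx' => hext _ _ fun y hy => by
      rw [inner_add_right, (hT _ (add_mem hx hx')).2 y hy, (hT x hx).2 y hy, (hT x' hx').2 y hy,
        ha y hy x hx x' hx'])
    (fun c x hx => hext _ _ fun y hy => by
      rw [inner_smul_right, (hT _ (vn_smul c hx)).2 y hy, (hT x hx).2 y hy, hs y hy c x hx])
    hC fun x hx => (hT x hx).1
  exact ⟨S, hS, fun y hy x hx => by rw [hS' x hx, (hT x hx).2 y hy]⟩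

/-- The projection onto the closure of `N' ξ`. -/
theorem exists_supp (N : VonNeumannAlgebra K) (ξ : K) : ∃ e ∈ N, IsStarProjection e ∧
    (∀ y ∈ N.commutant, e (y ξ) = y ξ) ∧ (∀ x ∈ N, x ξ = 0 → x * e = 0) ∧
    ∀ η : K, ∀ δ : ℝ, 0 < δ → ∃ y ∈ N.commutant, ‖e η - y ξ‖ ≤ δ := by
  let D : Submodule ℂ K :=
    { carrier := {z | ∃ y ∈ N.commutant, y ξ = z}
      add_mem' := by
        rintro _ _ ⟨y, hy, rfl⟩ ⟨y', hy', rfl⟩
        exact ⟨y + y', add_mem hy hy', rfl⟩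
      zero_mem' := ⟨0, zero_mem _, rfl⟩
      smul_mem' := by
        rintro c _ ⟨y, hy, rfl⟩
        exact ⟨c • y, vn_smul c hy, rfl⟩ }
  let E := D.topologicalClosure
  have hs : IsStarProjection E.starProjection := isStarProjection_starProjection
  have hM : E.starProjection ∈ N := by
    refine (VonNeumannAlgebra.IsStarProjection.mem_iff hs N).2 fun y hy => ?_
    rw [Submodule.range_starProjection, Module.End.mem_invtSubmodule]
    refine Submodule.topologicalClosure_minimal _ ?_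
      (D.isClosed_topologicalClosure.preimage y.continuous)
    rintro _ ⟨y', hy', rfl⟩
    exact Submodule.le_topologicalClosure D ⟨y * y', mul_mem hy hy', rfl⟩
  refine ⟨E.starProjection, hM, hs, fun y hy => ?_, fun x hx h0 => ?_, fun η δ hδ => ?_⟩
  · exact Submodule.starProjection_eq_self_iff.2 (Submodule.le_topologicalClosure _ ⟨y, hy, rfl⟩)
  · have hK : E ≤ LinearMap.ker (x : K →ₗ[ℂ] K) := by
      refine Submodule.topologicalClosure_minimal _ ?_ x.isClosed_ker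
      rintro _ ⟨y, hy, rfl⟩
      show (x * y) ξ = 0
      rw [← (commute_of_mem N hy hx).eq]
      show y (x ξ) = 0
      rw [h0, map_zero]
    ext η
    exact hK (E.starProjection_apply_mem η)
  · have hm : E.starProjection η ∈ closure (D : Set K) := E.starProjection_apply_mem η
    obtain ⟨_, ⟨y, hy, rfl⟩, hd⟩ := Metric.mem_closure_iff.1 hm δ hδ
    exact ⟨y, hy, by rw [← dist_eq_norm]; exact hd.le⟩

section Cmpr

variable {L : Type*} [NormedAddCommGroup L] [InnerProductSpace ℂ L] [CompleteSpace L]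

theorem bas_cmpr_apply (V : K →L[ℂ] L) (x : L →L[ℂ] L) (η : K) :
    cmpr V x η = ContinuousLinearMap.adjoint V (x (V η)) := rfl

theorem bas_cmpr_add (V : K →L[ℂ] L) (x y : L →L[ℂ] L) :
    cmpr V (x + y) = cmpr V x + cmpr V y := by
  ext η
  simp [bas_cmpr_apply]

theorem bas_cmpr_sub (V : K →L[ℂ] L) (x y : L →L[ℂ] L) :
    cmpr V (x - y) = cmpr V x - cmpr V y := by
  ext η
  simp [bas_cmpr_apply]

theorem bas_cmpr_smul (V : K →L[ℂ] L) (c : ℂ) (x : L →L[ℂ] L) :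
    cmpr V (c • x) = c • cmpr V x := by
  ext η
  simp [bas_cmpr_apply]

theorem bas_norm_cmpr_le {V : K →L[ℂ] L} (hV : ‖V‖ ≤ 1) (x : L →L[ℂ] L) : ‖cmpr V x‖ ≤ ‖x‖ := by
  have h1 : ‖ContinuousLinearMap.adjoint V‖ ≤ 1 := by rwa [LinearIsometryEquiv.norm_map]
  calc ‖cmpr V x‖ ≤ ‖ContinuousLinearMap.adjoint V‖ * ‖x.comp V‖ :=
        ContinuousLinearMap.opNorm_comp_le _ _
    _ ≤ 1 * (‖x‖ * ‖V‖) :=
        mul_le_mul h1 (ContinuousLinearMap.opNorm_comp_le _ _) (norm_nonneg _) zero_le_one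
    _ ≤ 1 * (‖x‖ * 1) := by gcongr
    _ = ‖x‖ := by ring

end Cmpr

/-- Transfer of a lifting along an isometry. -/
theorem lift_cmpr {L : Type*} [NormedAddCommGroup L] [InnerProductSpace ℂ L] [CompleteSpace L]
    {N' M' : VonNeumannAlgebra L} (V : K →L[ℂ] L) (hV : ‖V‖ ≤ 1)
    (j : (K →L[ℂ] K) → (L →L[ℂ] L)) (ha : ∀ x ∈ N, ∀ y ∈ N, j (x + y) = j x + j y)
    (hs : ∀ c : ℂ, ∀ x ∈ N, j (c • x) = c • j x) (hj : ∀ x ∈ N, j x ∈ N' ∧ ‖j x‖ ≤ ‖x‖)
    (hM : ∀ y ∈ M', cmpr V y ∈ M) {a : (L →L[ℂ] L) → (L →L[ℂ] L)} (h0 : 0 ≤ ε)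
    (h : LiftTo ε N' M' a) : LiftTo ε N M fun x => cmpr V (a (j x)) := by
  obtain ⟨θ, hl, hθ⟩ := h
  refine ⟨fun x => cmpr V (θ (j x)), ⟨fun x hx y hy => ?_, fun c x hx => ?_⟩, fun x hx => ?_⟩
  · show cmpr V (θ (j (x + y))) = cmpr V (θ (j x)) + cmpr V (θ (j y))
    rw [ha x hx y hy, hl.1 _ (hj x hx).1 _ (hj y hy).1, bas_cmpr_add]
  · show cmpr V (θ (j (c • x))) = c • cmpr V (θ (j x))
    rw [hs c x hx, hl.2 c _ (hj x hx).1, bas_cmpr_smul]
  · obtain ⟨h1, h2⟩ := hθ _ (hj x hx).1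
    refine ⟨hM _ h1, ?_⟩
    show ‖cmpr V (θ (j x)) - cmpr V (a (j x))‖ ≤ _
    rw [← bas_cmpr_sub]
    exact (bas_norm_cmpr_le hV _).trans (h2.trans (mul_le_mul_of_nonneg_left (hj x hx).2 h0))

theorem Bim.symm {Γ : Type*} [Group Γ] {l r : Γ →* (K →L[ℂ] K)} (h : Bim l r) : Bim r l :=
  ⟨h.ur, h.ul, fun g k => (h.comm k g).symm⟩

theorem URep.unitary {Γ : Type*} [Group Γ] {l : Γ →* (K →L[ℂ] K)} (h : URep l) (g : Γ) :
    l g ∈ unitary (K →L[ℂ] K) := by
  rw [Unitary.mem_iff, h g, ← map_mul, ← map_mul, inv_mul_cancel, mul_inv_cancel, map_one]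
  exact ⟨rfl, rfl⟩

theorem URep.norm_apply {Γ : Type*} [Group Γ] {l : Γ →* (K →L[ℂ] K)} (h : URep l) (g : Γ)
    (η : K) : ‖l g η‖ = ‖η‖ :=
  ContinuousLinearMap.norm_map_of_mem_unitary (h.unitary g) η

theorem URep.norm_le {Γ : Type*} [Group Γ] {l : Γ →* (K →L[ℂ] K)} (h : URep l) (g : Γ) :
    ‖l g‖ ≤ 1 :=
  ContinuousLinearMap.opNorm_le_bound _ zero_le_one fun η => by rw [h.norm_apply, one_mul]

theorem rep_mul_apply {Γ : Type*} [Group Γ] (l : Γ →* (K →L[ℂ] K)) (g h : Γ) (η : K) :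
    l g (l h η) = l (g * h) η := by rw [map_mul]; rfl

theorem Bim.comm_apply {Γ : Type*} [Group Γ] {l r : Γ →* (K →L[ℂ] K)} (h : Bim l r) (g k : Γ)
    (η : K) : l g (r k η) = r k (l g η) :=
  congrArg (fun T : K →L[ℂ] K => T η) (h.comm g k).eq

theorem Bim.fix_symm {Γ : Type*} [Group Γ] {l r : Γ →* (K →L[ℂ] K)} (h : Bim l r) :
    Fix r l = Fix l r := by
  ext ζ
  simp only [Fix, Set.mem_ofPred_eq, h.comm_apply]

theorem fix_r {Γ : Type*} [Group Γ] {l r : Γ →* (K →L[ℂ] K)} {ζ : K} (h : ζ ∈ Fix l r)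
    (g : Γ) : r g ζ = l g⁻¹ ζ := by
  conv_rhs => rw [← h g, rep_mul_apply, inv_mul_cancel, map_one]
  rfl

theorem fix_l {Γ : Type*} [Group Γ] {l r : Γ →* (K →L[ℂ] K)} {ζ : K} (h : ζ ∈ Fix l r)
    (g : Γ) : l g ζ = r g⁻¹ ζ := by rw [fix_r h, inv_inv]

/-- The diagonal representation. -/
noncomputable def Bim.diag {Γ : Type*} [Group Γ] {l r : Γ →* (K →L[ℂ] K)} (h : Bim l r) :
    Γ →* (K →L[ℂ] K) where
  toFun g := l g * r g
  map_one' := by simp
  map_mul' g k := by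
    rw [map_mul, map_mul, mul_assoc, mul_assoc, ← mul_assoc (l k), (h.comm k g).eq, mul_assoc]

theorem Bim.diag_apply {Γ : Type*} [Group Γ] {l r : Γ →* (K →L[ℂ] K)} (h : Bim l r) (g : Γ)
    (η : K) : h.diag g η = l g (r g η) := rfl

theorem Bim.urep_diag {Γ : Type*} [Group Γ] {l r : Γ →* (K →L[ℂ] K)} (h : Bim l r) :
    URep h.diag := fun g => by
  show star (l g * r g) = l g⁻¹ * r g⁻¹
  rw [star_mul, h.ul, h.ur, (h.comm _ _).eq]

theorem Std.symm {Γ : Type*} [Group Γ] {l r : Γ →* (K →L[ℂ] K)} {ξ : K} (h : Std N ξ l r) :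
    Std N.commutant ξ r l :=
  ⟨h.bim.symm, h.r_mem, fun g => by rw [N.commutant_commutant]; exact h.l_mem g,
    by rw [h.bim.fix_symm]; exact h.fix, h.sep.cyc_comm, h.cyc.sep_comm⟩

theorem StdE.symm {Γ : Type*} [Group Γ] {l r : Γ →* (K →L[ℂ] K)} {ξ : K} (h : StdE N ξ l r) :
    StdE N.commutant ξ r l := by
  refine ⟨h.std.symm, fun ζ hζ ε hε => ?_, fun z hz hz' hu => ?_⟩
  · rw [h.std.bim.fix_symm] at hζ
    obtain ⟨z, h1, h2, h3⟩ := h.erg ζ hζ ε hε
    exact ⟨z, h2, by rwa [N.commutant_commutant], h3⟩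
  · rw [N.commutant_commutant] at hz'
    obtain ⟨g, h1, h2⟩ := h.cen (star z) (star_mem hz') (star_mem hz) (Unitary.star_mem hu)
    exact ⟨g, by rw [h2, star_star], h1⟩

theorem Itf.symm {Γ : Type*} [Group Γ] {l r κ κ' : Γ →* (K →L[ℂ] K)} {ξ : K} {W : K →L[ℂ] K}
    (hb : Bim l r) (h : Itf ε M ξ l r κ κ' W) : Itf ε M.commutant ξ r l κ' κ W :=
  ⟨h.std.symm, h.W_near, h.near', h.near, fun g ζ hζ => h.int' g ζ (hb.fix_symm ▸ hζ),
    fun g ζ hζ => h.int g ζ (hb.fix_symm ▸ hζ)⟩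

end Vale.Agent.P096
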