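import Vale.Agent.P096.Basic

/-! Perturbation of unitaries and projections. -/

open scoped InnerProductSpace Topology
open Filter

namespace Vale.Agent.P096

open Vale.Agent.P104 Vale.Agent.P132

universe u v w

variable {K : Type*} [NormedAddCommGroup K] [InnerProductSpace ℂ K] [CompleteSpace K]
  {N M : VonNeumannAlgebra K} {ε : ℝ}

/-- Inverse of an operator close to one. -/
theorem exists_inv {s : K →L[ℂ] K} (h : ‖s - 1‖ ≤ ε) (hε : ε ≤ 1 / 2) :
    ∃ s' : K →L[ℂ] K, s * s' = 1 ∧ s' * s = 1 ∧ ‖s' - 1‖ ≤ 2 * ε := by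
  have ht : ‖1 - s‖ < 1 := by rw [norm_sub_rev]; linarith
  have h1 : s * ((Units.oneSub (1 - s) ht)⁻¹ : (K →L[ℂ] K)ˣ) = 1 := by
    have := (Units.oneSub (1 - s) ht).mul_inv
    rwa [Units.val_oneSub, sub_sub_cancel] at this
  have h2 : ((Units.oneSub (1 - s) ht)⁻¹ : (K →L[ℂ] K)ˣ) * s = 1 := by
    have := (Units.oneSub (1 - s) ht).inv_mul
    rwa [Units.val_oneSub, sub_sub_cancel] at this
  refine ⟨_, h1, h2, ?_⟩
  generalize (((Units.oneSub (1 - s) ht)⁻¹ : (K →L[ℂ] K)ˣ) : K →L[ℂ] K) = s' at h1 h2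
  have e : s' - 1 = -((s' - 1) * (s - 1) + (s - 1)) := by
    rw [sub_mul, mul_sub, h2]
    noncomm_ring
  have a1 : ‖s' - 1‖ ≤ ‖s' - 1‖ * ‖s - 1‖ + ‖s - 1‖ := by
    conv_lhs => rw [e, norm_neg]
    exact (norm_add_le _ _).trans (add_le_add (norm_mul_le _ _) le_rfl)
  nlinarith [norm_nonneg (s' - 1), norm_nonneg (s - 1)]

/-- Inverse square root of a self adjoint operator close to one. -/
theorem exists_inv_sqrt {X : K →L[ℂ] K} (hX : IsSelfAdjoint X) (h : ‖X - 1‖ ≤ ε) (hε : ε ≤ 1 / 2) :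
    ∃ R R' : K →L[ℂ] K, IsSelfAdjoint R ∧ IsSelfAdjoint R' ∧ R * R' = 1 ∧ R' * R = 1 ∧
      R' * R' = X ∧ ‖R - 1‖ ≤ 2 * ε ∧ ‖R' - 1‖ ≤ 2 * ε ∧
      ∀ y : K →L[ℂ] K, Commute y X → Commute y R ∧ Commute y R' := by
  have h0 : 0 ≤ ε := (norm_nonneg _).trans h
  have hsp : ∀ t ∈ spectrum ℝ X, |t - 1| ≤ ε := fun t ht => by
    have h1 := norm_apply_le_norm_cfc (fun s : ℝ => s - 1) X ht
    rw [cfc_sub _ _ X, cfc_id' ℝ X, cfc_const_one ℝ X] at h1
    exact h1.trans h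
  have hs : ∀ t ∈ spectrum ℝ X, 1 / 2 ≤ √t ∧ √t * √t = t := fun t ht => by
    have h1 := (abs_le.1 (hsp t ht)).1
    exact ⟨Real.le_sqrt_of_sq_le (by linarith), Real.mul_self_sqrt (by linarith)⟩
  have hc : ContinuousOn (fun t : ℝ => (√t)⁻¹) (spectrum ℝ X) :=
    Real.continuous_sqrt.continuousOn.inv₀ fun t ht => by linarith [(hs t ht).1]
  have hc' : ContinuousOn (fun t : ℝ => √t) (spectrum ℝ X) := Real.continuous_sqrt.continuousOn
  refine ⟨cfc (fun t : ℝ => (√t)⁻¹) X, cfc (fun t : ℝ => √t) X, cfc_predicate _ _,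
    cfc_predicate _ _, ?_, ?_, ?_, ?_, ?_, fun y hy =>
      ⟨(hy.symm.cfc_real _).symm, (hy.symm.cfc_real _).symm⟩⟩
  · rw [← cfc_mul _ _ X hc hc', ← cfc_const_one ℝ X]
    exact cfc_congr fun t ht => inv_mul_cancel₀ (by linarith [(hs t ht).1])
  · rw [← cfc_mul _ _ X hc' hc, ← cfc_const_one ℝ X]
    exact cfc_congr fun t ht => mul_inv_cancel₀ (by linarith [(hs t ht).1])
  · rw [← cfc_mul _ _ X hc' hc']
    conv_rhs => rw [← cfc_id' ℝ X]
    exact cfc_congr fun t ht => (hs t ht).2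
  · rw [← cfc_const_one ℝ X, ← cfc_sub _ _ X hc continuousOn_const]
    refine norm_cfc_le (by linarith) fun t ht => ?_
    obtain ⟨a1, a2⟩ := hs t ht
    obtain ⟨a3, a4⟩ := abs_le.1 (hsp t ht)
    have hp : 0 < √t := by linarith
    have e : (√t)⁻¹ - 1 = (1 - √t) / √t := by field_simp
    rw [Real.norm_eq_abs, e, abs_le, le_div_iff₀ hp, div_le_iff₀ hp]
    constructor <;> nlinarith
  · rw [← cfc_const_one ℝ X, ← cfc_sub _ _ X hc' continuousOn_const]
    refine norm_cfc_le (by linarith) fun t ht => ?_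
    obtain ⟨a1, a2⟩ := hs t ht
    obtain ⟨a3, a4⟩ := abs_le.1 (hsp t ht)
    rw [Real.norm_eq_abs, abs_le]
    constructor <;> nlinarith

/-- Polar part of an operator close to one. -/
theorem exists_polar {s : K →L[ℂ] K} (h : ‖s - 1‖ ≤ ε) (hε : ε ≤ 1 / 8) :
    ∃ u ∈ unitary (K →L[ℂ] K), ‖u - 1‖ ≤ 8 * ε ∧ ∀ a b : K →L[ℂ] K,
      a * s = s * b → star a * s = s * star b → a * u = u * b := by
  have h0 : 0 ≤ ε := (norm_nonneg _).trans h
  have hX : ‖star s * s - 1‖ ≤ 3 * ε := by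
    have e : star s * s - 1 = (star s - 1) * (s - 1) + (star s - 1) + (s - 1) := by noncomm_ring
    have a1 := bas_star_near h
    have a2 : ‖(star s - 1) * (s - 1)‖ ≤ ε * ε :=
      (norm_mul_le _ _).trans (mul_le_mul a1 h (norm_nonneg _) h0)
    rw [e]
    nlinarith [norm_add₃_le (a := (star s - 1) * (s - 1)) (b := star s - 1) (c := s - 1)]
  obtain ⟨R, R', hR, -, h1, h2, h3, h4, -, h5⟩ :=
    exists_inv_sqrt (IsSelfAdjoint.star_mul_self s) hX (by linarith)
  obtain ⟨s', k1, -, -⟩ := exists_inv h (by linarith)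
  have hu : star (s * R) * (s * R) = 1 := by
    calc star (s * R) * (s * R) = R * (star s * s) * R := by
          rw [star_mul, hR.star_eq]; simp only [mul_assoc]
      _ = (R * R') * (R' * R) := by rw [← h3]; simp only [mul_assoc]
      _ = 1 := by rw [h1, h2, mul_one]
  have hv : s * R * (R' * s') = 1 := by
    rw [mul_assoc, ← mul_assoc R, h1, one_mul, k1]
  refine ⟨s * R, Unitary.mem_iff.2 ⟨hu, ?_⟩, ?_, fun a b hab hab' => ?_⟩
  · have : star (s * R) = R' * s' := by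
      rw [← mul_one (star (s * R)), ← hv, ← mul_assoc, hu, one_mul]
    rw [this, hv]
  · have e : s * R - 1 = (s - 1) * (R - 1) + (s - 1) + (R - 1) := by noncomm_ring
    have a2 : ‖(s - 1) * (R - 1)‖ ≤ ε * (2 * (3 * ε)) :=
      (norm_mul_le _ _).trans (mul_le_mul h h4 (norm_nonneg _) h0)
    rw [e]
    nlinarith [norm_add₃_le (a := (s - 1) * (R - 1)) (b := s - 1) (c := R - 1)]
  · have a1 : star s * a = b * star s := by simpa using congrArg star hab'
    have a2 : Commute b (star s * s) := by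
      show b * (star s * s) = star s * s * b
      rw [← mul_assoc, ← a1, mul_assoc, hab, mul_assoc]
    rw [← mul_assoc, hab, mul_assoc, (h5 b a2).1.eq, mul_assoc]

theorem pol_cfc_mem {x : K →L[ℂ] K} (hx : x ∈ N) (f : ℝ → ℝ) : cfc f x ∈ N :=
  mem_of_commute N fun _ hy => ((commute_of_mem N hy hx).symm.cfc_real f).symm

theorem exists_proj_near {p y : K →L[ℂ] K} (hp : IsStarProjection p) (hy : y ∈ M)
    (h : ‖p - y‖ ≤ ε) (hε : ε ≤ 1 / 8) : ∃ q ∈ M, IsStarProjection q ∧ ‖p - q‖ ≤ 4 * ε := by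
  have h0 : 0 ≤ ε := (norm_nonneg _).trans h
  obtain ⟨w, hw⟩ : ∃ w, w = y + star y - 1 := ⟨_, rfl⟩
  obtain ⟨v, hv⟩ : ∃ v, v = 2 * p - 1 := ⟨_, rfl⟩
  have hws : IsSelfAdjoint w := by
    rw [hw, IsSelfAdjoint, star_sub, star_add, star_star, star_one, add_comm]
  have hwM : w ∈ M := hw ▸ sub_mem (add_mem hy (star_mem hy)) (one_mem _)
  have hvu : v ∈ unitary (K →L[ℂ] K) := hv ▸ hp.two_mul_sub_one_mem_unitary
  have hvv : v * v = 1 := by
    have e : v * v = 4 * (p * p) - 4 * p + 1 := by rw [hv]; noncomm_ring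
    rw [e, hp.isIdempotentElem.eq, sub_self, zero_add]
  have hd : ‖v - w‖ ≤ 2 * ε := by
    have e : v - w = (p - y) + star (p - y) := by
      rw [hv, hw, star_sub, hp.isSelfAdjoint.star_eq]; noncomm_ring
    rw [e]
    have := norm_add_le (p - y) (star (p - y))
    rw [norm_star] at this
    linarith
  have hsq : ‖w * w - 1‖ ≤ 9 / 2 * ε := by
    have e : w * w - 1 = (v - w) * (v - w) - (v - w) * v - v * (v - w) := by
      rw [← hvv]; noncomm_ring
    have a1 : ‖(v - w) * (v - w)‖ ≤ (2 * ε) * (2 * ε) :=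
      (norm_mul_le _ _).trans (mul_le_mul hd hd (norm_nonneg _) (by linarith))
    have a2 := CStarRing.norm_mul_mem_unitary (v - w) hvu
    have a3 := CStarRing.norm_mem_unitary_mul (v - w) hvu
    rw [e]
    have a4 := norm_sub_le ((v - w) * (v - w) - (v - w) * v) (v * (v - w))
    have a5 := norm_sub_le ((v - w) * (v - w)) ((v - w) * v)
    nlinarith
  have hsp : ∀ t ∈ spectrum ℝ w, |t * t - 1| ≤ 9 / 2 * ε := fun t ht => by
    have h1 := norm_apply_le_norm_cfc (fun s : ℝ => s * s - 1) w ht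
    rw [cfc_sub _ _ w, cfc_mul _ _ w, cfc_id' ℝ w, cfc_const_one ℝ w] at h1
    exact h1.trans hsq
  let χ : ℝ → ℝ := fun t => max 0 (min 1 (t + 1 / 2))
  have hχ : Continuous χ := by fun_prop
  have hcase : ∀ t ∈ spectrum ℝ w,
      (χ t = 0 ∧ |t + 1| ≤ 3 * ε) ∨ (χ t = 1 ∧ |t - 1| ≤ 3 * ε) := fun t ht => by
    obtain ⟨a1, a2⟩ := abs_le.1 (hsp t ht)
    rcases le_total t 0 with ht0 | ht0
    · have a3 : t ≤ -(1 / 2) := by nlinarith
      refine Or.inl ⟨max_eq_left ((min_le_right _ _).trans (by linarith)), abs_le.2 ⟨?_, ?_⟩⟩ <;>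
        nlinarith
    · have a3 : 1 / 2 ≤ t := by nlinarith
      refine Or.inr ⟨?_, abs_le.2 ⟨?_, ?_⟩⟩
      · show max 0 (min 1 (t + 1 / 2)) = 1
        rw [min_eq_left (by linarith), max_eq_right zero_le_one]
      · nlinarith
      · nlinarith
  refine ⟨cfc χ w, pol_cfc_mem hwM χ, ⟨?_, cfc_predicate _ _⟩, ?_⟩
  · show cfc χ w * cfc χ w = cfc χ w
    rw [← cfc_mul _ _ w]
    refine cfc_congr fun t ht => ?_
    rcases hcase t ht with ⟨a, -⟩ | ⟨a, -⟩ <;> simp [a]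
  · have a1 : ‖w - (cfc χ w + cfc χ w - 1)‖ ≤ 3 * ε := by
      have e : w - (cfc χ w + cfc χ w - 1) = cfc (fun t => t - (χ t + χ t - 1)) w := by
        rw [cfc_sub _ _ w, cfc_sub _ _ w, cfc_add w _ _, cfc_id' ℝ w, cfc_const_one ℝ w]
      rw [e]
      refine norm_cfc_le (by linarith) fun t ht => ?_
      rcases hcase t ht with ⟨a, b⟩ | ⟨a, b⟩
      · rw [a, Real.norm_eq_abs]
        convert b using 2
        ring
      · rw [a, Real.norm_eq_abs]
        convert b using 2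
        ring
    have e : (2 : ℂ) • (p - cfc χ w) = (v - w) + (w - (cfc χ w + cfc χ w - 1)) := by
      rw [hv, two_smul]; noncomm_ring
    have a2 := norm_add_le (v - w) (w - (cfc χ w + cfc χ w - 1))
    rw [← e, norm_smul, Complex.norm_ofNat] at a2
    linarith

theorem exists_conj_proj {p q : K →L[ℂ] K} (hp : IsStarProjection p) (hq : IsStarProjection q)
    (h : ‖p - q‖ ≤ ε) (hε : ε ≤ 1 / 16) :
    ∃ u ∈ unitary (K →L[ℂ] K), ‖u - 1‖ ≤ 16 * ε ∧ u * q * star u = p := by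
  have h0 : 0 ≤ ε := (norm_nonneg _).trans h
  have hs : ‖p * q + (1 - p) * (1 - q) - 1‖ ≤ 2 * ε := by
    have e : p * q + (1 - p) * (1 - q) - 1 =
        (p - q) * q - p * (p - q) + (p * p - p) + (q * q - q) := by noncomm_ring
    rw [hp.isIdempotentElem.eq, hq.isIdempotentElem.eq, sub_self, sub_self, add_zero,
      add_zero] at e
    have a1 : ‖(p - q) * q‖ ≤ ε * 1 :=
      (norm_mul_le _ _).trans (mul_le_mul h hq.norm_le (norm_nonneg _) h0)
    have a2 : ‖p * (p - q)‖ ≤ 1 * ε :=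
      (norm_mul_le _ _).trans (mul_le_mul hp.norm_le h (norm_nonneg _) zero_le_one)
    rw [e]
    linarith [norm_sub_le ((p - q) * q) (p * (p - q))]
  obtain ⟨u, hu, h1, h2⟩ := exists_polar hs (by linarith)
  have e : p * (p * q + (1 - p) * (1 - q)) = (p * q + (1 - p) * (1 - q)) * q := by
    have e1 : p * (p * q + (1 - p) * (1 - q)) = p * p * q + (p - p * p) * (1 - q) := by
      noncomm_ring
    have e2 : (p * q + (1 - p) * (1 - q)) * q = p * (q * q) + (1 - p) * (q - q * q) := by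
      noncomm_ring
    rw [e1, e2, hp.isIdempotentElem.eq, hq.isIdempotentElem.eq, sub_self, sub_self, zero_mul,
      mul_zero]
  refine ⟨u, hu, by linarith, ?_⟩
  rw [← h2 p q e (by rw [hp.isSelfAdjoint.star_eq, hq.isSelfAdjoint.star_eq, e]), mul_assoc,
    Unitary.mul_star_self_of_mem hu, mul_one]

/-- No small subgroups. -/
theorem eq_one_of_pow {v : K →L[ℂ] K} {c : ℝ} (hc : c < 1) (h : ∀ n : ℕ, ‖v ^ n - 1‖ ≤ c) :
    v = 1 := by
  have h0 : 0 ≤ c := (norm_nonneg _).trans (h 0)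
  have h1 : ∀ n : ℕ, ‖(n : ℝ) • (v - 1) - (v ^ n - 1)‖ ≤ n * (c * ‖v - 1‖) := fun n => by
    induction n with
    | zero => simp
    | succ n ih =>
      have e : ((n + 1 : ℕ) : ℝ) • (v - 1) - (v ^ (n + 1) - 1) =
          ((n : ℝ) • (v - 1) - (v ^ n - 1)) - (v ^ n - 1) * (v - 1) := by
        rw [Nat.cast_succ, add_smul, one_smul, pow_succ]
        noncomm_ring
      have a1 : ‖(v ^ n - 1) * (v - 1)‖ ≤ c * ‖v - 1‖ :=
        (norm_mul_le _ _).trans (mul_le_mul_of_nonneg_right (h n) (norm_nonneg _))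
      rw [e, Nat.cast_succ]
      linarith [norm_sub_le ((n : ℝ) • (v - 1) - (v ^ n - 1)) ((v ^ n - 1) * (v - 1))]
  by_contra hv
  have hp : 0 < (1 - c) * ‖v - 1‖ := mul_pos (by linarith) (norm_pos_iff.2 (sub_ne_zero.2 hv))
  obtain ⟨n, hn⟩ := exists_nat_gt (c / ((1 - c) * ‖v - 1‖))
  rw [div_lt_iff₀ hp] at hn
  have a1 := norm_sub_norm_le ((n : ℝ) • (v - 1)) (v ^ n - 1)
  rw [norm_smul, Real.norm_natCast] at a1
  nlinarith [h1 n, h n]

theorem exists_four (A : StarSubalgebra ℂ (K →L[ℂ] K)) (hA : IsClosed (A : Set (K →L[ℂ] K)))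
    {x : K →L[ℂ] K} (hx : x ∈ A) : ∃ (c : Fin 4 → ℂ) (g : Fin 4 → (K →L[ℂ] K)),
      (∀ i, g i ∈ A ∧ g i ∈ unitary (K →L[ℂ] K) ∧ ‖c i‖ ≤ ‖x‖ / 2) ∧ x = ∑ i, c i • g i := by
  obtain ⟨g, c, h1, h2⟩ := CStarAlgebra.exists_sum_four_unitary (⟨x, hx⟩ : A)
  refine ⟨c, fun i => ((g i : A) : K →L[ℂ] K), fun i => ⟨(g i : A).2, ?_, h2 i⟩, ?_⟩
  · have h3 := Unitary.mem_iff.1 (g i).2
    exact Unitary.mem_iff.2 ⟨congrArg Subtype.val h3.1, congrArg Subtype.val h3.2⟩
  · have h3 := congrArg A.subtype h1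
    simp only [map_sum, map_smul] at h3
    exact h3

theorem exists_four_vn {x : K →L[ℂ] K} (hx : x ∈ N) :
    ∃ (c : Fin 4 → ℂ) (g : Fin 4 → (K →L[ℂ] K)),
      (∀ i, g i ∈ N ∧ g i ∈ unitary (K →L[ℂ] K) ∧ ‖c i‖ ≤ ‖x‖ / 2) ∧ x = ∑ i, c i • g i :=
  exists_four N.toStarSubalgebra (vn_closed N) hx

theorem exists_four_cen {x : K →L[ℂ] K} (hx : x ∈ N) (hx' : x ∈ N.commutant) :
    ∃ (c : Fin 4 → ℂ) (g : Fin 4 → (K →L[ℂ] K)), (∀ i, g i ∈ N ∧ g i ∈ N.commutant ∧
      g i ∈ unitary (K →L[ℂ] K) ∧ ‖c i‖ ≤ ‖x‖ / 2) ∧ x = ∑ i, c i • g i := by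
  obtain ⟨c, g, h1, h2⟩ := exists_four (N.toStarSubalgebra ⊓ N.commutant.toStarSubalgebra)
    ((vn_closed N).inter (vn_closed N.commutant)) (x := x) ⟨hx, hx'⟩
  exact ⟨c, g, fun i => ⟨(h1 i).1.1, (h1 i).1.2, (h1 i).2⟩, h2⟩

theorem cfc_mem_vn {x : K →L[ℂ] K} (hx : x ∈ N) (f : ℝ → ℝ) : cfc f x ∈ N := by
  exact pol_cfc_mem hx f

theorem pol_logconv {a : ℕ → ℝ} {B d : ℝ} (hd : 0 ≤ d) (h0 : ∀ n, 0 ≤ a n)
    (h1 : ∀ n, a (n + 1) ^ 2 ≤ a n * a (n + 2)) (h2 : ∀ n, a n ≤ B * d ^ n) : a 1 ≤ d * a 0 := by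
  by_contra h
  push Not at h
  have p1 : 0 < a 1 := (mul_nonneg hd (h0 0)).trans_lt h
  have p0 : 0 < a 0 := by
    refine (h0 0).lt_of_ne fun e => ?_
    have := h1 0
    rw [← e, zero_mul] at this
    simp only [zero_add] at this
    nlinarith
  obtain ⟨r, hr⟩ : ∃ r, r = a 1 / a 0 := ⟨_, rfl⟩
  have hrd : d < r := by rwa [hr, lt_div_iff₀ p0]
  have hr0 : 0 < r := hd.trans_lt hrd
  have h3 : ∀ n, 0 < a n ∧ r * a n ≤ a (n + 1) ∧ r ^ n * a 0 ≤ a n := fun n => by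
    induction n with
    | zero => exact ⟨p0, by rw [hr, div_mul_cancel₀ _ p0.ne'], by simp⟩
    | succ n ih =>
      obtain ⟨i1, i2, i3⟩ := ih
      have q1 : 0 < a (n + 1) := (mul_pos hr0 i1).trans_le i2
      refine ⟨q1, ?_, ?_⟩
      · refine le_of_mul_le_mul_left ?_ i1
        nlinarith [h1 n]
      · rw [pow_succ]
        nlinarith
  have h4 : Tendsto (fun n : ℕ => B * (d / r) ^ n) atTop (𝓝 (B * 0)) :=
    (tendsto_pow_atTop_nhds_zero_of_lt_one (by positivity) ((div_lt_one hr0).2 hrd)).const_mul B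
  have h5 : a 0 ≤ B * 0 := ge_of_tendsto' h4 fun n => by
    rw [div_pow, ← mul_div_assoc, le_div_iff₀ (by positivity), mul_comm]
    exact (h3 n).2.2.trans (h2 n)
  linarith

theorem norm_le_on_orbit {ξ : K} {x : K →L[ℂ] K} (hx : x ∈ N) {Z : Set K}
    (hξ : ξ ∈ Z) (h1 : ∀ ζ ∈ Z, x ζ ∈ Z) (h2 : ∀ ζ ∈ Z, star x ζ ∈ Z) {c : ℝ} (hc : 0 ≤ c)
    (h : ∀ ζ ∈ Z, ‖x ζ‖ ≤ c * ‖ζ‖) : ∀ y ∈ N.commutant, ‖x (y ξ)‖ ≤ c * ‖y ξ‖ := by
  intro y hy
  have h3 : ∀ ζ ∈ Z, ‖star x ζ‖ ≤ c * ‖ζ‖ := fun ζ hζ => by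
    have a1 := norm_sq_apply (star x) ζ
    rw [star_star] at a1
    have a2 : (⟪ζ, (x * star x) ζ⟫_ℂ).re ≤ ‖ζ‖ * (c * ‖star x ζ‖) :=
      (Complex.re_le_norm _).trans ((norm_inner_le_norm _ _).trans
        (mul_le_mul_of_nonneg_left (h _ (h2 ζ hζ)) (norm_nonneg _)))
    by_contra h4
    push Not at h4
    nlinarith [mul_nonneg hc (norm_nonneg ζ)]
  have h4 : ∀ n : ℕ, ((star x * x) ^ n) ξ ∈ Z ∧ ‖((star x * x) ^ n) ξ‖ ≤ ‖ξ‖ * (c * c) ^ n := by
    intro n
    induction n with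
    | zero => exact ⟨hξ, by simp⟩
    | succ n ih =>
      rw [pow_succ']
      refine ⟨h2 _ (h1 _ ih.1), ?_⟩
      calc ‖star x (x (((star x * x) ^ n) ξ))‖ ≤ c * ‖x (((star x * x) ^ n) ξ)‖ :=
            h3 _ (h1 _ ih.1)
        _ ≤ c * (c * (‖ξ‖ * (c * c) ^ n)) := mul_le_mul_of_nonneg_left
            ((h _ ih.1).trans (mul_le_mul_of_nonneg_left ih.2 hc)) hc
        _ = _ := by ring
  have hH : star (star x * x) = star x * x := by simp
  have h5 := pol_logconv (a := fun n => ‖((star x * x) ^ n) (y ξ)‖) (B := ‖y‖ * ‖ξ‖)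
    (d := c * c) (mul_nonneg hc hc) (fun _ => norm_nonneg _) (fun n => ?_) (fun n => ?_)
  · simp only [pow_one, pow_zero, one_apply_eq_self] at h5
    have a1 := norm_sq_apply x (y ξ)
    have a2 : (⟪y ξ, (star x * x) (y ξ)⟫_ℂ).re ≤ ‖y ξ‖ * (c * c * ‖y ξ‖) :=
      (Complex.re_le_norm _).trans ((norm_inner_le_norm _ _).trans
        (mul_le_mul_of_nonneg_left h5 (norm_nonneg _)))
    exact (abs_le_of_sq_le_sq' (by nlinarith) (by positivity)).2
  · have a1 := norm_sq_apply (star x * x) (((star x * x) ^ n) (y ξ))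
    rw [hH] at a1
    have e1 : ((star x * x) ^ (n + 1)) (y ξ) = (star x * x) (((star x * x) ^ n) (y ξ)) := by
      rw [pow_succ']; rfl
    have e2 : ((star x * x) ^ (n + 2)) (y ξ) =
        (star x * x * (star x * x)) (((star x * x) ^ n) (y ξ)) := by
      rw [pow_succ', pow_succ', ← mul_assoc]; rfl
    rw [e1, e2, a1]
    exact (Complex.re_le_norm _).trans (norm_inner_le_norm _ _)
  · have e : ((star x * x) ^ n) (y ξ) = y (((star x * x) ^ n) ξ) :=
      congrArg (fun T : K →L[ℂ] K => T ξ)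
        (commute_of_mem N hy (pow_mem (mul_mem (star_mem hx) hx) n)).eq.symm
    rw [e, mul_assoc]
    exact (y.le_opNorm _).trans (mul_le_mul_of_nonneg_left (h4 n).2 (norm_nonneg _))

/-- The norm is seen on an invariant set of vectors containing a separating vector. -/
theorem norm_le_of_inv {ξ : K} (hs : Sep N ξ) {x : K →L[ℂ] K} (hx : x ∈ N) {Z : Set K}
    (hξ : ξ ∈ Z) (h1 : ∀ ζ ∈ Z, x ζ ∈ Z) (h2 : ∀ ζ ∈ Z, star x ζ ∈ Z) {c : ℝ} (hc : 0 ≤ c)
    (h : ∀ ζ ∈ Z, ‖x ζ‖ ≤ c * ‖ζ‖) : ‖x‖ ≤ c := by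
  have h3 := norm_le_on_orbit hx hξ h1 h2 hc h
  refine ContinuousLinearMap.opNorm_le_bound _ hc fun η => ?_
  have h4 := hs.cyc_comm.ext (f := fun η => max (‖x η‖) (c * ‖η‖)) (g := fun η => c * ‖η‖)
    (by fun_prop) (by fun_prop) (fun y hy => max_eq_right (h3 y hy)) η
  exact max_eq_right_iff.1 h4

theorem pol_exp {a : K →L[ℂ] K} (ha : IsSelfAdjoint a) {f : ℝ → ℝ} (hf : Continuous f) :
    NormedSpace.exp (Complex.I • cfc f a) =
      cfc (fun t => Real.cos (f t)) a + Complex.I • cfc (fun t => Real.sin (f t)) a := by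
  have hn := ha.isStarNormal
  have c1 : Continuous fun z : ℂ => ((f z.re : ℝ) : ℂ) := by fun_prop
  have c2 : Continuous fun z : ℂ => ((Real.cos (f z.re) : ℝ) : ℂ) := by fun_prop
  have c3 : Continuous fun z : ℂ => ((Real.sin (f z.re) : ℝ) : ℂ) := by fun_prop
  rw [cfc_real_eq_complex f, cfc_real_eq_complex, cfc_real_eq_complex,
    ← cfc_smul Complex.I _ a c1.continuousOn, ← CFC.complex_exp_eq_normedSpace_exp,
    ← cfc_comp' _ _ a, ← cfc_smul Complex.I _ a c3.continuousOn,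
    ← cfc_add a _ _ c2.continuousOn (c3.fun_const_smul _).continuousOn]
  refine cfc_congr fun z _ => ?_
  simp only [smul_eq_mul, Complex.ofReal_cos, Complex.ofReal_sin]
  rw [mul_comm, Complex.exp_mul_I, mul_comm]

/-- Every unitary has a self adjoint logarithm in its bicommutant. -/
theorem exists_log {S : K →L[ℂ] K} (hS : S ∈ unitary (K →L[ℂ] K)) :
    ∃ Θ : K →L[ℂ] K, IsSelfAdjoint Θ ∧ NormedSpace.exp (Complex.I • Θ) = S ∧
      ∀ y : K →L[ℂ] K, Commute y S → Commute (star y) S → Commute y Θ := by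
  let _ : NormedAlgebra ℚ (K →L[ℂ] K) := NormedAlgebra.restrictScalars ℚ ℂ _
  have u1 : star S * S = 1 := Unitary.star_mul_self_of_mem hS
  have u2 : S * star S = 1 := Unitary.mul_star_self_of_mem hS
  obtain ⟨a, ha⟩ : ∃ a, a = (2⁻¹ : ℂ) • (S + star S) := ⟨_, rfl⟩
  obtain ⟨b, hb⟩ : ∃ b, b = (-(2⁻¹ * Complex.I)) • (S - star S) := ⟨_, rfl⟩
  have has : IsSelfAdjoint a := by
    rw [ha, IsSelfAdjoint, star_smul, star_add, star_star, add_comm]
    simp
  have hbs : IsSelfAdjoint b := by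
    rw [hb, IsSelfAdjoint, star_smul, star_sub, star_star, ← neg_sub S, smul_neg, ← neg_smul]
    simp
  have hab : a + Complex.I • b = S := by
    have e : Complex.I * -(2⁻¹ * Complex.I) = 2⁻¹ := by
      linear_combination (-2⁻¹) * Complex.I_mul_I
    rw [ha, hb, smul_smul, e]
    module
  have hsq : b * b = 1 - a * a := by
    have e : -(2⁻¹ * Complex.I) * -(2⁻¹ * Complex.I) = -(2⁻¹ * 2⁻¹) := by
      linear_combination (2⁻¹ * 2⁻¹) * Complex.I_mul_I
    rw [ha, hb, smul_mul_smul_comm, smul_mul_smul_comm, e]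
    simp only [mul_add, add_mul, mul_sub, sub_mul, u1, u2]
    module
  have hca : ∀ y : K →L[ℂ] K, Commute y S → Commute (star y) S → Commute y a ∧ Commute y b :=
    fun y h1 h2 => by
      have h3 : Commute y (star S) := by simpa using h2.star_star
      rw [ha, hb]
      exact ⟨(h1.add_right h3).smul_right _, (h1.sub_right h3).smul_right _⟩
  have hSS : Commute (star S) S := u1.trans u2.symm
  have hSa := hca S (Commute.refl S) hSS
  have hSa' := hca (star S) hSS (by rw [star_star])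
  have hba : Commute a b := by
    rw [ha]
    exact (hSa.2.add_left hSa'.2).smul_left _
  have hsp : ∀ t ∈ spectrum ℝ a, -1 ≤ t ∧ t ≤ 1 := fun t ht => by
    have h1 := norm_apply_le_norm_cfc (fun s : ℝ => s) a ht
    rw [cfc_id' ℝ a] at h1
    have h2 : ‖S‖ ≤ 1 := by
      have := CStarRing.norm_mem_unitary_mul 1 hS
      rw [mul_one] at this
      exact this.trans_le ContinuousLinearMap.norm_id_le
    have h3 : ‖a‖ ≤ 1 := by
      have h4 := norm_add_le S (star S)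
      rw [norm_star] at h4
      rw [ha, norm_smul, norm_inv, Complex.norm_ofNat]
      linarith
    exact abs_le.1 (h1.trans h3)
  obtain ⟨c, hc⟩ : ∃ c, c = cfc (fun t : ℝ => √(1 - t ^ 2)) a := ⟨_, rfl⟩
  have hcs : IsSelfAdjoint c := hc ▸ cfc_predicate _ _
  have hcc : c * c = 1 - a * a := by
    have e : 1 - a * a = cfc (fun t : ℝ => 1 - t * t) a := by
      rw [cfc_sub _ _ a, cfc_mul _ _ a, cfc_id' ℝ a, cfc_const_one ℝ a]
    rw [e, hc, ← cfc_mul _ _ a]
    refine cfc_congr fun t ht => ?_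
    obtain ⟨h1, h2⟩ := hsp t ht
    rw [Real.mul_self_sqrt (by nlinarith), sq]
  have hcb : Commute c b := hc ▸ hba.cfc_real _
  obtain ⟨E, hE, e1, e2, e3⟩ := exists_rangeProj (c + b)
  have f1 : (c - b) * E = 0 := e2 _ (by
    rw [sub_mul, mul_add, mul_add, hcc, hsq, hcb.eq]
    abel)
  obtain ⟨A, hA⟩ : ∃ A, A = cfc Real.arccos a := ⟨_, rfl⟩
  have hAs : IsSelfAdjoint A := hA ▸ cfc_predicate _ _
  have hcE : ∀ y : K →L[ℂ] K, Commute y a → Commute y b → Commute (star y) a →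
      Commute (star y) b → Commute y E := fun y h1 h2 h3 h4 =>
    e3 y ((hc ▸ (h1.symm.cfc_real _).symm : Commute y c).add_right h2)
      ((hc ▸ (h3.symm.cfc_real _).symm : Commute (star y) c).add_right h4)
  have hAa : Commute A a := hA ▸ (Commute.refl a).cfc_real _
  have hAb : Commute A b := hA ▸ hba.cfc_real _
  have hAE : Commute A E := hcE A hAa hAb (hAs.star_eq.symm ▸ hAa) (hAs.star_eq.symm ▸ hAb)
  have x1 : NormedSpace.exp (Complex.I • A) = a + Complex.I • c := by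
    rw [hA, pol_exp has Real.continuous_arccos, hc]
    congr 1
    · conv_rhs => rw [← cfc_id' ℝ a]
      exact cfc_congr fun t ht => Real.cos_arccos (hsp t ht).1 (hsp t ht).2
    · simp only [Real.sin_arccos]
  have x2 : NormedSpace.exp (Complex.I • (-A)) = a - Complex.I • c := by
    rw [hA, ← cfc_neg, pol_exp has (f := fun t => -Real.arccos t) Real.continuous_arccos.neg, hc,
      sub_eq_add_neg, ← smul_neg,
      ← cfc_neg]
    congr 1
    · conv_rhs => rw [← cfc_id' ℝ a]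
      refine cfc_congr fun t ht => ?_
      rw [Real.cos_neg]
      exact Real.cos_arccos (hsp t ht).1 (hsp t ht).2
    · simp only [Real.sin_neg, Real.sin_arccos]
  have hEE : E * E = E := hE.isIdempotentElem.eq
  refine ⟨A * E + A * E - A, ?_, ?_, fun y h1 h2 => ?_⟩
  · have : IsSelfAdjoint (A * E) := by
      rw [IsSelfAdjoint, star_mul, hAs.star_eq, hE.isSelfAdjoint.star_eq, hAE.eq]
    exact (this.add this).sub hAs
  · have s1 : SemiconjBy E (Complex.I • A) (Complex.I • (A * E + A * E - A)) := by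
      show E * _ = _ * E
      rw [mul_smul_comm, smul_mul_assoc, sub_mul, add_mul, mul_assoc, hEE, ← hAE.eq,
        add_sub_cancel_right]
    have s2 : SemiconjBy (1 - E) (Complex.I • (-A)) (Complex.I • (A * E + A * E - A)) := by
      show (1 - E) * _ = _ * (1 - E)
      rw [mul_smul_comm, smul_mul_assoc]
      congr 1
      have e : (A * E + A * E - A) * (1 - E) =
          A * E - A + (A * E - A * (E * E)) + (A * E - A * (E * E)) := by noncomm_ring
      rw [e, hEE, sub_self, add_zero, add_zero, mul_neg, sub_mul, one_mul, ← hAE.eq, neg_sub]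
    have t1 := s1.exp_right.eq
    have t2 := s2.exp_right.eq
    have g1 : E * c = E * b := by
      have := congrArg star f1
      rw [star_mul, star_sub, hcs.star_eq, hbs.star_eq, hE.isSelfAdjoint.star_eq, star_zero,
        mul_sub] at this
      exact sub_eq_zero.1 this
    have g2 : (1 - E) * c = -((1 - E) * b) := by
      rw [eq_neg_iff_add_eq_zero, ← mul_add, sub_mul, one_mul, e1, sub_self]
    rw [x1, mul_add, mul_smul_comm, g1] at t1
    rw [x2, mul_sub, mul_smul_comm, g2] at t2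
    have e : ∀ T : K →L[ℂ] K, T = T * E + T * (1 - E) := fun T => by noncomm_ring
    rw [e (NormedSpace.exp _), ← t1, ← t2, ← hab]
    simp only [sub_mul, one_mul]
    module
  · obtain ⟨a1, a2⟩ := hca y h1 h2
    obtain ⟨a3, a4⟩ := hca (star y) h2 (by rwa [star_star])
    have a5 : Commute y A := hA ▸ (a1.symm.cfc_real _).symm
    have a6 := a5.mul_right (hcE y a1 a2 a3 a4)
    exact (a6.add_right a6).sub_right a5

end Vale.Agent.P096
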