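import Vale.Agent.P096.CoreF
import Vale.Agent.P096.Polar

/-! The closing argument and the exact bootstrap. -/

open scoped InnerProductSpace Topology
open Filter

namespace Vale.Agent.P096

open Vale.Agent.P104 Vale.Agent.P132

universe u v w

section Close

variable {Γ : Type w} [Group Γ] {K : Type v} [NormedAddCommGroup K] [InnerProductSpace ℂ K]
  [CompleteSpace K] {l r : Γ →* (K →L[ℂ] K)} {a b κ κ' : Γ → (K →L[ℂ] K)} {ζ : K} {c n δ : ℝ}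

theorem URep.near_le (_hl : URep l) (h : ∀ g, ‖κ g - l g‖ ≤ δ) (g : Γ) (v : K) :
    ‖κ g v - l g v‖ ≤ δ * ‖v‖ := (κ g - l g).le_of_opNorm_le (h g) v

theorem URep.near_norm (hl : URep l) (h : ∀ g, ‖κ g - l g‖ ≤ δ) (hδ : δ ≤ 1) (g : Γ) (v : K) :
    ‖κ g v‖ ≤ 2 * ‖v‖ := by
  have h1 := hl.near_le h g v
  have h2 := norm_add_le (κ g v - l g v) (l g v)
  rw [sub_add_cancel, hl.norm_apply] at h2
  nlinarith [norm_nonneg v]

/-- A defect that is almost a coboundary is almost zero. -/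
theorem clos_b (D : DM.{v, w} Γ) (hb : Bim l r) (bda : ∃ C, ∀ g, ‖a g‖ ≤ C)
    (bdb : ∃ C, ∀ g, ‖b g‖ ≤ C)
    (hC : ∀ g h k, ‖a g (l (k * h⁻¹) ζ) - r h (a g (l k ζ))‖ ≤ c)
    (hD : ∀ g h, ‖l g (b h (l g⁻¹ ζ)) - b h ζ‖ ≤ c)
    (hX : ∀ g, ‖l g (D.X l r a b (l g⁻¹ ζ)) - D.X l r a b ζ‖ ≤ c) {v : K} {m : ℝ}
    (hd : ∀ g, ‖a g (l g⁻¹ ζ) - (v - l g (r g v))‖ ≤ m) (g k : Γ) :
    ‖a g (l k ζ)‖ ≤ 7 * c + 3 * m := by
  have ba : Bd2 fun (s _ : Γ) => l s⁻¹ * a s :=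
    (hb.ul.bd2 fun s _ => s⁻¹).mul (bda.imp fun _ h _ _ => h _)
  have bb : Bd2 fun s t : Γ => l t * (r s⁻¹ * b s) * l t⁻¹ :=
    ((hb.ul.bd2 fun _ t => t).mul ((hb.ur.bd2 fun s _ => s⁻¹).mul
      (bdb.imp fun _ h _ _ => h _))).mul (hb.ul.bd2 fun _ t => t⁻¹)
  have bz : Bd2 fun (s _ : Γ) => r s⁻¹ (b s ζ) :=
    ((hb.ur.bd2 fun s _ => s⁻¹).mul (bdb.imp fun _ h _ _ => h _)).apply ζ
  obtain ⟨p, hp, -, hp2, -⟩ := D.vm_erg hb.urep_diag v
  set Z := D.vm fun (s _ : Γ) => (l s⁻¹ * a s) ζ with hZ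
  set Z' := D.vm fun (s _ : Γ) => r s⁻¹ (b s ζ) with hZ'
  have bp : Bd2 fun (s _ : Γ) => hb.diag s⁻¹ v := (hb.urep_diag.bd2 fun s _ => s⁻¹).apply v
  have k1 : ‖Z - (p - v)‖ ≤ c + m := by
    have e := D.vm_sub bp (Bd2.const v)
    rw [hp2, D.vm_const] at e
    rw [← e]
    refine D.vm_sub_le (ba.apply ζ) (bp.sub (Bd2.const _)) fun s _ => ?_
    have t1 := (hb.ul.norm_apply s⁻¹ _).trans_le (hC s s⁻¹ s⁻¹)
    have t2 := (hb.ul.norm_apply s⁻¹ _).trans_le ((hb.ur.norm_apply s⁻¹ _).trans_le (hd s))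
    refine le_of_eq_of_le (congrArg _ ?_) ((norm_add_le _ _).trans (add_le_add t1 t2))
    simp only [mul_apply_eq_comp, Bim.diag_apply, map_sub, hb.rl, rep_mul_apply, inv_inv,
      inv_mul_cancel, rep_one_apply]
    abel
  have k2 : ∀ g, ‖l g (D.X l r a b (l g⁻¹ ζ)) - (l g (r g Z) + Z')‖ ≤ 2 * c := fun g => by
    rw [DM.X, add_apply, D.om_apply ba, D.om_apply bb, map_add, add_sub_add_comm, two_mul, hZ, hZ',
      ← D.vm_map _ (ba.apply _), ← D.vm_map _ (bb.apply _), ← D.vm_map _ (ba.apply _),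
      ← D.vm_map _ ((Bd2.const (r g)).app (ba.apply _))]
    refine (norm_add_le _ _).trans (add_le_add ?_ ?_)
    · refine D.vm_sub_le ((Bd2.const (l g)).app (ba.apply _))
        ((Bd2.const (l g)).app ((Bd2.const (r g)).app (ba.apply _))) fun s _ => ?_
      have t1 := (hb.ul.norm_apply (g * s⁻¹) _).trans_le (hC s g 1)
      refine le_of_eq_of_le (congrArg _ ?_) t1
      simp only [mul_apply_eq_comp, map_sub, hb.rl, rep_mul_apply, one_mul, rep_one_apply]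
    · refine D.vm_sub_le ((Bd2.const (l g)).app (bb.apply _)) bz fun s t => ?_
      have t1 := (hb.ur.norm_apply s⁻¹ _).trans_le (hD (g * t) s)
      refine le_of_eq_of_le (congrArg _ ?_) t1
      simp only [mul_apply_eq_comp, map_sub, hb.rl, rep_mul_apply, mul_inv_rev]
  have k3 : ‖D.X l r a b ζ - (Z + Z')‖ ≤ c := by
    rw [DM.X, add_apply, D.om_apply ba, D.om_apply bb, ← hZ, add_sub_add_left_eq_sub, hZ']
    refine D.vm_sub_le (bb.apply _) bz fun s t => ?_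
    have t1 := (hb.ur.norm_apply s⁻¹ _).trans_le (hD t s)
    refine le_of_eq_of_le (congrArg _ ?_) t1
    simp only [mul_apply_eq_comp, map_sub, hb.rl]
  have k4 : ∀ g, ‖a g (l g⁻¹ ζ)‖ ≤ 6 * c + 3 * m := fun g => by
    have t1 := (hb.ul.norm_apply g _).trans_le ((hb.ur.norm_apply g _).trans_le k1)
    have hp' : l g (r g p) = p := hp g
    simp only [map_sub, hp'] at t1
    have e : a g (l g⁻¹ ζ) = (a g (l g⁻¹ ζ) - (v - l g (r g v))) +
        ((l g (D.X l r a b (l g⁻¹ ζ)) - D.X l r a b ζ) -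
          (l g (D.X l r a b (l g⁻¹ ζ)) - (l g (r g Z) + Z')) -
          (l g (r g Z) - (p - l g (r g v))) + (D.X l r a b ζ - (Z + Z'))) + (Z - (p - v)) := by
      abel
    rw [e]
    refine (norm_add_le _ _).trans ((add_le_add ((norm_add_le _ _).trans (add_le_add (hd g)
      ((norm_add_le _ _).trans (add_le_add ((norm_sub_le _ _).trans (add_le_add
        ((norm_sub_le _ _).trans (add_le_add (hX g) (k2 g))) t1)) k3)))) k1).trans_eq (by ring))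
  have t1 := hC g (g * k)⁻¹ g⁻¹
  rw [inv_inv, inv_mul_cancel_left] at t1
  have t2 := norm_add_le (a g (l k ζ) - r (g * k)⁻¹ (a g (l g⁻¹ ζ))) (r (g * k)⁻¹ (a g (l g⁻¹ ζ)))
  rw [sub_add_cancel, hb.ur.norm_apply] at t2
  linarith [k4 g]

/-- The cubic mean on the vectors `W (l g⁻¹ ζ)`. -/
theorem clos_a (D : DM.{v, w} Γ) (hb : Bim l r) {W : K →L[ℂ] K}
    (hκ : ∀ g, ‖κ g - l g‖ ≤ δ) (hδ : δ ≤ 1) (ha : ∀ g v, κ g (W v) = W (l g v) + a g v)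
    (hn : ∀ g k, ‖a g (l k ζ)‖ ≤ n)
    (hC : ∀ g h k, ‖a g (l (k * h⁻¹) ζ) - r h (a g (l k ζ))‖ ≤ c) :
    ∃ v₀ Z : K, ‖v₀‖ ≤ 2 * n ∧ ‖Z‖ ≤ n ∧ ∀ g,
      ‖D.om (fun s t => κ s⁻¹ * κ (s * g * t) * κ t⁻¹) (W (l g⁻¹ ζ)) -
        (W ζ + v₀ + l g (r g Z))‖ ≤ 4 * (δ * n) + 2 * c := by
  have h0 : 0 ≤ δ := (norm_nonneg _).trans (hκ 1)
  obtain ⟨ζ₀, -, h2⟩ := D.vm_de hb.urep_diag (n := fun g => a g (l g⁻¹ ζ)) fun g => hn g _
  have bκ : ∀ φ : Γ → Γ → Γ, Bd2 fun s t => κ (φ s t) := fun φ => Bd2.of_le fun s t =>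
    ContinuousLinearMap.opNorm_le_bound _ zero_le_two (hb.ul.near_norm hκ hδ _)
  have n1 : ∀ g s t, ‖hb.diag s⁻¹ (a (s * g * t) (l (s * g * t)⁻¹ ζ))‖ ≤ n := fun g s t =>
    (hb.urep_diag.norm_apply _ _).trans_le (hn _ _)
  have n2 : ∀ _ t : Γ, ‖l t (a t⁻¹ (l 1 ζ))‖ ≤ n := fun _ t =>
    (hb.ul.norm_apply _ _).trans_le (hn _ _)
  have n3 : ∀ s _ : Γ, ‖a s⁻¹ (l s ζ)‖ ≤ n := fun s _ => hn _ _
  refine ⟨D.vm (fun s _ => a s⁻¹ (l s ζ)) + ζ₀, D.vm fun _ t => l t (a t⁻¹ (l 1 ζ)),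
    (norm_add_le _ _).trans ?_, D.vm_norm_le n2, fun g => ?_⟩
  · have := D.vm_norm_le (n1 1)
    rw [h2 1] at this
    linarith [D.vm_norm_le n3]
  have bk := ((bκ fun s _ => s⁻¹).mul (bκ fun s t => s * g * t)).mul (bκ fun _ t => t⁻¹)
  have b2 := (Bd2.const (r g)).app (Bd2.of_le n2)
  have b3 := (Bd2.of_le n3).add (Bd2.of_le (n1 g))
  rw [D.om_apply bk, ← h2 g, ← D.vm_map _ (Bd2.of_le n2), ← D.vm_map _ b2,
    ← D.vm_add (Bd2.of_le n3) (Bd2.of_le (n1 g)), ← D.vm_const (W ζ),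
    ← D.vm_add (Bd2.const _) b3, ← D.vm_add ((Bd2.const _).add b3) ((Bd2.const (l g)).app b2)]
  refine D.vm_sub_le (bk.apply _) (((Bd2.const _).add b3).add ((Bd2.const (l g)).app b2))
    fun s t => ?_
  have t1 := (hb.ul.near_le hκ s⁻¹ (a (s * g * t) (l (t⁻¹ * g⁻¹) ζ))).trans
    (mul_le_mul_of_nonneg_left (hn _ _) h0)
  have t2 := (hb.ul.norm_apply s⁻¹ _).trans_le (hC (s * g * t) s⁻¹ (s * g * t)⁻¹)
  have t3 := (hb.ul.near_norm hκ hδ s⁻¹ _).trans (mul_le_mul_of_nonneg_left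
    ((hb.ul.near_le hκ (s * g * t) (a t⁻¹ (l g⁻¹ ζ))).trans
      (mul_le_mul_of_nonneg_left (hn _ _) h0)) zero_le_two)
  have t4 := (hb.ul.near_le hκ s⁻¹ (l (s * g * t) (a t⁻¹ (l g⁻¹ ζ)))).trans
    (mul_le_mul_of_nonneg_left ((hb.ul.norm_apply _ _).trans_le (hn _ _)) h0)
  have t5 := (hb.ul.norm_apply (g * t) _).trans_le (hC t⁻¹ g 1)
  have := (norm_add_le _ _).trans (add_le_add ((norm_add_le _ _).trans (add_le_add
    ((norm_add_le _ _).trans (add_le_add ((norm_add_le _ _).trans (add_le_add t1 t2)) t3)) t4)) t5)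
  refine le_of_eq_of_le (congrArg _ ?_) (this.trans_eq (by ring))
  simp only [mul_apply_eq_comp, ha, Bim.diag_apply, map_add, map_sub, hb.rl, rep_mul_apply,
    mul_inv_rev, inv_inv, mul_assoc, inv_mul_cancel, mul_inv_cancel, mul_inv_cancel_left,
    inv_mul_cancel_left, mul_one, one_mul, rep_one_apply]
  abel

end Close

/-- One side of the closing argument. -/
theorem closing {Γ : Type w} [Group Γ] {K : Type v} [NormedAddCommGroup K] [InnerProductSpace ℂ K]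
    [CompleteSpace K] (D : DM.{v, w} Γ) {l r : Γ →* (K →L[ℂ] K)} (hb : Bim l r)
    {κ κ' : Γ → (K →L[ℂ] K)} {Y A W : K →L[ℂ] K} {δ η ε : ℝ} (hK : KEq D δ l κ Y A)
    (hκ' : ∀ g, ‖κ' g - r g‖ ≤ δ) (hY : ∀ g, Commute Y (κ' g)) (hW : ‖W - 1‖ ≤ δ)
    (hδ : δ ≤ 1 / 100) (hε : δ ≤ ε) (hη : 0 ≤ η)
    (ha : ∀ ζ ∈ Fix l r, ∀ g k, ‖(κ g * W - W * l g) (l k ζ)‖ ≤ η * ‖ζ‖)
    (hb' : ∀ ζ ∈ Fix l r, ∀ g k, ‖(κ' g * W - W * r g) (l k ζ)‖ ≤ η * ‖ζ‖)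
    (hC : ∀ ζ ∈ Fix l r, ∀ g h k,
      ‖((κ g * W - W * l g) * r h - r h * (κ g * W - W * l g)) (l k ζ)‖ ≤ ε * η * ‖ζ‖)
    (hD : ∀ ζ ∈ Fix l r, ∀ g h k,
      ‖((κ' h * W - W * r h) * l g - l g * (κ' h * W - W * r h)) (l k ζ)‖ ≤ ε * η * ‖ζ‖)
    (hX : ∀ ζ ∈ Fix l r, ∀ g,
      ‖l g (D.X l r (fun g => κ g * W - W * l g) (fun g => κ' g * W - W * r g) (l g⁻¹ ζ)) -
        D.X l r (fun g => κ g * W - W * l g) (fun g => κ' g * W - W * r g) ζ‖ ≤ ε * η * ‖ζ‖) :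
    ∀ ζ ∈ Fix l r, ∀ g k, ‖(κ g * W - W * l g) (l k ζ)‖ ≤ 1000 * ε * η * ‖ζ‖ := by
  intro ζ hζ g₀ k₀
  have h0 : 0 ≤ δ := (norm_nonneg _).trans hW
  set n := η * ‖ζ‖ with hn
  have n0 : 0 ≤ n := mul_nonneg hη (norm_nonneg _)
  rcases le_total (1 / 1000) ε with hε1 | hε1
  · refine (ha ζ hζ g₀ k₀).trans ?_
    rw [mul_assoc, ← hn]
    nlinarith
  set a : Γ → (K →L[ℂ] K) := fun g => κ g * W - W * l g with hadef
  set b : Γ → (K →L[ℂ] K) := fun g => κ' g * W - W * r g with hbdef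
  have ea : ∀ g v, κ g (W v) = W (l g v) + a g v := fun g v => by
    simp only [a, sub_apply, mul_apply_eq_comp, add_sub_cancel]
  have eb : ∀ g v, κ' g (W v) = W (r g v) + b g v := fun g v => by
    simp only [b, sub_apply, mul_apply_eq_comp, add_sub_cancel]
  have d1 : δ ≤ 1 := by linarith
  have nκ := hb.ul.near_norm hK.near d1
  have nκ' := hb.ur.near_norm hκ' d1
  have nT : ∀ v, ‖W v - v‖ ≤ δ * ‖v‖ := fun v => (W - 1).le_of_opNorm_le hW v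
  have nW : ∀ v, ‖W v‖ ≤ 2 * ‖v‖ := fun v => by
    have h2 := norm_add_le (W v - v) v
    rw [sub_add_cancel] at h2
    nlinarith [norm_nonneg v, nT v]
  have hC' : ∀ g h k, ‖a g (l (k * h⁻¹) ζ) - r h (a g (l k ζ))‖ ≤ ε * n := fun g h k => by
    have := hC ζ hζ g h k
    rwa [sub_apply, mul_apply_eq_comp, mul_apply_eq_comp, hb.r_l_fix hζ, mul_assoc ε] at this
  obtain ⟨v₀, Z, nv, nZ, hA⟩ := clos_a D hb hK.near d1 ea (ha ζ hζ) hC'
  obtain ⟨W', w1, -, w2⟩ := exists_inv hW (by linarith)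
  set v₁ := (Y - 1) (W ζ) with hv₁
  have dn : δ * n ≤ ε * n := mul_le_mul_of_nonneg_right hε n0
  have k1 : ∀ g, ‖κ g (κ' g v₁) + a g (l g⁻¹ ζ) - (v₀ + l g (r g Z) + A (W ζ))‖ ≤ 9 * (ε * n) := by
    intro g
    have e1 := congrArg (fun T : K →L[ℂ] K => T (W (l g⁻¹ ζ))) (hK.eq g)
    have e2 : Y (W (l g⁻¹ ζ)) = W (l g⁻¹ ζ) + (κ' g v₁ - (Y - 1) (b g (l 1 ζ))) := by
      have e3 : κ' g v₁ = (Y - 1) (κ' g (W ζ)) :=
        congrArg (fun T : K →L[ℂ] K => T (W ζ)) ((hY g).sub_left (Commute.one_left _)).eq.symm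
      rw [e3, eb, fix_r hζ, map_add, rep_one_apply, add_sub_cancel_right, sub_apply,
        one_apply_eq_self, add_sub_cancel]
    simp only [mul_apply_eq_comp, add_apply] at e1
    rw [e2, map_add, map_sub, ea, rep_mul_apply, mul_inv_cancel, rep_one_apply, map_add] at e1
    have t1 := hA g
    have t2 := (A.le_of_opNorm_le hK.A_le (a g (l g⁻¹ ζ))).trans
      (mul_le_mul_of_nonneg_left (ha ζ hζ _ _) h0)
    have t3 := (nκ g _).trans (mul_le_mul_of_nonneg_left (((Y - 1).le_of_opNorm_le hK.Y_near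
      (b g (l 1 ζ))).trans (mul_le_mul_of_nonneg_left (hb' ζ hζ _ _) h0)) zero_le_two)
    have := (norm_add_le _ _).trans (add_le_add ((norm_add_le _ _).trans (add_le_add t1 t2)) t3)
    refine le_of_eq_of_le (congrArg _ ?_) (this.trans (by linarith))
    rw [← sub_eq_iff_eq_add.2 e1]
    simp only [rep_one_apply]
    abel
  obtain ⟨ζ₁, f1, -, f2, -⟩ := D.vm_erg hb.urep_diag (W' v₁)
  have bU : ∀ v, Bd2 fun (s _ : Γ) => hb.diag s⁻¹ v := fun v =>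
    (hb.urep_diag.bd2 fun s _ => s⁻¹).apply v
  have nζ : ‖ζ₁‖ ≤ 4 * δ * ‖ζ‖ := by
    have t1 : ‖ζ₁‖ ≤ ‖W' v₁‖ := f2 ▸ D.vm_norm_le fun s _ => (hb.urep_diag.norm_apply _ _).le
    have t2 := (W' - 1).le_of_opNorm_le w2 v₁
    have t3 := norm_add_le ((W' - 1) v₁) v₁
    rw [sub_apply, one_apply_eq_self, sub_add_cancel] at t3
    have t4 : ‖v₁‖ ≤ δ * (2 * ‖ζ‖) := ((Y - 1).le_of_opNorm_le hK.Y_near _).trans
      (mul_le_mul_of_nonneg_left (nW ζ) h0)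
    rw [sub_apply, one_apply_eq_self] at t2
    nlinarith [norm_nonneg v₁]
  set v₄ := W' v₁ - ζ₁ with hv₄
  have ev : v₁ = W ζ₁ + W v₄ := by
    rw [← map_add, hv₄, add_sub_cancel, ← mul_apply_eq_comp, w1, one_apply_eq_self]
  have m4 : D.vm (fun (s _ : Γ) => hb.diag s⁻¹ v₄) = 0 := by
    simp only [hv₄, map_sub, f1]
    rw [D.vm_sub (bU _) (Bd2.const _), f2, D.vm_const, sub_self]
  set u := v₀ + A (W ζ) - W ζ₁ with hu
  have k2 : ∀ g, ‖l g (r g v₄) + a g (l g⁻¹ ζ) - (u + l g (r g Z))‖ ≤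
      21 * (ε * n) + 7 * (δ * ‖v₄‖) := by
    intro g
    have hζ₁ : ζ₁ ∈ Fix l r := f1
    have z1 : η * ‖ζ₁‖ ≤ 4 * (ε * n) := by
      have := mul_le_mul_of_nonneg_left nζ hη
      rw [hn] at dn ⊢
      nlinarith
    have t1 := (ha ζ₁ hζ₁ g g⁻¹).trans z1
    have t2 := (nκ g _).trans (mul_le_mul_of_nonneg_left ((hb' ζ₁ hζ₁ g 1).trans z1) zero_le_two)
    have t3 := (nκ g _).trans (mul_le_mul_of_nonneg_left ((nκ' g _).trans
      (mul_le_mul_of_nonneg_left (nT v₄) zero_le_two)) zero_le_two)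
    have t4 := (nκ g _).trans (mul_le_mul_of_nonneg_left (hb.ur.near_le hκ' g v₄) zero_le_two)
    have t5 := hb.ul.near_le hK.near g (r g v₄)
    rw [hb.ur.norm_apply] at t5
    have := (norm_sub_le _ _).trans (add_le_add (k1 g) ((norm_add_le _ _).trans (add_le_add
      ((norm_add_le _ _).trans (add_le_add ((norm_add_le _ _).trans (add_le_add
        ((norm_add_le _ _).trans (add_le_add t1 t2)) t3)) t4)) t5)))
    refine le_of_eq_of_le (congrArg _ ?_) (this.trans_eq (by ring))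
    have e5 : κ g (κ' g v₁) = W ζ₁ + a g (l g⁻¹ ζ₁) + κ g (b g ζ₁) + κ g (κ' g (W v₄)) := by
      rw [ev, map_add, map_add, eb g ζ₁, map_add, ea, hζ₁ g, fix_r hζ₁]
    rw [e5, hu]
    simp only [rep_one_apply, map_sub]
    abel
  have k3 : ∀ g, ‖hb.diag g v₄ - u‖ ≤ 3 * n + 7 * (δ * ‖v₄‖) := fun g => by
    have t1 := ha ζ hζ g g⁻¹
    have t2 := (hb.ul.norm_apply g _).trans_le ((hb.ur.norm_apply g _).trans_le nZ)
    have := (norm_add_le _ _).trans (add_le_add ((norm_sub_le _ _).trans (add_le_add (k2 g) t1)) t2)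
    refine le_of_eq_of_le (congrArg _ ?_) (this.trans (by nlinarith))
    rw [Bim.diag_apply]
    abel
  have k4 : ‖v₄‖ ≤ 7 * n := by
    have t1 := D.vm_sub_const_le (f := fun s _ => hb.diag s⁻¹ v₄) fun s _ => k3 s⁻¹
    rw [m4, zero_sub, norm_neg] at t1
    have t2 := k3 1
    rw [rep_one_apply] at t2
    have t3 := norm_add_le (v₄ - u) u
    rw [sub_add_cancel] at t3
    nlinarith [norm_nonneg v₄]
  have k5 : ∀ g, ‖a g (l g⁻¹ ζ) - (u - l g (r g (v₄ - Z)))‖ ≤ 70 * (ε * n) := fun g => by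
    have t1 : δ * ‖v₄‖ ≤ 7 * (ε * n) := (mul_le_mul_of_nonneg_left k4 h0).trans (by linarith)
    refine le_of_eq_of_le (congrArg _ ?_) ((k2 g).trans (by linarith))
    simp only [map_sub]
    abel
  have a1 : a 1 = 0 := by simp only [a, hK.one, map_one, one_mul, mul_one, sub_self]
  have k6 : ∀ g, ‖a g (l g⁻¹ ζ) - ((v₄ - Z) - l g (r g (v₄ - Z)))‖ ≤ 140 * (ε * n) := fun g => by
    have t1 := k5 1
    rw [a1, zero_apply, rep_one_apply, rep_one_apply] at t1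
    refine le_of_eq_of_le (congrArg _ ?_) (((norm_sub_le _ _).trans (add_le_add (k5 g) t1)).trans_eq
      (by ring))
    abel
  have bd : ∀ {l : Γ →* (K →L[ℂ] K)} {κ : Γ → (K →L[ℂ] K)}, URep l → (∀ g v, ‖κ g v‖ ≤ 2 * ‖v‖) →
      ∃ C, ∀ g, ‖κ g * W - W * l g‖ ≤ C := fun hl h => ⟨2 * ‖W‖ + ‖W‖, fun g =>
    (norm_sub_le _ _).trans (add_le_add ((norm_mul_le _ _).trans (mul_le_mul_of_nonneg_right
      (ContinuousLinearMap.opNorm_le_bound _ zero_le_two (h g)) (norm_nonneg _)))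
      (hl.norm_mul_le' _ _))⟩
  have := clos_b D hb (bd hb.ul nκ) (bd hb.ur nκ') hC' (fun g h => by
    have := hD ζ hζ g h g⁻¹
    rwa [sub_apply, mul_apply_eq_comp, mul_apply_eq_comp, rep_mul_apply, mul_inv_cancel,
      rep_one_apply, norm_sub_rev, mul_assoc ε] at this)
    (fun g => (hX ζ hζ g).trans_eq (mul_assoc _ _ _)) k6 g₀ k₀
  refine this.trans ?_
  rw [mul_assoc, mul_assoc, ← hn]
  nlinarith [mul_nonneg (h0.trans hε) n0]

theorem KEq.mono {Γ : Type w} [Group Γ] {K : Type v} [NormedAddCommGroup K] [InnerProductSpace ℂ K]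
    [CompleteSpace K] {D : DM.{v, w} Γ} {l : Γ →* (K →L[ℂ] K)} {κ : Γ → (K →L[ℂ] K)}
    {Y A : K →L[ℂ] K} {δ δ' : ℝ} (h : KEq D δ l κ Y A) (hδ : δ ≤ δ') : KEq D δ' l κ Y A :=
  ⟨h.one, fun g => (h.near g).trans hδ, h.Y_near.trans hδ, h.A_le.trans hδ, h.eq⟩

theorem core : ∃ ε₀ : ℝ, 0 < ε₀ ∧ ∀ γ : ℝ, 0 < γ → ∀ ε : ℝ, 0 < ε → ∃ δ : ℝ, 0 < δ ∧
    ∀ (Γ : Type w) [Group Γ] (K : Type v) [NormedAddCommGroup K] [InnerProductSpace ℂ K]
      [CompleteSpace K] (D : DM.{v, w} Γ) (l r : Γ →* (K →L[ℂ] K)) (κ κ' : Γ → (K →L[ℂ] K))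
      (Y A Y' A' : K →L[ℂ] K), Bim l r → KEq D δ l κ Y A → KEq D δ r κ' Y' A' →
      (∀ g h, Commute (κ g) (κ' h)) → (∀ g, Commute Y (κ' g)) → (∀ g, Commute Y' (κ g)) →
      FinP ε₀ γ l r → ∃ W : K →L[ℂ] K, ‖W - 1‖ ≤ ε ∧ ∀ ζ ∈ Fix l r, ∀ g k,
        κ g (W (l k ζ)) = W (l g (l k ζ)) ∧ κ' g (W (l k ζ)) = W (r g (l k ζ)) := by
  refine ⟨1 / 10000, by norm_num, fun γ hγ ε hε => ⟨min (min (γ / 200) (ε / 4)) (1 / 100000),
    by positivity, ?_⟩⟩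
  intro Γ _ K _ _ _ D l r κ κ' Y A Y' A' hb hK hK' hc hY hY' hF
  have d1 := (min_le_left _ _).trans (min_le_left (γ / 200) (ε / 4)) (c := γ / 200)
    (a := min (min (γ / 200) (ε / 4)) (1 / 100000))
  have d2 := (min_le_left _ _).trans (min_le_right (γ / 200) (ε / 4)) (c := ε / 4)
    (a := min (min (γ / 200) (ε / 4)) (1 / 100000))
  have d3 := min_le_right (min (γ / 200) (ε / 4)) (1 / 100000 : ℝ)
  generalize min (min (γ / 200) (ε / 4)) (1 / 100000 : ℝ) = δ at hK hK' d1 d2 d3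
  have h0 : 0 ≤ δ := (norm_nonneg _).trans hK.A_le
  obtain ⟨W, hW, hX⟩ := lemW D hb hK.near hK'.near (by linarith)
  refine ⟨W, by linarith, ?_⟩
  set a : Γ → (K →L[ℂ] K) := fun g => κ g * W - W * l g with hadef
  set b : Γ → (K →L[ℂ] K) := fun g => κ' g * W - W * r g with hbdef
  have bd : ∀ {l : Γ →* (K →L[ℂ] K)} {κ : Γ → (K →L[ℂ] K)}, URep l → (∀ g, ‖κ g - l g‖ ≤ δ) →
      ∀ g, ‖κ g * W - W * l g‖ ≤ 3 * ‖W‖ := fun hl h g =>
    (norm_sub_le _ _).trans ((add_le_add ((norm_mul_le _ _).trans (mul_le_mul_of_nonneg_right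
      (ContinuousLinearMap.opNorm_le_bound _ zero_le_two (hl.near_norm h (by linarith) g))
      (norm_nonneg _))) (hl.norm_mul_le' _ _)).trans_eq (by ring))
  let S : ℝ → Prop := fun η => ∀ ζ ∈ Fix l r, ∀ g k,
    ‖a g (l k ζ)‖ ≤ η * ‖ζ‖ ∧ ‖b g (l k ζ)‖ ≤ η * ‖ζ‖
  have step : ∀ η, 0 ≤ η → S η → S (η / 2) := by
    intro η hη hS
    have sys : ∀ ζ ∈ Fix l r, ∀ γ', 2 * δ ≤ γ' → Sys l r a b ζ (η * ‖ζ‖) γ' := by
      intro ζ hζ γ' hγ'
      refine ⟨hζ, ⟨_, bd hb.ul hK.near⟩, ⟨_, bd hb.ur hK'.near⟩, ?_, ?_, fun g k => (hS ζ hζ g k).1,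
        fun g k => (hS ζ hζ g k).2, fun g h k => ?_⟩
      · simp only [a, hK.one, map_one, one_mul, mul_one, sub_self]
      · simp only [b, hK'.one, map_one, one_mul, mul_one, sub_self]
      have t1 := (hb.ur.near_le hK'.near h (a g (l k ζ))).trans
        (mul_le_mul_of_nonneg_left (hS ζ hζ g k).1 h0)
      have t2 := (hb.ul.near_le hK.near g (b h (l k ζ))).trans
        (mul_le_mul_of_nonneg_left (hS ζ hζ h k).2 h0)
      refine le_of_eq_of_le (congrArg _ ?_) (((norm_sub_le _ _).trans (add_le_add t1 t2)).trans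
        (by nlinarith [mul_nonneg hη (norm_nonneg ζ)]))
      have e : ∀ v, κ g (κ' h v) = κ' h (κ g v) := fun v =>
        congrArg (fun T : K →L[ℂ] K => T v) (hc g h).eq
      simp only [a, b, sub_apply, mul_apply_eq_comp, map_sub, hb.rl, e]
      abel
    have c1 : ∀ ζ ∈ Fix l r, ∀ g h, ‖(a g * r h - r h * a g) ζ‖ ≤ 1 / 10000 * (η * ‖ζ‖) :=
      fun ζ hζ => hF a b ζ _ (sys ζ hζ γ (by linarith)) fun g =>
        ((sys ζ hζ _ le_rfl).diag D hb (hX ζ hζ).1 (hX ζ hζ).2 g).trans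
          (by nlinarith [mul_nonneg hη (norm_nonneg ζ)])
    have c2 : ∀ ζ ∈ Fix l r, ∀ g h k,
        ‖(a g * r h - r h * a g) (l k ζ)‖ ≤ 2 / 10000 * (η * ‖ζ‖) := fun ζ hζ g h k => by
      have t2 := (hb.ur.norm_apply h _).trans_le (c1 ζ hζ g k⁻¹)
      refine le_of_eq_of_le (congrArg _ ?_) (((norm_add_le _ _).trans
        (add_le_add (c1 ζ hζ g (h * k⁻¹)) ((norm_neg _).trans_le t2))).trans_eq (by ring))
      simp only [fix_l hζ k, sub_apply, mul_apply_eq_comp, map_sub, rep_mul_apply]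
      abel
    have c3 : ∀ ζ ∈ Fix l r, ∀ g h k,
        ‖(a g * r h - r h * a g) (l k ζ)‖ ≤ (2 / 10000 + 4 * δ) * η * ‖ζ‖ := fun ζ hζ g h k =>
      (c2 ζ hζ g h k).trans (by nlinarith [mul_nonneg h0 (mul_nonneg hη (norm_nonneg ζ))])
    have c4 : ∀ ζ ∈ Fix l r, ∀ g h k,
        ‖(b h * l g - l g * b h) (l k ζ)‖ ≤ (2 / 10000 + 4 * δ) * η * ‖ζ‖ := fun ζ hζ g h k => by
      have := (norm_sub_le _ _).trans (add_le_add (c2 ζ hζ g h k) ((sys ζ hζ _ le_rfl).comm g h k))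
      rw [sub_sub_cancel] at this
      exact this.trans (by nlinarith [mul_nonneg h0 (mul_nonneg hη (norm_nonneg ζ))])
    have r1 := closing D hb (hK.mono (by linarith : δ ≤ 4 * δ))
      (fun g => (hK'.near g).trans (by linarith)) hY hW (by linarith) (ε := 2 / 10000 + 4 * δ)
      (by linarith) hη (fun ζ hζ g k => (hS ζ hζ g k).1) (fun ζ hζ g k => (hS ζ hζ g k).2) c3 c4
      fun ζ hζ g => by
        rw [(hX ζ hζ).2, rep_mul_apply, mul_inv_cancel, rep_one_apply, sub_self, norm_zero]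
        positivity
    have r2 := closing D hb.symm (hK'.mono (by linarith : δ ≤ 4 * δ))
      (fun g => (hK.near g).trans (by linarith)) hY' hW (by linarith) (ε := 2 / 10000 + 4 * δ)
      (by linarith) hη
      (fun ζ hζ g k => by rw [hb.fix_symm] at hζ; rw [fix_r hζ]; exact (hS ζ hζ g _).2)
      (fun ζ hζ g k => by rw [hb.fix_symm] at hζ; rw [fix_r hζ]; exact (hS ζ hζ g _).1)
      (fun ζ hζ g h k => by rw [hb.fix_symm] at hζ; rw [fix_r hζ]; exact c4 ζ hζ h g _)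
      (fun ζ hζ g h k => by rw [hb.fix_symm] at hζ; rw [fix_r hζ]; exact c3 ζ hζ h g _)
      fun ζ hζ g => by
        rw [hb.fix_symm] at hζ
        have t1 := (hb.ur.norm_apply g _).trans_le ((sys ζ hζ _ le_rfl).X_symm D hb g)
        have t2 := (sys ζ hζ _ le_rfl).X_symm D hb 1
        rw [rep_one_apply] at t2
        rw [map_sub, (hX ζ hζ).2, hb.rl, (hX ζ hζ).1 g] at t1
        rw [← fix_l hζ]
        refine le_of_eq_of_le (congrArg _ ?_) (((norm_sub_le _ _).trans (add_le_add t2 t1)).trans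
          (by nlinarith [mul_nonneg hη (norm_nonneg ζ)]))
        abel
    intro ζ hζ g k
    have q : 1000 * (2 / 10000 + 4 * δ) * η * ‖ζ‖ ≤ η / 2 * ‖ζ‖ :=
      mul_le_mul_of_nonneg_right (by nlinarith) (norm_nonneg _)
    refine ⟨(r1 ζ hζ g k).trans q, ?_⟩
    rw [fix_l hζ]
    exact (r2 ζ (hb.fix_symm ▸ hζ) g _).trans q
  have all : ∀ m : ℕ, S (3 * ‖W‖ * (1 / 2) ^ m) := fun m => by
    induction m with
    | zero =>
      intro ζ _ g k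
      rw [pow_zero, mul_one, ← hb.ul.norm_apply k ζ]
      exact ⟨(a g).le_of_opNorm_le (bd hb.ul hK.near g) _,
        (b g).le_of_opNorm_le (bd hb.ur hK'.near g) _⟩
    | succ m ih =>
      have := step _ (by positivity) ih
      rwa [mul_div_assoc, div_eq_mul_one_div, ← pow_succ] at this
  intro ζ hζ g k
  have lim : Tendsto (fun m : ℕ => 3 * ‖W‖ * (1 / 2 : ℝ) ^ m * ‖ζ‖) atTop (𝓝 0) := by
    simpa using ((tendsto_pow_atTop_nhds_zero_of_lt_one (r := (1 / 2 : ℝ)) (by norm_num)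
      (by norm_num)).const_mul (3 * ‖W‖)).mul_const ‖ζ‖
  exact ⟨sub_eq_zero.1 (norm_le_zero_iff.1 (ge_of_tendsto' lim fun m => (all m ζ hζ g k).1)),
    sub_eq_zero.1 (norm_le_zero_iff.1 (ge_of_tendsto' lim fun m => (all m ζ hζ g k).2))⟩

end Vale.Agent.P096
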