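import Vale.Agent.P096.Mean

/-! The gauge operator and the diagonal of the commutator cocycle. -/

open scoped InnerProductSpace Topology
open Filter

namespace Vale.Agent.P096

open Vale.Agent.P104 Vale.Agent.P132

universe u v w

variable {Γ : Type w} [Group Γ] {K : Type v} [NormedAddCommGroup K] [InnerProductSpace ℂ K]
  [CompleteSpace K] {l r : Γ →* (K →L[ℂ] K)} {a b : Γ → (K →L[ℂ] K)} {ζ : K} {η γ : ℝ}

theorem Bim.rl (hb : Bim l r) (g k : Γ) (v : K) : r g (l k v) = l k (r g v) :=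
  (hb.comm_apply k g v).symm

omit [CompleteSpace K] in
theorem rep_one_apply (l : Γ →* (K →L[ℂ] K)) (v : K) : l 1 v = v := by rw [map_one]; rfl

theorem Bim.r_l_fix (hb : Bim l r) (hζ : ζ ∈ Fix l r) (g k : Γ) :
    r g (l k ζ) = l (k * g⁻¹) ζ := by rw [hb.rl, fix_r hζ, rep_mul_apply]

theorem Sys.symm (hb : Bim l r) (h : Sys l r a b ζ η γ) : Sys r l b a ζ η γ := by
  refine ⟨hb.fix_symm ▸ h.fix, h.bdb, h.bda, h.b_one, h.a_one, fun g k => ?_, fun g k => ?_,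
    fun g k m => ?_⟩
  · rw [fix_r h.fix]; exact h.b_le _ _
  · rw [fix_r h.fix]; exact h.a_le _ _
  · rw [fix_r h.fix, norm_sub_rev]; exact h.comm _ _ _

theorem bih_aux (D : DM.{v, w} Γ) (hb : Bim l r) (T : K →L[ℂ] K) (hζ : ζ ∈ Fix l r) :
    ∃ ζ₁ ∈ Fix l r, ∀ g, D.om (fun s t => l s⁻¹ * (r t⁻¹ * T * r t) * l s) (l g ζ) = l g ζ₁ := by
  have hn : ∀ k, ‖r k (T (l k ζ))‖ ≤ ‖T‖ * ‖ζ‖ := fun k => by
    rw [hb.ur.norm_apply, ← hb.ul.norm_apply k ζ]; exact T.le_opNorm _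
  obtain ⟨ζ₁, h1, h2⟩ := D.vm_de hb.urep_diag (n := fun k => r k (T (l k ζ))) hn
  refine ⟨ζ₁, h1, fun g => ?_⟩
  have bd : Bd2 fun s t : Γ => l s⁻¹ * (r t⁻¹ * T * r t) * l s :=
    ((hb.ul.bd2 fun s _ => s⁻¹).mul (((hb.ur.bd2 fun _ t => t⁻¹).mul (Bd2.const T)).mul
      (hb.ur.bd2 fun _ t => t))).mul (hb.ul.bd2 fun s _ => s)
  rw [D.om_apply bd, ← D.vm_inv_right, fix_l h1, ← h2 g, ← D.vm_map]
  · congr 1
    funext s t
    simp only [mul_apply_eq_comp, Bim.diag_apply, inv_inv, hb.r_l_fix hζ, rep_mul_apply, hb.rl,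
      mul_assoc, inv_mul_cancel_left]
  · exact Bd2.of_le fun s t => by rw [hb.urep_diag.norm_apply]; exact hn _

/-- Biharmonic operators are central on the fixed vectors. -/
theorem bih (D : DM.{v, w} Γ) (hb : Bim l r) (T : K →L[ℂ] K) (hζ : ζ ∈ Fix l r) :
    D.om (fun s t => l s⁻¹ * (r t⁻¹ * T * r t) * l s) ζ ∈ Fix l r ∧
    ∀ g, D.om (fun s t => l s⁻¹ * (r t⁻¹ * T * r t) * l s) (l g ζ) =
      l g (D.om (fun s t => l s⁻¹ * (r t⁻¹ * T * r t) * l s) ζ) := by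
  obtain ⟨ζ₁, h1, h2⟩ := bih_aux D hb T hζ
  have e := h2 1
  rw [rep_one_apply, rep_one_apply] at e
  rw [e]
  exact ⟨h1, h2⟩

theorem URep.norm_mul_le (h : URep l) (g : Γ) (x : K →L[ℂ] K) : ‖l g * x‖ ≤ ‖x‖ :=
  (_root_.norm_mul_le _ _).trans (mul_le_of_le_one_left (norm_nonneg _) (h.norm_le g))

theorem URep.norm_mul_le' (h : URep l) (g : Γ) (x : K →L[ℂ] K) : ‖x * l g‖ ≤ ‖x‖ :=
  (_root_.norm_mul_le _ _).trans (mul_le_of_le_one_right (norm_nonneg _) (h.norm_le g))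

omit [CompleteSpace K] in
theorem rep_inv_mul (l : Γ →* (K →L[ℂ] K)) (g : Γ) : l g⁻¹ * l g = 1 := by
  rw [← map_mul, inv_mul_cancel, map_one]

omit [CompleteSpace K] in
theorem rep_mul_inv (l : Γ →* (K →L[ℂ] K)) (g : Γ) : l g * l g⁻¹ = 1 := by
  rw [← map_mul, mul_inv_cancel, map_one]

/-- Choice of the gauge. -/
theorem lemW (D : DM.{v, w} Γ) (hb : Bim l r) {κ κ' : Γ → (K →L[ℂ] K)} {δ : ℝ}
    (hκ : ∀ g, ‖κ g - l g‖ ≤ δ) (hκ' : ∀ g, ‖κ' g - r g‖ ≤ δ) (hδ : δ ≤ 1 / 4) :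
    ∃ W : K →L[ℂ] K, ‖W - 1‖ ≤ 4 * δ ∧ ∀ ζ ∈ Fix l r,
      D.X l r (fun g => κ g * W - W * l g) (fun g => κ' g * W - W * r g) ζ ∈ Fix l r ∧
      ∀ g, D.X l r (fun g => κ g * W - W * l g) (fun g => κ' g * W - W * r g) (l g ζ) =
        l g (D.X l r (fun g => κ g * W - W * l g) (fun g => κ' g * W - W * r g) ζ) := by
  have h0 : 0 ≤ δ := (norm_nonneg _).trans (hκ 1)
  have n1 : ∀ (W : K →L[ℂ] K) (s : Γ), ‖l s⁻¹ * ((κ s - l s) * W)‖ ≤ δ * ‖W‖ := fun W s =>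
    (hb.ul.norm_mul_le _ _).trans ((norm_mul_le _ _).trans
      (mul_le_mul_of_nonneg_right (hκ s) (norm_nonneg _)))
  have n2 : ∀ (W : K →L[ℂ] K) (s t : Γ),
      ‖l t * (r s⁻¹ * ((κ' s - r s) * W)) * l t⁻¹‖ ≤ δ * ‖W‖ := fun W s t =>
    (hb.ul.norm_mul_le' _ _).trans ((hb.ul.norm_mul_le _ _).trans ((hb.ur.norm_mul_le _ _).trans
      ((norm_mul_le _ _).trans (mul_le_mul_of_nonneg_right (hκ' s) (norm_nonneg _)))))
  let S : (K →L[ℂ] K) → (K →L[ℂ] K) := fun W => D.om (fun s _ => l s⁻¹ * ((κ s - l s) * W)) +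
    D.om fun s t => l t * (r s⁻¹ * ((κ' s - r s) * W)) * l t⁻¹
  have Sn : ∀ W, ‖S W‖ ≤ 2 * δ * ‖W‖ := fun W => (norm_add_le _ _).trans (by
    have := D.om_norm_le (f := fun s _ => l s⁻¹ * ((κ s - l s) * W)) fun s _ => n1 W s
    have := D.om_norm_le (n2 W)
    linarith)
  have Ss : ∀ W W', S W - S W' = S (W - W') := fun W W' => by
    simp only [S]
    rw [add_sub_add_comm, ← D.om_sub (Bd2.of_le fun s _ => n1 W s) (Bd2.of_le fun s _ => n1 W' s),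
      ← D.om_sub (Bd2.of_le (n2 W)) (Bd2.of_le (n2 W'))]
    simp only [mul_sub, sub_mul]
  have hc : ContractingWith (1 / 2 : NNReal) fun W => 1 - S W :=
    ⟨by norm_num, LipschitzWith.of_dist_le_mul fun W W' => by
      rw [dist_eq_norm, dist_eq_norm, sub_sub_sub_cancel_left, Ss, ← norm_neg (W - W'), neg_sub]
      refine (Sn _).trans (mul_le_mul_of_nonneg_right ?_ (norm_nonneg _))
      push_cast
      linarith⟩
  obtain ⟨W, hW⟩ : ∃ W, 1 - S W = W := ⟨_, hc.fixedPoint_isFixedPt⟩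
  have hW1 : ‖W - 1‖ ≤ 4 * δ := by
    have e : W - 1 = -S W := by
      rw [eq_neg_iff_add_eq_zero, sub_add_eq_add_sub, sub_eq_zero, ← eq_sub_iff_add_eq, hW]
    have h1 : ‖W‖ ≤ ‖W - 1‖ + 1 := by
      have := norm_add_le (W - 1) 1
      rw [sub_add_cancel] at this
      exact this.trans (add_le_add_right ContinuousLinearMap.norm_id_le _)
    have h2 := Sn W
    rw [← norm_neg, ← e] at h2
    nlinarith [norm_nonneg (W - 1)]
  refine ⟨W, hW1, fun ζ hζ => ?_⟩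
  have bW : Bd2 fun (s : Γ) (_ : Γ) => l s⁻¹ * W * l s :=
    ((hb.ul.bd2 fun s _ => s⁻¹).mul (Bd2.const W)).mul (hb.ul.bd2 fun s _ => s)
  have bW' : Bd2 fun (_ : Γ) (t : Γ) => l t * W * l t⁻¹ :=
    ((hb.ul.bd2 fun _ t => t).mul (Bd2.const W)).mul (hb.ul.bd2 fun _ t => t⁻¹)
  have bE : Bd2 fun s t : Γ => l t * (r s⁻¹ * W * r s) * l t⁻¹ :=
    ((hb.ul.bd2 fun _ t => t).mul (((hb.ur.bd2 fun s _ => s⁻¹).mul (Bd2.const W)).mul
      (hb.ur.bd2 fun s _ => s))).mul (hb.ul.bd2 fun _ t => t⁻¹)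
  have e1 : D.om (fun (_ : Γ) (t : Γ) => l t * W * l t⁻¹) = D.om fun s _ => l s⁻¹ * W * l s := by
    rw [← D.om_swap, ← D.om_inv_left]
    simp only [inv_inv]
  have e2 : D.om (fun s t : Γ => l t * (r s⁻¹ * W * r s) * l t⁻¹) =
      D.om fun s t => l s⁻¹ * (r t⁻¹ * W * r t) * l s := by
    rw [← D.om_swap, ← D.om_inv_left]
    simp only [inv_inv]
  have eX : D.X l r (fun g => κ g * W - W * l g) (fun g => κ' g * W - W * r g) =
      1 - D.om fun s t => l s⁻¹ * (r t⁻¹ * W * r t) * l s := by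
    have a1 : (fun (s : Γ) (_ : Γ) => l s⁻¹ * (κ s * W - W * l s)) =
        fun s _ => l s⁻¹ * ((κ s - l s) * W) + (W - l s⁻¹ * W * l s) := by
      funext s t
      rw [sub_mul, mul_sub, mul_sub, ← mul_assoc (l s⁻¹) (l s), rep_inv_mul, one_mul, mul_assoc]
      abel
    have a2 : (fun s t : Γ => l t * (r s⁻¹ * (κ' s * W - W * r s)) * l t⁻¹) =
        fun s t => l t * (r s⁻¹ * ((κ' s - r s) * W)) * l t⁻¹ +
          (l t * W * l t⁻¹ - l t * (r s⁻¹ * W * r s) * l t⁻¹) := by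
      funext s t
      have : r s⁻¹ * (κ' s * W - W * r s) =
          r s⁻¹ * ((κ' s - r s) * W) + (W - r s⁻¹ * W * r s) := by
        rw [sub_mul, mul_sub, mul_sub, ← mul_assoc (r s⁻¹) (r s), rep_inv_mul, one_mul, mul_assoc]
        abel
      rw [this, mul_add, add_mul, mul_sub (l t) W, sub_mul (l t * W)]
    rw [DM.X, a1, a2, D.om_add (Bd2.of_le fun s _ => n1 W s) ((Bd2.const W).sub bW),
      D.om_add (Bd2.of_le (n2 W)) (bW'.sub bE), D.om_sub (Bd2.const W) bW, D.om_sub bW' bE,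
      D.om_const, e1, e2]
    have : (1 : K →L[ℂ] K) = W + S W := by rw [← sub_eq_iff_eq_add, hW]
    rw [this]
    simp only [S]
    abel
  obtain ⟨b1, b2⟩ := bih D hb W hζ
  rw [eX]
  refine ⟨fun g => ?_, fun g => ?_⟩
  · rw [sub_apply, map_sub, map_sub, b1 g, one_apply_eq_self, hζ g]
  · rw [sub_apply, sub_apply, map_sub, b2 g]; rfl

/-- The error vectors. -/
noncomputable def er (l r : Γ →* (K →L[ℂ] K)) (a b : Γ → (K →L[ℂ] K)) (ζ : K) (g h k : Γ) : K :=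
  a g (l (k * h⁻¹) ζ) - r h (a g (l k ζ)) - b h (l (g * k) ζ) + l g (b h (l k ζ))

theorem Sys.er_le (hb : Bim l r) (h : Sys l r a b ζ η γ) (g k m : Γ) :
    ‖er l r a b ζ g k m‖ ≤ γ * η := by
  have := h.comm g k m
  simp only [sub_apply, mul_apply_eq_comp, hb.r_l_fix h.fix, rep_mul_apply] at this
  refine le_of_eq_of_le (congrArg _ ?_) this
  rw [er]
  abel

omit [CompleteSpace K] in
theorem Sys.bd_a (h : Sys l r a b ζ η γ) (φ : Γ → Γ → Γ) : Bd2 fun s t => a (φ s t) :=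
  h.bda.imp fun _ hC _ _ => hC _

omit [CompleteSpace K] in
theorem Sys.bd_b (h : Sys l r a b ζ η γ) (φ : Γ → Γ → Γ) : Bd2 fun s t => b (φ s t) :=
  h.bdb.imp fun _ hC _ _ => hC _

theorem Sys.X_apply (D : DM.{v, w} Γ) (hb : Bim l r) (h : Sys l r a b ζ η γ) (k : Γ) :
    D.X l r a b (l k ζ) = D.vm (fun _ t => l t (a t⁻¹ (l k ζ))) +
      D.vm fun s t => l t (r s⁻¹ (b s (l (t⁻¹ * k) ζ))) := by
  rw [DM.X, add_apply, D.om_apply ((hb.ul.bd2 fun s _ => s⁻¹).mul (h.bd_a fun s _ => s)),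
    D.om_apply (((hb.ul.bd2 fun _ t => t).mul ((hb.ur.bd2 fun s _ => s⁻¹).mul
      (h.bd_b fun s _ => s))).mul (hb.ul.bd2 fun _ t => t⁻¹)), ← D.vm_swap, ← D.vm_inv_right]
  simp only [mul_apply_eq_comp, inv_inv, rep_mul_apply]

theorem Sys.X_apply' (D : DM.{v, w} Γ) (hb : Bim l r) (h : Sys l r a b ζ η γ) (k : Γ) :
    D.X r l b a (l k ζ) = D.vm (fun _ t => r t (b t⁻¹ (l k ζ))) +
      D.vm fun s t => l s⁻¹ (r t (a s (l (k * t) ζ))) := by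
  have := (h.symm hb).X_apply D hb.symm k⁻¹
  simp only [fix_r h.fix, inv_inv, mul_inv_rev, hb.rl] at this
  exact this

theorem Sys.bl_a (hb : Bim l r) (h : Sys l r a b ζ η γ) (φ ψ χ : Γ → Γ → Γ) :
    Bd2 fun s t => l (φ s t) (a (ψ s t) (l (χ s t) ζ)) :=
  Bd2.of_le fun s t => by rw [hb.ul.norm_apply]; exact h.a_le _ _

theorem Sys.br_b (hb : Bim l r) (h : Sys l r a b ζ η γ) (φ ψ χ : Γ → Γ → Γ) :
    Bd2 fun s t => r (φ s t) (b (ψ s t) (l (χ s t) ζ)) :=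
  Bd2.of_le fun s t => by rw [hb.ur.norm_apply]; exact h.b_le _ _

theorem Sys.blr_a (hb : Bim l r) (h : Sys l r a b ζ η γ) (φ φ' ψ χ : Γ → Γ → Γ) :
    Bd2 fun s t => l (φ s t) (r (φ' s t) (a (ψ s t) (l (χ s t) ζ))) :=
  Bd2.of_le fun s t => by rw [hb.ul.norm_apply, hb.ur.norm_apply]; exact h.a_le _ _

theorem Sys.blr_b (hb : Bim l r) (h : Sys l r a b ζ η γ) (φ φ' ψ χ : Γ → Γ → Γ) :
    Bd2 fun s t => l (φ s t) (r (φ' s t) (b (ψ s t) (l (χ s t) ζ))) :=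
  Bd2.of_le fun s t => by rw [hb.ul.norm_apply, hb.ur.norm_apply]; exact h.b_le _ _

theorem Sys.X_symm (D : DM.{v, w} Γ) (hb : Bim l r) (h : Sys l r a b ζ η γ) (k : Γ) :
    ‖D.X l r a b (l k ζ) - D.X r l b a (l k ζ)‖ ≤ γ * η := by
  have e1 : D.vm (fun (_ : Γ) t => r t (b t⁻¹ (l k ζ))) =
      D.vm fun s _ => r s⁻¹ (b s (l k ζ)) := by
    rw [← D.vm_swap, ← D.vm_inv_left]
    simp only [inv_inv]
  have e2 : D.vm (fun s t => l s⁻¹ (r t (a s (l (k * t) ζ)))) =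
      D.vm fun s t => l t (r s⁻¹ (a t⁻¹ (l (k * s⁻¹) ζ))) := by
    rw [← D.vm_swap, ← D.vm_inv_left, ← D.vm_inv_right]
    simp only [inv_inv]
  rw [h.X_apply D hb, h.X_apply' D hb, e1, e2, ← D.vm_add (h.bl_a hb _ _ _) (h.blr_b hb _ _ _ _),
    ← D.vm_add (h.br_b hb _ _ _) (h.blr_a hb _ _ _ _)]
  refine D.vm_sub_le ((h.bl_a hb _ _ _).add (h.blr_b hb _ _ _ _))
    ((h.br_b hb _ _ _).add (h.blr_a hb _ _ _ _)) fun s t => ?_
  have := h.er_le hb t⁻¹ s k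
  rw [← hb.ur.norm_apply s⁻¹, ← hb.ul.norm_apply t, ← norm_neg] at this
  refine le_of_eq_of_le (congrArg _ ?_) this
  simp only [er, map_add, map_sub, hb.rl, rep_mul_apply, inv_mul_cancel, mul_inv_cancel,
    rep_one_apply]
  abel

/-- The diagonal of the commutator cocycle. -/
noncomputable def dF (l r : Γ →* (K →L[ℂ] K)) (a : Γ → (K →L[ℂ] K)) (ζ : K) (g : Γ) : K :=
  a g (l g⁻¹ ζ) - r g (a g (l 1 ζ))

omit [InnerProductSpace ℂ K] [CompleteSpace K] in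
theorem norm_four {x₁ x₂ x₃ x₄ : K} {c : ℝ} (h₁ : ‖x₁‖ ≤ c) (h₂ : ‖x₂‖ ≤ c) (h₃ : ‖x₃‖ ≤ c)
    (h₄ : ‖x₄‖ ≤ c) : ‖x₁ - x₂ - x₃ + x₄‖ ≤ 4 * c := by
  have := norm_add_le (x₁ - x₂ - x₃) x₄
  have := norm_sub_le (x₁ - x₂) x₃
  have := norm_sub_le x₁ x₂
  linarith

theorem Sys.dF_one (hb : Bim l r) (h : Sys l r a b ζ η γ) (s k : Γ) :
    ‖l s⁻¹ (r s⁻¹ (dF l r a ζ (s * k))) - (dF l r a ζ k +
      (l s⁻¹ (r s⁻¹ (a s (l s⁻¹ ζ))) + r s⁻¹ (b s (l 1 ζ))) - l k (r s⁻¹ (b s (l k⁻¹ ζ))) -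
      l s⁻¹ (r k (a s (l k ζ))))‖ ≤ 4 * (γ * η) := by
  have := norm_four (h.er_le hb (s * k) (s * k) 1) (h.er_le hb s (s * k) k)
    ((hb.ul.norm_apply s _).trans_le (h.er_le hb k (s * k) 1))
    ((hb.ul.norm_apply s _).trans_le (h.er_le hb k s k⁻¹))
  rw [← hb.ur.norm_apply s⁻¹, ← hb.ul.norm_apply s⁻¹] at this
  refine le_of_eq_of_le (congrArg _ ?_) this
  simp only [er, dF, map_add, map_sub, hb.rl, rep_mul_apply, inv_mul_cancel, mul_inv_cancel,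
    rep_one_apply, mul_inv_rev, one_mul, mul_one, inv_mul_cancel_left, mul_inv_cancel_left]
  abel

theorem Sys.dF_two (hb : Bim l r) (h : Sys l r a b ζ η γ) (g t : Γ) :
    ‖dF l r a ζ (g * t) - (dF l r a ζ g - l g (l t (a t⁻¹ (l g⁻¹ ζ))) - r g (r t (b t⁻¹ (l g ζ))) +
      l g (r g (l t (r t (a t⁻¹ (l t ζ))) + r t (b t⁻¹ (l 1 ζ)))))‖ ≤ 4 * (γ * η) := by
  have := norm_four (h.er_le hb (g * t) (g * t) 1) (h.er_le hb g (g * t) t)
    ((hb.ur.norm_apply (g * t) _).trans_le (h.er_le hb g t⁻¹ 1))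
    ((hb.ul.norm_apply (g * t) _).trans_le (h.er_le hb t⁻¹ (g * t) t))
  refine le_of_eq_of_le (congrArg _ ?_) this
  simp only [er, dF, map_add, map_sub, hb.rl, rep_mul_apply, inv_mul_cancel,
    rep_one_apply, mul_inv_rev, one_mul, mul_one, mul_inv_cancel_left,
    inv_inv, mul_inv_cancel_right]
  abel

theorem Sys.dF_inv (hb : Bim l r) (h : Sys l r a b ζ η γ) (g : Γ) :
    ‖dF l r a ζ g⁻¹ - l g⁻¹ (r g⁻¹ (dF l r a ζ g))‖ ≤ 2 * (γ * η) := by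
  have h1 := h.er_le hb g⁻¹ g⁻¹ 1
  have h2 := (hb.ul.norm_apply g⁻¹ _).trans_le (h.er_le hb g g⁻¹ g⁻¹)
  have := (norm_add_le _ _).trans (add_le_add h1 h2)
  rw [← two_mul] at this
  refine le_of_eq_of_le (congrArg _ ?_) this
  simp only [er, dF, map_add, map_sub, rep_mul_apply, inv_mul_cancel, mul_inv_cancel,
    rep_one_apply, one_mul, mul_one, inv_inv]
  abel

theorem Sys.dF_form (D : DM.{v, w} Γ) (hb : Bim l r) (h : Sys l r a b ζ η γ)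
    (h1 : D.X l r a b ζ ∈ Fix l r) (h2 : ∀ g, D.X l r a b (l g ζ) = l g (D.X l r a b ζ)) :
    ∃ c c' : K, ∀ g, ‖dF l r a ζ g - (c - l g (r g c'))‖ ≤ 9 * (γ * η) := by
  have hF : ∀ g, ‖dF l r a ζ g‖ ≤ 2 * η := fun g => (norm_sub_le _ _).trans (by
    rw [hb.ur.norm_apply]
    linarith [h.a_le g g⁻¹, h.a_le g 1])
  obtain ⟨c₀, -, hc₀⟩ := D.vm_de hb.urep_diag hF
  have b1 : Bd2 fun (s : Γ) (_ : Γ) => l s⁻¹ (r s⁻¹ (a s (l s⁻¹ ζ))) + r s⁻¹ (b s (l 1 ζ)) :=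
    (h.blr_a hb _ _ _ _).add (h.br_b hb _ _ _)
  have b2 : Bd2 fun (_ : Γ) (t : Γ) => l t (r t (a t⁻¹ (l t ζ))) + r t (b t⁻¹ (l 1 ζ)) :=
    (h.blr_a hb _ _ _ _).add (h.br_b hb _ _ _)
  refine ⟨c₀ - D.vm (fun s _ => l s⁻¹ (r s⁻¹ (a s (l s⁻¹ ζ))) + r s⁻¹ (b s (l 1 ζ))) +
    (D.X l r a b ζ + D.X l r a b ζ),
    D.vm fun _ t => l t (r t (a t⁻¹ (l t ζ))) + r t (b t⁻¹ (l 1 ζ)), fun g => ?_⟩
  have b3 : Bd2 fun (s t : Γ) => l t (a t⁻¹ (l g⁻¹ ζ)) + l t (r s⁻¹ (b s (l (t⁻¹ * g⁻¹) ζ))) :=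
    (h.bl_a hb _ _ _).add (h.blr_b hb _ _ _ _)
  have b4 : Bd2 fun (s t : Γ) => r t (b t⁻¹ (l g ζ)) + l s⁻¹ (r t (a s (l (g * t) ζ))) :=
    (h.br_b hb _ _ _).add (h.blr_a hb _ _ _ _)
  have b2' := (Bd2.const (l g)).app ((Bd2.const (r g)).app b2)
  have b3' := (Bd2.const (l g)).app b3
  have b4' := (Bd2.const (r g)).app b4
  have key := D.vm_sub_le (f := fun s t => hb.diag s⁻¹ (dF l r a ζ (s * g * t)))
    (Bd2.of_le fun s t => (hb.urep_diag.norm_apply _ _).trans_le (hF _))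
    ((((Bd2.const (dF l r a ζ g)).add b1).add b2').sub (b3'.add b4')) (C := 8 * (γ * η))
    fun s t => by
      have := (norm_add_le _ _).trans (add_le_add (h.dF_one hb s (g * t)) (h.dF_two hb g t))
      refine le_of_eq_of_le (congrArg _ ?_) (this.trans_eq (by ring))
      simp only [Bim.diag_apply, map_add, hb.rl, rep_mul_apply, mul_inv_rev, mul_assoc]
      abel
  rw [hc₀, D.vm_sub (((Bd2.const _).add b1).add b2') (b3'.add b4'),
    D.vm_add ((Bd2.const _).add b1) b2', D.vm_add (Bd2.const _) b1, D.vm_add b3' b4', D.vm_const,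
    D.vm_map _ ((Bd2.const (r g)).app b2), D.vm_map _ b2, D.vm_map _ b3, D.vm_map _ b4,
    D.vm_add (h.bl_a hb _ _ _) (h.blr_b hb _ _ _ _), D.vm_add (h.br_b hb _ _ _) (h.blr_a hb _ _ _ _),
    ← h.X_apply D hb, ← h.X_apply' D hb, h2, rep_mul_apply, mul_inv_cancel,
    rep_one_apply l (D.X l r a b ζ)] at key
  have k2 := (hb.ur.norm_apply g _).trans_le (h.X_symm D hb g)
  rw [map_sub, h2, hb.rl, h1 g] at k2
  have := (norm_add_le _ _).trans (add_le_add key k2)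
  rw [← norm_neg]
  refine le_of_eq_of_le (congrArg _ ?_) (this.trans_eq (by ring))
  abel

theorem Sys.diag (D : DM.{v, w} Γ) (hb : Bim l r) (h : Sys l r a b ζ η γ)
    (h1 : D.X l r a b ζ ∈ Fix l r) (h2 : ∀ g, D.X l r a b (l g ζ) = l g (D.X l r a b ζ)) (g : Γ) :
    ‖(a g * r g - r g * a g) ζ‖ ≤ 100 * (γ * η) := by
  obtain ⟨c, c', hc⟩ := h.dF_form D hb h1 h2
  have e : (a g * r g - r g * a g) ζ = dF l r a ζ g := by
    rw [dF, rep_one_apply, ← fix_r h.fix]; rfl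
  have k1 := hc 1
  rw [dF, h.a_one, rep_one_apply, rep_one_apply, rep_one_apply, zero_apply, zero_apply] at k1
  have k2 := hc g
  have k3 := (hb.ul.norm_apply g _).trans_le ((hb.ur.norm_apply g _).trans_le (hc g⁻¹))
  have k4 := (hb.ul.norm_apply g _).trans_le ((hb.ur.norm_apply g _).trans_le (h.dF_inv hb g))
  have k5 := (hb.ul.norm_apply g _).trans_le ((hb.ur.norm_apply g _).trans_le k1)
  simp only [map_sub, hb.rl, rep_mul_apply, mul_inv_cancel, rep_one_apply, sub_self, zero_sub,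
    map_neg] at k1 k3 k4 k5
  have e2 : (2 : ℂ) • dF l r a ζ g = (dF l r a ζ g - (c - l g (r g c'))) +
      (l g (r g (dF l r a ζ g⁻¹)) - (l g (r g c) - c')) -
      (l g (r g (dF l r a ζ g⁻¹)) - dF l r a ζ g) - -(c - c') -
      -(l g (r g c) - l g (r g c')) := by
    rw [two_smul]; abel
  have n2 : ‖(2 : ℂ) • dF l r a ζ g‖ = 2 * ‖dF l r a ζ g‖ := by
    rw [norm_smul]; norm_num
  rw [e2] at n2
  have t1 := norm_sub_le (dF l r a ζ g - (c - l g (r g c')) +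
      (l g (r g (dF l r a ζ g⁻¹)) - (l g (r g c) - c')) -
      (l g (r g (dF l r a ζ g⁻¹)) - dF l r a ζ g) - -(c - c')) (-(l g (r g c) - l g (r g c')))
  have t2 := norm_sub_le (dF l r a ζ g - (c - l g (r g c')) +
      (l g (r g (dF l r a ζ g⁻¹)) - (l g (r g c) - c')) -
      (l g (r g (dF l r a ζ g⁻¹)) - dF l r a ζ g)) (-(c - c'))
  have t3 := norm_sub_le (dF l r a ζ g - (c - l g (r g c')) +
      (l g (r g (dF l r a ζ g⁻¹)) - (l g (r g c) - c')))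
      (l g (r g (dF l r a ζ g⁻¹)) - dF l r a ζ g)
  have t4 := norm_add_le (dF l r a ζ g - (c - l g (r g c')))
      (l g (r g (dF l r a ζ g⁻¹)) - (l g (r g c) - c'))
  have h0 : 0 ≤ γ * η := (norm_nonneg _).trans (h.comm 1 1 1)
  rw [e]
  linarith

end Vale.Agent.P096
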