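import Vale.Agent.P096.Basic
import Vale.Agent.P104.Main

/-! Uniform solution of the derivation problem and its consequences. -/

open scoped InnerProductSpace Topology
open Filter

namespace Vale.Agent.P096

open Vale.Agent.P104 Vale.Agent.P132

universe u v w

section Aux

open scoped ENNReal

theorem dk_one {A : Type u} [CStarAlgebra A] {K : Type v} [NormedAddCommGroup K]
    [InnerProductSpace ℂ K] [CompleteSpace K] (π α : A →ₐ[ℂ] (K →L[ℂ] K))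
    (δ : A →ₗ[ℂ] (K →L[ℂ] K)) (hπ : ∀ a, ‖π a‖ ≤ 1 * ‖a‖) (hα : ∀ a, ‖α a‖ ≤ 2 * ‖a‖)
    (hd : ∀ a b, δ (a * b) = α a * δ b + δ a * π b) (hδ : ∀ a, ‖δ a‖ ≤ 1 * ‖a‖) :
    ∃ X : K →L[ℂ] K, ∀ a, δ a = α a * X - X * π a := by
  let e := WithLp.prodContinuousLinearEquiv 2 ℂ K K
  let p1 : WithLp 2 (K × K) →L[ℂ] K := .comp (.fst ℂ K K) e.toContinuousLinearMap
  let p2 : WithLp 2 (K × K) →L[ℂ] K := .comp (.snd ℂ K K) e.toContinuousLinearMap
  let j1 : K →L[ℂ] WithLp 2 (K × K) := e.symm.toContinuousLinearMap.comp (.inl ℂ K K)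
  let j2 : K →L[ℂ] WithLp 2 (K × K) := e.symm.toContinuousLinearMap.comp (.inr ℂ K K)
  have ext2 : ∀ y z : WithLp 2 (K × K), p1 y = p1 z → p2 y = p2 z → y = z := fun y z h1 h2 =>
    e.injective (Prod.ext h1 h2)
  have a11 : ∀ x, p1 (j1 x) = x := fun _ => rfl
  have a12 : ∀ x, p1 (j2 x) = 0 := fun _ => rfl
  have a21 : ∀ x, p2 (j1 x) = 0 := fun _ => rfl
  have a22 : ∀ x, p2 (j2 x) = x := fun _ => rfl
  have n1 : ∀ x, ‖j1 x‖ = ‖x‖ := fun x => WithLp.norm_toLp_fst 2 K K x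
  have n2 : ∀ x, ‖j2 x‖ = ‖x‖ := fun x => WithLp.norm_toLp_snd 2 K K x
  have m1 : ∀ y, ‖p1 y‖ ≤ ‖y‖ := fun y => WithLp.norm_fst_le K y
  have m2 : ∀ y, ‖p2 y‖ ≤ ‖y‖ := fun y => WithLp.norm_snd_le K y
  have d1 : δ 1 = 0 := by simpa using hd 1 1
  let Φ0 : A →ₗ[ℂ] (WithLp 2 (K × K) →L[ℂ] WithLp 2 (K × K)) :=
    { toFun := fun a => j1 ∘L α a ∘L p1 + j1 ∘L δ a ∘L p2 + j2 ∘L π a ∘L p2
      map_add' := fun a b => by
        simp only [map_add, ContinuousLinearMap.comp_add, ContinuousLinearMap.add_comp]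
        abel
      map_smul' := fun s a => by
        simp only [map_smul, ContinuousLinearMap.comp_smul, ContinuousLinearMap.smul_comp,
          smul_add, RingHom.id_apply] }
  have hΦ0 : ∀ a y, Φ0 a y = j1 (α a (p1 y)) + j1 (δ a (p2 y)) + j2 (π a (p2 y)) :=
    fun _ _ => rfl
  have b1 : ∀ a y, p1 (Φ0 a y) = α a (p1 y) + δ a (p2 y) := fun a y => by
    rw [hΦ0, map_add, map_add, a11, a11, a12, add_zero]
  have b2 : ∀ a y, p2 (Φ0 a y) = π a (p2 y) := fun a y => by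
    rw [hΦ0, map_add, map_add, a21, a21, a22, add_zero, zero_add]
  obtain ⟨S, hS⟩ := kadison (AlgHom.ofLinearMap Φ0
    (ContinuousLinearMap.ext fun y => ext2 _ _ (by simp [b1, d1]) (by simp [b2]))
    fun a b => ContinuousLinearMap.ext fun y => ext2 _ _ (by simp [b1, b2, hd, add_assoc])
      (by simp [b2])) 4 fun a => by
      refine ContinuousLinearMap.opNorm_le_bound _ (by positivity) fun y => ?_
      have c1 := ((α a).le_of_opNorm_le_of_le (hα a) (m1 y))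
      have c2 := ((δ a).le_of_opNorm_le_of_le (hδ a) (m2 y))
      have c3 := ((π a).le_of_opNorm_le_of_le (hπ a) (m2 y))
      rw [AlgHom.ofLinearMap_apply, hΦ0]
      refine norm_add₃_le.trans ?_
      rw [n1, n1, n2]
      linarith
  simp only [AlgHom.ofLinearMap_apply] at hS
  obtain ⟨T, T', hT, hT', hS⟩ : ∃ T T' : WithLp 2 (K × K) →L[ℂ] WithLp 2 (K × K),
      (∀ y, T (T' y) = y) ∧ (∀ y, T' (T y) = y) ∧
        ∀ a, T * Φ0 (star a) * T' = star (T * Φ0 a * T') :=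
    ⟨S, ↑S⁻¹, fun y => congrArg (fun R : _ →L[ℂ] _ => R y) S.mul_inv,
      fun y => congrArg (fun R : _ →L[ℂ] _ => R y) S.inv_mul, hS⟩
  let W : Submodule ℂ (WithLp 2 (K × K)) := (p2 ∘L T').ker
  have hW : ∀ y, y ∈ W ↔ p2 (T' y) = 0 := fun _ => Iff.rfl
  haveI : CompleteSpace W := (p2 ∘L T').isClosed_ker.completeSpace_coe
  have i1 : ∀ a, ∀ y ∈ W, T (Φ0 a (T' y)) ∈ W := fun a y hy => by
    rw [hW, hT', b2, (hW y).1 hy, map_zero]
  have i2 : ∀ a y, W.starProjection (T (Φ0 a (T' y))) = T (Φ0 a (T' (W.starProjection y))) := by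
    intro a y
    refine Submodule.eq_starProjection_of_mem_orthogonal (i1 a _ (W.starProjection_apply_mem y))
      ((Submodule.mem_orthogonal _ _).2 fun w hw => ?_)
    have c1 : T (Φ0 a (T' y)) - T (Φ0 a (T' (W.starProjection y))) =
        (T * Φ0 a * T') (y - W.starProjection y) := by rw [map_sub]; rfl
    rw [c1, ← ContinuousLinearMap.adjoint_inner_left, ← ContinuousLinearMap.star_eq_adjoint, ← hS]
    exact (Submodule.mem_orthogonal _ _).1 (W.sub_starProjection_mem_orthogonal y) _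
      (i1 (star a) w hw)
  refine ⟨p1 ∘L T' ∘L W.starProjection ∘L T ∘L j2, fun a => ContinuousLinearMap.ext fun η => ?_⟩
  have c1 := congrArg (fun y => p1 (T' y)) (i2 a (T (j2 η)))
  have c2 : W.starProjection (T (j1 (δ a η))) = T (j1 (δ a η)) :=
    Submodule.starProjection_eq_self_iff.2 (by rw [hW, hT', a21])
  simp only [hT'] at c1
  rw [b1, (hW _).1 (W.starProjection_apply_mem _), map_zero, add_zero, hΦ0, a12, a22, map_zero,
    map_zero, zero_add, map_add, map_add, c2, map_add, map_add, hT', a11] at c1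
  exact eq_sub_of_add_eq c1

variable {A K : ℕ → Type u} [∀ n, CStarAlgebra (A n)] [∀ n, NormedAddCommGroup (K n)]
  [∀ n, InnerProductSpace ℂ (K n)] [∀ n, CompleteSpace (K n)]

omit [∀ n, CompleteSpace (K n)] in
theorem dk_diag (T : ∀ n, A n →ₗ[ℂ] (K n →L[ℂ] K n)) {c : ℝ} (hc : 0 ≤ c)
    (hT : ∀ n a, ‖T n a‖ ≤ c * ‖a‖) : ∃ D : lp A ∞ →ₗ[ℂ] (lp K 2 →L[ℂ] lp K 2),
      (∀ a, ‖D a‖ ≤ c * ‖a‖) ∧ ∀ a y n, D a y n = T n (a n) (y n) := by
  have h : ∀ (a : lp A ∞) n, ‖T n (a n)‖ ≤ c * ‖a‖ := fun a n => (hT n _).trans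
    (mul_le_mul_of_nonneg_left (lp.norm_apply_le_norm ENNReal.top_ne_zero a n) hc)
  refine ⟨⟨⟨fun a => lp.mapCLM 2 (fun n => T n (a n)) (by positivity) (h a), fun a b => ?_⟩,
    fun s a => ?_⟩, fun a => lp.norm_mapCLM_le 2 _ (by positivity) (h a), fun _ _ _ => rfl⟩
  · ext1 y; ext1; funext n
    show T n (a n + b n) (y n) = T n (a n) (y n) + T n (b n) (y n)
    rw [map_add]; rfl
  · ext1 y; ext1; funext n
    show T n (s • a n) (y n) = s • T n (a n) (y n)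
    rw [map_smul]; rfl

theorem dk_family [∀ n, Nontrivial (A n)] (π α : ∀ n, A n →ₐ[ℂ] (K n →L[ℂ] K n))
    (δ : ∀ n, A n →ₗ[ℂ] (K n →L[ℂ] K n)) (hπ : ∀ n a, ‖π n a‖ ≤ 1 * ‖a‖)
    (hα : ∀ n a, ‖α n a‖ ≤ 2 * ‖a‖) (hd : ∀ n a b, δ n (a * b) = α n a * δ n b + δ n a * π n b)
    (hδ : ∀ n a, ‖δ n a‖ ≤ 1 * ‖a‖) :
    ∃ C : ℝ, ∀ n, ∃ X : K n →L[ℂ] K n, ‖X‖ ≤ C ∧ ∀ a, δ n a = α n a * X - X * π n a := by
  classical
  letI : CStarAlgebra (lp A ∞) := { }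
  have hom : ∀ (β : ∀ n, A n →ₐ[ℂ] (K n →L[ℂ] K n)) (c : ℝ), 0 ≤ c →
      (∀ n a, ‖β n a‖ ≤ c * ‖a‖) → ∃ D : lp A ∞ →ₐ[ℂ] (lp K 2 →L[ℂ] lp K 2),
        (∀ a, ‖D a‖ ≤ c * ‖a‖) ∧ ∀ a y n, D a y n = β n (a n) (y n) := by
    intro β c hc hβ
    obtain ⟨D, h1, h2⟩ := dk_diag (fun n => (β n).toLinearMap) hc hβ
    refine ⟨AlgHom.ofLinearMap D ?_ fun a b => ?_, h1, h2⟩
    · ext1 y; ext1; funext n
      rw [h2]
      show β n 1 (y n) = y n
      rw [map_one]; rfl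
    · ext1 y; ext1; funext n
      show D (a * b) y n = D a (D b y) n
      rw [h2, h2, h2]
      show β n (a n * b n) (y n) = β n (a n) (β n (b n) (y n))
      rw [map_mul]; rfl
  obtain ⟨P, p1, p2⟩ := hom π 1 zero_le_one hπ
  obtain ⟨Q, q1, q2⟩ := hom α 2 zero_le_two hα
  obtain ⟨D, d1, d2⟩ := dk_diag δ zero_le_one hδ
  obtain ⟨X, hX⟩ := dk_one P Q D p1 q1 (fun a b => by
    ext1 y; ext1; funext n
    show D (a * b) y n = Q a (D b y) n + D a (P b y) n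
    rw [d2, d2, q2, d2, p2]
    show δ n (a n * b n) (y n) = _
    rw [hd]; rfl) d1
  refine ⟨‖X‖, fun n => ⟨lp.evalCLM ℂ K 2 n ∘L X ∘L lp.singleContinuousLinearMap ℂ K 2 n,
    ContinuousLinearMap.opNorm_le_bound _ (norm_nonneg _) fun η => ?_, fun a => ?_⟩⟩
  · refine (lp.norm_apply_le_norm two_ne_zero (X (lp.single 2 n η)) n).trans ?_
    refine (X.le_opNorm _).trans (le_of_eq ?_)
    rw [lp.norm_single (by norm_num)]
  · ext1 η
    have c1 : D (lp.single ∞ n a) (lp.single 2 n η) n = Q (lp.single ∞ n a) (X (lp.single 2 n η)) n -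
        X (P (lp.single ∞ n a) (lp.single 2 n η)) n := by rw [hX]; rfl
    have c2 : P (lp.single ∞ n a) (lp.single 2 n η) = lp.single 2 n (π n a η) := by
      ext1; funext m
      rw [p2]
      by_cases h : m = n
      · subst h
        simp only [lp.single_apply_self]
      · simp only [lp.single_apply_ne _ _ _ h, map_zero]
    rw [d2, q2, c2, lp.single_apply_self, lp.single_apply_self] at c1
    exact c1

end Aux

theorem exists_dk : ∃ k : ℝ, 1 ≤ k ∧ ∀ (A : Type u) [CStarAlgebra A] (K : Type u)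
    [NormedAddCommGroup K] [InnerProductSpace ℂ K] [CompleteSpace K]
    (π : A →⋆ₐ[ℂ] (K →L[ℂ] K)) (α : A →ₐ[ℂ] (K →L[ℂ] K)) (δ : A →ₗ[ℂ] (K →L[ℂ] K)) (c : ℝ),
    0 ≤ c → (∀ a, ‖α a‖ ≤ 2 * ‖a‖) → (∀ a b, δ (a * b) = α a * δ b + δ a * π b) →
    (∀ a, ‖δ a‖ ≤ c * ‖a‖) → ∃ X : K →L[ℂ] K, ‖X‖ ≤ k * c ∧ ∀ a, δ a = α a * X - X * π a := by
  by_contra h
  push Not at h
  choose A iA K i1 i2 i3 π α δ c hc hα hd hδ hX using
    fun n : ℕ => h (n + 1) (le_add_of_nonneg_left (Nat.cast_nonneg n))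
  have h0 : ∀ n, ∃ a, δ n a ≠ 0 := fun n => by
    have hn := hc n
    simpa using hX n 0 (by rw [norm_zero]; positivity)
  have h1 : ∀ n, 0 < c n := fun n => (hc n).lt_of_ne fun h2 => by
    obtain ⟨a, ha⟩ := h0 n
    exact ha (norm_le_zero_iff.1 (by simpa [← h2] using hδ n a))
  haveI : ∀ n, Nontrivial (A n) := fun n => by
    obtain ⟨a, ha⟩ := h0 n
    exact ⟨a, 0, fun h2 => ha (by rw [h2, map_zero])⟩
  obtain ⟨C, hC⟩ := dk_family (fun n => (π n : A n →ₐ[ℂ] (K n →L[ℂ] K n))) α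
    (fun n => ((c n : ℂ)⁻¹) • δ n)
    (fun n a => by simpa using NonUnitalStarAlgHom.norm_apply_le (π n) a) hα
    (fun n a b => by simp [hd]) fun n a => by
      rw [LinearMap.smul_apply, norm_smul, norm_inv, Complex.norm_real, Real.norm_of_nonneg (hc n),
        inv_mul_le_iff₀ (h1 n), one_mul]
      exact hδ n a
  obtain ⟨n, hn⟩ := exists_nat_ge C
  obtain ⟨X, x1, x2⟩ := hC n
  obtain ⟨a, ha⟩ := hX n ((c n : ℂ) • X) (by
    rw [norm_smul, Complex.norm_real, Real.norm_of_nonneg (hc n), mul_comm]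
    exact mul_le_mul_of_nonneg_right (by linarith) (hc n))
  refine ha ?_
  have h2 : (c n : ℂ) ≠ 0 := Complex.ofReal_ne_zero.2 (h1 n).ne'
  rw [mul_smul_comm, smul_mul_assoc, ← smul_sub]
  exact (inv_smul_eq_iff₀ h2).1 (x2 a)

/-- The universal constant. -/
noncomputable def dk : ℝ := exists_dk.{u}.choose

theorem one_le_dk : 1 ≤ dk.{u} := exists_dk.{u}.choose_spec.1

variable {K : Type u} [NormedAddCommGroup K] [InnerProductSpace ℂ K] [CompleteSpace K]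
  {N M : VonNeumannAlgebra K} {γ c : ℝ}

theorem dist_comm_rep {A : Type u} [CStarAlgebra A] (π : A →⋆ₐ[ℂ] (K →L[ℂ] K)) (T : K →L[ℂ] K)
    (hc : 0 ≤ c) (h : ∀ a, ‖T * π a - π a * T‖ ≤ c * ‖a‖) :
    ∃ S : K →L[ℂ] K, (∀ a, π a * S = S * π a) ∧ ‖T - S‖ ≤ dk.{u} * c := by
  obtain ⟨X, x1, x2⟩ := exists_dk.{u}.choose_spec.2 A K π π
    ((LinearMap.mulRight ℂ T - LinearMap.mulLeft ℂ T).comp (π : A →ₐ[ℂ] (K →L[ℂ] K)).toLinearMap) c hc
    (fun a => (NonUnitalStarAlgHom.norm_apply_le π a).trans (by linarith [norm_nonneg a]))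
    (fun a b => by
      show π (a * b) * T - T * π (a * b) = π a * (π b * T - T * π b) + (π a * T - T * π a) * π b
      rw [map_mul]
      noncomm_ring)
    fun a => by
      show ‖π a * T - T * π a‖ ≤ _
      rw [norm_sub_rev]
      exact h a
  refine ⟨T - X, fun a => ?_, by rwa [sub_sub_cancel]⟩
  have h1 : π a * T - T * π a = π a * X - X * π a := x2 a
  rw [mul_sub, sub_mul, sub_eq_sub_iff_sub_eq_sub, h1]

theorem dist_comm_vn (N : VonNeumannAlgebra K) (T : K →L[ℂ] K) (hc : 0 ≤ c)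
    (h : ∀ x ∈ N, ‖T * x - x * T‖ ≤ c * ‖x‖) : ∃ S ∈ N.commutant, ‖T - S‖ ≤ dk.{u} * c := by
  haveI : IsClosed (N.toStarSubalgebra : Set (K →L[ℂ] K)) := vn_closed N
  obtain ⟨S, s1, s2⟩ := dist_comm_rep N.toStarSubalgebra.subtype T hc fun a => h a a.2
  exact ⟨S, VonNeumannAlgebra.mem_commutant_iff.2 fun x hx => s1 ⟨x, hx⟩, s2⟩

theorem dist_vn (N : VonNeumannAlgebra K) (T : K →L[ℂ] K) (hc : 0 ≤ c)
    (h : ∀ y ∈ N.commutant, ‖T * y - y * T‖ ≤ c * ‖y‖) : ∃ S ∈ N, ‖T - S‖ ≤ dk.{u} * c := by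
  simpa only [N.commutant_commutant] using dist_comm_vn N.commutant T hc h

theorem near_vnc {A : Type u} [CStarAlgebra A] (π : A →⋆ₐ[ℂ] (K →L[ℂ] K))
    {B : Set (K →L[ℂ] K)} (hγ : 0 ≤ γ) (h : ∀ a, ∃ y ∈ B, ‖π a - y‖ ≤ γ * ‖a‖) :
    Near (2 * dk.{u} * γ) (vnc B : Set (K →L[ℂ] K)) (vnc (Set.range π)) := by
  intro T hT
  obtain ⟨S, s1, s2⟩ := dist_comm_rep π T (c := 2 * γ * ‖T‖) (by positivity) fun a => by
    obtain ⟨y, y1, y2⟩ := h a
    have e : T * π a - π a * T = T * (π a - y) - (π a - y) * T := by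
      rw [mul_sub, sub_mul, (mem_vnc.1 hT y y1).1]
      abel
    have c1 := (norm_mul_le T (π a - y)).trans (mul_le_mul_of_nonneg_left y2 (norm_nonneg T))
    have c2 := (norm_mul_le (π a - y) T).trans (mul_le_mul_of_nonneg_right y2 (norm_nonneg T))
    rw [e]
    linarith [norm_sub_le (T * (π a - y)) ((π a - y) * T)]
  refine ⟨S, mem_vnc.2 ?_, s2.trans (le_of_eq (by ring))⟩
  rintro _ ⟨a, rfl⟩
  exact ⟨s1 a, by rw [← map_star]; exact s1 _⟩

theorem dk_near_image {L : Type u} [NormedAddCommGroup L] [InnerProductSpace ℂ L]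
    [CompleteSpace L] (d : (K →L[ℂ] K) →⋆ₐ[ℂ] (L →L[ℂ] L))
    (h : Near γ (N : Set (K →L[ℂ] K)) M) (hγ : 0 ≤ γ) :
    Near (2 * dk.{u} * γ) (vnc (d '' (M : Set (K →L[ℂ] K))) : Set (L →L[ℂ] L))
      (vnc (d '' (N : Set (K →L[ℂ] K)))) := by
  haveI : IsClosed (N.toStarSubalgebra : Set (K →L[ℂ] K)) := vn_closed N
  have e : Set.range (d.comp N.toStarSubalgebra.subtype) = d '' (N : Set (K →L[ℂ] K)) :=
    Set.ext fun x => ⟨fun ⟨a, ha⟩ => ⟨a, a.2, ha⟩, fun ⟨a, ha, hx⟩ => ⟨⟨a, ha⟩, hx⟩⟩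
  rw [← e]
  refine near_vnc _ hγ fun a => ?_
  obtain ⟨y, y1, y2⟩ := h a a.2
  refine ⟨d y, ⟨y, y1, rfl⟩, le_trans ?_ y2⟩
  show ‖d a - d y‖ ≤ _
  rw [← map_sub]
  exact NonUnitalStarAlgHom.norm_apply_le d _

theorem dk_near_comm (h : Near γ (N : Set (K →L[ℂ] K)) M) (hγ : 0 ≤ γ) :
    Near (2 * dk.{u} * γ) (M.commutant : Set (K →L[ℂ] K)) N.commutant := by
  have e : ∀ R : VonNeumannAlgebra K,
      vnc (StarAlgHom.id ℂ (K →L[ℂ] K) '' (R : Set (K →L[ℂ] K))) = R.commutant := fun R => by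
    ext x
    rw [StarAlgHom.coe_id, Set.image_id, mem_vnc' fun y hy => star_mem hy,
      VonNeumannAlgebra.mem_commutant_iff]
    rfl
  rw [← e, ← e]
  exact dk_near_image _ h hγ

theorem Close.commutant (h : Close γ N M) (hγ : 0 ≤ γ) :
    Close (2 * dk.{u} * γ) N.commutant M.commutant := by
  exact ⟨dk_near_comm h.2 hγ, dk_near_comm h.1 hγ⟩

/-- Commutants of the images of close algebras under a star homomorphism are close. -/
theorem close_vnc_image {L : Type u} [NormedAddCommGroup L] [InnerProductSpace ℂ L]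
    [CompleteSpace L] (d : (K →L[ℂ] K) →⋆ₐ[ℂ] (L →L[ℂ] L)) (h : Close γ N M) (hγ : 0 ≤ γ) :
    Close (2 * dk.{u} * γ) (vnc (d '' (N : Set (K →L[ℂ] K)))) (vnc (d '' (M : Set (K →L[ℂ] K)))) := by
  exact ⟨dk_near_image d h.2 hγ, dk_near_image d h.1 hγ⟩

/-- A homomorphism close to the inclusion is implemented by an operator close to one. -/
theorem hom_impl (N : VonNeumannAlgebra K) (α : (K →L[ℂ] K) → (K →L[ℂ] K)) (hl : LinOn N α)
    (h1 : α 1 = 1) (hm : ∀ x ∈ N, ∀ y ∈ N, α (x * y) = α x * α y) (hc : 0 ≤ c) (hc1 : c ≤ 1)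
    (h : ∀ x ∈ N, ‖α x - x‖ ≤ c * ‖x‖) :
    ∃ W : K →L[ℂ] K, ‖W - 1‖ ≤ dk.{u} * c ∧ ∀ x ∈ N, α x * W = W * x := by
  haveI : IsClosed (N.toStarSubalgebra : Set (K →L[ℂ] K)) := vn_closed N
  let α0 : N.toStarSubalgebra →ₗ[ℂ] (K →L[ℂ] K) :=
    { toFun := fun x => α x
      map_add' := fun x y => hl.1 x x.2 y y.2
      map_smul' := fun s x => hl.2 s x x.2 }
  obtain ⟨X, x1, x2⟩ := exists_dk.{u}.choose_spec.2 N.toStarSubalgebra K N.toStarSubalgebra.subtype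
    (AlgHom.ofLinearMap α0 h1 fun x y => hm x x.2 y y.2)
    (α0 - N.toStarSubalgebra.toSubalgebra.val.toLinearMap) c hc
    (fun a => by
      have c1 := h a a.2
      have c2 := norm_le_norm_sub_add (α a) a
      have c3 := mul_le_mul_of_nonneg_right hc1 (norm_nonneg (a : K →L[ℂ] K))
      show ‖α a‖ ≤ 2 * ‖(a : K →L[ℂ] K)‖
      linarith)
    (fun a b => by
      show α (a * b) - a * b = α a * (α b - b) + (α a - a) * b
      rw [hm a a.2 b b.2]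
      noncomm_ring) fun a => h a a.2
  refine ⟨1 - X, by rwa [sub_sub_cancel_left, norm_neg], fun x hx => ?_⟩
  have c1 : α x - x = α x * X - X * x := x2 ⟨x, hx⟩
  rw [mul_sub, sub_mul, mul_one, one_mul, sub_eq_sub_iff_sub_eq_sub, c1]

end Vale.Agent.P096
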