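import Vale.Agent.P096.Red
import Vale.Agent.P096.Dk

/-! Passing to the standard corner of a vector. -/

open scoped InnerProductSpace Topology
open Filter

namespace Vale.Agent.P096

open Vale.Agent.P104 Vale.Agent.P132

universe u v w

/-- The corner of `N` cut out by the vector `ξ`. -/
structure Cor {K L : Type*} [NormedAddCommGroup K] [InnerProductSpace ℂ K] [CompleteSpace K]
    [NormedAddCommGroup L] [InnerProductSpace ℂ L] [CompleteSpace L] (N : VonNeumannAlgebra L)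
    (ξ : L) (e p : L →L[ℂ] L) (V : K →L[ℂ] L) (N₁ : VonNeumannAlgebra K) : Prop where
  e_proj : IsStarProjection e
  e_mem : e ∈ N
  e_fix : ∀ y ∈ N.commutant, e (y ξ) = y ξ
  e_min : ∀ x ∈ N, x ξ = 0 → x * e = 0
  p_proj : IsStarProjection p
  p_mem : p ∈ N.commutant
  p_fix : ∀ x ∈ N, p (x ξ) = x ξ
  p_min : ∀ y ∈ N.commutant, y ξ = 0 → y * p = 0
  iso : Iso V (e * p)
  mem : ∀ x₁, x₁ ∈ N₁ ↔ ∃ x ∈ N, cmpr V x = x₁
  mem' : ∀ y₁, y₁ ∈ N₁.commutant ↔ ∃ y ∈ N.commutant, cmpr V y = y₁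
  cyc : Cyc N₁ (ContinuousLinearMap.adjoint V ξ)
  sep : Sep N₁ (ContinuousLinearMap.adjoint V ξ)

section CorAux

variable {K L : Type*} [NormedAddCommGroup K] [InnerProductSpace ℂ K] [CompleteSpace K]
  [NormedAddCommGroup L] [InnerProductSpace ℂ L] [CompleteSpace L]
  {N M : VonNeumannAlgebra L} {ξ : L} {e p f q : L →L[ℂ] L} {V : K →L[ℂ] L}
  {N₁ M₁ : VonNeumannAlgebra K} {β γ ε : ℝ}

theorem cor_norm_le (he : IsStarProjection e) (x : L →L[ℂ] L) : ‖e * x * e‖ ≤ ‖x‖ := by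
  calc ‖e * x * e‖ ≤ ‖e‖ * ‖x‖ * ‖e‖ := norm_mul₃_le
    _ ≤ 1 * ‖x‖ * 1 := by gcongr <;> exact he.norm_le
    _ = ‖x‖ := by ring

theorem cor_norm_diff (he : IsStarProjection e) (hf : IsStarProjection f) (h : ‖e - f‖ ≤ β)
    (x : L →L[ℂ] L) : ‖e * x * e - f * x * f‖ ≤ 2 * β * ‖x‖ := by
  have h0 : 0 ≤ β := (norm_nonneg _).trans h
  have e1 : e * x * e - f * x * f = (e - f) * x * e + f * x * (e - f) := by noncomm_ring
  have a1 : ‖(e - f) * x * e‖ ≤ β * ‖x‖ * 1 := norm_mul₃_le.trans (by gcongr; exact he.norm_le)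
  have a2 : ‖f * x * (e - f)‖ ≤ 1 * ‖x‖ * β := norm_mul₃_le.trans (by gcongr; exact hf.norm_le)
  rw [e1]
  linarith [norm_add_le ((e - f) * x * e) (f * x * (e - f))]

theorem cor_idem (he : IsStarProjection e) (x : L →L[ℂ] L) : e * (e * x * e) * e = e * x * e := by
  rw [← mul_assoc, ← mul_assoc, he.isIdempotentElem.eq, mul_assoc _ e, he.isIdempotentElem.eq]

theorem cor_cmpr (hV : Iso V (f * q)) (hf : IsStarProjection f) (hc : Commute f q)
    (x : L →L[ℂ] L) : cmpr V (f * x * f) = cmpr V x := by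
  have h1 : f * (f * q) = f * q := by rw [← mul_assoc, hf.isIdempotentElem.eq]
  have h2 : f * q * f = f * q := by rw [mul_assoc, ← hc.eq, h1]
  rw [← hV.cmpr_proj, mul_assoc (f * q), mul_assoc _ f, h1, mul_assoc f x, ← mul_assoc (f * q),
    h2, ← mul_assoc, hV.cmpr_proj]

theorem cor_liftTo_cj {u : L →L[ℂ] L} (hu : u ∈ unitary (L →L[ℂ] L)) (hε : ‖u - 1‖ ≤ ε)
    {a : (L →L[ℂ] L) → (L →L[ℂ] L)} (h : LiftTo γ N (cj u M) a) (ha : ∀ x ∈ N, ‖a x‖ ≤ ‖x‖) :
    LiftTo (γ + 2 * ε) N M a := by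
  obtain ⟨θ, hl, hθ⟩ := h
  have h0 : 0 ≤ ε := (norm_nonneg _).trans hε
  refine ⟨fun x => star u * θ x * u, ⟨fun x hx y hy => ?_, fun c x hx => ?_⟩, fun x hx => ?_⟩
  · show star u * θ (x + y) * u = star u * θ x * u + star u * θ y * u
    rw [hl.1 x hx y hy, mul_add, add_mul]
  · show star u * θ (c • x) * u = c • (star u * θ x * u)
    rw [hl.2 c x hx, mul_smul_comm, smul_mul_assoc]
  · obtain ⟨hm, hd⟩ := hθ x hx
    refine ⟨(mem_cj hu).1 hm, ?_⟩
    have a1 := bas_conj_near (Unitary.star_mem hu) (bas_star_near hε) (a x)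
    rw [star_star] at a1
    have a2 : ‖star u * θ x * u - star u * a x * u‖ = ‖θ x - a x‖ := by
      rw [← sub_mul, ← mul_sub, CStarRing.norm_mul_mem_unitary _ hu,
        CStarRing.norm_mem_unitary_mul _ (Unitary.star_mem hu)]
    have a3 := norm_sub_le_norm_sub_add_norm_sub (star u * θ x * u) (star u * a x * u) (a x)
    have a4 := mul_le_mul_of_nonneg_left (ha x hx) h0
    show ‖star u * θ x * u - a x‖ ≤ _
    linarith

theorem cor_core (hc : Cor N ξ e p V N₁) (hn : ∀ x ∈ N, ‖e * x * e‖ ≤ ‖cmpr V x‖)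
    (h : Close β N M) (h0 : 0 ≤ β) (h1 : β ≤ 1 / 8) (hf : IsStarProjection f) (hfM : f ∈ M)
    (hfq : Commute f q) (_hq : IsStarProjection q) (hprod : f * q = e * p) (hef : ‖e - f‖ ≤ β)
    (hM₁ : ∀ y₁, y₁ ∈ M₁ ↔ ∃ y ∈ M, cmpr V y = y₁) : Close (2 * β) N₁ M₁ ∧
      ∀ γ : ℝ, 0 ≤ γ → Lift γ N₁ M₁ → LiftTo (2 * γ + 5 * β) N M fun x => e * x * e := by
  have he := hc.e_proj
  have hV1 := hc.iso.opNorm_le
  have ce : ∀ x, cmpr V (e * x * e) = cmpr V x :=
    cor_cmpr hc.iso he (commute_of_mem N hc.p_mem hc.e_mem).symm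
  have cf : ∀ x, cmpr V (f * x * f) = cmpr V x := cor_cmpr (hprod.symm ▸ hc.iso) hf hfq
  have hN : ∀ x ∈ N, e * x * e ∈ N := fun x hx => mul_mem (mul_mem hc.e_mem hx) hc.e_mem
  have hM : ∀ y ∈ M, f * y * f ∈ M := fun y hy => mul_mem (mul_mem hfM hy) hfM
  have hn' : ∀ y ∈ M, ‖f * y * f‖ ≤ 2 * ‖cmpr V y‖ := fun y hy => by
    obtain ⟨x, hx, hd⟩ := h.2 _ (hM y hy)
    rw [← cf y]
    have a0 := cor_idem hf y
    generalize f * y * f = z at hd a0 ⊢
    have a1 := hn x hx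
    have a2 := norm_cmpr_le hV1 (z - x)
    have a3 := norm_sub_norm_le (cmpr V x) (cmpr V z)
    rw [cmpr_sub, norm_sub_rev] at a2
    have a4 := cor_norm_diff he hf hef z
    have a5 := cor_norm_le he (z - x)
    rw [mul_sub, sub_mul] at a5
    rw [a0, norm_sub_rev] at a4
    have a6 := norm_sub_norm_le z (e * z * e)
    have a7 := norm_sub_norm_le (e * z * e) (e * x * e)
    nlinarith [norm_nonneg z]
  refine ⟨⟨fun x₁ hx₁ => ?_, fun y₁ hy₁ => ?_⟩, fun γ hγ hl => ?_⟩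
  · obtain ⟨x, hx, rfl⟩ := (hc.mem x₁).1 hx₁
    obtain ⟨y, hy, hd⟩ := h.1 _ (hN x hx)
    refine ⟨cmpr V y, (hM₁ _).2 ⟨y, hy, rfl⟩, ?_⟩
    have a1 := norm_cmpr_le hV1 (e * x * e - y)
    rw [cmpr_sub, ce] at a1
    nlinarith [hn x hx, norm_nonneg (cmpr V x)]
  · obtain ⟨y, hy, rfl⟩ := (hM₁ y₁).1 hy₁
    obtain ⟨x, hx, hd⟩ := h.2 _ (hM y hy)
    refine ⟨cmpr V x, (hc.mem _).2 ⟨x, hx, rfl⟩, ?_⟩
    have a1 := norm_cmpr_le hV1 (f * y * f - x)
    rw [cmpr_sub, cf] at a1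
    nlinarith [hn' y hy]
  · obtain ⟨θ, hl, hθ⟩ := hl
    have hx₁ : ∀ x ∈ N, cmpr V x ∈ N₁ := fun x hx => (hc.mem _).2 ⟨x, hx, rfl⟩
    have ht : ∀ x : L →L[ℂ] L, ∃ y : L →L[ℂ] L, x ∈ N →
        y ∈ M ∧ f * y * f = y ∧ cmpr V y = θ (cmpr V x) := fun x => by
      by_cases hx : x ∈ N
      · obtain ⟨y, hy, e1⟩ := (hM₁ _).1 (hθ _ (hx₁ x hx)).1
        exact ⟨f * y * f, fun _ => ⟨hM y hy, cor_idem hf y, (cf y).trans e1⟩⟩
      · exact ⟨0, fun h' => absurd h' hx⟩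
    choose τ hτ using ht
    have inj : ∀ y ∈ M, ∀ y' ∈ M, f * y * f = y → f * y' * f = y' →
        ‖y - y'‖ ≤ 2 * ‖cmpr V y - cmpr V y'‖ := fun y hy y' hy' e1 e2 => by
      have := hn' _ (sub_mem hy hy')
      rwa [mul_sub, sub_mul, e1, e2, cmpr_sub] at this
    have inj' : ∀ y ∈ M, ∀ y' ∈ M, f * y * f = y → f * y' * f = y' →
        cmpr V y = cmpr V y' → y = y' := fun y hy y' hy' e1 e2 e3 => by
      have := inj y hy y' hy' e1 e2
      rw [e3, sub_self, norm_zero, mul_zero] at this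
      exact sub_eq_zero.1 (norm_le_zero_iff.1 this)
    refine ⟨τ, ⟨fun x hx y hy => ?_, fun c x hx => ?_⟩, fun x hx => ⟨(hτ x hx).1, ?_⟩⟩
    · obtain ⟨a1, a2, a3⟩ := hτ x hx
      obtain ⟨b1, b2, b3⟩ := hτ y hy
      obtain ⟨c1, c2, c3⟩ := hτ _ (add_mem hx hy)
      refine inj' _ c1 _ (add_mem a1 b1) c2 (by rw [mul_add, add_mul, a2, b2]) ?_
      rw [c3, cmpr_add, cmpr_add, a3, b3, hl.1 _ (hx₁ x hx) _ (hx₁ y hy)]
    · obtain ⟨a1, a2, a3⟩ := hτ x hx
      obtain ⟨c1, c2, c3⟩ := hτ _ (vn_smul c hx)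
      refine inj' _ c1 _ (vn_smul c a1) c2 (by rw [mul_smul_comm, smul_mul_assoc, a2]) ?_
      rw [c3, cmpr_smul, cmpr_smul, a3, hl.2 c _ (hx₁ x hx)]
    · obtain ⟨a1, a2, a3⟩ := hτ x hx
      obtain ⟨y, hy, hd⟩ := h.1 _ (hN x hx)
      have b0 := cor_norm_le he x
      have b1 := inj _ a1 _ (hM y hy) a2 (cor_idem hf y)
      rw [a3, cf] at b1
      have b2 : ‖θ (cmpr V x) - cmpr V x‖ ≤ γ * ‖x‖ := (hθ _ (hx₁ x hx)).2.trans
        (mul_le_mul_of_nonneg_left (norm_cmpr_le hV1 x) hγ)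
      have b3 := norm_cmpr_le hV1 (e * x * e - y)
      rw [cmpr_sub, ce] at b3
      have b4 := norm_sub_le_norm_sub_add_norm_sub (θ (cmpr V x)) (cmpr V x) (cmpr V y)
      have b5 := cor_norm_le hf (e * x * e - y)
      rw [mul_sub, sub_mul, norm_sub_rev] at b5
      have b6 := cor_norm_diff he hf hef (e * x * e)
      rw [cor_idem he, norm_sub_rev] at b6
      have b7 := norm_sub_le_norm_sub_add_norm_sub (τ x) (f * y * f) (e * x * e)
      have b8 := norm_sub_le_norm_sub_add_norm_sub (f * y * f) (f * (e * x * e) * f) (e * x * e)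
      have b9 := mul_le_mul_of_nonneg_left b0 h0
      show ‖τ x - e * x * e‖ ≤ _
      linarith

end CorAux

theorem cor_exists {L : Type u} [NormedAddCommGroup L] [InnerProductSpace ℂ L] [CompleteSpace L]
    (N : VonNeumannAlgebra L) (ξ : L) :
    ∃ (K : Type u) (_ : NormedAddCommGroup K) (_ : InnerProductSpace ℂ K) (_ : CompleteSpace K)
      (e p : L →L[ℂ] L) (V : K →L[ℂ] L) (N₁ : VonNeumannAlgebra K), Cor N ξ e p V N₁ ∧
      ∀ x ∈ N, ‖e * x * e‖ ≤ ‖cmpr V x‖ := by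
  obtain ⟨e, heN, he, e1, e2, e3⟩ := exists_supp N ξ
  obtain ⟨p, hpN, hp, p1, p2, p3⟩ := exists_supp N.commutant ξ
  rw [N.commutant_commutant] at p1 p3
  have hc : Commute e p := (commute_of_mem N hpN heN).symm
  obtain ⟨K, i1, i2, i3, V, hV⟩ := exists_iso (he.mul hp hc)
  obtain ⟨N₁, h1, h2⟩ := exists_red N he heN hp hpN hV
  have hξ : V (ContinuousLinearMap.adjoint V ξ) = ξ := by
    rw [hV.right]
    show e (p ξ) = ξ
    rw [show p ξ = ξ from p1 1 (one_mem _)]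
    exact e1 1 (one_mem _)
  have hx : ∀ x, cmpr V x (ContinuousLinearMap.adjoint V ξ) =
      ContinuousLinearMap.adjoint V (x ξ) := fun x => by rw [cmpr_apply, hξ]
  refine ⟨K, i1, i2, i3, e, p, V, N₁, ⟨he, heN, e1, e2, hp, hpN, p1, p2, hV, h1, h2, ?_, ?_⟩,
    fun x hxN => ?_⟩
  · intro η ε hε
    obtain ⟨x, hxN, hd⟩ := p3 (V η) ε hε
    refine ⟨cmpr V x, (h1 _).2 ⟨x, hxN, rfl⟩, ?_⟩
    have a1 : ContinuousLinearMap.adjoint V (p (V η)) = η := by
      rw [← hV.adj_proj, ← mul_apply_eq_comp, mul_assoc, hp.isIdempotentElem.eq, hV.proj_apply,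
        hV.left]
    rw [hx, ← a1, ← map_sub, hV.norm_adj]
    exact (proj_norm_apply_le (he.mul hp hc) _).trans hd
  · intro x₁ hx₁ h0
    obtain ⟨x, hxN, rfl⟩ := (h1 x₁).1 hx₁
    have a1 := hV.norm_adj (x ξ)
    rw [← hx, h0, norm_zero, mul_apply_eq_comp, p1 x hxN] at a1
    have a2 := e2 _ (mul_mem heN hxN) (norm_eq_zero.1 a1.symm)
    rw [← cor_cmpr hV he hc, a2]
    ext η
    simp [cmpr_apply]
  · have hx' : e * x * e ∈ N := mul_mem (mul_mem heN hxN) heN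
    have hpp : ∀ ζ, p (p ζ) = p ζ := fun ζ =>
      congrArg (fun T : L →L[ℂ] L => T ζ) hp.isIdempotentElem.eq
    have hcm : ∀ z ∈ N, ∀ ζ, p (z ζ) = z (p ζ) := fun z hz ζ =>
      congrArg (fun T : L →L[ℂ] L => T ζ) (commute_of_mem N hpN hz).eq
    have a1 := norm_le_on_orbit (ξ := ξ) hx' (Z := {ζ | p ζ = ζ}) (p1 1 (one_mem _))
      (fun ζ hζ => (hcm _ hx' ζ).trans (congrArg _ hζ))
      (fun ζ hζ => (hcm _ (star_mem hx') ζ).trans (congrArg _ hζ)) (norm_nonneg (cmpr V x))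
      (fun ζ hζ => by
        have b1 : (e * x * e) ζ = (e * p * x * (e * p)) ζ := by
          show e (x (e ζ)) = e (p (x (e (p ζ))))
          rw [hcm x hxN, hcm e heN, hpp, hζ]
        rw [b1, hV.norm_cmpr]
        exact ContinuousLinearMap.le_opNorm _ _)
    refine ContinuousLinearMap.opNorm_le_bound _ (norm_nonneg _) fun η => ?_
    have a2 : e η ∈ closure {ζ | ‖(e * x * e) ζ‖ ≤ ‖cmpr V x‖ * ‖ζ‖} :=
      Metric.mem_closure_iff.2 fun δ hδ => by
        obtain ⟨y, hy, hd⟩ := e3 η (δ / 2) (half_pos hδ)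
        exact ⟨y ξ, a1 y hy, by rw [dist_eq_norm]; linarith⟩
    have a3 := (isClosed_le (by fun_prop) (by fun_prop)).closure_subset a2
    have a4 : (e * x * e) (e η) = (e * x * e) η := by
      rw [← mul_apply_eq_comp, mul_assoc, he.isIdempotentElem.eq]
    rw [Set.mem_ofPred_eq, a4] at a3
    exact a3.trans (mul_le_mul_of_nonneg_left (proj_norm_apply_le he η) (norm_nonneg _))

theorem corner (ε : ℝ) (hε : 0 < ε) : ∃ δ : ℝ, 0 < δ ∧ ∀ (L : Type u) [NormedAddCommGroup L]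
    [InnerProductSpace ℂ L] [CompleteSpace L] (N M : VonNeumannAlgebra L) (ξ : L), Close δ N M →
    ∃ (K : Type u) (_ : NormedAddCommGroup K) (_ : InnerProductSpace ℂ K) (_ : CompleteSpace K)
      (e p : L →L[ℂ] L) (V : K →L[ℂ] L) (N₁ M₁ : VonNeumannAlgebra K), Cor N ξ e p V N₁ ∧
      Close ε N₁ M₁ ∧
      ∀ γ : ℝ, 0 ≤ γ → Lift γ N₁ M₁ → LiftTo (2 * γ + ε) N M fun x => e * x * e := by
  have hk := one_le_dk.{u}
  obtain ⟨β, hβ⟩ : ∃ β, β = min ε 1 / 5000 := ⟨_, rfl⟩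
  have b0 : 0 < β := by rw [hβ]; positivity
  have b1 : 5000 * β ≤ ε := by rw [hβ]; linarith [min_le_left ε 1]
  have b2 : 5000 * β ≤ 1 := by rw [hβ]; linarith [min_le_right ε 1]
  have hd : 0 < β / (2 * dk.{u}) := by positivity
  refine ⟨β / (2 * dk.{u}), hd, fun L _ _ _ N M ξ h => ?_⟩
  have h' : Close β N.commutant M.commutant :=
    (h.commutant hd.le).mono (le_of_eq (by field_simp))
  replace h : Close β N M := h.mono (div_le_self b0.le (by linarith))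
  obtain ⟨K, i1, i2, i3, e, p, V, N₁, hc, hn⟩ := cor_exists N ξ
  have near : ∀ {A B : VonNeumannAlgebra L} {a : L →L[ℂ] L}, Close β A B → a ∈ A →
      IsStarProjection a → ∃ b ∈ B, IsStarProjection b ∧ ‖a - b‖ ≤ 4 * β := by
    intro A B a hAB ha hp
    obtain ⟨y, hy, hd⟩ := hAB.1 a ha
    exact exists_proj_near hp hy (hd.trans (mul_le_of_le_one_right b0.le hp.norm_le))
      (by linarith)
  obtain ⟨f, hfM, hf, hef⟩ := near h hc.e_mem hc.e_proj
  obtain ⟨q, hqM, hq, hpq⟩ := near h' hc.p_mem hc.p_proj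
  have hep : IsStarProjection (e * p) :=
    hc.e_proj.mul hc.p_proj (commute_of_mem N hc.p_mem hc.e_mem).symm
  have hfq : IsStarProjection (f * q) := hf.mul hq (commute_of_mem M hqM hfM).symm
  have hd2 : ‖e * p - f * q‖ ≤ 8 * β := by
    have e1 : e * p - f * q = (e - f) * p + f * (p - q) := by noncomm_ring
    have a1 : ‖(e - f) * p‖ ≤ 4 * β * 1 := (norm_mul_le _ _).trans
      (mul_le_mul hef hc.p_proj.norm_le (norm_nonneg _) (by linarith))
    have a2 : ‖f * (p - q)‖ ≤ 1 * (4 * β) := (norm_mul_le _ _).trans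
      (mul_le_mul hf.norm_le hpq (norm_nonneg _) zero_le_one)
    rw [e1]
    linarith [norm_add_le ((e - f) * p) (f * (p - q))]
  obtain ⟨u, hu, hu1, hu2⟩ := exists_conj_proj hep hfq hd2 (by linarith)
  have u1 : star u * u = 1 := Unitary.star_mul_self_of_mem hu
  have back : ∀ a : L →L[ℂ] L, star u * (u * a * star u) * u = a := fun a => by
    rw [← mul_assoc, ← mul_assoc, u1, one_mul, mul_assoc, u1, mul_one]
  have cmul : ∀ a b : L →L[ℂ] L, u * a * star u * (u * b * star u) = u * (a * b) * star u :=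
    fun a b => by
      calc u * a * star u * (u * b * star u) = u * a * (star u * u) * b * star u := by
            simp only [mul_assoc]
        _ = _ := by rw [u1, mul_one, mul_assoc u]
  have cproj : ∀ a : L →L[ℂ] L, IsStarProjection a → IsStarProjection (u * a * star u) :=
    fun a ha => ⟨(cmul a a).trans (by rw [ha.isIdempotentElem.eq]), by
      rw [IsSelfAdjoint, star_mul, star_mul, star_star, ha.isSelfAdjoint.star_eq, mul_assoc]⟩
  have hfM' : u * f * star u ∈ cj u M := by rw [mem_cj hu, back]; exact hfM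
  have hqM' : u * q * star u ∈ (cj u M).commutant := by
    rw [cj_commutant hu, mem_cj hu, back]; exact hqM
  have hprod : u * f * star u * (u * q * star u) = e * p := by rw [cmul, hu2]
  have hef' : ‖e - u * f * star u‖ ≤ 513 * β := by
    have a1 := bas_conj_near hu hu1 f
    have a2 := norm_sub_le_norm_sub_add_norm_sub e f (u * f * star u)
    rw [norm_sub_rev f] at a2
    nlinarith [hf.norm_le]
  obtain ⟨M₁, hM₁, -⟩ := exists_red (cj u M) (cproj f hf) hfM' (cproj q hq) hqM'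
    (hprod.symm ▸ hc.iso)
  have hcl : Close (513 * β) N (cj u M) := (h.cj hu hu1 (by linarith)).mono (by linarith)
  obtain ⟨r1, r2⟩ := cor_core hc hn hcl (by linarith) (by linarith) (cproj f hf) hfM'
    (commute_of_mem _ hqM' hfM').symm (cproj q hq) hprod hef' hM₁
  refine ⟨K, i1, i2, i3, e, p, V, N₁, M₁, hc, r1.mono (by linarith), fun γ hγ hl => ?_⟩
  exact (cor_liftTo_cj hu hu1 (r2 γ hγ hl) fun x _ => cor_norm_le hc.e_proj x).mono (by linarith)

theorem kk5_of_kk6 (h : KK.{u} P6) : KK.{u} P5 := by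
  intro ε hε
  obtain ⟨δ₁, hδ₁, h⟩ := h (ε / 3) (by positivity)
  obtain ⟨δ, hδ, hc⟩ := corner.{u} (min δ₁ (ε / 3)) (by positivity)
  refine ⟨δ, hδ, fun L _ _ _ N M hP hNM => ?_⟩
  obtain ⟨ξ, hs, ht, a, b, ha, hb, hab, hm⟩ := hP
  obtain ⟨K, _, _, _, e, p, V, N₁, M₁, hcor, hcl, hl⟩ := hc L N M ξ hNM
  have he : e = 1 := (sub_eq_zero.1 (hs _ (sub_mem (one_mem _) hcor.e_mem)
    (sub_eq_zero.2 (hcor.e_fix 1 (one_mem _)).symm))).symm
  subst he
  have hV : Iso V p := by simpa using hcor.iso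
  have hξ : V (ContinuousLinearMap.adjoint V ξ) = ξ :=
    (hV.right ξ).trans (hcor.p_fix 1 (one_mem _))
  have hnorm : ∀ x ∈ N, ‖cmpr V x (ContinuousLinearMap.adjoint V ξ)‖ = ‖x ξ‖ := fun x hx => by
    rw [cmpr_apply, hξ, hV.norm_adj, hcor.p_fix x hx]
  have hmul : ∀ x, ∀ y ∈ N, cmpr V x * cmpr V y = cmpr V (x * y) := fun x y hy => by
    rw [hV.cmpr_mul, mul_assoc, (commute_of_mem N hcor.p_mem hy).eq, ← mul_assoc,
      hV.cmpr_mul_proj]
  have hzero : cmpr V 0 = 0 := by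
    ext η
    simp [cmpr_apply]
  have hmu : ∀ g : Fin 2 → Fin 2 → (L →L[ℂ] L), IsMU 1 g → (∀ i j, g i j ∈ N) →
      IsMU 1 fun i j => cmpr V (g i j) := fun g hg hgN =>
    ⟨fun s t s' t' => by
      rw [hmul _ _ (hgN _ _), hg.mul]
      split_ifs
      · rfl
      · exact hzero,
    fun s t => by rw [cmpr_star, hg.star],
    by rw [Fin.sum_univ_two, ← cmpr_add, ← hV.cmpr_one, ← hg.sum, Fin.sum_univ_two]⟩
  have hP : P6 K N₁ M₁ := by
    refine ⟨_, hcor.cyc, fun x₁ hx₁ => ?_, fun i j => cmpr V (a i j), fun i j => cmpr V (b i j),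
      hmu a ha fun i j => (hm i j).1, hmu b hb fun i j => (hm i j).2, fun i j k l => ?_,
      fun i j => ⟨(hcor.mem _).2 ⟨_, (hm i j).1, rfl⟩, (hcor.mem _).2 ⟨_, (hm i j).2, rfl⟩⟩⟩
    · obtain ⟨x, hx, rfl⟩ := (hcor.mem x₁).1 hx₁
      rw [cmpr_star, hnorm _ (star_mem hx), hnorm x hx, ht x hx]
    · show cmpr V (a i j) * cmpr V (b k l) = cmpr V (b k l) * cmpr V (a i j)
      rw [hmul _ _ (hm k l).2, hmul _ _ (hm i j).1, (hab i j k l).eq]
  have h2 := hl (ε / 3) (by positivity) (h K N₁ M₁ hP (hcl.mono (min_le_left _ _)))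
  simp only [one_mul, mul_one] at h2
  exact h2.mono (by linarith [min_le_right δ₁ (ε / 3)])

end Vale.Agent.P096
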