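import Vale.Agent.P096.Basic

/-! Existence of doubly ergodic means. -/

open scoped InnerProductSpace Topology
open Filter

namespace Vale.Agent.P096

open Vale.Agent.P104 Vale.Agent.P132

universe u v w

namespace DEAux

variable {Γ : Type w}

section Lin

variable {E E' : Type*} [AddCommGroup E] [Module ℝ E] [AddCommGroup E'] [Module ℝ E']

/-- Average with real scalars. -/
noncomputable def dv (S : Sample Γ) (f : Γ → E) : E := ((S.n : ℝ) + 1)⁻¹ • ∑ i, f (S.s i)

/-- The sample of a nonempty finite family. -/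
noncomputable def ofFam {ι : Type*} [Fintype ι] [Nonempty ι] (s : ι → Γ) : Sample Γ :=
  ⟨Fintype.card ι - 1, fun i => s ((Fintype.equivFinOfCardEq
    (Nat.succ_pred_eq_of_pos Fintype.card_pos).symm).symm i)⟩

theorem dv_ofFam {ι : Type*} [Fintype ι] [Nonempty ι] (s : ι → Γ) (f : Γ → E) :
    dv (ofFam s) f = (Fintype.card ι : ℝ)⁻¹ • ∑ i, f (s i) := by
  have h : ((Fintype.card ι - 1 : ℕ) : ℝ) + 1 = Fintype.card ι := by
    exact_mod_cast Nat.succ_pred_eq_of_pos Fintype.card_pos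
  rw [dv, ← h]
  congr 1
  exact Equiv.sum_comp _ fun i => f (s i)

theorem mem_ofFam {ι : Type*} [Fintype ι] [Nonempty ι] (s : ι → Γ) (j : ι) :
    ∃ i, (ofFam s).s i = s j :=
  ⟨Fintype.equivFinOfCardEq (Nat.succ_pred_eq_of_pos Fintype.card_pos).symm j,
    congrArg s (Equiv.symm_apply_apply _ j)⟩

theorem dv_map (S : Sample Γ) (φ : E →ₗ[ℝ] E') (f : Γ → E) :
    φ (dv S f) = dv S fun g => φ (f g) := by simp only [dv, map_smul, map_sum]

theorem dv_sub (S : Sample Γ) (f f' : Γ → E) :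
    dv S (fun g => f g - f' g) = dv S f - dv S f' := by
  simp only [dv, Finset.sum_sub_distrib, smul_sub]

theorem dv_const (S : Sample Γ) (c : E) : dv S (fun _ => c) = c := by
  rw [dv, Finset.sum_const, Finset.card_univ, Fintype.card_fin, ← Nat.cast_smul_eq_nsmul ℝ,
    smul_smul, Nat.cast_succ, inv_mul_cancel₀ (by positivity), one_smul]

theorem dv_comm (S S' : Sample Γ) (f : Γ → Γ → E) :
    dv S (fun s => dv S' (f s)) = dv S' fun t => dv S fun s => f s t := by
  simp only [dv, Finset.smul_sum]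
  rw [Finset.sum_comm]
  simp only [smul_comm (((S.n : ℝ) + 1)⁻¹)]

theorem dv_mono (S : Sample Γ) {f f' : Γ → ℝ} (h : ∀ g, f g ≤ f' g) : dv S f ≤ dv S f' :=
  smul_le_smul_of_nonneg_left (Finset.sum_le_sum fun _ _ => h _) (by positivity)

theorem dv_zero (S : Sample Γ) {f : Γ → ℝ} (h : ∀ g, 0 ≤ f g) (h0 : dv S f ≤ 0) (i) :
    f (S.s i) = 0 := by
  have h1 : ∑ i, f (S.s i) ≤ 0 := le_of_mul_le_mul_left (by simpa [dv] using h0)
    (show 0 < ((S.n : ℝ) + 1)⁻¹ by positivity)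
  exact (h _).antisymm' ((Finset.single_le_sum (f := fun i => f (S.s i)) (fun _ _ => h _)
    (Finset.mem_univ i)).trans h1)

variable [Group Γ]

/-- Average over words of length `k`. -/
noncomputable def wk (μ : Sample Γ) : ℕ → (Γ → E) → E
  | 0, f => f 1
  | k + 1, f => dv μ fun x => wk μ k fun g => f (x * g)

theorem wk_succ (μ : Sample Γ) (k : ℕ) (f : Γ → E) :
    wk μ (k + 1) f = dv μ fun x => wk μ k fun g => f (x * g) := rfl

theorem wk_dv (μ S : Sample Γ) (k : ℕ) (f : Γ → Γ → E) :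
    wk μ k (fun g => dv S fun x => f x g) = dv S fun x => wk μ k (f x) := by
  induction k generalizing f with
  | zero => rfl
  | succ k ih => simp only [wk_succ, ih, dv_comm μ S]

theorem wk_sub (μ : Sample Γ) (k : ℕ) (f f' : Γ → E) :
    wk μ k (fun g => f g - f' g) = wk μ k f - wk μ k f' := by
  induction k generalizing f f' with
  | zero => rfl
  | succ k ih => simp only [wk_succ, ih, dv_sub]

theorem wk_left (μ : Sample Γ) (k : ℕ) (f : Γ → E) :
    wk μ k (fun g => dv μ fun x => f (x * g)) = wk μ (k + 1) f := wk_dv μ μ k _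

theorem wk_right (μ : Sample Γ) (k : ℕ) (f : Γ → E) :
    wk μ k (fun g => dv μ fun x => f (g * x)) = wk μ (k + 1) f := by
  induction k generalizing f with
  | zero => simp only [wk, one_mul, mul_one]
  | succ k ih =>
    rw [wk_succ μ (k + 1), wk_succ μ k]
    congr 1
    funext x
    simpa only [mul_assoc] using ih fun g => f (x * g)

theorem wk_inv {μ : Sample Γ} (hμ : ∀ f : Γ → E, dv μ (fun g => f g⁻¹) = dv μ f) (k : ℕ)
    (f : Γ → E) : wk μ k (fun g => f g⁻¹) = wk μ k f := by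
  induction k generalizing f with
  | zero => simp only [wk, inv_one]
  | succ k ih =>
    rw [← wk_right μ k f, wk_dv, ← hμ fun x => wk μ k fun g => f (g * x), wk_succ]
    congr 1
    funext x
    simp only [mul_inv_rev]
    exact ih fun g => f (g * x⁻¹)

theorem wk_mono (μ : Sample Γ) (k : ℕ) {f f' : Γ → ℝ} (h : ∀ g, f g ≤ f' g) :
    wk μ k f ≤ wk μ k f' := by
  induction k generalizing f f' with
  | zero => exact h 1
  | succ k ih => exact dv_mono μ fun x => ih fun g => h _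

theorem sum_words (μ : Sample Γ) (n k : ℕ) (hk : k ≤ n) (f : Γ → E) :
    ∑ w : Fin n → Fin (μ.n + 1), f ((List.ofFn fun i => μ.s (w i)).take k).prod =
      ((μ.n : ℝ) + 1) ^ n • wk μ k f := by
  induction n generalizing k f with
  | zero =>
    obtain rfl := Nat.le_zero.1 hk
    simp [wk]
  | succ n ih =>
    rw [← (Fin.consEquiv fun _ => Fin (μ.n + 1)).sum_comp, Fintype.sum_prod_type]
    simp only [Fin.consEquiv_apply, List.ofFn_succ, Fin.cons_zero, Fin.cons_succ]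
    cases k with
    | zero =>
      have := ih 0 (Nat.zero_le _) f
      simp only [List.take_zero] at this ⊢
      rw [this, Finset.sum_const, Finset.card_univ, Fintype.card_fin, ← Nat.cast_smul_eq_nsmul ℝ,
        smul_smul, pow_succ', Nat.cast_succ]
    | succ k =>
      simp only [List.take_succ_cons, List.prod_cons]
      rw [Finset.sum_congr rfl fun x _ => ih k (by omega) fun g => f (μ.s x * g), wk_succ, dv,
        smul_smul, pow_succ, mul_assoc, mul_inv_cancel₀ (by positivity), mul_one, Finset.smul_sum]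

/-- The Cesaro sample. -/
noncomputable def ces (μ : Sample Γ) (n : ℕ) : Sample Γ :=
  ofFam fun p : Fin (n + 1) × (Fin n → Fin (μ.n + 1)) =>
    ((List.ofFn fun i => μ.s (p.2 i)).take p.1).prod

theorem dv_ces (μ : Sample Γ) (n : ℕ) (f : Γ → E) :
    dv (ces μ n) f = ((n : ℝ) + 1)⁻¹ • ∑ k ∈ Finset.range (n + 1), wk μ k f := by
  rw [ces, dv_ofFam, Fintype.sum_prod_type, Finset.sum_congr rfl fun (k : Fin (n + 1)) _ =>
    sum_words μ n k (Nat.le_of_lt_succ k.2) f, ← Finset.smul_sum, smul_smul,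
    Fin.sum_univ_eq_sum_range (fun k => wk μ k f)]
  congr 1
  simp only [Fintype.card_prod, Fintype.card_fin, Fintype.card_pi, Finset.prod_const,
    Finset.card_univ]
  push_cast
  field_simp

/-- The symmetric sample attached to a finite set. -/
noncomputable def base (F : Finset Γ) : Sample Γ :=
  ofFam fun p : Bool × Option F => if p.1 then p.2.elim 1 (↑) else (p.2.elim 1 (↑))⁻¹

theorem base_inv (F : Finset Γ) (f : Γ → E) : dv (base F) (fun g => f g⁻¹) = dv (base F) f := by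
  simp only [base, dv_ofFam, Fintype.sum_prod_type, Fintype.sum_bool, if_true, inv_inv,
    Bool.false_eq_true, if_false, add_comm]

theorem mem_base {F : Finset Γ} {g : Γ} (hg : g ∈ F) : ∃ i, (base F).s i = g :=
  mem_ofFam (ι := Bool × Option F) _ (true, some ⟨g, hg⟩)

theorem symm_of_dv {S : Sample Γ} (h : ∀ f : Γ → ℝ, dv S (fun g => f g⁻¹) = dv S f) :
    ∃ σ : Equiv.Perm (Fin (S.n + 1)), ∀ i, S.s (σ i) = (S.s i)⁻¹ := by
  classical
  have h1 : ∀ c, Fintype.card {i // (S.s i)⁻¹ = c} = Fintype.card {i // S.s i = c} := fun c => by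
    have h2 := smul_right_injective ℝ (show ((S.n : ℝ) + 1)⁻¹ ≠ 0 by positivity)
      (h fun g => if g = c then 1 else 0)
    simp only [Finset.sum_boole, Nat.cast_inj] at h2
    simpa only [Fintype.card_subtype] using h2
  exact ⟨Equiv.ofFiberEquiv fun c => Fintype.equivOfCardEq (h1 c),
    fun i => Equiv.ofFiberEquiv_map _ i⟩

end Lin

section Norm

variable {E : Type*} [NormedAddCommGroup E] [NormedSpace ℝ E] {C : ℝ}

theorem norm_dv (S : Sample Γ) {f : Γ → E} (h : ∀ g, ‖f g‖ ≤ C) : ‖dv S f‖ ≤ C := by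
  refine le_trans ?_ ((dv_mono S h).trans (dv_const S C).le)
  rw [dv, dv, norm_smul, Real.norm_of_nonneg (by positivity), smul_eq_mul]
  exact mul_le_mul_of_nonneg_left (norm_sum_le _ _) (by positivity)

variable [Group Γ]

theorem norm_wk (μ : Sample Γ) (k : ℕ) {f : Γ → E} (h : ∀ g, ‖f g‖ ≤ C) : ‖wk μ k f‖ ≤ C := by
  induction k generalizing f with
  | zero => exact h 1
  | succ k ih => exact norm_dv μ fun x => ih fun g => h _

theorem ces_shift (μ : Sample Γ) (n : ℕ) {f f' : Γ → E} (h : ∀ g, ‖f g‖ ≤ C)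
    (h' : ∀ k, wk μ k f' = wk μ (k + 1) f) :
    ‖dv (ces μ n) f' - dv (ces μ n) f‖ ≤ 2 * C * ((n : ℝ) + 1)⁻¹ := by
  rw [dv_ces, dv_ces, ← smul_sub, ← Finset.sum_sub_distrib]
  simp only [h']
  rw [Finset.sum_range_sub (fun k => wk μ k f), norm_smul, Real.norm_of_nonneg (by positivity),
    mul_comm]
  refine mul_le_mul_of_nonneg_right ((norm_sub_le _ _).trans ?_) (by positivity)
  linarith [norm_wk μ (n + 1) h, norm_wk μ 0 h]

end Norm

variable {K : Type v} [NormedAddCommGroup K] [InnerProductSpace ℂ K]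

theorem av_eq (S : Sample Γ) (f : Γ → K) : S.av f = dv S f := by
  rw [Sample.av, dv, ← Complex.coe_smul]
  push_cast
  rfl

theorem dv_var (S : Sample Γ) (f : Γ → K) :
    dv S (fun g => ‖f g - dv S f‖ ^ 2) = dv S (fun g => ‖f g‖ ^ 2) - ‖dv S f‖ ^ 2 := by
  have h1 := dv_map S (Complex.reLm.comp ((innerSL ℂ (dv S f)).toLinearMap.restrictScalars ℝ)) f
  have h2 : ∀ g, ‖f g - dv S f‖ ^ 2 = ‖f g‖ ^ 2 - (⟪dv S f, f g⟫_ℂ).re -
      ((⟪dv S f, f g⟫_ℂ).re - ‖dv S f‖ ^ 2) := fun g => by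
    rw [norm_sub_rev, @norm_sub_sq ℂ, RCLike.re_to_complex]
    ring
  simp only [h2, dv_sub, dv_const]
  change (⟪dv S f, dv S f⟫_ℂ).re = dv S fun g => (⟪dv S f, f g⟫_ℂ).re at h1
  rw [← h1, ← RCLike.re_to_complex, inner_self_eq_norm_sq]
  ring

theorem dv_jensen (S : Sample Γ) (f : Γ → K) : ‖dv S f‖ ^ 2 ≤ dv S fun g => ‖f g‖ ^ 2 := by
  have h := dv_mono S (f := fun _ => 0) (f' := fun g => ‖f g - dv S f‖ ^ 2) fun _ => sq_nonneg _
  rw [dv_const, dv_var] at h
  linarith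

theorem dv_clm (S : Sample Γ) (T : K →L[ℂ] K) (f : Γ → K) : T (dv S f) = dv S fun g => T (f g) :=
  dv_map S (T.toLinearMap.restrictScalars ℝ) f

variable [CompleteSpace K] [Group Γ] {π : Γ →* (K →L[ℂ] K)} {C : ℝ}

theorem fix_of_dv (hπ : URep π) {μ : Sample Γ} {c : K} (h : dv μ (fun x => π x⁻¹ c) = c) (i) :
    π (μ.s i) c = c := by
  have h1 := dv_var μ fun x => π x⁻¹ c
  simp only [h, hπ.norm_apply, dv_const, sub_self] at h1
  have h2 := dv_zero μ (f := fun x => ‖π x⁻¹ c - c‖ ^ 2) (fun _ => sq_nonneg _) h1.le i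
  conv_lhs => rw [← sub_eq_zero.1 (norm_eq_zero.1 (pow_eq_zero_iff two_ne_zero |>.1 h2)),
    rep_mul_apply, mul_inv_cancel, map_one]
  rfl

theorem const_of_harm (hπ : URep π) {μ : Sample Γ} {Φ : Γ → K} (hb : ∀ g, ‖Φ g‖ ≤ C)
    (hl : ∀ g, dv μ (fun x => π x⁻¹ (Φ (x * g))) = Φ g) (hr : ∀ g, dv μ (fun x => Φ (g * x)) = Φ g)
    (i) : Φ (μ.s i) = Φ 1 := by
  obtain ⟨p, hp⟩ : ∃ p : Γ → ℝ, ∀ g, p g = dv μ fun x => ‖Φ (g * x) - Φ g‖ ^ 2 := ⟨_, fun _ => rfl⟩
  have h1 : ∀ g, p g = dv μ (fun x => ‖Φ (g * x)‖ ^ 2) - ‖Φ g‖ ^ 2 := fun g => by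
    simpa only [hr, ← hp] using dv_var μ fun x => Φ (g * x)
  have h2 : ∀ g, p g ≤ dv μ fun y => p (y * g) := fun g => by
    simp only [hp]
    rw [dv_comm]
    refine dv_mono μ fun x => ?_
    rw [← hl (g * x), ← hl g, ← dv_sub]
    simpa only [← map_sub, hπ.norm_apply, mul_assoc] using
      dv_jensen μ fun y => π y⁻¹ (Φ (y * (g * x))) - π y⁻¹ (Φ (y * g))
  have h3 : ∀ k, p 1 ≤ wk μ k p := fun k => by
    induction k with
    | zero => exact le_rfl
    | succ k ih => exact ih.trans ((wk_mono μ k h2).trans (wk_left μ k p).le)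
  have h4 : ∀ k : ℕ, k * p 1 ≤ wk μ k fun g => ‖Φ g‖ ^ 2 := fun k => by
    induction k with
    | zero => simp [wk]
    | succ k ih =>
      have h5 := (h3 k).trans (congrArg (wk μ k) (funext h1)).le
      rw [wk_sub, wk_right μ k fun g => ‖Φ g‖ ^ 2] at h5
      push_cast
      linarith
  have h5 : p 1 ≤ 0 := by
    by_contra! h6
    obtain ⟨k, hk⟩ := exists_lt_nsmul h6 (C ^ 2)
    have h7 := (le_abs_self _).trans (norm_wk μ k (f := fun g => ‖Φ g‖ ^ 2) (C := C ^ 2) fun g => by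
      rw [Real.norm_of_nonneg (sq_nonneg _)]
      exact pow_le_pow_left₀ (norm_nonneg _) (hb g) 2)
    rw [nsmul_eq_mul] at hk
    linarith [h4 k]
  rw [hp] at h5
  have h6 := dv_zero μ (fun _ => sq_nonneg _) h5 i
  simpa only [one_mul] using sub_eq_zero.1 (norm_eq_zero.1 (pow_eq_zero_iff two_ne_zero |>.1 h6))

/-- Weak convergence. -/
def WT {ι : Type*} (U : Filter ι) (a : ι → K) (b : K) : Prop :=
  ∀ η, Tendsto (fun n => ⟪η, a n⟫_ℂ) U (𝓝 ⟪η, b⟫_ℂ)

omit [Group Γ] in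
theorem wt_avg (μ : Sample Γ) (T : Γ → (K →L[ℂ] K)) {a : Γ → ℕ → K} {a' : Γ → K} {b : ℕ → K}
    {b' : K} (ha : ∀ x, WT (hyperfilter ℕ) (a x) (a' x)) (hb : WT (hyperfilter ℕ) b b')
    (h : ∀ n, ‖dv μ (fun x => T x (a x n)) - b n‖ ≤ C * ((n : ℝ) + 1)⁻¹) :
    dv μ (fun x => T x (a' x)) = b' := by
  refine ext_inner_left ℂ fun η => ?_
  have e : ∀ f : Γ → K, ⟪η, dv μ fun x => T x (f x)⟫_ℂ = ((μ.n : ℝ) + 1)⁻¹ •
      ∑ i, ⟪(T (μ.s i)).adjoint η, f (μ.s i)⟫_ℂ := fun f => by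
    simp only [ContinuousLinearMap.adjoint_inner_left]
    exact dv_map μ ((innerSL ℂ η).toLinearMap.restrictScalars ℝ) _
  have t1 : Tendsto (fun n => ⟪η, dv μ fun x => T x (a x n)⟫_ℂ) (hyperfilter ℕ)
      (𝓝 ⟪η, dv μ fun x => T x (a' x)⟫_ℂ) := by
    simp only [e fun x => a x _, e a']
    exact (tendsto_finsetSum _ fun i _ => ha _ _).const_smul _
  have t2 : Tendsto (fun n => dv μ (fun x => T x (a x n)) - b n) (hyperfilter ℕ) (𝓝 0) := by
    refine squeeze_zero_norm h (Tendsto.mono_left ?_ Nat.hyperfilter_le_atTop)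
    simpa using (tendsto_one_div_add_atTop_nhds_zero_nat (𝕜 := ℝ)).const_mul C
  have t3 := t1.sub ((tendsto_const_nhds (x := η)).inner (𝕜 := ℂ) t2)
  simp only [inner_sub_right, sub_sub_cancel, inner_zero_right, sub_zero] at t3
  exact tendsto_nhds_unique t3 (hb η)

theorem inner_de (hπ : URep π) (μ : Sample Γ) {ν : Γ → Γ → Γ → K} (hν : ∀ s g t, ‖ν s g t‖ ≤ C)
    (h1 : ∀ s x g t, ν (s * x) g t = ν s (x * g) t) : ∃ Φ : Γ → K, (∀ g, ‖Φ g‖ ≤ C) ∧
      (∀ g, WT (hyperfilter ℕ) (fun n => (ces μ n).av2 fun s t => π s⁻¹ (ν s g t)) (Φ g)) ∧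
      (∀ g, dv μ (fun x => π x⁻¹ (Φ (x * g))) = Φ g) ∧
      ((∀ s g x t, ν s g (x * t) = ν s (g * x) t) → ∀ g, dv μ (fun x => Φ (g * x)) = Φ g) := by
  simp only [Sample.av2, av_eq]
  have b0 : ∀ s g t, ‖π s⁻¹ (ν s g t)‖ ≤ C := fun s g t => by rw [hπ.norm_apply]; exact hν s g t
  choose Φ p1 p2 using fun g => exists_wlim_vec (hyperfilter ℕ)
    (fun n => dv (ces μ n) fun s => dv (ces μ n) fun t => π s⁻¹ (ν s g t)) (C := C)
    (Eventually.of_forall fun n => norm_dv _ fun s => norm_dv _ fun t => b0 s g t)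
  refine ⟨Φ, p1, p2, fun g => wt_avg μ (fun x => π x⁻¹) (fun x => p2 (x * g)) (p2 g) (C := 2 * C)
    fun n => ?_, fun h2 g => wt_avg μ (fun _ => 1) (fun x => p2 (g * x)) (p2 g) (C := 2 * C)
    fun n => ?_⟩
  · refine le_trans (le_of_eq ?_) (ces_shift μ n
      (fun s => norm_dv (ces μ n) fun t => b0 s g t) fun k => wk_right μ k _)
    simp only [dv_clm, rep_mul_apply, dv_comm μ, mul_inv_rev, h1]
  · simp only [ContinuousLinearMap.one_apply]
    rw [dv_comm, ← dv_sub]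
    refine norm_dv _ fun s => le_trans (le_of_eq ?_) (ces_shift μ n (fun t => b0 s g t)
      fun k => wk_left μ k _)
    simp only [dv_comm μ, h2]

/-- The ultrafilter on samples. -/
noncomputable def ult (Γ : Type w) [Group Γ] : Ultrafilter (Sample Γ) :=
  (Ultrafilter.of (atTop : Filter (Finset Γ))).bind fun F => (hyperfilter ℕ).map (ces (base F))

omit [Group Γ] in
theorem ev_mem (g : Γ) : ∀ᶠ F : Finset Γ in atTop, g ∈ F :=
  (eventually_ge_atTop {g}).mono fun _ h => h (Finset.mem_singleton_self g)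

theorem outer_de (hπ : URep π) {ι : Type*} (G : ι → Sample Γ → K) (c : Finset Γ → K)
    (hc : ∀ F, ‖c F‖ ≤ C) (h1 : ∀ F i, π ((base F).s i) (c F) = c F)
    (h2 : ∀ j, ∀ᶠ F in atTop, WT (hyperfilter ℕ) (fun n => G j (ces (base F) n)) (c F)) :
    ∃ ζ : K, (∀ g, π g ζ = ζ) ∧ ∀ j, WT (ult Γ : Filter (Sample Γ)) (G j) ζ := by
  obtain ⟨ζ, -, hζ⟩ := exists_wlim_vec (Ultrafilter.of (atTop : Filter (Finset Γ))) c
    (Eventually.of_forall hc)
  refine ⟨ζ, fun g => ext_inner_left ℂ fun η => ?_, fun j η => tendsto_nhds.2 fun V hV hη => ?_⟩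
  · rw [← ContinuousLinearMap.adjoint_inner_left]
    refine tendsto_nhds_unique (hζ _) ((hζ η).congr' ?_)
    filter_upwards [Ultrafilter.of_le _ (ev_mem g)] with F hF
    obtain ⟨i, rfl⟩ := mem_base hF
    rw [ContinuousLinearMap.adjoint_inner_left, h1]
  · refine mem_bind'.2 ?_
    filter_upwards [Ultrafilter.of_le _ (h2 j), hζ η (hV.mem_nhds hη)] with F a1 a2
    exact a1 η (hV.mem_nhds a2)

end DEAux

open DEAux

theorem exists_dm (Γ : Type w) [Group Γ] : Nonempty (DM.{v, w} Γ) := by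
  refine ⟨⟨ult Γ, mem_bind'.2 (Eventually.of_forall fun F => ?_),
    fun K _ _ _ π hπ ν C hν => ?_, fun K _ _ _ π hπ ν C hν => ?_⟩⟩
  · refine mem_map.2 (Eventually.of_forall fun n => symm_of_dv (S := ces (base F) n) fun f => ?_)
    simp only [dv_ces, wk_inv (base_inv F)]
  · choose Φ p1 p2 p3 p4 using fun F : Finset Γ => inner_de hπ (base F)
      (ν := fun s g t => ν (s * g * t)) (fun _ _ _ => hν _) fun s x g t => by
        simp only [mul_assoc]
    have p5 := fun F => const_of_harm hπ (p1 F) (p3 F)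
      (p4 F fun s g x t => by simp only [mul_assoc])
    refine outer_de hπ (fun g S => S.av2 fun s t => π s⁻¹ (ν (s * g * t))) (fun F => Φ F 1)
      (fun F => p1 F 1) (fun F => fix_of_dv hπ ?_) fun g => ?_
    · refine Eq.trans ?_ (p3 F 1)
      simp only [dv, mul_one, p5]
    · filter_upwards [ev_mem g] with F hF
      obtain ⟨i, rfl⟩ := mem_base hF
      rw [← p5 F i]
      exact p2 F _
  · choose Φ p1 p2 p3 _ using fun F : Finset Γ => inner_de hπ (base F)
      (ν := fun _ _ t => ν t) (fun _ _ _ => hν _) fun _ _ _ _ => rfl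
    have p5 : ∀ F g, Φ F g = Φ F 1 := fun F g => ext_inner_left ℂ fun η =>
      tendsto_nhds_unique (p2 F g η) (p2 F 1 η)
    obtain ⟨ζ, h1, h2⟩ := outer_de hπ (fun (_ : Unit) S => S.av2 fun s t => π s⁻¹ (ν t))
      (fun F => Φ F 1) (fun F => p1 F 1) (fun F => fix_of_dv hπ (by
        refine Eq.trans ?_ (p3 F 1)
        simp only [p5 F (_ * 1)])) fun _ => Eventually.of_forall fun F => p2 F 1
    exact ⟨ζ, h1, h2 ()⟩

end Vale.Agent.P096
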