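import Vale.Agent.P096.FinA

/-! The finishing algebra, approximate part. -/

open scoped InnerProductSpace Topology
open Filter

namespace Vale.Agent.P096

open Vale.Agent.P104 Vale.Agent.P132

universe u v w

section Level

variable {K : Type*} [NormedAddCommGroup K] [InnerProductSpace ℂ K] [CompleteSpace K]

omit [CompleteSpace K] in
theorem nrm_one_le : ‖(1 : K →L[ℂ] K)‖ ≤ 1 := ContinuousLinearMap.norm_id_le

theorem exists_unit_near (P : StarSubalgebra ℂ (K →L[ℂ] K)) (hP : IsClosed (P : Set (K →L[ℂ] K)))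
    {a : K →L[ℂ] K} (ha : a ∈ P) (hs : IsSelfAdjoint a) (h1 : ‖a‖ ≤ 1) {t : ℝ} (ht : 0 ≤ t)
    (ht1 : t ≤ 1) : ∃ d ∈ P, IsSelfAdjoint d ∧ ‖d‖ ≤ t ^ 2 ∧
      1 + ((Complex.I * t) • a + d) ∈ unitary (K →L[ℂ] K) := by
  have hsp : ∀ s ∈ spectrum ℝ a, t ^ 2 * s ^ 2 ≤ t ^ 2 := fun s hs' => by
    have h2 : ‖s‖ ≤ 1 := by
      rcases subsingleton_or_nontrivial (K →L[ℂ] K) with h | h
      · simp [spectrum.of_subsingleton] at hs'
      · exact (spectrum.norm_le_norm_of_mem hs').trans h1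
    have h3 : s ^ 2 ≤ 1 := by rw [← sq_abs]; exact pow_le_one₀ (abs_nonneg _) h2
    nlinarith [sq_nonneg t]
  have ht2 : t ^ 2 ≤ 1 := pow_le_one₀ ht ht1
  let f : ℝ → ℝ := fun s => √(1 - t ^ 2 * s ^ 2)
  have hf : Continuous f := by fun_prop
  let c := cfc f a
  have hc : IsSelfAdjoint c := cfc_predicate f a
  have hcc : c * c = 1 - ((t : ℂ) ^ 2) • (a * a) := by
    have e1 : c * c = cfc (fun s : ℝ => 1 - t ^ 2 * (s * s)) a := by
      rw [← cfc_mul f f a]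
      refine cfc_congr fun s hs' => ?_
      simp only [f]
      rw [Real.mul_self_sqrt (by linarith [hsp s hs']), sq s]
    rw [e1, cfc_sub _ _ a, cfc_const_mul _ _ a, cfc_mul _ _ a, cfc_id' ℝ a, cfc_const_one ℝ a]
    norm_cast
  have hca : c * a = a * c := ((Commute.refl a).cfc_real f).eq
  refine ⟨c - 1, P.sub_mem (cfc_mem (hs := hP) f ha) P.one_mem, hc.sub (.one _), ?_, ?_⟩
  · have e1 : c - 1 = cfc (fun s => f s - 1) a := by
      rw [cfc_sub _ _ a, cfc_const_one ℝ a]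
    rw [e1]
    refine norm_cfc_le (sq_nonneg t) fun s hs' => ?_
    have h2 := hsp s hs'
    have h3 : 0 ≤ t ^ 2 * s ^ 2 := by positivity
    have h4 : f s ≤ 1 := Real.sqrt_le_one.2 (by linarith)
    have h5 : 1 - t ^ 2 * s ^ 2 ≤ f s := by
      refine Real.le_sqrt_of_sq_le ?_
      nlinarith
    rw [Real.norm_eq_abs, abs_le]
    constructor <;> linarith [sq_nonneg t]
  · have e1 : 1 + ((Complex.I * t) • a + (c - 1)) = c + (Complex.I * t) • a := by abel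
    have e2 : star (c + (Complex.I * t) • a) = c - (Complex.I * t) • a := by
      rw [star_add, star_smul, hc.star_eq, hs.star_eq, sub_eq_add_neg, ← neg_smul]
      simp
    have e3 : (Complex.I * t) * (Complex.I * t) = -(t : ℂ) ^ 2 := by
      rw [mul_mul_mul_comm, Complex.I_mul_I]; ring
    rw [e1, Unitary.mem_iff, e2]
    constructor
    · simp only [mul_add, sub_mul, mul_smul_comm, smul_mul_assoc, smul_sub, smul_smul, e3, hcc, hca]
      module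
    · simp only [mul_sub, add_mul, mul_smul_comm, smul_mul_assoc, smul_add, smul_smul, e3, hcc, hca]
      module

/-- Approximate antisymmetric cocycle. -/
structure AC (γ : ℝ) (P : StarSubalgebra ℂ (K →L[ℂ] K)) (R : (K →L[ℂ] K) → (K →L[ℂ] K))
    (β : (K →L[ℂ] K) → (K →L[ℂ] K) → K) : Prop where
  rm : RM P R
  m22 : M22 (P : Set (K →L[ℂ] K))
  bd : ∀ x ∈ P, ∀ y ∈ P, ‖β x y‖ ≤ ‖x‖ * ‖y‖
  add : ∀ x ∈ P, ∀ x' ∈ P, ∀ y ∈ P, β (x + x') y = β x y + β x' y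
  smul : ∀ c : ℂ, ∀ x ∈ P, ∀ y ∈ P, β (c • x) y = c • β x y
  add' : ∀ x ∈ P, ∀ y ∈ P, ∀ y' ∈ P,
    ‖β x (y + y') - β x y - β x y'‖ ≤ γ * (‖x‖ * (‖y‖ + ‖y'‖))
  smul' : ∀ c : ℂ, ∀ x ∈ P, ∀ y ∈ P, ‖β x (c • y) - c • β x y‖ ≤ γ * (‖c‖ * ‖x‖ * ‖y‖)
  coc : ∀ x ∈ P, ∀ y ∈ P, ∀ z ∈ P, ‖x (β y z) - β (x * y) z + β x (y * z) - R z (β x y)‖ ≤
      γ * (‖x‖ * ‖y‖ * ‖z‖)
  uni : ∀ g ∈ P, g ∈ unitary (K →L[ℂ] K) → ‖β g (star g)‖ ≤ γ

variable {γ : ℝ} {P : StarSubalgebra ℂ (K →L[ℂ] K)} {R : (K →L[ℂ] K) → (K →L[ℂ] K)}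
  {β : (K →L[ℂ] K) → (K →L[ℂ] K) → K}

theorem AC.one_one (h : AC γ P R β) : ‖β 1 1‖ ≤ γ := by
  simpa using h.uni 1 P.one_mem (one_mem _)

theorem AC.nonneg (h : AC γ P R β) : 0 ≤ γ := (norm_nonneg _).trans h.one_one

theorem AC.one_left (h : AC γ P R β) {y : K →L[ℂ] K} (hy : y ∈ P) : ‖β 1 y‖ ≤ 2 * γ * ‖y‖ := by
  have h1 := h.coc 1 P.one_mem 1 P.one_mem y hy
  rw [one_mul, one_mul, one_apply_eq_self, sub_self, zero_add] at h1
  have h2 : ‖R y (β 1 1)‖ ≤ ‖y‖ * γ := ((R y).le_opNorm _).trans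
    (mul_le_mul (h.rm.norm y hy) h.one_one (norm_nonneg _) (norm_nonneg _))
  have h3 : ‖(1 : K →L[ℂ] K)‖ * ‖(1 : K →L[ℂ] K)‖ * ‖y‖ ≤ 1 * 1 * ‖y‖ := by
    gcongr <;> exact nrm_one_le
  have h4 := mul_le_mul_of_nonneg_left h3 h.nonneg
  have h5 := norm_sub_norm_le (β 1 y) (R y (β 1 1))
  linarith

theorem AC.one_right (h : AC γ P R β) {x : K →L[ℂ] K} (hx : x ∈ P) : ‖β x 1‖ ≤ 2 * γ * ‖x‖ := by
  have h1 := h.coc x hx 1 P.one_mem 1 P.one_mem
  rw [mul_one, mul_one, h.rm.one, one_apply_eq_self, sub_add_cancel] at h1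
  have h2 : ‖x (β 1 1)‖ ≤ ‖x‖ * γ := (x.le_opNorm _).trans
    (mul_le_mul_of_nonneg_left h.one_one (norm_nonneg _))
  have h3 : ‖x‖ * ‖(1 : K →L[ℂ] K)‖ * ‖(1 : K →L[ℂ] K)‖ ≤ ‖x‖ * 1 * 1 := by
    gcongr <;> exact nrm_one_le
  have h4 := mul_le_mul_of_nonneg_left h3 h.nonneg
  have h5 := norm_sub_norm_le (β x 1) (x (β 1 1))
  rw [norm_sub_rev] at h5
  linarith

theorem AC.sa (h : AC γ P R β) {a : K →L[ℂ] K} (ha : a ∈ P) (hs : IsSelfAdjoint a)
    (h1 : ‖a‖ ≤ 1) {t : ℝ} (ht : 0 ≤ t) (ht1 : t ≤ 1) :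
    t ^ 2 * ‖β a a‖ ≤ 3 * t ^ 3 + 30 * γ := by
  obtain ⟨d, hd, hds, hdn, hu⟩ := exists_unit_near P h.rm.cl ha hs h1 ht ht1
  have hγ := h.nonneg
  have ht2 : t ^ 2 ≤ t := by nlinarith
  have hit : ‖Complex.I * t‖ = t := by simp [abs_of_nonneg ht]
  have hit' : ‖-(Complex.I * t)‖ = t := by rw [norm_neg, hit]
  set w := (Complex.I * t) • a + d with hw
  set w' := (-(Complex.I * t)) • a + d with hw'
  have hsw : star (1 + w) = 1 + w' := by
    rw [hw, hw', star_add, star_add, star_smul, hs.star_eq, hds.star_eq, star_one]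
    simp
  have m1 : (Complex.I * t) • a ∈ P := P.smul_mem ha _
  have m2 : (-(Complex.I * t)) • a ∈ P := P.smul_mem ha _
  have mw : w ∈ P := P.add_mem m1 hd
  have mw' : w' ∈ P := P.add_mem m2 hd
  have n1 : ‖(Complex.I * t) • a‖ ≤ t := by
    rw [norm_smul, hit]; nlinarith [norm_nonneg a]
  have n2 : ‖(-(Complex.I * t)) • a‖ ≤ t := by
    rw [norm_smul, hit']; nlinarith [norm_nonneg a]
  have nw : ‖w‖ ≤ 2 * t := (norm_add_le _ _).trans (by linarith)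
  have nw' : ‖w'‖ ≤ 2 * t := (norm_add_le _ _).trans (by linarith)
  have no := nrm_one_le (K := K)
  have a1 := h.uni _ (P.add_mem P.one_mem mw) hu
  rw [hsw, h.add _ P.one_mem _ mw _ (P.add_mem P.one_mem mw')] at a1
  have a2 : ‖β 1 (1 + w')‖ ≤ 6 * γ := by
    refine (h.one_left (P.add_mem P.one_mem mw')).trans ?_
    have : ‖1 + w'‖ ≤ 3 := (norm_add_le _ _).trans (by linarith)
    nlinarith
  have a3 : ‖β w (1 + w') - β w 1 - β w w'‖ ≤ 6 * γ := by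
    refine (h.add' _ mw _ P.one_mem _ mw').trans ?_
    have : ‖w‖ * (‖(1 : K →L[ℂ] K)‖ + ‖w'‖) ≤ 2 * 3 :=
      mul_le_mul (by linarith) (by linarith) (by positivity) (by norm_num)
    nlinarith
  have a4 : ‖β w 1‖ ≤ 4 * γ := by
    refine (h.one_right mw).trans ?_
    have : ‖w‖ ≤ 2 := by linarith
    nlinarith
  have a5 : ‖β d w'‖ ≤ 2 * t ^ 3 := by
    refine (h.bd _ hd _ mw').trans ?_
    have := mul_le_mul hdn nw' (norm_nonneg _) (sq_nonneg t)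
    nlinarith
  have a6 : ‖β a w' - β a ((-(Complex.I * t)) • a) - β a d‖ ≤ 2 * γ := by
    refine (h.add' _ ha _ m2 _ hd).trans ?_
    have : ‖a‖ * (‖(-(Complex.I * t)) • a‖ + ‖d‖) ≤ 1 * 2 :=
      mul_le_mul h1 (by linarith) (by positivity) (by norm_num)
    nlinarith
  have a7 : ‖β a ((-(Complex.I * t)) • a) - (-(Complex.I * t)) • β a a‖ ≤ γ := by
    refine (h.smul' _ _ ha _ ha).trans ?_
    rw [hit']
    have : t * ‖a‖ * ‖a‖ ≤ 1 * 1 * 1 := by gcongr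
    nlinarith
  have a8 : ‖β a d‖ ≤ t ^ 2 := by
    refine (h.bd _ ha _ hd).trans ?_
    nlinarith [norm_nonneg a, norm_nonneg d]
  have e1 : β w w' = (Complex.I * t) • β a w' + β d w' := by
    rw [hw, h.add _ m1 _ hd _ mw', h.smul _ _ ha _ mw']
  have e2 : (Complex.I * t) • (-(Complex.I * t)) • β a a =
      (β 1 (1 + w') + β w (1 + w')) - β 1 (1 + w') - (β w (1 + w') - β w 1 - β w w') - β w 1
        - β d w' - (Complex.I * t) • ((β a w' - β a ((-(Complex.I * t)) • a) - β a d)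
        + (β a ((-(Complex.I * t)) • a) - (-(Complex.I * t)) • β a a) + β a d) := by
    rw [e1]; module
  have e3 : t ^ 2 * ‖β a a‖ = ‖(Complex.I * t) • (-(Complex.I * t)) • β a a‖ := by
    rw [norm_smul, norm_smul, hit, hit']; ring
  have a9 : ‖(Complex.I * t) • ((β a w' - β a ((-(Complex.I * t)) • a) - β a d)
        + (β a ((-(Complex.I * t)) • a) - (-(Complex.I * t)) • β a a) + β a d)‖ ≤
        t * (3 * γ + t ^ 2) := by
    rw [norm_smul, hit]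
    refine mul_le_mul_of_nonneg_left (norm_add₃_le.trans ?_) ht
    linarith
  rw [e3, e2]
  refine (norm_sub_le_of_le (norm_sub_le_of_le (norm_sub_le_of_le (norm_sub_le_of_le
    (norm_sub_le_of_le a1 a2) a3) a4) a5) a9).trans ?_
  nlinarith

theorem mu_norm_le {e : Fin 2 → Fin 2 → (K →L[ℂ] K)} (he : IsMU 1 e) (i j : Fin 2) :
    ‖e i j‖ ≤ 1 := by
  have h1 : IsStarProjection (e j j) := ⟨by rw [IsIdempotentElem, he.mul, if_pos rfl], he.star j j⟩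
  have h2 : ‖e i j‖ * ‖e i j‖ ≤ 1 := by
    rw [← CStarRing.norm_star_mul_self, he.star, he.mul, if_pos rfl]
    exact h1.norm_le
  nlinarith [norm_nonneg (e i j)]

end Level

section Seq

variable {K : ℕ → Type v} [∀ n, NormedAddCommGroup (K n)] [∀ n, InnerProductSpace ℂ (K n)]
  [∀ n, CompleteSpace (K n)]

/-- Bounded sequences with entries in `P n`. -/
def seqA (P : ∀ n, StarSubalgebra ℂ (K n →L[ℂ] K n)) : StarSubalgebra ℂ (∀ n, K n →L[ℂ] K n) where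
  carrier := {x | (∀ n, x n ∈ P n) ∧ ∃ C : ℝ, 0 ≤ C ∧ ∀ n, ‖x n‖ ≤ C}
  mul_mem' := by
    rintro x y ⟨h1, C, hC0, hC⟩ ⟨h2, D, hD0, hD⟩
    exact ⟨fun n => mul_mem (h1 n) (h2 n), C * D, mul_nonneg hC0 hD0, fun n =>
      (norm_mul_le _ _).trans (mul_le_mul (hC n) (hD n) (norm_nonneg _) hC0)⟩
  add_mem' := by
    rintro x y ⟨h1, C, hC0, hC⟩ ⟨h2, D, hD0, hD⟩
    exact ⟨fun n => add_mem (h1 n) (h2 n), C + D, add_nonneg hC0 hD0, fun n =>
      norm_add_le_of_le (hC n) (hD n)⟩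
  algebraMap_mem' c := ⟨fun n => (P n).algebraMap_mem c, ‖c‖, norm_nonneg _, fun n => by
    show ‖algebraMap ℂ (K n →L[ℂ] K n) c‖ ≤ ‖c‖
    rw [Algebra.algebraMap_eq_smul_one, norm_smul]
    exact mul_le_of_le_one_right (norm_nonneg _) nrm_one_le⟩
  star_mem' := by
    rintro x ⟨h1, C, hC0, hC⟩
    exact ⟨fun n => star_mem (h1 n), C, hC0, fun n => by
      show ‖star (x n)‖ ≤ C
      rw [norm_star]; exact hC n⟩

/-- Null sequences. -/
def seqZ (K : ℕ → Type v) [∀ n, NormedAddCommGroup (K n)] [∀ n, InnerProductSpace ℂ (K n)] :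
    Submodule ℂ (∀ n, K n) where
  carrier := {v | Tendsto (fun n => ‖v n‖) atTop (𝓝 0)}
  add_mem' := by
    intro a b ha hb
    have := Tendsto.add ha hb
    rw [add_zero] at this
    exact squeeze_zero (fun _ => norm_nonneg _) (fun n => norm_add_le _ _) this
  zero_mem' := by simp
  smul_mem' c v hv := by
    have := Tendsto.const_mul ‖c‖ hv
    rw [mul_zero] at this
    exact squeeze_zero (fun _ => norm_nonneg _) (fun n => (norm_smul c (v n)).le) this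

omit [∀ n, CompleteSpace (K n)] in
theorem mem_seqZ {γ : ℕ → ℝ} (hγ : Tendsto γ atTop (𝓝 0)) {v : ∀ n, K n} (C : ℝ)
    (h : ∀ n, ‖v n‖ ≤ γ n * C) : v ∈ seqZ K := by
  have := Tendsto.mul_const C hγ
  rw [zero_mul] at this
  exact squeeze_zero (fun _ => norm_nonneg _) h this

/-- Action of a sequence of operators. -/
def seqL (x : ∀ n, K n →L[ℂ] K n) : (∀ n, K n) →ₗ[ℂ] (∀ n, K n) where
  toFun v n := x n (v n)
  map_add' _ _ := funext fun _ => map_add _ _ _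
  map_smul' _ _ := funext fun _ => map_smul _ _ _

omit [∀ n, CompleteSpace (K n)] in
theorem seqL_mem {x : ∀ n, K n →L[ℂ] K n} {C : ℝ} (hC : ∀ n, ‖x n‖ ≤ C) {v : ∀ n, K n}
    (hv : v ∈ seqZ K) : seqL x v ∈ seqZ K :=
  mem_seqZ hv C fun n => ((x n).le_opNorm _).trans (by
    rw [mul_comm]; exact mul_le_mul_of_nonneg_left (hC n) (norm_nonneg _))

theorem AC.seq {P : ∀ n, StarSubalgebra ℂ (K n →L[ℂ] K n)}
    {R : ∀ n, (K n →L[ℂ] K n) → (K n →L[ℂ] K n)}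
    {β : ∀ n, (K n →L[ℂ] K n) → (K n →L[ℂ] K n) → K n} {γ : ℕ → ℝ}
    (hγ : Tendsto γ atTop (𝓝 0)) (h : ∀ n, AC (γ n) (P n) (R n) (β n)) (x y : seqA P) :
    Tendsto (fun n => ‖β n (x.1 n) (y.1 n)‖) atTop (𝓝 0) := by
  choose e f he hf hef hm using fun n => (h n).m22
  let e' : Fin 2 → Fin 2 → seqA P := fun i j => ⟨fun n => e n i j, fun n => (hm n i j).1, 1,
    zero_le_one, fun n => mu_norm_le (he n) i j⟩
  let f' : Fin 2 → Fin 2 → seqA P := fun i j => ⟨fun n => f n i j, fun n => (hm n i j).2, 1,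
    zero_le_one, fun n => mu_norm_le (hf n) i j⟩
  have mu : ∀ (e : ∀ n, Fin 2 → Fin 2 → (K n →L[ℂ] K n)) (e' : Fin 2 → Fin 2 → seqA P),
      (∀ n, IsMU 1 (e n)) → (∀ i j n, (e' i j).1 n = e n i j) → IsMU 1 e' := by
    intro e e' he hee
    refine ⟨fun s t s' t' => Subtype.ext (funext fun n => ?_),
      fun s t => Subtype.ext (funext fun n => ?_), Subtype.ext (funext fun n => ?_)⟩
    · show (e' s t).1 n * (e' s' t').1 n = _
      rw [hee, hee, (he n).mul]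
      split_ifs
      · exact (hee _ _ _).symm
      · rfl
    · show star ((e' s t).1 n) = _
      rw [hee, hee, (he n).star]
    · have := (he n).sum
      rw [Fin.sum_univ_two] at this ⊢
      show (e' 0 0).1 n + (e' 1 1).1 n = 1
      rw [hee, hee, this]
  refine fin_mod (A := seqA P) (seqZ K) (fun x => seqL x.1)
    (fun x => seqL fun n => R n (x.1 n)) ?_ ?_ ?_ ?_ ?_ ?_ ?_ ?_ ?_
    (fun x y n => β n (x.1 n) (y.1 n)) ?_ ?_ ?_ ?_ ?_ ?_ e' f' (mu e e' he fun _ _ _ => rfl)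
    (mu f f' hf fun _ _ _ => rfl) (fun i j k l => Subtype.ext (funext fun n => (hef n i j k l).eq))
    x y
  · rintro ⟨x, hx, C, -, hC⟩ v hv
    exact seqL_mem hC hv
  · rintro ⟨x, hx, C, -, hC⟩ v hv
    exact seqL_mem (fun n => ((h n).rm.norm _ (hx n)).trans (hC n)) hv
  · rfl
  · refine LinearMap.ext fun v => funext fun n => ?_
    show R n 1 (v n) = v n
    rw [(h n).rm.one]; rfl
  · intro x y; rfl
  · refine fun x y => LinearMap.ext fun v => funext fun n => ?_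
    show R n (x.1 n + y.1 n) (v n) = R n (x.1 n) (v n) + R n (y.1 n) (v n)
    rw [(h n).rm.add _ (x.2.1 n) _ (y.2.1 n)]; rfl
  · intro x y v; rfl
  · refine fun x y v => funext fun n => ?_
    show R n (x.1 n * y.1 n) (v n) = R n (y.1 n) (R n (x.1 n) (v n))
    rw [(h n).rm.mul _ (x.2.1 n) _ (y.2.1 n)]; rfl
  · exact fun x y v => funext fun n =>
      congrArg (fun T : K n →L[ℂ] K n => T (v n)) ((h n).rm.comm _ (x.2.1 n) _ (y.2.1 n)).eq
  · exact fun x x' y => funext fun n => (h n).add _ (x.2.1 n) _ (x'.2.1 n) _ (y.2.1 n)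
  · exact fun c x y => funext fun n => (h n).smul c _ (x.2.1 n) _ (y.2.1 n)
  · rintro ⟨x, hx, C, hC0, hC⟩ ⟨y, hy, D, hD0, hD⟩ ⟨z, hz, F, hF0, hF⟩
    refine mem_seqZ hγ (C * (D + F)) fun n => ((h n).add' _ (hx n) _ (hy n) _ (hz n)).trans ?_
    have := (h n).nonneg
    gcongr
    exacts [hC n, hD n, hF n]
  · rintro c ⟨x, hx, C, hC0, hC⟩ ⟨y, hy, D, hD0, hD⟩
    refine mem_seqZ hγ (‖c‖ * C * D) fun n => ((h n).smul' c _ (hx n) _ (hy n)).trans ?_
    have := (h n).nonneg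
    gcongr
    exacts [hC n, hD n]
  · rintro ⟨a, ha, C, hC0, hC⟩ hsa
    have hs : ∀ n, IsSelfAdjoint (a n) := fun n => congrFun (congrArg Subtype.val hsa.star_eq) n
    have hC1 : (0 : ℝ) < C + 1 := by linarith
    let a' : ∀ n, K n →L[ℂ] K n := fun n => ((C + 1 : ℝ) : ℂ)⁻¹ • a n
    have ha' : ∀ n, a' n ∈ P n := fun n => (P n).smul_mem (ha n) _
    have hne : ((C + 1 : ℝ) : ℂ) ≠ 0 := by exact_mod_cast hC1.ne'
    have hn' : ∀ n, ‖a' n‖ ≤ 1 := fun n => by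
      rw [norm_smul, norm_inv, Complex.norm_real, Real.norm_of_nonneg hC1.le, inv_mul_le_iff₀ hC1]
      linarith [hC n]
    have hs' : ∀ n, IsSelfAdjoint (a' n) := fun n => by
      refine IsSelfAdjoint.smul ?_ (hs n)
      rw [← Complex.ofReal_inv]
      exact Complex.conj_ofReal _
    have haa : ∀ n, a n = ((C + 1 : ℝ) : ℂ) • a' n := fun n => by
      rw [smul_smul, mul_inv_cancel₀ hne, one_smul]
    have z1 : (fun n => β n (a' n) (a' n)) ∈ seqZ K := by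
      refine Metric.tendsto_atTop.2 fun ε hε => ?_
      obtain ⟨t, ht, ht1, htε⟩ : ∃ t : ℝ, 0 < t ∧ t ≤ 1 ∧ t ≤ ε / 6 :=
        ⟨min 1 (ε / 6), by positivity, min_le_left _ _, min_le_right _ _⟩
      obtain ⟨n0, hn0⟩ := Metric.tendsto_atTop.1 hγ (t ^ 2 * ε / 60) (by positivity)
      refine ⟨n0, fun n hn => ?_⟩
      have h1 := hn0 n hn
      rw [Real.dist_eq, sub_zero, abs_of_nonneg (h n).nonneg] at h1
      rw [Real.dist_eq, sub_zero, abs_of_nonneg (norm_nonneg _)]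
      have h2 := (h n).sa (ha' n) (hs' n) (hn' n) ht.le ht1
      have ht2 : 0 < t ^ 2 := by positivity
      refine lt_of_mul_lt_mul_left ?_ ht2.le
      nlinarith
    have z2 : (fun n => β n (a' n) (a n) - ((C + 1 : ℝ) : ℂ) • β n (a' n) (a' n)) ∈ seqZ K := by
      refine mem_seqZ hγ (‖((C + 1 : ℝ) : ℂ)‖ * 1 * 1) fun n => ?_
      rw [haa n]
      refine ((h n).smul' _ _ (ha' n) _ (ha' n)).trans ?_
      have := (h n).nonneg
      gcongr <;> exact hn' n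
    have z3 := (seqZ K).smul_mem ((C + 1 : ℝ) : ℂ)
      ((seqZ K).add_mem z2 ((seqZ K).smul_mem ((C + 1 : ℝ) : ℂ) z1))
    convert z3 using 1
    funext n
    show β n (a n) (a n) = ((C + 1 : ℝ) : ℂ) • (β n (a' n) (a n) -
      ((C + 1 : ℝ) : ℂ) • β n (a' n) (a' n) + ((C + 1 : ℝ) : ℂ) • β n (a' n) (a' n))
    rw [sub_add_cancel, ← (h n).smul _ _ (ha' n) _ (ha n), ← haa]
  · rintro ⟨x, hx, C, hC0, hC⟩ ⟨y, hy, D, hD0, hD⟩ ⟨z, hz, F, hF0, hF⟩
    refine mem_seqZ hγ (C * D * F) fun n => ((h n).coc _ (hx n) _ (hy n) _ (hz n)).trans ?_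
    have := (h n).nonneg
    gcongr
    exacts [hC n, hD n, hF n]

end Seq

theorem ac_small (ε : ℝ) (hε : 0 < ε) : ∃ γ : ℝ, 0 < γ ∧ ∀ (K : Type v) [NormedAddCommGroup K]
    [InnerProductSpace ℂ K] [CompleteSpace K] (P : StarSubalgebra ℂ (K →L[ℂ] K))
    (R : (K →L[ℂ] K) → (K →L[ℂ] K)) (β : (K →L[ℂ] K) → (K →L[ℂ] K) → K), AC γ P R β →
    ∀ x ∈ P, ∀ y ∈ P, ‖x‖ ≤ 1 → ‖y‖ ≤ 1 → ‖β x y‖ ≤ ε := by
  by_contra hcon
  push Not at hcon
  choose K i1 i2 i3 P R β h x hx y hy nx ny hlt using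
    fun n : ℕ => hcon (1 / ((n : ℝ) + 1)) Nat.one_div_pos_of_nat
  have := AC.seq (K := K) tendsto_one_div_add_atTop_nhds_zero_nat h
    ⟨x, hx, 1, zero_le_one, nx⟩ ⟨y, hy, 1, zero_le_one, ny⟩
  exact absurd (ge_of_tendsto' this fun n => (hlt n).le) (not_le.2 hε)

end Vale.Agent.P096
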