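import Vale.Agent.P096.Polar
import Vale.Agent.P096.FinB

/-! The finishing algebra. -/

open scoped InnerProductSpace Topology
open Filter

namespace Vale.Agent.P096

open Vale.Agent.P104 Vale.Agent.P132

universe u v w

theorem norm_sum_four {E : Type*} [NormedAddCommGroup E] [NormedSpace ℂ E] {c : Fin 4 → ℂ}
    {v : Fin 4 → E} {a B : ℝ} (hc : ∀ i, ‖c i‖ ≤ a / 2) (hv : ∀ i, ‖v i‖ ≤ B) :
    ‖∑ i, c i • v i‖ ≤ 2 * a * B := by
  have h0 : 0 ≤ a / 2 := (norm_nonneg _).trans (hc 0)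
  refine (norm_sum_le_of_le _ (n := fun _ => a / 2 * B) fun i _ => ?_).trans ?_
  · rw [norm_smul]; exact mul_le_mul (hc i) (hv i) (norm_nonneg _) h0
  · simp only [Finset.sum_const, Finset.card_univ, Fintype.card_fin, nsmul_eq_mul]
    push_cast
    linarith

section Full

variable {Γ : Type w} [Group Γ] {K : Type v} [NormedAddCommGroup K] [InnerProductSpace ℂ K]
  [CompleteSpace K] {P : StarSubalgebra ℂ (K →L[ℂ] K)} {R : (K →L[ℂ] K) → (K →L[ℂ] K)}
  {l r : Γ →* (K →L[ℂ] K)}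

theorem RM.sum_four (h : RM P R) (c : Fin 4 → ℂ) {u : Fin 4 → (K →L[ℂ] K)} (hu : ∀ i, u i ∈ P) :
    R (∑ i, c i • u i) = ∑ i, c i • R (u i) := by
  have hm : ∀ i, c i • u i ∈ P := fun i => P.smul_mem (hu i) _
  simp only [Fin.sum_univ_four]
  rw [h.add _ (add_mem (add_mem (hm 0) (hm 1)) (hm 2)) _ (hm 3),
    h.add _ (add_mem (hm 0) (hm 1)) _ (hm 2), h.add _ (hm 0) _ (hm 1),
    h.smul _ _ (hu 0), h.smul _ _ (hu 1), h.smul _ _ (hu 2), h.smul _ _ (hu 3)]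

theorem Full.exists_dec (h : Full P R l r) : ∃ (c : (K →L[ℂ] K) → Fin 4 → ℂ)
    (g : (K →L[ℂ] K) → Fin 4 → Γ), ∀ x ∈ P, (∀ i, ‖c x i‖ ≤ ‖x‖ / 2) ∧
      x = ∑ i, c x i • l (g x i) ∧ R x = ∑ i, c x i • r (g x i)⁻¹ := by
  have : ∀ x ∈ P, ∃ (c : Fin 4 → ℂ) (g : Fin 4 → Γ), (∀ i, ‖c i‖ ≤ ‖x‖ / 2) ∧
      x = ∑ i, c i • l (g i) ∧ R x = ∑ i, c i • r (g i)⁻¹ := by
    intro x hx
    obtain ⟨c, u, hu, hx'⟩ := exists_four P h.rm.cl hx
    choose g hg using fun i => h.surj _ (hu i).1 (hu i).2.1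
    refine ⟨c, g, fun i => (hu i).2.2, by simpa only [hg] using hx', ?_⟩
    rw [hx', h.rm.sum_four c fun i => (hu i).1]
    simp only [h.r_eq, inv_inv, hg]
  choose! c g hcg using this
  exact ⟨c, g, hcg⟩

end Full

theorem finP (ε : ℝ) (hε : 0 < ε) : ∃ γ : ℝ, 0 < γ ∧ ∀ (Γ : Type w) [Group Γ] (K : Type v)
    [NormedAddCommGroup K] [InnerProductSpace ℂ K] [CompleteSpace K]
    (P : StarSubalgebra ℂ (K →L[ℂ] K)) (R : (K →L[ℂ] K) → (K →L[ℂ] K))
    (l r : Γ →* (K →L[ℂ] K)), Full P R l r → M22 (P : Set (K →L[ℂ] K)) → FinP ε γ l r := by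
  obtain ⟨γ0, hγ0, hfin⟩ := ac_small.{v} (ε / 16) (by positivity)
  obtain ⟨γ, hγ, hγ1, hγ2⟩ : ∃ γ : ℝ, 0 < γ ∧ γ ≤ γ0 / 2 ∧ γ ≤ ε / 4 :=
    ⟨min (γ0 / 2) (ε / 4), by positivity, min_le_left _ _, min_le_right _ _⟩
  refine ⟨γ, hγ, fun Γ _ K _ _ _ P R l r hF hM a b ζ η S hd => ?_⟩
  have hl := hF.bim.ul
  have hr := hF.bim.ur
  have hη : 0 ≤ η := (norm_nonneg _).trans (S.a_le 1 1)
  have l1 : l 1 ζ = ζ := by rw [map_one]; rfl
  rcases hη.eq_or_lt with h0 | hη'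
  · intro g h
    have h1 := S.a_le g h⁻¹
    have h2 := S.a_le g 1
    rw [l1] at h2
    rw [← fix_r S.fix] at h1
    rw [← h0] at h1 h2 ⊢
    rw [mul_zero]
    refine (norm_sub_le_of_le (a₁ := a g (r h ζ)) (a₂ := r h (a g ζ)) h1
      ((hr.norm_apply _ _).le.trans h2)).trans (by norm_num)
  obtain ⟨c, g, hcg⟩ := hF.exists_dec
  let ah : (K →L[ℂ] K) → (K →L[ℂ] K) := fun x => ∑ i, c x i • a (g x i)
  let bh : (K →L[ℂ] K) → (K →L[ℂ] K) := fun y => ∑ i, c y i • b (g y i)⁻¹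
  have hRζ : ∀ y ∈ P, R y ζ = y ζ := fun y hy => by
    rw [(hcg y hy).2.2]
    conv_rhs => rw [(hcg y hy).2.1]
    simp only [sum_apply, smul_apply, fix_l S.fix]
  have stA : ∀ z ∈ P, ∀ g h, ‖(a g * r h - r h * a g) (z ζ) - (b h * l g - l g * b h) (z ζ)‖ ≤
      2 * ‖z‖ * (γ * η) := fun z hz g' h => by
    have e : (a g' * r h - r h * a g') (z ζ) - (b h * l g' - l g' * b h) (z ζ) =
        ∑ i, c z i • ((a g' * r h - r h * a g') (l (g z i) ζ) -
          (b h * l g' - l g' * b h) (l (g z i) ζ)) := by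
      conv_lhs => rw [(hcg z hz).2.1]
      simp only [sum_apply, smul_apply, map_sum, map_smul,
        smul_sub, Finset.sum_sub_distrib]
    rw [e]
    exact norm_sum_four (hcg z hz).1 fun i => S.comm _ _ _
  have stB : ∀ (v : K) (B : ℝ), (∀ g h, ‖(a g * r h - r h * a g) v - (b h * l g - l g * b h) v‖ ≤ B) →
      ∀ y ∈ P, ∀ g, ‖(a g * R y - R y * a g) v - (bh y * l g - l g * bh y) v‖ ≤ 2 * ‖y‖ * B := by
    intro v B hB y hy g'
    have e : (a g' * R y - R y * a g') v - (bh y * l g' - l g' * bh y) v =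
        ∑ i, c y i • ((a g' * r (g y i)⁻¹ - r (g y i)⁻¹ * a g') v -
          (b (g y i)⁻¹ * l g' - l g' * b (g y i)⁻¹) v) := by
      rw [(hcg y hy).2.2]
      simp only [bh, Finset.sum_mul, Finset.mul_sum, smul_mul_assoc, mul_smul_comm,
        sum_apply, smul_apply,
        sub_apply, smul_sub, Finset.sum_sub_distrib]
    rw [e]
    exact norm_sum_four (hcg y hy).1 fun i => hB _ _
  have stC : ∀ (v : K) (B : ℝ) (Y Y' : K →L[ℂ] K),
      (∀ g, ‖(a g * Y - Y * a g) v - (Y' * l g - l g * Y') v‖ ≤ B) →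
      ∀ x ∈ P, ‖(ah x * Y - Y * ah x) v - (Y' * x - x * Y') v‖ ≤ 2 * ‖x‖ * B := by
    intro v B Y Y' hB x hx
    have e : (ah x * Y - Y * ah x) v - (Y' * x - x * Y') v =
        ∑ i, c x i • ((a (g x i) * Y - Y * a (g x i)) v - (Y' * l (g x i) - l (g x i) * Y') v) := by
      have e1 : Y' * x - x * Y' = ∑ i, c x i • (Y' * l (g x i) - l (g x i) * Y') := by
        conv_lhs => rw [(hcg x hx).2.1]
        simp only [Finset.sum_mul, Finset.mul_sum, smul_mul_assoc, mul_smul_comm, smul_sub,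
          Finset.sum_sub_distrib]
      rw [e1]
      simp only [ah, Finset.sum_mul, Finset.mul_sum, smul_mul_assoc, mul_smul_comm,
        sum_apply, smul_apply,
        sub_apply, smul_sub, Finset.sum_sub_distrib]
    rw [e]
    exact norm_sum_four (hcg x hx).1 fun i => hB _
  have st1 : ∀ g h, ‖(a g * r h - r h * a g) ζ - (b h * l g - l g * b h) ζ‖ ≤ γ * η := fun g h => by
    have := S.comm g h 1
    rwa [l1] at this
  have cmp1 : ∀ x ∈ P, ∀ y ∈ P, ‖(ah x * R y - R y * ah x) ζ - (bh y * x - x * bh y) ζ‖ ≤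
      2 * ‖x‖ * (2 * ‖y‖ * (γ * η)) := fun x hx y hy =>
    stC _ _ _ _ (stB _ _ st1 y hy) x hx
  have cmp2 : ∀ x ∈ P, ∀ y ∈ P, ∀ z ∈ P,
      ‖(ah x * R y - R y * ah x) (z ζ) - (bh y * x - x * bh y) (z ζ)‖ ≤
      2 * ‖x‖ * (2 * ‖y‖ * (2 * ‖z‖ * (γ * η))) := fun x hx y hy z hz =>
    stC _ _ _ _ (stB _ _ (stA z hz) y hy) x hx
  let β0 : (K →L[ℂ] K) → (K →L[ℂ] K) → K := fun x y => (bh y * x - x * bh y) ζ
  let α0 : (K →L[ℂ] K) → (K →L[ℂ] K) → K := fun x y => (ah x * R y - R y * ah x) ζ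
  let k : ℂ := ((8 * η : ℝ) : ℂ)⁻¹
  have hk : ∀ (v : K) (B : ℝ), ‖v‖ ≤ 8 * η * B → ‖k • v‖ ≤ B := fun v B hv => by
    rw [norm_smul, norm_inv, Complex.norm_real, Real.norm_of_nonneg (by positivity),
      inv_mul_le_iff₀ (by positivity)]
    exact hv
  have hγη : γ * η ≤ γ0 / 2 * η := by gcongr
  have hAC : AC γ0 P R fun x y => k • β0 x y := by
    refine ⟨hF.rm, hM, fun x hx y hy => hk _ _ ?_, fun x hx x' hx' y hy => ?_,
      fun c x hx y hy => ?_, fun x hx y hy y' hy' => ?_, fun c' x hx y hy => ?_,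
      fun x hx y hy z hz => ?_, fun u hu hu' => ?_⟩
    · have e : β0 x y = ∑ i, c x i • ∑ j, c y j •
          (b (g y j)⁻¹ (l (g x i) ζ) - l (g x i) (b (g y j)⁻¹ ζ)) := by
        have e1 : bh y * x - x * bh y = ∑ i, c x i • (bh y * l (g x i) - l (g x i) * bh y) := by
          conv_lhs => rw [(hcg x hx).2.1]
          simp only [Finset.sum_mul, Finset.mul_sum, smul_mul_assoc, mul_smul_comm, smul_sub,
            Finset.sum_sub_distrib]
        simp only [β0]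
        rw [e1]
        simp only [bh, sum_apply, smul_apply,
          sub_apply, mul_apply_eq_comp, map_sum, map_smul,
          smul_sub, Finset.sum_sub_distrib]
      rw [e]
      refine (norm_sum_four (hcg x hx).1 fun i => norm_sum_four (B := η + η) (hcg y hy).1
        fun j => norm_sub_le_of_le (S.b_le _ _) ?_).trans (le_of_eq (by ring))
      rw [hl.norm_apply, ← l1]
      exact S.b_le _ _
    · simp only [β0, mul_add, add_mul, sub_apply, add_apply]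
      module
    · simp only [β0, mul_smul_comm, smul_mul_assoc, sub_apply,
        smul_apply]
      module
    · have e : k • β0 x (y + y') - k • β0 x y - k • β0 x y' =
          k • ((α0 x y - β0 x y) + (α0 x y' - β0 x y') - (α0 x (y + y') - β0 x (y + y'))) := by
        simp only [α0, hF.rm.add y hy y' hy', mul_add, add_mul, sub_apply,
          add_apply]
        module
      rw [e]
      refine hk _ _ ((norm_sub_le_of_le (norm_add_le_of_le (cmp1 x hx y hy) (cmp1 x hx y' hy'))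
        (cmp1 x hx _ (add_mem hy hy'))).trans ?_)
      have h1 : ‖x‖ * ‖y + y'‖ * (γ * η) ≤ ‖x‖ * (‖y‖ + ‖y'‖) * (γ * η) := by
        gcongr; exact norm_add_le _ _
      have h2 : ‖x‖ * (‖y‖ + ‖y'‖) * (γ * η) ≤ ‖x‖ * (‖y‖ + ‖y'‖) * (γ0 / 2 * η) := by gcongr
      have h3 : 0 ≤ ‖x‖ * (‖y‖ + ‖y'‖) * (γ0 / 2 * η) := by positivity
      nlinarith
    · have e : k • β0 x (c' • y) - c' • k • β0 x y =
          k • (c' • (α0 x y - β0 x y) - (α0 x (c' • y) - β0 x (c' • y))) := by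
        simp only [α0, hF.rm.smul c' y hy, mul_smul_comm, smul_mul_assoc,
          sub_apply, smul_apply]
        module
      rw [e]
      have h0 : ‖c' • (α0 x y - β0 x y)‖ ≤ ‖c'‖ * (2 * ‖x‖ * (2 * ‖y‖ * (γ * η))) := by
        rw [norm_smul]
        exact mul_le_mul_of_nonneg_left (cmp1 x hx y hy) (norm_nonneg _)
      refine hk _ _ ((norm_sub_le_of_le h0 (cmp1 x hx _ (P.smul_mem hy c'))).trans ?_)
      rw [norm_smul]
      have h2 : ‖c'‖ * ‖x‖ * ‖y‖ * (γ * η) ≤ ‖c'‖ * ‖x‖ * ‖y‖ * (γ0 / 2 * η) := by gcongr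
      have h3 : 0 ≤ ‖c'‖ * ‖x‖ * ‖y‖ * (γ0 / 2 * η) := by positivity
      nlinarith
    · have e : x (k • β0 y z) - k • β0 (x * y) z + k • β0 x (y * z) - R z (k • β0 x y) =
          k • (((ah x * R z - R z * ah x) (y ζ) - (bh z * x - x * bh z) (y ζ))
            - (α0 x (y * z) - β0 x (y * z)) + R z (α0 x y - β0 x y)) := by
        simp only [α0, β0, hF.rm.mul y hy z hz, sub_apply,
          mul_apply_eq_comp, map_sub, map_smul, hRζ y hy]
        module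
      rw [e]
      have h0 : ‖R z (α0 x y - β0 x y)‖ ≤ ‖z‖ * (2 * ‖x‖ * (2 * ‖y‖ * (γ * η))) :=
        ((R z).le_opNorm _).trans (mul_le_mul (hF.rm.norm z hz) (cmp1 x hx y hy) (norm_nonneg _)
          (norm_nonneg _))
      refine hk _ _ ((norm_add_le_of_le (norm_sub_le_of_le (cmp2 x hx z hz y hy)
        (cmp1 x hx _ (mul_mem hy hz))) h0).trans ?_)
      have h1 : ‖x‖ * ‖y * z‖ * (γ * η) ≤ ‖x‖ * (‖y‖ * ‖z‖) * (γ * η) := by
        gcongr; exact norm_mul_le _ _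
      have h2 : ‖x‖ * (‖y‖ * ‖z‖) * (γ * η) ≤ ‖x‖ * (‖y‖ * ‖z‖) * (γ0 / 2 * η) := by gcongr
      nlinarith
    · obtain ⟨g0, rfl⟩ := hF.surj u hu hu'
      refine hk _ _ ?_
      have h1 := stB _ _ st1 _ (hF.mem g0⁻¹) g0
      rw [← hF.r_eq] at h1
      have h2 := hd g0
      have h3 := norm_sub_norm_le (β0 (l g0) (l g0⁻¹)) ((a g0 * r g0 - r g0 * a g0) ζ)
      rw [norm_sub_rev] at h3
      have h4 : ‖l g0⁻¹‖ * (γ * η) ≤ 1 * (γ * η) := by gcongr; exact hl.norm_le _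
      rw [hl g0]
      have h5 : 0 ≤ γ0 * η := by positivity
      simp only [β0] at h3 ⊢
      nlinarith
  intro g0 h0
  have h1 := hfin K P R _ hAC _ (hF.mem g0) _ (hF.mem h0⁻¹) (hl.norm_le _) (hl.norm_le _)
  rw [norm_smul, norm_inv, Complex.norm_real, Real.norm_of_nonneg (by positivity),
    inv_mul_le_iff₀ (by positivity)] at h1
  have h2 := stB _ _ st1 _ (hF.mem h0⁻¹) g0
  rw [← hF.r_eq] at h2
  have h3 := norm_sub_norm_le ((a g0 * r h0 - r h0 * a g0) ζ) (β0 (l g0) (l h0⁻¹))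
  have h4 : ‖l h0⁻¹‖ * (γ * η) ≤ 1 * (γ * η) := by gcongr; exact hl.norm_le _
  have h5 : γ * η ≤ ε / 4 * η := by gcongr
  simp only [β0] at h1 h3
  nlinarith

end Vale.Agent.P096
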