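import Vale.Agent.P096.Basic

/-! The finishing algebra, exact part. -/

namespace Vale.Agent.P096

open Vale.Agent.P104 Vale.Agent.P132

section Exact

variable {A E : Type*} [Ring A] [StarRing A] [AddCommGroup E] [Module ℂ E]

omit [StarRing A] in
theorem fin_I (L R : A → E →ₗ[ℂ] E) (β : A → A → E) (anti : ∀ x y, β x y = -β y x)
    (coc : ∀ x y z, L x (β y z) - β (x * y) z + β x (y * z) - R z (β x y) = 0) (x y z : A) :
    β (x * y) z - β (y * x) z = L z (β x y) - R z (β x y) := by
  have h1 := coc x y z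
  have h2 := coc z y x
  have h3 := coc y z x
  have h4 := coc x z y
  have h5 := coc z x y
  have h6 := coc y x z
  rw [anti x (y * z)] at h1
  rw [anti z (y * x), anti y x, anti z y, map_neg, map_neg] at h2
  rw [anti y (z * x)] at h3
  rw [anti x (z * y), anti z y, anti x z, map_neg, map_neg] at h4
  rw [anti z (x * y)] at h5
  rw [anti y (x * z), anti x z, anti y x, map_neg, map_neg] at h6
  have h : (2 : ℂ) • (β (x * y) z - β (y * x) z - (L z (β x y) - R z (β x y))) = 0 := by
    linear_combination (norm := module) -h1 + h2 + h3 - h4 - h5 + h6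
  exact sub_eq_zero.1 ((smul_eq_zero.1 h).resolve_left two_ne_zero)

theorem fin_corner (L R : A → E →ₗ[ℂ] E) (La : ∀ x y, L (x + y) = L x + L y)
    (Ra : ∀ x y, R (x + y) = R x + R y) (Lm : ∀ x y v, L (x * y) v = L x (L y v))
    (Rm : ∀ x y v, R (x * y) v = R y (R x v)) (LR : ∀ x y v, L x (R y v) = R y (L x v))
    (β : A → A → E) (ba : ∀ x x' y, β (x + x') y = β x y + β x' y)
    (anti : ∀ x y, β x y = -β y x)
    (coc : ∀ x y z, L x (β y z) - β (x * y) z + β x (y * z) - R z (β x y) = 0)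
    (f : Fin 2 → Fin 2 → A) (hf : IsMU 1 f) (p : A) (hp : p * p = p)
    (hpf : ∀ k l, Commute p (f k l)) (w : A) (hw : p * w = w) (hw' : w * p = 0) (z : A) :
    β w z = 0 := by
  have b0 : ∀ y, β 0 y = 0 := fun y => by
    have := ba 0 0 y
    rw [add_zero] at this
    exact left_eq_add.1 this
  have R0 : R 0 = 0 := by
    have := Ra 0 0
    rw [add_zero] at this
    exact left_eq_add.1 this
  have hI : ∀ w, p * w = w → w * p = 0 → ∀ z, β w z = L z (β p w) - R z (β p w) := by
    intro w hw hw' z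
    have := fin_I L R β anti coc p w z
    rwa [hw, hw', b0, sub_zero] at this
  have hR : ∀ w, p * w = w → w * p = 0 → L p (β p w) = 0 ∧ R p (β p w) = β p w := by
    intro w hw hw'
    have h1 := hI w hw hw' p
    rw [anti w p] at h1
    have h2 := congrArg (L p) h1
    rw [map_neg, map_sub, ← Lm, hp, LR] at h2
    have h3 := congrArg (R p) h2
    rw [map_neg, map_sub, ← Rm, hp, sub_self, neg_eq_zero] at h3
    rw [h3, sub_zero] at h2
    have h4 : (2 : ℂ) • L p (β p w) = 0 := by linear_combination (norm := module) -h2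
    have h5 := (smul_eq_zero.1 h4).resolve_left two_ne_zero
    refine ⟨h5, ?_⟩
    rw [h5, zero_sub] at h1
    exact (neg_injective h1).symm
  have hA : ∀ a w, a * p = a → p * a = a → p * w = w → w * p = 0 →
      β p (a * w) = R a (β p w) := by
    intro a w ha ha' hw hw'
    have h1 := coc a w p
    have hLa : L a (β p w) = 0 := by
      rw [← ha, Lm, (hR w hw hw').1, map_zero]
    rw [hw', anti a 0, b0, anti w p, anti (a * w) p, anti a w, hI w hw hw' a, map_neg, hLa,
      zero_sub, neg_neg, ← Rm, ha] at h1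
    simpa [sub_eq_zero] using h1
  have hm : ∀ i j k l, p * f i j * (p * f k l) = p * (f i j * f k l) := fun i j k l => by
    rw [mul_assoc, ← mul_assoc (f i j), ← (hpf i j).eq, ← mul_assoc, ← mul_assoc, hp, mul_assoc]
  have hr : ∀ i j, p * f i j * p = p * f i j := fun i j => by
    rw [mul_assoc, ← (hpf i j).eq, ← mul_assoc, hp]
  have hl : ∀ i j, p * (p * f i j) = p * f i j := fun i j => by rw [← mul_assoc, hp]
  have key : R (p * f 0 0) (β p w) = R (p * f 1 1) (β p w) := by
    have e1 := hA (p * f 0 1) (p * f 1 0 * w) (hr _ _) (hl _ _)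
      (by rw [← mul_assoc, hl]) (by rw [mul_assoc, hw', mul_zero])
    rw [hA _ _ (hr _ _) (hl _ _) hw hw', ← mul_assoc, hm, ← Rm, hm, hf.mul, hf.mul, if_pos rfl,
      if_pos rfl, hA _ _ (hr _ _) (hl _ _) hw hw'] at e1
    exact e1
  have k0 : R (p * f 0 0) (β p w) = 0 := by
    have := congrArg (R (p * f 0 0)) key
    rw [← Rm, ← Rm, hm, hm, hf.mul, hf.mul, if_pos rfl, if_neg (by decide), mul_zero, R0] at this
    exact this
  have k1 : β p w = 0 := by
    have hs := hf.sum
    rw [Fin.sum_univ_two] at hs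
    have hp2 : R p = R (p * f 0 0) + R (p * f 1 1) := by rw [← Ra, ← mul_add, hs, mul_one]
    rw [← (hR w hw hw').2, hp2, LinearMap.add_apply, ← key, k0, add_zero]
  rw [hI w hw hw', k1, map_zero, map_zero, sub_zero]

end Exact

/-- Exact version: an antisymmetric Hochschild two cocycle vanishes. -/
theorem fin_exact {A E : Type*} [Ring A] [StarRing A] [Algebra ℂ A] [AddCommGroup E] [Module ℂ E]
    (L R : A → E →ₗ[ℂ] E) (_L1 : L 1 = 1) (_R1 : R 1 = 1) (La : ∀ x y, L (x + y) = L x + L y)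
    (Ra : ∀ x y, R (x + y) = R x + R y) (Lm : ∀ x y v, L (x * y) v = L x (L y v))
    (Rm : ∀ x y v, R (x * y) v = R y (R x v)) (LR : ∀ x y v, L x (R y v) = R y (L x v))
    (β : A → A → E) (ba : ∀ x x' y, β (x + x') y = β x y + β x' y)
    (anti : ∀ x y, β x y = -β y x)
    (coc : ∀ x y z, L x (β y z) - β (x * y) z + β x (y * z) - R z (β x y) = 0)
    (e f : Fin 2 → Fin 2 → A) (he : IsMU 1 e) (hf : IsMU 1 f)
    (hef : ∀ i j k l, Commute (e i j) (f k l)) (x y : A) : β x y = 0 := by
  have off : ∀ i j : Fin 2, i ≠ j → ∀ x z, β (e i i * x * e j j) z = 0 := fun i j hij x z =>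
    fin_corner L R La Ra Lm Rm LR β ba anti coc f hf (e i i) (by rw [he.mul, if_pos rfl])
      (hef i i) _ (by rw [← mul_assoc, ← mul_assoc, he.mul, if_pos rfl])
      (by rw [mul_assoc, he.mul, if_neg hij.symm, mul_zero]) z
  have dia : ∀ i j : Fin 2, i ≠ j → ∀ x z, β (e i i * x * e i i) z = 0 := by
    intro i j hij x z
    have h1 : e i i * (x * e i j) * e j j * (e j j * e j i * e i i) = e i i * x * e i i := by
      simp only [mul_assoc, he.mul, if_true]
    have h := coc (e i i * (x * e i j) * e j j) (e j j * e j i * e i i) z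
    rw [off j i hij.symm, off i j hij, off i j hij, map_zero, map_zero, h1] at h
    simpa using h
  have hs := he.sum
  rw [Fin.sum_univ_two] at hs
  have hx : x = e 0 0 * x * e 0 0 + e 0 0 * x * e 1 1 + (e 1 1 * x * e 0 0 + e 1 1 * x * e 1 1) := by
    rw [← mul_add, ← mul_add, hs, mul_one, mul_one, ← add_mul, hs, one_mul]
  rw [hx, ba, ba, ba, dia 0 1 (by decide), dia 1 0 (by decide), off 0 1 (by decide),
    off 1 0 (by decide)]
  simp

/-- The same modulo an invariant subspace, with antisymmetry on self adjoint elements. -/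
theorem fin_mod {A E : Type*} [Ring A] [StarRing A] [Algebra ℂ A] [StarModule ℂ A]
    [AddCommGroup E] [Module ℂ E] (Z : Submodule ℂ E)
    (L R : A → E →ₗ[ℂ] E) (hL : ∀ x, ∀ v ∈ Z, L x v ∈ Z) (hR : ∀ x, ∀ v ∈ Z, R x v ∈ Z)
    (L1 : L 1 = 1) (R1 : R 1 = 1) (La : ∀ x y, L (x + y) = L x + L y)
    (Ra : ∀ x y, R (x + y) = R x + R y) (Lm : ∀ x y v, L (x * y) v = L x (L y v))
    (Rm : ∀ x y v, R (x * y) v = R y (R x v)) (LR : ∀ x y v, L x (R y v) = R y (L x v))
    (β : A → A → E) (ba : ∀ x x' y, β (x + x') y = β x y + β x' y)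
    (bs : ∀ (c : ℂ) x y, β (c • x) y = c • β x y)
    (ba' : ∀ x y y', β x (y + y') - β x y - β x y' ∈ Z)
    (bs' : ∀ (c : ℂ) x y, β x (c • y) - c • β x y ∈ Z)
    (sa : ∀ a, IsSelfAdjoint a → β a a ∈ Z)
    (coc : ∀ x y z, L x (β y z) - β (x * y) z + β x (y * z) - R z (β x y) ∈ Z)
    (e f : Fin 2 → Fin 2 → A) (he : IsMU 1 e) (hf : IsMU 1 f)
    (hef : ∀ i j k l, Commute (e i j) (f k l)) (x y : A) : β x y ∈ Z := by
  let q := Z.mkQ
  have hq : ∀ v, q v = 0 ↔ v ∈ Z := fun v => Submodule.Quotient.mk_eq_zero Z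
  have hsur : ∀ w, ∃ v, q v = w := Z.mkQ_surjective
  let L' : A → (E ⧸ Z) →ₗ[ℂ] (E ⧸ Z) := fun x => Z.mapQ Z (L x) (hL x)
  let R' : A → (E ⧸ Z) →ₗ[ℂ] (E ⧸ Z) := fun x => Z.mapQ Z (R x) (hR x)
  have hL' : ∀ x v, L' x (q v) = q (L x v) := fun x v => rfl
  have hR' : ∀ x v, R' x (q v) = q (R x v) := fun x v => rfl
  let b : A → A → E ⧸ Z := fun x y => q (β x y)
  have a1 : ∀ x x' y, b (x + x') y = b x y + b x' y := fun x x' y => by
    simp only [b, ba, map_add]
  have s1 : ∀ (c : ℂ) x y, b (c • x) y = c • b x y := fun c x y => by simp only [b, bs, map_smul]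
  have a2 : ∀ x y y', b x (y + y') = b x y + b x y' := fun x y y' => by
    have := (hq _).2 (ba' x y y')
    rw [map_sub, map_sub, sub_sub, sub_eq_zero] at this
    exact this
  have s2 : ∀ (c : ℂ) x y, b x (c • y) = c • b x y := fun c x y => by
    have := (hq _).2 (bs' c x y)
    rw [map_sub, map_smul, sub_eq_zero] at this
    exact this
  have an : ∀ x y, IsSelfAdjoint x → IsSelfAdjoint y → b x y = -b y x := fun x y hx hy => by
    have h1 : b (x + y) (x + y) = 0 := (hq _).2 (sa _ (hx.add hy))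
    have h2 : b x x = 0 := (hq _).2 (sa _ hx)
    have h3 : b y y = 0 := (hq _).2 (sa _ hy)
    rw [a1, a2, a2, h2, h3, zero_add, add_zero] at h1
    exact eq_neg_of_add_eq_zero_left h1
  have anti : ∀ x y, b x y = -b y x := fun x y => by
    rw [← realPart_add_I_smul_imaginaryPart x, ← realPart_add_I_smul_imaginaryPart y]
    simp only [a1, a2, s1, s2]
    rw [an _ _ (realPart x).2 (realPart y).2, an _ _ (realPart x).2 (imaginaryPart y).2,
      an _ _ (imaginaryPart x).2 (realPart y).2, an _ _ (imaginaryPart x).2 (imaginaryPart y).2]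
    module
  refine (hq _).1 (fin_exact L' R' ?_ ?_ ?_ ?_ ?_ ?_ ?_ b a1 anti ?_ e f he hf hef x y)
  · refine LinearMap.ext fun w => ?_
    obtain ⟨v, rfl⟩ := hsur w
    rw [hL', L1]; rfl
  · refine LinearMap.ext fun w => ?_
    obtain ⟨v, rfl⟩ := hsur w
    rw [hR', R1]; rfl
  · refine fun x y => LinearMap.ext fun w => ?_
    obtain ⟨v, rfl⟩ := hsur w
    rw [LinearMap.add_apply, hL', hL', hL', La, LinearMap.add_apply, map_add]
  · refine fun x y => LinearMap.ext fun w => ?_
    obtain ⟨v, rfl⟩ := hsur w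
    rw [LinearMap.add_apply, hR', hR', hR', Ra, LinearMap.add_apply, map_add]
  · intro x y w
    obtain ⟨v, rfl⟩ := hsur w
    rw [hL', hL', hL', Lm]
  · intro x y w
    obtain ⟨v, rfl⟩ := hsur w
    rw [hR', hR', hR', Rm]
  · intro x y w
    obtain ⟨v, rfl⟩ := hsur w
    rw [hR', hL', hL', hR', LR]
  · intro x y z
    have := (hq _).2 (coc x y z)
    rw [map_sub, map_add, map_sub] at this
    exact this

end Vale.Agent.P096
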