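import Vale.Agent.P096.Main

/-! From the Hausdorff distance of unit balls to near inclusions. -/

namespace Vale.Agent.P096

universe u

variable {K : Type*} [NormedAddCommGroup K] [InnerProductSpace ℂ K] [CompleteSpace K]

theorem near_of_ball {M N : VonNeumannAlgebra K} {δ : ℝ}
    (h : ∀ x, x ∈ M ∧ ‖x‖ ≤ 1 → ∃ y, (y ∈ N ∧ ‖y‖ ≤ 1) ∧ dist x y < δ) :
    Near δ (M : Set (K →L[ℂ] K)) N := by
  intro x hx
  rcases eq_or_ne x 0 with rfl | h0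
  · exact ⟨0, zero_mem N, by simp⟩
  have hn : 0 < ‖x‖ := norm_pos_iff.2 h0
  have hc : ((‖x‖ : ℝ) : ℂ) ≠ 0 := by exact_mod_cast hn.ne'
  obtain ⟨y, ⟨hy, -⟩, hd⟩ := h (((‖x‖ : ℝ) : ℂ)⁻¹ • x) ⟨vn_smul _ hx, by
    rw [norm_smul, norm_inv, Complex.norm_real, norm_norm, inv_mul_cancel₀ hn.ne']⟩
  refine ⟨((‖x‖ : ℝ) : ℂ) • y, vn_smul _ hy, ?_⟩
  have e : x - ((‖x‖ : ℝ) : ℂ) • y = ((‖x‖ : ℝ) : ℂ) • (((‖x‖ : ℝ) : ℂ)⁻¹ • x - y) := by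
    rw [smul_sub, smul_smul, mul_inv_cancel₀ hc, one_smul]
  rw [e, norm_smul, Complex.norm_real, norm_norm, mul_comm, ← dist_eq_norm]
  exact mul_le_mul_of_nonneg_right hd.le hn.le

theorem close_of_hausdorff {M N : VonNeumannAlgebra K} {δ : ℝ}
    (h : Metric.hausdorffDist {x : K →L[ℂ] K | x ∈ M ∧ ‖x‖ ≤ 1}
      {y : K →L[ℂ] K | y ∈ N ∧ ‖y‖ ≤ 1} < δ) : Close δ M N := by
  have hb : ∀ A : VonNeumannAlgebra K, Bornology.IsBounded {x : K →L[ℂ] K | x ∈ A ∧ ‖x‖ ≤ 1} :=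
    fun A => (Metric.isBounded_closedBall (x := (0 : K →L[ℂ] K)) (r := 1)).subset fun x hx => by
      simpa using hx.2
  have hne : ∀ A : VonNeumannAlgebra K, {x : K →L[ℂ] K | x ∈ A ∧ ‖x‖ ≤ 1}.Nonempty :=
    fun A => ⟨0, zero_mem A, by simp⟩
  have hf := Metric.hausdorffEDist_ne_top_of_nonempty_of_bounded (hne M) (hne N) (hb M) (hb N)
  refine ⟨near_of_ball fun x hx => Metric.exists_dist_lt_of_hausdorffDist_lt hx h hf,
    near_of_ball fun y hy => ?_⟩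
  obtain ⟨x, hx, hd⟩ := Metric.exists_dist_lt_of_hausdorffDist_lt'
    (t := {y : K →L[ℂ] K | y ∈ N ∧ ‖y‖ ≤ 1}) hy h hf
  exact ⟨x, hx, by rwa [dist_comm]⟩

theorem kk_final {P : PairProp.{u}} (hP : KK P) (ε : ℝ) (hε : 0 < ε) : ∃ δ : ℝ, 0 < δ ∧
    ∀ (H : Type u) [NormedAddCommGroup H] [InnerProductSpace ℂ H] [CompleteSpace H]
      (M N : VonNeumannAlgebra H), P H M N →
      Metric.hausdorffDist {x : H →L[ℂ] H | x ∈ M ∧ ‖x‖ ≤ 1}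
        {y : H →L[ℂ] H | y ∈ N ∧ ‖y‖ ≤ 1} < δ →
      ∃ u ∈ unitary (H →L[ℂ] H),
        (fun x => u * x * star u) '' (M : Set (H →L[ℂ] H)) = (N : Set (H →L[ℂ] H)) ∧
        ‖u - 1‖ < ε := by
  obtain ⟨δ, hδ, h⟩ := kk_of hP (ε / 2) (by positivity)
  refine ⟨δ, hδ, fun H _ _ _ M N hp hd => ?_⟩
  obtain ⟨u, hu, h1, h2, h3⟩ := h H M N hp (close_of_hausdorff hd)
  refine ⟨u, hu, Set.Subset.antisymm ?_ fun y hy => ⟨_, h3 y hy, ?_⟩, by linarith⟩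
  · rintro _ ⟨x, hx, rfl⟩
    exact h2 x hx
  · show u * (star u * y * u) * star u = y
    rw [← mul_assoc, ← mul_assoc, (Unitary.mem_iff.1 hu).2, one_mul, mul_assoc,
      (Unitary.mem_iff.1 hu).2, mul_one]

end Vale.Agent.P096
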