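import Vale.Agent.P096.Corner
import Vale.Agent.P096.Amp

/-! From cyclic separating vectors to all algebras. -/

open scoped InnerProductSpace Topology
open Filter

namespace Vale.Agent.P096

open Vale.Agent.P104 Vale.Agent.P132

universe u v w

theorem kk0_of_kk1 (h : KK.{u} P1) : KK.{u} P0 := by
  intro ε hε
  have hk := one_le_dk.{u}
  obtain ⟨δ₁, hδ₁, h⟩ := h (ε / 3) (by positivity)
  obtain ⟨δ, hδ, hc⟩ := corner.{u} (min δ₁ (ε / 3)) (by positivity)
  have hd : 0 < δ / (4 * dk.{u} ^ 2) := by positivity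
  refine ⟨δ / (4 * dk.{u} ^ 2), hd, fun K _ _ _ N M _ hNM => ?_⟩
  have key : ∀ F : Finset K, ∃ a : (K →L[ℂ] K) → (K →L[ℂ] K), LiftTo ε N M a ∧
      (∀ x ∈ N, ‖a x‖ ≤ ‖x‖) ∧ ∀ x, ∀ η ∈ F, ∀ ζ ∈ F, ⟪η, a x ζ⟫_ℂ = ⟪η, x ζ⟫_ℂ := by
    intro F
    obtain ⟨L, _, _, _, ⟨A⟩⟩ := exists_amp (Option (Fin F.card)) K
    obtain ⟨Ξ, hΞ⟩ := A.exists_vec (fun i => i.elim 0 fun j => (F.equivFin.symm j : K))
      Summable.of_finite
    have hcl := ((close_vnc_image A.d hNM hd.le).commutant (by positivity)).mono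
      (γ' := δ) (le_of_eq (by field_simp; norm_num))
    obtain ⟨K₁, _, _, _, e, p, V, N₁, M₁, hcor, hcl₁, hl⟩ := hc L _ _ Ξ hcl
    have h2 := (hl (ε / 3) (by positivity) (h K₁ N₁ M₁ ⟨_, hcor.cyc, hcor.sep⟩
      (hcl₁.mono (min_le_left _ _)))).mono (γ' := ε) (by linarith [min_le_right δ₁ (ε / 3)])
    have h3 := lift_cmpr (N := N) (M := M) (A.J none) (A.opNorm_J_le none) A.d
      (fun x _ y _ => map_add _ _ _) (fun c x _ => map_smul _ _ _)
      (fun x hx => ⟨mem_vnc_commutant (Set.mem_image_of_mem A.d hx), A.norm_d_le x⟩)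
      (fun y hy => by
        rw [← A.ent_eq_cmpr]
        refine A.mem_mat.1 (A.mem_mat'.2 fun z hz => ?_) _ _
        refine VonNeumannAlgebra.mem_commutant_iff.1 hy _ (mem_vnc.2 ?_)
        rintro _ ⟨m, hm, rfl⟩
        rw [← map_star, ← map_mul, ← map_mul, ← map_mul, ← map_mul,
          (commute_of_mem M hz hm).eq, (commute_of_mem M hz (star_mem hm)).eq]
        exact ⟨rfl, rfl⟩) hε.le h2
    have he : ∀ η ∈ F, e (A.J none η) = A.J none η := fun η hη => by
      have a1 := hcor.e_fix ((A.J none).comp (A.P (some (F.equivFin ⟨η, hη⟩)))) (by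
        rw [VonNeumannAlgebra.commutant_commutant]
        have a2 : ∀ x, A.d x * (A.J none).comp (A.P (some (F.equivFin ⟨η, hη⟩))) =
            (A.J none).comp (A.P (some (F.equivFin ⟨η, hη⟩))) * A.d x := fun x => by
          ext ζ
          show A.d x (A.J none (A.P _ ζ)) = A.J none (A.P _ (A.d x ζ))
          rw [A.dJ, A.P_d]
        refine mem_vnc.2 ?_
        rintro _ ⟨x, -, rfl⟩
        rw [← map_star]
        exact ⟨a2 _, a2 _⟩)
      simpa only [ContinuousLinearMap.comp_apply, hΞ, Option.elim_some,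
        Equiv.symm_apply_apply] using a1
    refine ⟨_, h3, fun x _ => ?_, fun x η hη ζ hζ => ?_⟩
    · exact (norm_cmpr_le (A.opNorm_J_le none) _).trans
        ((cor_norm_le hcor.e_proj _).trans (A.norm_d_le x))
    · rw [inner_cmpr]
      show ⟪A.J none η, e (A.d x (e (A.J none ζ)))⟫_ℂ = _
      rw [← inner_star_left, hcor.e_proj.isSelfAdjoint.star_eq, he η hη, he ζ hζ, A.dJ, A.adj,
        A.PJ]
  choose a h1 h2 h3 using key
  classical
  refine lift_of_lim (Ultrafilter.of (atTop : Filter (Finset K))) a (Eventually.of_forall h1) h2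
    fun x _ η ζ => tendsto_const_nhds.congr' ?_
  refine Eventually.filter_mono (Ultrafilter.of_le _) ?_
  filter_upwards [eventually_ge_atTop ({η, ζ} : Finset K)] with F hF
  exact (h3 F x η (hF (by simp)) ζ (hF (by simp))).symm

end Vale.Agent.P096
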