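import Vale.Agent.P096.Mean
import Vale.Agent.P096.Polar

/-! Auxiliary estimates for the approximation in the weighted graph norm. -/

open scoped InnerProductSpace Topology
open Filter

namespace Vale.Agent.P096

open Vale.Agent.P104 Vale.Agent.P132

universe u v w

variable {Γ : Type w} [Group Γ] {K : Type u} [NormedAddCommGroup K] [InnerProductSpace ℂ K]
  [CompleteSpace K] {N M : VonNeumannAlgebra K} {ξ ζ : K} {l r κ κ' : Γ →* (K →L[ℂ] K)}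
  {W : K →L[ℂ] K} {δ : ℝ}

theorem g_sqrt {Z : K →L[ℂ] K} (h1 : Z ∈ N) (h2 : Z ∈ N.commutant) {e : ℝ} (he : 0 < e)
    (hZ : algebraMap ℝ (K →L[ℂ] K) e ≤ Z) : ∃ H H' : K →L[ℂ] K, H ∈ N ∧ H ∈ N.commutant ∧
      H' ∈ N ∧ H' ∈ N.commutant ∧ IsSelfAdjoint H ∧ IsSelfAdjoint H' ∧ H * H' = 1 ∧
      H' * H = 1 ∧ H * H = Z := by
  have h0 : 0 ≤ Z := le_trans (by
    rw [Algebra.algebraMap_eq_smul_one]
    exact smul_nonneg he.le zero_le_one) hZ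
  have hs : IsSelfAdjoint Z := IsSelfAdjoint.of_nonneg h0
  have hp : ∀ t : ℝ, 0 < √(max t e) := fun t => Real.sqrt_pos.2 (he.trans_le (le_max_right _ _))
  have c1 : Continuous fun t : ℝ => √(max t e) := by fun_prop
  have c2 : Continuous fun t : ℝ => (√(max t e))⁻¹ := c1.inv₀ fun t => (hp t).ne'
  refine ⟨cfc (fun t : ℝ => √(max t e)) Z, cfc (fun t : ℝ => (√(max t e))⁻¹) Z, cfc_mem_vn h1 _,
    cfc_mem_vn h2 _, cfc_mem_vn h1 _, cfc_mem_vn h2 _, IsSelfAdjoint.cfc, IsSelfAdjoint.cfc,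
    ?_, ?_, ?_⟩
  · rw [← cfc_mul _ _ Z c1.continuousOn c2.continuousOn, ← cfc_const_one ℝ Z]
    exact cfc_congr fun t _ => mul_inv_cancel₀ (hp t).ne'
  · rw [← cfc_mul _ _ Z c2.continuousOn c1.continuousOn, ← cfc_const_one ℝ Z]
    exact cfc_congr fun t _ => inv_mul_cancel₀ (hp t).ne'
  · rw [← cfc_mul _ _ Z c1.continuousOn c1.continuousOn]
    conv_rhs => rw [← cfc_id' ℝ Z]
    refine cfc_congr fun t ht => ?_
    have := (algebraMap_le_iff_le_spectrum hs).1 hZ t ht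
    show √(max t e) * √(max t e) = t
    rw [max_eq_left this, Real.mul_self_sqrt (he.le.trans this)]

theorem g_contr {H H' c Z : K →L[ℂ] K} (hs : IsSelfAdjoint H') (e1 : H * H' = 1) (e2 : H' * H = 1)
    (e3 : H * H = Z) (h0 : 0 ≤ c) (h1 : c ≤ Z) (v : K) : ‖(H' * c * H') v‖ ≤ ‖v‖ := by
  have h2 := hs.conjugate_le_conjugate h1
  rw [← e3, ← mul_assoc, e2, one_mul, e1] at h2
  have h3 : ‖H' * c * H'‖ ≤ 1 :=
    (CStarAlgebra.norm_le_norm_of_nonneg_of_le (hs.conjugate_nonneg h0) h2).trans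
      ContinuousLinearMap.norm_id_le
  simpa using ((H' * c * H').le_opNorm v).trans (mul_le_mul_of_nonneg_right h3 (norm_nonneg v))

theorem g_star_inner (x : K →L[ℂ] K) (v : K) : (⟪v, (star x * x) v⟫_ℂ).re = ‖x v‖ ^ 2 := by
  rw [mul_apply_eq_comp, ContinuousLinearMap.star_eq_adjoint,
    ContinuousLinearMap.adjoint_inner_right, ← inner_self_eq_norm_sq (𝕜 := ℂ)]
  rfl

theorem g_cen {x z : K →L[ℂ] K} (hx : x ∈ N) (hz : z ∈ N.commutant) : x * z = z * x :=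
  VonNeumannAlgebra.mem_commutant_iff.1 hz x hx

theorem g_weight (D : DM.{u, w} Γ) (h : StdE N ξ l r) {x : K →L[ℂ] K} (hx : x ∈ N) (p q : ℕ)
    {e : ℝ} (he : 0 < e) : ∃ H y : K →L[ℂ] K, H ∈ N ∧ H ∈ N.commutant ∧ IsSelfAdjoint H ∧ y ∈ N ∧
      y * H = x ∧ ‖H ξ‖ ^ 2 = p * ‖x ξ‖ ^ 2 + q * ‖star x ξ‖ ^ 2 + e * ‖ξ‖ ^ 2 ∧
      (∀ v, ‖(p : ℂ) • D.E l (star y * y) v‖ ≤ ‖v‖) ∧
      ∀ v, ‖(q : ℂ) • D.E l (y * star y) v‖ ≤ ‖v‖ := by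
  have hl := h.std.bim.ul
  have m1 : star x * x ∈ N := mul_mem (star_mem hx) hx
  have m2 : x * star x ∈ N := mul_mem hx (star_mem hx)
  have p1 : 0 ≤ p • D.E l (star x * x) := nsmul_nonneg (D.E_nonneg hl (star_mul_self_nonneg x)) p
  have p2 : 0 ≤ q • D.E l (x * star x) := nsmul_nonneg (D.E_nonneg hl (mul_star_self_nonneg x)) q
  have p3 : 0 ≤ algebraMap ℝ (K →L[ℂ] K) e := by
    rw [Algebra.algebraMap_eq_smul_one]
    exact smul_nonneg he.le zero_le_one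
  have e0 : algebraMap ℝ (K →L[ℂ] K) e = (e : ℂ) • (1 : K →L[ℂ] K) := by
    rw [Algebra.algebraMap_eq_smul_one, Complex.coe_smul]
  obtain ⟨H, H', a1, a2, a3, a4, s1, s2, e1, e2, e3⟩ := g_sqrt (N := N)
    (Z := p • D.E l (star x * x) + q • D.E l (x * star x) + algebraMap ℝ (K →L[ℂ] K) e)
    (add_mem (add_mem (nsmul_mem (h.std.E_mem D m1) p) (nsmul_mem (h.std.E_mem D m2) q))
      (e0 ▸ vn_smul _ (one_mem N)))
    (add_mem (add_mem (nsmul_mem (h.E_central D m1) p) (nsmul_mem (h.E_central D m2) q))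
      (e0 ▸ vn_smul _ (one_mem _))) he (le_add_of_nonneg_left (add_nonneg p1 p2))
  have c1 : ∀ g, Commute H' (l g) := fun g => (g_cen (h.std.l_mem g) a4).symm
  refine ⟨H, x * H', a1, a2, s1, mul_mem hx a3, by rw [mul_assoc, e2, mul_one], ?_,
    fun v => ?_, fun v => ?_⟩
  · rw [← g_star_inner, s1.star_eq, e3, e0, add_apply, add_apply, inner_add_right, inner_add_right,
      Complex.add_re, Complex.add_re, ← Nat.cast_smul_eq_nsmul ℂ, ← Nat.cast_smul_eq_nsmul ℂ,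
      smul_apply, smul_apply, smul_apply, inner_smul_right, inner_smul_right, inner_smul_right,
      h.std.E_inner D m1 h.std.fix h.std.fix, h.std.E_inner D m2 h.std.fix h.std.fix,
      ← Complex.ofReal_natCast, ← Complex.ofReal_natCast, Complex.re_ofReal_mul,
      Complex.re_ofReal_mul, Complex.re_ofReal_mul, g_star_inner, ← g_star_inner (star x),
      star_star, one_apply_eq_self, ← inner_self_eq_norm_sq (𝕜 := ℂ) ξ]
    rfl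
  · have := g_contr s2 e1 e2 e3 p1 ((le_add_of_nonneg_right p2).trans (le_add_of_nonneg_right p3)) v
    rwa [mul_smul_comm, smul_mul_assoc, ← D.E_mul hl c1 c1, ← Nat.cast_smul_eq_nsmul ℂ,
      show H' * (star x * x) * H' = star (x * H') * (x * H') by
        rw [star_mul, s2.star_eq]; noncomm_ring] at this
  · have := g_contr s2 e1 e2 e3 p2 ((le_add_of_nonneg_left p1).trans (le_add_of_nonneg_right p3)) v
    rwa [mul_smul_comm, smul_mul_assoc, ← D.E_mul hl c1 c1, ← Nat.cast_smul_eq_nsmul ℂ,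
      show H' * (x * star x) * H' = x * H' * star (x * H') by
        rw [star_mul, s2.star_eq, ← mul_assoc H', ← g_cen hx a4, mul_assoc _ _ H',
          g_cen (star_mem hx) a4]] at this

omit [CompleteSpace K] in
theorem g_avg {ι : Type*} [Fintype ι] (c : ℝ) (v : ι → K) :
    ‖(c : ℂ) • ∑ i, v i‖ ^ 2 ≤ c ^ 2 * Fintype.card ι * ∑ i, ‖v i‖ ^ 2 := by
  rw [norm_smul, mul_pow, Complex.norm_real, Real.norm_eq_abs, sq_abs, mul_assoc]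
  refine mul_le_mul_of_nonneg_left ?_ (sq_nonneg _)
  exact (pow_le_pow_left₀ (norm_nonneg _) (norm_sum_le _ _) 2).trans sq_sum_le_card_mul_sum_sq

theorem g_shift (h : Std N ξ l r) (hζ : ζ ∈ Fix l r) {T : K →L[ℂ] K} (hT : T ∈ N) (g : Γ) :
    T (l g ζ) = r g⁻¹ (T ζ) := by
  rw [fix_l hζ]
  exact congrArg (fun S : K →L[ℂ] K => S ζ) (g_cen hT (h.r_mem _))

theorem g_norm (h : Std N ξ l r) (hζ : ζ ∈ Fix l r) {T : K →L[ℂ] K} (hT : T ∈ N) (g k : Γ) :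
    ‖l g (T (l k ζ))‖ = ‖T ζ‖ := by
  rw [h.bim.ul.norm_apply, g_shift h hζ hT, h.bim.ur.norm_apply]

theorem g_term (h : Std N ξ l r) (hI : Itf δ M ξ l r κ κ' W) (hζ : ζ ∈ Fix l r)
    {b c : K →L[ℂ] K} (hb : b ∈ N) (hc : c ∈ M) (g k : Γ) :
    ‖l g (b (l k ζ)) - κ g (c (κ k (W ζ)))‖ ^ 2 ≤
      3 * (4 * δ ^ 2 * ‖b ζ‖ ^ 2 + ‖(b - c) (W ζ)‖ ^ 2 + ‖b (ζ - W ζ)‖ ^ 2) := by
  have e1 : κ k (W ζ) = κ' k⁻¹ (W ζ) := by rw [hI.int k ζ hζ, hI.int' _ ζ hζ, fix_l hζ]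
  have e2 : c (κ' k⁻¹ (W ζ)) = κ' k⁻¹ (c (W ζ)) :=
    congrArg (fun S : K →L[ℂ] K => S (W ζ)) (g_cen hc (hI.std.r_mem _))
  have h0 : 0 ≤ δ := (norm_nonneg _).trans hI.W_near
  have e3 : l g (r k⁻¹ (b ζ)) - κ g (κ' k⁻¹ (c (W ζ))) = -(κ g - l g) (r k⁻¹ (b ζ)) +
      -κ g ((κ' k⁻¹ - r k⁻¹) (b ζ)) + κ g (κ' k⁻¹ ((b - c) (W ζ) + b (ζ - W ζ))) := by
    simp only [sub_apply, map_sub, map_add]
    abel
  have h1 : ‖(κ g - l g) (r k⁻¹ (b ζ))‖ ≤ δ * ‖b ζ‖ := by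
    rw [← h.bim.ur.norm_apply k⁻¹ (b ζ)]
    exact ((κ g - l g).le_opNorm _).trans (mul_le_mul_of_nonneg_right (hI.near g) (norm_nonneg _))
  have h2 : ‖κ g ((κ' k⁻¹ - r k⁻¹) (b ζ))‖ ≤ δ * ‖b ζ‖ := by
    rw [hI.std.bim.ul.norm_apply]
    exact ((κ' k⁻¹ - r k⁻¹).le_opNorm _).trans
      (mul_le_mul_of_nonneg_right (hI.near' _) (norm_nonneg _))
  have h3 : ‖κ g (κ' k⁻¹ ((b - c) (W ζ) + b (ζ - W ζ)))‖ ≤ ‖(b - c) (W ζ)‖ + ‖b (ζ - W ζ)‖ := by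
    rw [hI.std.bim.ul.norm_apply, hI.std.bim.ur.norm_apply]
    exact norm_add_le _ _
  have h4 : ‖l g (b (l k ζ)) - κ g (c (κ k (W ζ)))‖ ≤
      2 * δ * ‖b ζ‖ + ‖(b - c) (W ζ)‖ + ‖b (ζ - W ζ)‖ := by
    rw [g_shift h hζ hb, e1, e2, e3]
    refine norm_add₃_le.trans ?_
    rw [norm_neg, norm_neg]
    linarith
  refine (pow_le_pow_left₀ (norm_nonneg _) h4 2).trans ?_
  nlinarith [sq_nonneg (2 * δ * ‖b ζ‖ - ‖(b - c) (W ζ)‖), sq_nonneg (2 * δ * ‖b ζ‖ - ‖b (ζ - W ζ)‖),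
    sq_nonneg (‖(b - c) (W ζ)‖ - ‖b (ζ - W ζ)‖)]

theorem g_col (h : Std N ξ l r) (hI : Itf δ M ξ l r κ κ' W) (hδ : δ ≤ 1) (hζ : ζ ∈ Fix l r)
    {ι : Type*} [Fintype ι] {b c : ι → (K →L[ℂ] K)} (hb : ∀ i, b i ∈ N) (hc : ∀ i, c i ∈ M)
    {τ : ℝ} (h1 : ∀ η, ∑ i, ‖b i η‖ ^ 2 ≤ ‖η‖ ^ 2)
    (h2 : ∀ η, ∑ i, ‖(b i - c i) η‖ ^ 2 ≤ τ ^ 2 * ‖η‖ ^ 2) (g k : ι → Γ) :
    ∑ i, ‖l (g i) (b i (l (k i) ζ)) - κ (g i) (c i (κ (k i) (W ζ)))‖ ^ 2 ≤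
      3 * (5 * δ ^ 2 + 4 * τ ^ 2) * ‖ζ‖ ^ 2 := by
  refine (Finset.sum_le_sum fun i _ => g_term h hI hζ (hb i) (hc i) (g i) (k i)).trans ?_
  rw [← Finset.mul_sum, Finset.sum_add_distrib, Finset.sum_add_distrib, ← Finset.mul_sum]
  have h0 : 0 ≤ δ := (norm_nonneg _).trans hI.W_near
  have h3 : ‖ζ - W ζ‖ ≤ δ * ‖ζ‖ := by
    rw [norm_sub_rev]
    exact ((W - 1).le_opNorm ζ).trans (mul_le_mul_of_nonneg_right hI.W_near (norm_nonneg _))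
  have h4 : ‖W ζ‖ ≤ 2 * ‖ζ‖ := by
    have := norm_sub_norm_le (W ζ) ζ
    rw [norm_sub_rev] at this
    nlinarith [norm_nonneg ζ]
  have h5 := (h1 (ζ - W ζ)).trans (pow_le_pow_left₀ (norm_nonneg _) h3 2)
  have h6 := (h2 (W ζ)).trans (mul_le_mul_of_nonneg_left (pow_le_pow_left₀ (norm_nonneg _) h4 2)
    (sq_nonneg τ))
  have h7 := mul_le_mul_of_nonneg_left (h1 ζ) (show 0 ≤ 4 * δ ^ 2 by positivity)
  rw [mul_pow] at h5 h6
  linarith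

/-- The matrix entries. -/
noncomputable def gA (l : Γ →* (K →L[ℂ] K)) (S : Sample Γ) (y : K →L[ℂ] K)
    (i j : Fin (S.n + 1)) : K →L[ℂ] K :=
  (((√(S.n + 1))⁻¹ : ℝ) : ℂ) • (l (S.s j)⁻¹ * y * l (S.s i))

theorem gA_star (hl : URep l) (S : Sample Γ) (y : K →L[ℂ] K) (i j : Fin (S.n + 1)) :
    star (gA l S y i j) = gA l S (star y) j i := by
  rw [gA, gA, star_smul, star_mul, star_mul, hl, hl, inv_inv, mul_assoc, Complex.star_def,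
    Complex.conj_ofReal]

theorem gA_mem (h : Std N ξ l r) (S : Sample Γ) {y : K →L[ℂ] K} (hy : y ∈ N)
    (i j : Fin (S.n + 1)) : gA l S y i j ∈ N :=
  vn_smul _ (mul_mem (mul_mem (h.l_mem _) hy) (h.l_mem _))

omit [CompleteSpace K] in
theorem gA_mul (S : Sample Γ) (y y' : K →L[ℂ] K) (i j j' i' : Fin (S.n + 1)) (v : K) :
    gA l S y' j' i' (gA l S y i j v) = ((S.n : ℂ) + 1)⁻¹ •
      l (S.s i')⁻¹ (y' (l (S.s j' * (S.s j)⁻¹) (y (l (S.s i) v)))) := by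
  have : (((√(S.n + 1))⁻¹ : ℝ) : ℂ) * (((√(S.n + 1))⁻¹ : ℝ) : ℂ) = ((S.n : ℂ) + 1)⁻¹ := by
    rw [← Complex.ofReal_mul, ← mul_inv, Real.mul_self_sqrt (by positivity)]
    push_cast
    rfl
  simp only [gA, smul_apply, map_smul, smul_smul, this, mul_apply_eq_comp, map_mul]

omit [CompleteSpace K] in
theorem gA_inv (S : Sample Γ) (y : K →L[ℂ] K) (i j : Fin (S.n + 1)) :
    ((√(S.n + 1) : ℝ) : ℂ) • (l (S.s j) * gA l S y i j * l (S.s i)⁻¹) = y := by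
  have h0 : (0 : ℝ) < √(S.n + 1) := Real.sqrt_pos.2 (by positivity)
  rw [gA, mul_smul_comm, smul_mul_assoc, smul_smul, ← Complex.ofReal_mul, mul_inv_cancel₀ h0.ne',
    Complex.ofReal_one, one_smul, ← mul_assoc, ← mul_assoc, ← map_mul, mul_inv_cancel, map_one,
    one_mul, mul_assoc, ← map_mul, mul_inv_cancel, map_one, mul_one]

omit [CompleteSpace K] in
theorem g_T1 (S : Sample Γ) (y y' : K →L[ℂ] K) (p : ℕ) (j : Fin (S.n + 1)) (v : K) :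
    ∑ i : Fin (S.n + 1) × Fin p, gA l S y' j i.1 (gA l S y i.1 j v) =
      (p : ℂ) • S.av fun s => (l s⁻¹ * (y' * y) * l s) v := by
  rw [Fintype.sum_prod_type, Sample.av, Finset.smul_sum, Finset.smul_sum]
  refine Finset.sum_congr rfl fun i _ => ?_
  dsimp only
  rw [Finset.sum_const, Finset.card_univ, Fintype.card_fin, gA_mul, mul_inv_cancel, map_one,
    Nat.cast_smul_eq_nsmul]
  rfl

theorem g_T2 (h : Std N ξ l r) (hζ : ζ ∈ Fix l r) (S : Sample Γ) {y : K →L[ℂ] K} (hy : y ∈ N)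
    (p q : ℕ) : ∑ i : Fin (S.n + 1) × Fin p, ∑ j : Fin (S.n + 1) × Fin q,
      ∑ j' : Fin (S.n + 1) × Fin q, ‖gA l S (star y) j'.1 i.1 (gA l S y i.1 j.1 ζ)‖ ^ 2 =
      (S.n + 1) * q * (p * q * (⟪y ζ, S.av2 fun s t =>
        (l (s * t⁻¹)⁻¹ * (y * star y) * l (s * t⁻¹)) (y ζ)⟫_ℂ).re) := by
  have e1 : ∀ (i j j' : Fin (S.n + 1)), ‖gA l S (star y) j' i (gA l S y i j ζ)‖ ^ 2 =
      ((S.n : ℝ) + 1)⁻¹ ^ 2 * ‖star y (l (S.s j' * (S.s j)⁻¹) (y ζ))‖ ^ 2 := fun i j j' => by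
    have := g_norm h hζ (mul_mem (mul_mem (star_mem hy) (h.l_mem (S.s j' * (S.s j)⁻¹))) hy)
      (S.s i)⁻¹ (S.s i)
    simp only [mul_apply_eq_comp] at this
    rw [gA_mul, norm_smul, this, mul_pow, norm_inv, ← Nat.cast_succ, Complex.norm_natCast,
      Nat.cast_succ]
  have e2 : ∀ g : Γ, (⟪y ζ, (l g⁻¹ * (y * star y) * l g) (y ζ)⟫_ℂ).re =
      ‖star y (l g (y ζ))‖ ^ 2 := fun g => by
    rw [← h.bim.ul, show star (l g) * (y * star y) * l g = star (star y * l g) * (star y * l g) by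
      rw [star_mul, star_star]; noncomm_ring, g_star_inner]
    rfl
  have e3 : ((S.n : ℂ) + 1)⁻¹ ^ 2 = ((((S.n : ℝ) + 1)⁻¹ ^ 2 : ℝ) : ℂ) := by push_cast; rfl
  rw [Sample.av2_eq, inner_smul_right, e3, Complex.re_ofReal_mul]
  simp only [inner_sum, Complex.re_sum, e1, e2, Fintype.sum_prod_type, Finset.sum_const,
    Finset.card_univ, Fintype.card_prod, Fintype.card_fin, nsmul_eq_mul, ← Finset.mul_sum]
  rw [Finset.sum_comm]
  push_cast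
  ring

theorem g_ev1 (D : DM.{u, w} Γ) (h : Std N ξ l r) (hζ : ζ ∈ Fix l r) {T : K →L[ℂ] K} (hT : T ∈ N)
    {p : ℕ} (hp : ∀ v, ‖(p : ℂ) • D.E l T v‖ ≤ ‖v‖) {η : ℝ} (hη : 0 < η) :
    ∀ᶠ S : Sample Γ in D.U, ‖(p : ℂ) • S.av fun s => (l s⁻¹ * T * l s) ζ‖ ^ 2 ≤ ‖ζ‖ ^ 2 + η := by
  have h1 := (((h.E_strong D hT hζ).const_smul (p : ℂ)).norm).pow 2
  refine h1.eventually (ge_mem_nhds ?_)
  linarith [pow_le_pow_left₀ (norm_nonneg _) (hp ζ) 2]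

theorem g_ev2 (D : DM.{u, w} Γ) (h : Std N ξ l r) {T : K →L[ℂ] K} (hT : T ∈ N) (p : ℕ)
    {q : ℕ} (hq : ∀ v, ‖(q : ℂ) • D.E l T v‖ ≤ ‖v‖) (v : K) {η : ℝ} (hη : 0 < η) :
    ∀ᶠ S : Sample Γ in D.U, p * q * (⟪v, S.av2 fun s t =>
      (l (s * t⁻¹)⁻¹ * T * l (s * t⁻¹)) v⟫_ℂ).re ≤ p * ‖v‖ ^ 2 + η := by
  have hl := h.bim.ul
  have hb : Bd2 fun s t : Γ => l (s * t⁻¹)⁻¹ * T * l (s * t⁻¹) :=
    ((hl.bd2 fun s t => (s * t⁻¹)⁻¹).mul (Bd2.const T)).mul (hl.bd2 fun s t => s * t⁻¹)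
  have h1 := D.vm_tendsto (hb.apply v) v
  rw [← D.om_apply hb, D.om_inv_right fun s t => l (s * t)⁻¹ * T * l (s * t), h.E_eq D hT] at h1
  have h2 := ((Complex.continuous_re.tendsto _).comp h1).const_mul ((p : ℝ) * q)
  refine h2.eventually (ge_mem_nhds ?_)
  have h3 : (q : ℝ) * (⟪v, D.E l T v⟫_ℂ).re ≤ ‖v‖ ^ 2 := by
    rw [← Complex.re_ofReal_mul, Complex.ofReal_natCast, ← inner_smul_right, sq]
    exact (Complex.re_le_norm _).trans ((norm_inner_le_norm _ _).trans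
      (mul_le_mul_of_nonneg_left (hq v) (norm_nonneg _)))
  have h4 := mul_le_mul_of_nonneg_left h3 (Nat.cast_nonneg (α := ℝ) p)
  rw [mul_assoc]
  linarith

end Vale.Agent.P096
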