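import Vale.Agent.P096.LemK
import Vale.Agent.P096.Polar

/-! From the exact intertwining to a standard structure on the second algebra. -/

open scoped InnerProductSpace Topology
open Filter

namespace Vale.Agent.P096

open Vale.Agent.P104 Vale.Agent.P132

universe u v w

variable {Γ : Type w} [Group Γ] {K : Type v} [NormedAddCommGroup K] [InnerProductSpace ℂ K]
  [CompleteSpace K] {N M : VonNeumannAlgebra K} {ξ : K} {l r : Γ →* (K →L[ℂ] K)}

theorem sep_of_int (D : DM.{v, w} Γ) (h : StdE N ξ l r) {δ : ℝ} (hδ : δ ≤ 1 / 100)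
    (hM : Near δ (M : Set (K →L[ℂ] K)) N) {κ κ' : Γ → (K →L[ℂ] K)} {W : K →L[ℂ] K}
    (hκM : ∀ g, κ g ∈ M) (hκM' : ∀ g, κ' g ∈ M.commutant) (hκ : ∀ g, ‖κ g - l g‖ ≤ δ)
    (hW : ‖W - 1‖ ≤ δ) (h1 : ∀ g, κ g (W ξ) = W (l g ξ)) (h2 : ∀ g, κ' g (W ξ) = W (r g ξ)) :
    Sep M (W ξ) := by
  have hs := h.std
  have hl := hs.bim.ul
  have hδ0 : 0 ≤ δ := (norm_nonneg _).trans hW
  obtain ⟨e, heM, he, he1, he2, -⟩ := exists_supp M (W ξ)
  have hq : IsStarProjection (1 - e) := he.one_sub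
  have hqM : 1 - e ∈ M := sub_mem (one_mem _) heM
  have hq0 : ∀ g, (1 - e) (W (l g ξ)) = 0 := fun g => by
    rw [fix_l hs.fix, ← h2, ContinuousLinearMap.sub_apply, he1 _ (hκM' _),
      ContinuousLinearMap.one_apply, sub_self]
  have hen : ‖e‖ ≤ 1 := he.norm_le
  generalize hqd : 1 - e = q at hq hqM hq0
  have hqn : ‖q‖ ≤ 1 := hq.norm_le
  have hA : ∀ g, ‖q * l g * e‖ ≤ δ := fun g => by
    have a1 : q * κ g * e = 0 := he2 _ (mul_mem hqM (hκM g)) (by
      show q (κ g (W ξ)) = 0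
      rw [h1, hq0])
    have a2 : q * l g * e = -(q * (κ g - l g) * e) := by
      rw [mul_sub, sub_mul, a1, zero_sub, neg_neg]
    have a3 := lemK_mul_le (lemK_mul_le hqn (hκ g)) hen
    rw [a2, norm_neg]
    linarith
  have hB : ∀ g, ‖q * l g - l g * q‖ ≤ 2 * δ := fun g => by
    have a1 : q * l g - l g * q = q * l g * e - star (q * l g⁻¹ * e) := by
      rw [star_mul, star_mul, he.isSelfAdjoint.star_eq, hq.isSelfAdjoint.star_eq, hl, inv_inv,
        ← hqd]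
      noncomm_ring
    have a2 := hA g⁻¹
    rw [← norm_star] at a2
    rw [a1]
    linarith [norm_sub_le (q * l g * e) (star (q * l g⁻¹ * e)), hA g]
  obtain ⟨n, hn, hqn'⟩ := hM q hqM
  have hqn2 : ‖q - n‖ ≤ δ := hqn'.trans (mul_le_of_le_one_right hδ0 hqn)
  have hC : ‖D.E l n - n‖ ≤ 4 * δ := D.E_sub_le hl fun g => by
    have a1 : n * l g - l g * n = (q * l g - l g * q) - (q - n) * l g + l g * (q - n) := by
      noncomm_ring
    have a2 := lemK_mul_le hqn2 (hl.norm_le g)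
    have a3 := lemK_mul_le (hl.norm_le g) hqn2
    rw [a1]
    linarith [norm_add_le ((q * l g - l g * q) - (q - n) * l g) (l g * (q - n)),
      norm_sub_le (q * l g - l g * q) ((q - n) * l g), hB g]
  have hD : ‖D.E l n - q‖ ≤ 5 * δ := by
    have a1 : D.E l n - q = (D.E l n - n) - (q - n) := by abel
    rw [a1]
    linarith [norm_sub_le (D.E l n - n) (q - n)]
  have hz : ∀ z ∈ N, z ∈ N.commutant → q (W (z ξ)) = 0 := fun z hz hz' => by
    obtain ⟨c, u, hu, rfl⟩ := exists_four_cen hz hz'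
    simp only [ContinuousLinearMap.sum_apply, ContinuousLinearMap.smul_apply, map_sum, map_smul]
    refine Finset.sum_eq_zero fun i _ => ?_
    obtain ⟨g, hg, -⟩ := h.cen _ (hu i).1 (hu i).2.1 (hu i).2.2.1
    rw [← hg, hq0, smul_zero]
  have hF : ∀ ζ ∈ Fix l r, q (W ζ) = 0 := fun ζ hζ => by
    rw [← norm_le_zero_iff]
    refine le_of_forall_pos_le_add fun c hc => ?_
    obtain ⟨z, hz1, hz2, hz3⟩ := h.erg ζ hζ (c / 2) (by positivity)
    have a1 : q (W ζ) = (q * W) (ζ - z ξ) := by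
      rw [map_sub]
      show _ = q (W ζ) - q (W (z ξ))
      rw [hz z hz1 hz2, sub_zero]
    have a2 := lemK_mul_le hqn
      (lemK_le2 (by linarith : δ ≤ 1) (u := (1 : K →L[ℂ] K)) ContinuousLinearMap.norm_id_le hW)
    have a3 := (q * W).le_of_opNorm_le_of_le a2 hz3
    rw [a1]
    linarith
  have hc := hs.E_comm D hn
  have hc' : ∀ g, Commute (star (D.E l n)) (l g) := fun g => by
    have := (hc g⁻¹).star_star
    rwa [hl, inv_inv] at this
  have hE : ‖D.E l n‖ ≤ 6 * δ := by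
    refine norm_le_of_inv hs.sep (hs.E_mem D hn) hs.fix
      (fun ζ hζ => hs.fix_of_comm (hs.E_mem D hn) hc hζ)
      (fun ζ hζ => hs.fix_of_comm (star_mem (hs.E_mem D hn)) hc' hζ) (by positivity)
      fun ζ hζ => ?_
    have a1 : D.E l n ζ = (D.E l n - q) ζ - (q * (W - 1)) ζ := by
      show _ = D.E l n ζ - q ζ - q (W ζ - ζ)
      rw [map_sub, hF ζ hζ]
      abel
    have a2 := (D.E l n - q).le_of_opNorm_le hD ζ
    have a3 := (q * (W - 1)).le_of_opNorm_le (lemK_mul_le hqn hW) ζ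
    rw [a1]
    linarith [norm_sub_le ((D.E l n - q) ζ) ((q * (W - 1)) ζ)]
  have hq1 : ‖q‖ ≤ 11 * δ := by
    have a1 : q = D.E l n - (D.E l n - q) := by abel
    rw [a1]
    linarith [norm_sub_le (D.E l n) (D.E l n - q)]
  have hq2 : q = 0 := by
    have a1 : ‖q‖ ≤ ‖q‖ * ‖q‖ := by
      conv_lhs => rw [← hq.isIdempotentElem.eq]
      exact norm_mul_le _ _
    rw [← norm_le_zero_iff]
    nlinarith [norm_nonneg q]
  have he3 : e = 1 := (sub_eq_zero.1 (hqd.trans hq2)).symm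
  intro x hx hx0
  have := he2 x hx hx0
  rwa [he3, mul_one] at this

/-- One averaging step. -/
noncomputable def step6L (D : DM.{v, w} Γ) (κ : Γ →* (K →L[ℂ] K)) (X : K →L[ℂ] K) : K →L[ℂ] K :=
  D.om fun s _ => κ s * X * star (κ s)

theorem step6L_step (D : DM.{v, w} Γ) (h : Std N ξ l r) {δ : ℝ} (hδ : δ ≤ 1 / 100)
    (hM : Near δ (M : Set (K →L[ℂ] K)) N) (κ : Γ →* (K →L[ℂ] K)) (hκM : ∀ g, κ g ∈ M)
    (hκ : ∀ g, ‖κ g - l g‖ ≤ δ) {X : K →L[ℂ] K} (hX : X ∈ M) (hXs : IsSelfAdjoint X) {β : ℝ}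
    (hβ : ∀ g, ‖κ g * X * star (κ g) - X‖ ≤ β) : step6L D κ X ∈ M ∧
      IsSelfAdjoint (step6L D κ X) ∧
      ∀ g, ‖κ g * step6L D κ X * star (κ g) - step6L D κ X‖ ≤ β / 2 := by
  have hδ0 : 0 ≤ δ := (norm_nonneg _).trans (hκ 1)
  have hβ0 : 0 ≤ β := (norm_nonneg _).trans (hβ 1)
  have hl := h.bim.ul
  have hδ1 : δ ≤ 1 := by linarith
  have k2 : ∀ g, ‖κ g‖ ≤ 2 := fun g => lemK_le2 hδ1 (hl.norm_le g) (hκ g)
  have k2' : ∀ g, ‖star (κ g)‖ ≤ 2 := fun g => (norm_star _).trans_le (k2 g)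
  have hb : ∀ φ : Γ → Γ → Γ, Bd2 fun s t => κ (φ s t) * X * star (κ (φ s t)) := fun φ =>
    ⟨2 * ‖X‖ * 2, fun s t => lemK_mul_le (lemK_mul_le (k2 _) le_rfl) (k2' _)⟩
  have hmem : ∀ g, κ g * X * star (κ g) ∈ M := fun g =>
    mul_mem (mul_mem (hκM g) hX) (star_mem (hκM g))
  refine ⟨D.om_mem (hb fun s _ => s) fun s _ => hmem s, ?_, ?_⟩
  · show star (step6L D κ X) = step6L D κ X
    rw [step6L, ← D.om_star (hb fun s _ => s)]
    simp only [star_mul, star_star, hXs.star_eq, mul_assoc]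
  choose n hn hnb using fun g => hM _ (sub_mem (hmem g) hX)
  have hnb' : ∀ g, ‖κ g * X * star (κ g) - X - n g‖ ≤ δ * β := fun g =>
    (hnb g).trans (mul_le_mul_of_nonneg_left (hβ g) hδ0)
  have hδβ : δ * β ≤ 1 / 100 * β := mul_le_mul_of_nonneg_right hδ hβ0
  have hC : ∀ g, ‖n g‖ ≤ 2 * β := fun g => by
    have a1 := norm_sub_le (κ g * X * star (κ g) - X) (κ g * X * star (κ g) - X - n g)
    rw [sub_sub_cancel] at a1
    linarith [hβ g, hnb' g]
  have hbF : ∀ g, Bd2 fun s t => l s⁻¹ * n (s * g * t) * l s := fun g =>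
    ((hl.bd2 fun s _ => s⁻¹).mul (lemK_bd hC fun s t => s * g * t)).mul (hl.bd2 fun s _ => s)
  have hF : ∀ g, D.om (fun s t => l s⁻¹ * n (s * g * t) * l s) =
      D.om fun s t => l s⁻¹ * n (s * 1 * t) * l s := fun g => by
    have hm : ∀ g, D.om (fun s t => l s⁻¹ * n (s * g * t) * l s) ∈ N := fun g =>
      D.om_mem (hbF g) fun s t => mul_mem (mul_mem (h.l_mem _) (hn _)) (h.l_mem _)
    obtain ⟨ζ, -, hv⟩ := D.vm_de h.bim.urep_diag (n := fun k => n k ξ) (C := 2 * β * ‖ξ‖)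
      fun k => (n k).le_of_opNorm_le (hC k) ξ
    refine h.sep.ext (hm g) (hm 1) ?_
    rw [D.om_apply (hbF g), D.om_apply (hbF 1)]
    simp only [h.mean_conj_apply (hn _) h.fix]
    rw [hv g, hv 1]
  have hG : ∀ g, ‖(κ g * step6L D κ X * star (κ g) - step6L D κ X) -
      D.om fun s t => l s⁻¹ * n (s * g * t) * l s‖ ≤ 4 * (δ * β) := fun g => by
    have e1 : κ g * step6L D κ X * star (κ g) =
        D.om fun (_ : Γ) t => κ (g * t) * X * star (κ (g * t)) := by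
      rw [step6L, ← D.om_mul_left _ (hb fun s _ => s),
        ← D.om_mul_right _ ((Bd2.const _).mul (hb fun s _ => s)),
        ← D.om_swap fun (_ : Γ) t => κ (g * t) * X * star (κ (g * t))]
      simp only [map_mul, star_mul, mul_assoc]
    have e2 : step6L D κ X = D.om fun s (_ : Γ) => κ s⁻¹ * X * star (κ s⁻¹) :=
      (D.om_inv_left fun s _ => κ s * X * star (κ s)).symm
    rw [e1, e2, ← D.om_sub (hb fun _ t => g * t) (hb fun s _ => s⁻¹)]
    refine D.om_sub_le ((hb fun _ t => g * t).sub (hb fun s _ => s⁻¹)) (hbF g) fun s t => ?_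
    have e3 : κ (g * t) = κ s⁻¹ * κ (s * g * t) := by
      rw [← map_mul, mul_assoc s, inv_mul_cancel_left]
    have a0 : ‖star (κ s⁻¹) - l s‖ ≤ δ := by
      have := hκ s⁻¹
      rwa [← norm_star, star_sub, hl, inv_inv] at this
    have a1 := lemK_mul_le (lemK_mul_le (hκ s⁻¹) (hβ (s * g * t))) (k2' s⁻¹)
    have a2 := lemK_mul_le (lemK_mul_le (hl.norm_le s⁻¹) (hβ (s * g * t))) a0
    have a3 := lemK_mul_le (lemK_mul_le (hl.norm_le s⁻¹) (hnb' (s * g * t))) (hl.norm_le s)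
    have e4 : κ (g * t) * X * star (κ (g * t)) - κ s⁻¹ * X * star (κ s⁻¹) -
        l s⁻¹ * n (s * g * t) * l s =
        (κ s⁻¹ - l s⁻¹) * (κ (s * g * t) * X * star (κ (s * g * t)) - X) * star (κ s⁻¹) +
        l s⁻¹ * (κ (s * g * t) * X * star (κ (s * g * t)) - X) * (star (κ s⁻¹) - l s) +
        l s⁻¹ * (κ (s * g * t) * X * star (κ (s * g * t)) - X - n (s * g * t)) * l s := by
      rw [e3, star_mul]
      noncomm_ring
    rw [e4]
    refine norm_add₃_le.trans ?_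
    linarith
  intro g
  have a1 := hG g
  have a2 := hG 1
  rw [map_one, star_one, one_mul, mul_one, sub_self, zero_sub, norm_neg] at a2
  rw [hF g] at a1
  have a3 := norm_add_le ((κ g * step6L D κ X * star (κ g) - step6L D κ X) -
      D.om fun s t => l s⁻¹ * n (s * 1 * t) * l s) (D.om fun s t => l s⁻¹ * n (s * 1 * t) * l s)
  rw [sub_add_cancel] at a3
  linarith

/-- Unitarisation inside `M`. -/
theorem exists_inv_form (D : DM.{v, w} Γ) (h : Std N ξ l r) {δ : ℝ} (hδ : δ ≤ 1 / 100)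
    (hM : Near δ (M : Set (K →L[ℂ] K)) N) (κ : Γ →* (K →L[ℂ] K)) (hκM : ∀ g, κ g ∈ M)
    (hκ : ∀ g, ‖κ g - l g‖ ≤ δ) :
    ∃ X ∈ M, IsSelfAdjoint X ∧ ‖X - 1‖ ≤ 10 * δ ∧ ∀ g, κ g * X * star (κ g) = X := by
  have hδ0 : 0 ≤ δ := (norm_nonneg _).trans (hκ 1)
  have hl := h.bim.ul
  have h0 : ∀ g, ‖κ g * 1 * star (κ g) - 1‖ ≤ 3 * δ := fun g => by
    have a1 : ‖star (κ g) - star (l g)‖ ≤ δ := by rw [← star_sub, norm_star]; exact hκ g
    have a2 := lemK_n2 (by linarith : δ ≤ 1) (hl.norm_le g)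
      ((norm_star (l g)).trans_le (hl.norm_le g)) (hκ g) a1
    rwa [(Unitary.mem_iff.1 (hl.unitary g)).2, ← mul_one (κ g)] at a2
  let X : ℕ → (K →L[ℂ] K) := fun n => (step6L D κ)^[n] 1
  have hX : ∀ n, X (n + 1) = step6L D κ (X n) := fun n => Function.iterate_succ_apply' _ _ _
  have hind : ∀ n, X n ∈ M ∧ IsSelfAdjoint (X n) ∧
      ∀ g, ‖κ g * X n * star (κ g) - X n‖ ≤ 6 * δ / 2 / 2 ^ n := by
    intro n
    induction n with
    | zero =>
      refine ⟨one_mem _, IsSelfAdjoint.one _, fun g => (h0 g).trans (le_of_eq ?_)⟩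
      ring
    | succ n ih =>
      rw [hX]
      obtain ⟨b1, b2, b3⟩ := step6L_step D h hδ hM κ hκM hκ ih.1 ih.2.1 ih.2.2
      refine ⟨b1, b2, fun g => (b3 g).trans (le_of_eq ?_)⟩
      rw [pow_succ]
      ring
  have hd : ∀ n, dist (X n) (X (n + 1)) ≤ 6 * δ / 2 / 2 ^ n := fun n => by
    rw [dist_comm, dist_eq_norm, hX]
    exact D.om_sub_const_le fun s _ => (hind n).2.2 s
  obtain ⟨Y, hY⟩ := cauchySeq_tendsto_of_complete (cauchySeq_of_le_geometric_two hd)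
  refine ⟨Y, (vn_closed M).mem_of_tendsto hY (Eventually.of_forall fun n => (hind n).1), ?_, ?_,
    fun g => ?_⟩
  · refine tendsto_nhds_unique hY.star ?_
    exact hY.congr fun n => (hind n).2.1.star_eq.symm
  · have := dist_le_of_le_geometric_two_of_tendsto₀ hd hY
    rw [dist_comm, dist_eq_norm] at this
    exact this.trans (by linarith)
  · have a1 : Tendsto (fun n => κ g * X n * star (κ g) - X n) atTop
        (𝓝 (κ g * Y * star (κ g) - Y)) := ((hY.const_mul _).mul_const _).sub hY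
    have a2 : Tendsto (fun n : ℕ => 6 * δ / 2 / (2 : ℝ) ^ n) atTop (𝓝 0) :=
      tendsto_const_nhds.div_atTop (tendsto_pow_atTop_atTop_of_one_lt one_lt_two)
    have a3 := le_of_tendsto_of_tendsto' a1.norm a2 fun n => (hind n).2.2 g
    exact sub_eq_zero.1 (norm_le_zero_iff.1 a3)

theorem step6_unit (D : DM.{v, w} Γ) (h : Std N ξ l r) {δ : ℝ} (hδ : δ ≤ 1 / 100)
    (hM : Near δ (M : Set (K →L[ℂ] K)) N) (κ : Γ →* (K →L[ℂ] K)) (hκM : ∀ g, κ g ∈ M)
    (hκ : ∀ g, ‖κ g - l g‖ ≤ δ) :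
    ∃ (R R' : K →L[ℂ] K) (κ₁ : Γ →* (K →L[ℂ] K)), R ∈ M ∧ R' ∈ M ∧ R * R' = 1 ∧ R' * R = 1 ∧
      ‖R - 1‖ ≤ 20 * δ ∧ URep κ₁ ∧ (∀ g, κ₁ g = R * κ g * R') ∧
      ∀ g, ‖κ₁ g - l g‖ ≤ 140 * δ := by
  have hδ0 : 0 ≤ δ := (norm_nonneg _).trans (hκ 1)
  obtain ⟨X, hXM, hXs, hXn, hX⟩ := exists_inv_form D h hδ hM κ hκM hκ
  obtain ⟨R, R', hR, hR', hRR, hRR', hR2, hn, hn', hcm⟩ := exists_inv_sqrt hXs hXn (by linarith)
  have hm : R ∈ M ∧ R' ∈ M := by
    rw [← M.commutant_commutant]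
    have a1 : ∀ y ∈ M.commutant, Commute y X := fun y hy =>
      (VonNeumannAlgebra.mem_commutant_iff.1 hy X hXM).symm
    exact ⟨VonNeumannAlgebra.mem_commutant_iff.2 fun y hy => (hcm y (a1 y hy)).1,
      VonNeumannAlgebra.mem_commutant_iff.2 fun y hy => (hcm y (a1 y hy)).2⟩
  let κ₁ : Γ →* (K →L[ℂ] K) :=
    { toFun := fun g => R * κ g * R'
      map_one' := by rw [map_one, mul_one, hRR]
      map_mul' := fun g k => by
        rw [map_mul]
        calc R * (κ g * κ k) * R' = R * κ g * (R' * R) * κ k * R' := by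
              rw [hRR', mul_one, mul_assoc R (κ g)]
          _ = R * κ g * R' * (R * κ k * R') := by simp only [mul_assoc] }
  have o1 : ‖(1 : K →L[ℂ] K)‖ ≤ 1 := ContinuousLinearMap.norm_id_le
  refine ⟨R, R', κ₁, hm.1, hm.2, hRR, hRR', by linarith, fun g => ?_, fun _ => rfl, fun g => ?_⟩
  · show star (R * κ g * R') = R * κ g⁻¹ * R'
    have a1 : X * star (κ g) = κ g⁻¹ * X := by
      conv_rhs => rw [← hX g]
      rw [← mul_assoc, ← mul_assoc, ← map_mul, inv_mul_cancel, map_one, one_mul]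
    rw [star_mul, star_mul, hR.star_eq, hR'.star_eq]
    calc R' * (star (κ g) * R) = (R * R') * R' * star (κ g) * R := by
          rw [hRR, one_mul, mul_assoc]
      _ = R * (X * star (κ g)) * R := by rw [← hR2]; simp only [mul_assoc]
      _ = R * κ g⁻¹ * R' * (R' * R) := by rw [a1, ← hR2]; simp only [mul_assoc]
      _ = R * κ g⁻¹ * R' := by rw [hRR', mul_one]
  · have := lemK_n3 (ρ := 20 * δ) (by linarith) o1 (h.bim.ul.norm_le g) o1 (x := R) (y := κ g)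
      (z := R') (by linarith) ((hκ g).trans (by linarith)) (by linarith)
    rw [one_mul, mul_one] at this
    exact this.trans (by linarith)

theorem step6 (ε : ℝ) (hε : 0 < ε) : ∃ δ : ℝ, 0 < δ ∧ ∀ (Γ : Type w) [Group Γ] (K : Type v)
    [NormedAddCommGroup K] [InnerProductSpace ℂ K] [CompleteSpace K] (_ : DM.{v, w} Γ)
    (N M : VonNeumannAlgebra K) (ξ : K) (l r : Γ →* (K →L[ℂ] K)) (κ κ' : Γ → (K →L[ℂ] K))
    (W : K →L[ℂ] K), StdE N ξ l r → Close δ N M → Close δ N.commutant M.commutant →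
    (∀ g, κ g ∈ M) → (∀ g, κ' g ∈ M.commutant) → (∀ g, ‖κ g - l g‖ ≤ δ) →
    (∀ g, ‖κ' g - r g‖ ≤ δ) → ‖W - 1‖ ≤ δ →
    (∀ ζ ∈ Fix l r, ∀ g k, κ g (W (l k ζ)) = W (l g (l k ζ)) ∧
      κ' g (W (l k ζ)) = W (r g (l k ζ))) →
    ∃ κ₁ κ₁' W₁, Itf ε M ξ l r κ₁ κ₁' W₁ := by
  obtain ⟨δ, hδ0, hδ1, hδε⟩ : ∃ δ : ℝ, 0 < δ ∧ δ ≤ 1 / 100 ∧ δ ≤ ε / 140 :=
    ⟨min (1 / 100) (ε / 140), lt_min (by norm_num) (by positivity), min_le_left _ _,
      min_le_right _ _⟩
  refine ⟨δ, hδ0, fun Γ _ K _ _ _ D N M ξ l r κ κ' W h hc hc' hκM hκM' hκ hκ' hW hI => ?_⟩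
  have hs := h.std
  have h1 : ∀ g, κ g (W ξ) = W (l g ξ) := fun g => by
    simpa only [map_one, ContinuousLinearMap.one_apply] using (hI ξ hs.fix g 1).1
  have h2 : ∀ g, κ' g (W ξ) = W (r g ξ) := fun g => by
    simpa only [map_one, ContinuousLinearMap.one_apply] using (hI ξ hs.fix g 1).2
  have sM : Sep M (W ξ) := sep_of_int D h hδ1 hc.2 hκM hκM' hκ hW h1 h2
  have sM' : Sep M.commutant (W ξ) := sep_of_int D h.symm hδ1 hc'.2 hκM'
    (fun g => by rw [M.commutant_commutant]; exact hκM g) hκ' hW h2 h1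
  let k : Γ →* (K →L[ℂ] K) :=
    { toFun := κ
      map_one' := sM.ext (hκM 1) (one_mem _) (by rw [h1, map_one]; rfl)
      map_mul' := fun g g' => sM.ext (hκM _) (mul_mem (hκM g) (hκM g')) (by
        show _ = κ g (κ g' (W ξ))
        rw [h1, h1, (hI ξ hs.fix g g').1, rep_mul_apply]) }
  let k' : Γ →* (K →L[ℂ] K) :=
    { toFun := κ'
      map_one' := sM'.ext (hκM' 1) (one_mem _) (by rw [h2, map_one]; rfl)
      map_mul' := fun g g' => sM'.ext (hκM' _) (mul_mem (hκM' g) (hκM' g')) (by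
        show _ = κ' g (κ' g' (W ξ))
        rw [h2, h2, fix_r hs.fix g', (hI ξ hs.fix g g'⁻¹).2, ← fix_r hs.fix g', rep_mul_apply]) }
  obtain ⟨R, R', κ₁, hR, hR', hRR, hRR', hRn, hu, hκ₁, hn⟩ :=
    step6_unit D hs hδ1 hc.2 k hκM hκ
  obtain ⟨S, S', κ₁', hS, hS', hSS, hSS', hSn, hu', hκ₁', hn'⟩ :=
    step6_unit D hs.symm hδ1 hc'.2 k' hκM' hκ'
  have cm : ∀ {a b : K →L[ℂ] K}, a ∈ M → b ∈ M.commutant → ∀ η, a (b η) = b (a η) :=
    fun ha hb η => congrArg (fun T : K →L[ℂ] K => T η)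
      (VonNeumannAlgebra.mem_commutant_iff.1 hb _ ha)
  have iR : ∀ η, R' (R η) = η := fun η => congrArg (fun T : K →L[ℂ] K => T η) hRR'
  have iS : ∀ η, S' (S η) = η := fun η => congrArg (fun T : K →L[ℂ] K => T η) hSS'
  have m1 : ∀ g, κ₁ g ∈ M := fun g => by
    rw [hκ₁]
    exact mul_mem (mul_mem hR (hκM g)) hR'
  have m2 : ∀ g, κ₁' g ∈ M.commutant := fun g => by
    rw [hκ₁']
    exact mul_mem (mul_mem hS (hκM' g)) hS'
  have i1 : ∀ ζ ∈ Fix l r, ∀ g g', κ₁ g ((R * S * W) (l g' ζ)) = (R * S * W) (l g (l g' ζ)) := by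
    intro ζ hζ g g'
    rw [hκ₁]
    show R (κ g (R' (R (S (W (l g' ζ)))))) = R (S (W (l g (l g' ζ))))
    rw [iR, cm (hκM g) hS, (hI ζ hζ g g').1]
  have i2 : ∀ ζ ∈ Fix l r, ∀ g g', κ₁' g ((R * S * W) (l g' ζ)) = (R * S * W) (r g (l g' ζ)) := by
    intro ζ hζ g g'
    rw [hκ₁']
    show S (κ' g (S' (R (S (W (l g' ζ)))))) = R (S (W (r g (l g' ζ))))
    rw [cm hR hS, iS, ← cm hR (hκM' g), (hI ζ hζ g g').2, cm hR hS]
  have j1 : ∀ g, ∀ ζ ∈ Fix l r, κ₁ g ((R * S * W) ζ) = (R * S * W) (l g ζ) := fun g ζ hζ => by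
    simpa only [map_one, ContinuousLinearMap.one_apply] using i1 ζ hζ g 1
  have j2 : ∀ g, ∀ ζ ∈ Fix l r, κ₁' g ((R * S * W) ζ) = (R * S * W) (r g ζ) := fun g ζ hζ => by
    simpa only [map_one, ContinuousLinearMap.one_apply] using i2 ζ hζ g 1
  have s1 : Sep M ((R * S * W) ξ) := fun x hx hx0 => by
    have a1 : x * R = 0 := sM _ (mul_mem hx hR) (by
      have a2 : S (x (R (W ξ))) = 0 := by
        rw [← cm hx hS, ← cm hR hS]
        exact hx0
      have a3 := congrArg S' a2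
      rwa [iS, map_zero] at a3)
    rw [← mul_one x, ← hRR, ← mul_assoc, a1, zero_mul]
  have s2 : Sep M.commutant ((R * S * W) ξ) := fun x hx hx0 => by
    have a1 : x * S = 0 := sM' _ (mul_mem hx hS) (by
      have a2 : R (x (S (W ξ))) = 0 := by
        rw [cm hR hx]
        exact hx0
      have a3 := congrArg R' a2
      rwa [iR, map_zero] at a3)
    rw [← mul_one x, ← hSS, ← mul_assoc, a1, zero_mul]
  have c1 : Cyc M ((R * S * W) ξ) := by
    have := s2.cyc_comm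
    rwa [M.commutant_commutant] at this
  have o1 : ‖(1 : K →L[ℂ] K)‖ ≤ 1 := ContinuousLinearMap.norm_id_le
  refine ⟨κ₁, κ₁', R * S * W, ⟨⟨⟨hu, hu', fun g g' =>
    VonNeumannAlgebra.mem_commutant_iff.1 (m2 g') _ (m1 g)⟩, m1, m2, fun g => ?_, c1, s1⟩, ?_,
    fun g => (hn g).trans (by linarith), fun g => (hn' g).trans (by linarith), j1, j2⟩⟩
  · rw [j2 g ξ hs.fix, fix_r hs.fix, i1 ξ hs.fix, rep_mul_apply, mul_inv_cancel, map_one]
    rfl
  · have := lemK_n3 (ρ := 20 * δ) (by linarith) o1 o1 o1 hRn hSn (hW.trans (by linarith))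
    rw [mul_one, mul_one] at this
    linarith

/-- Central elements go to central elements. -/
theorem Itf.cen_map (h : StdE N ξ l r) {κ κ' : Γ →* (K →L[ℂ] K)} {W : K →L[ℂ] K} {δ : ℝ}
    (hI : Itf δ M ξ l r κ κ' W) (hδ : δ ≤ 1 / 4) {z : K →L[ℂ] K} (hz : z ∈ N)
    (hz' : z ∈ N.commutant) : ∃ z₁ ∈ M, z₁ ∈ M.commutant ∧ z₁ (W ξ) = W (z ξ) ∧
      star z₁ (W ξ) = W (star z ξ) := by
  have hs := h.std
  have ht := hI.std
  obtain ⟨c, u, hu, rfl⟩ := exists_four_cen hz hz'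
  choose g hg hg' using fun i => h.cen _ (hu i).1 (hu i).2.1 (hu i).2.2.1
  have hk : ∀ i, κ (g i) ∈ M.commutant := fun i => by
    have a0 : l (g i) * r (g i) = 1 := by
      rw [hg, hg']
      exact (Unitary.mem_iff.1 (hu i).2.2.1).2
    have a1 : κ (g i) * κ' (g i) = 1 := by
      refine eq_one_of_pow (c := 1 / 2) (by norm_num) fun n => ?_
      have b1 : (1 : K →L[ℂ] K) = l (g i ^ n) * r (g i ^ n) := by
        rw [map_pow, map_pow, ← (hs.bim.comm _ _).mul_pow, a0, one_pow]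
      have b2 : κ (g i ^ n) * κ' (g i ^ n) - l (g i ^ n) * r (g i ^ n) =
          (κ (g i ^ n) - l (g i ^ n)) * κ' (g i ^ n) +
            l (g i ^ n) * (κ' (g i ^ n) - r (g i ^ n)) := by noncomm_ring
      have b3 := lemK_mul_le (hI.near (g i ^ n)) (ht.bim.ur.norm_le (g i ^ n))
      have b4 := lemK_mul_le (hs.bim.ul.norm_le (g i ^ n)) (hI.near' (g i ^ n))
      rw [(ht.bim.comm _ _).mul_pow, ← map_pow, ← map_pow, b1, b2]
      refine (norm_add_le _ _).trans ?_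
      linarith
    have a2 : κ (g i) = κ' (g i)⁻¹ := by
      rw [← mul_one (κ (g i)), ← map_one κ', ← mul_inv_cancel (g i), map_mul, ← mul_assoc, a1,
        one_mul]
    rw [a2]
    exact ht.r_mem _
  refine ⟨∑ i, c i • κ (g i), sum_mem fun i _ => vn_smul _ (ht.l_mem _),
    sum_mem fun i _ => vn_smul _ (hk i), ?_, ?_⟩
  · simp only [ContinuousLinearMap.sum_apply, ContinuousLinearMap.smul_apply, map_sum, map_smul]
    refine Finset.sum_congr rfl fun i _ => ?_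
    rw [hI.int _ ξ hs.fix, hg]
  · simp only [star_sum, star_smul, ContinuousLinearMap.sum_apply, ContinuousLinearMap.smul_apply,
      map_sum, map_smul]
    refine Finset.sum_congr rfl fun i _ => ?_
    rw [ht.bim.ul, hI.int _ ξ hs.fix, ← hg, hs.bim.ul]

end Vale.Agent.P096
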