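import Vale.Agent.P096.Khin
import Vale.Agent.P096.Step6
import Vale.Agent.P096.GraphAux

/-! The Tomita graphs are close. -/

open scoped InnerProductSpace Topology
open Filter

namespace Vale.Agent.P096

open Vale.Agent.P104 Vale.Agent.P132

universe u v w

section Aux

variable {Γ : Type w} [Group Γ] {K : Type u} [NormedAddCommGroup K] [InnerProductSpace ℂ K]
  [CompleteSpace K] {N M : VonNeumannAlgebra K} {ξ ζ : K} {l r κ κ' : Γ →* (K →L[ℂ] K)}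
  {W : K →L[ℂ] K} {δ : ℝ}

/-- Average of translated entries. -/
noncomputable def gX {I J : Type} [Fintype I] [Fintype J] (c : ℝ) (l : Γ →* (K →L[ℂ] K))
    (g : J → Γ) (k : I → Γ) (b : I → J → (K →L[ℂ] K)) (H : K →L[ℂ] K) : K →L[ℂ] K :=
  (c : ℂ) • ∑ a : I × J, l (g a.2) * b a.1 a.2 * l (k a.1) * H

theorem gX_mem {I J : Type} [Fintype I] [Fintype J] (c : ℝ) (hl : ∀ g, l g ∈ N)
    (g : J → Γ) (k : I → Γ) {b : I → J → (K →L[ℂ] K)} (hb : ∀ i j, b i j ∈ N) {H : K →L[ℂ] K}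
    (hH : H ∈ N) : gX c l g k b H ∈ N :=
  vn_smul _ (sum_mem fun _ _ => mul_mem (mul_mem (mul_mem (hl _) (hb _ _)) (hl _)) hH)

omit [CompleteSpace K] in
theorem gX_apply {I J : Type} [Fintype I] [Fintype J] (c : ℝ) (g : J → Γ) (k : I → Γ)
    (b : I → J → (K →L[ℂ] K)) (H : K →L[ℂ] K) (v : K) :
    gX c l g k b H v = (c : ℂ) • ∑ a : I × J, l (g a.2) (b a.1 a.2 (l (k a.1) (H v))) := by
  simp only [gX, smul_apply, sum_apply, mul_apply_eq_comp]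

theorem gX_star {I J : Type} [Fintype I] [Fintype J] (c : ℝ) (hu : URep l) (hl : ∀ g, l g ∈ N)
    (g : J → Γ) (k : I → Γ) {b : I → J → (K →L[ℂ] K)} (hb : ∀ i j, b i j ∈ N) {H : K →L[ℂ] K}
    (hH : H ∈ N.commutant) (v : K) : star (gX c l g k b H) v =
      (c : ℂ) • ∑ a : I × J, l (k a.1)⁻¹ (star (b a.1 a.2) (l (g a.2)⁻¹ (star H v))) := by
  rw [gX, star_smul, star_sum, Complex.star_def, Complex.conj_ofReal, smul_apply, sum_apply]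
  congr 1
  refine Finset.sum_congr rfl fun a _ => ?_
  rw [star_mul, ← g_cen (star_mem (mul_mem (mul_mem (hl _) (hb _ _)) (hl _))) (star_mem hH),
    star_mul, star_mul, hu, hu]
  rfl

omit [CompleteSpace K] in
theorem gX_sub {I J : Type} [Fintype I] [Fintype J] (c : ℝ) (g : J → Γ) (k : I → Γ)
    (a b : I → J → (K →L[ℂ] K)) (H : K →L[ℂ] K) :
    gX c l g k a H - gX c l g k b H = gX c l g k (fun i j => a i j - b i j) H := by
  simp only [gX, ← smul_sub, ← Finset.sum_sub_distrib, mul_sub, sub_mul]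

theorem g_fin (h : Std N ξ l r) (hI : Itf δ M ξ l r κ κ' W) (hδ : δ ≤ 1) {I J : Type} [Fintype I]
    [Fintype J] {H H₁ : K →L[ℂ] K} (hH' : H ∈ N.commutant) (hs : IsSelfAdjoint H)
    (hζ : H ξ ∈ Fix l r) (hH₁' : H₁ ∈ M.commutant) (e1 : H₁ (W ξ) = W (H ξ))
    (e2 : star H₁ (W ξ) = W (H ξ)) {a b c : I → J → (K →L[ℂ] K)} (ha : ∀ i j, a i j ∈ N)
    (hb : ∀ i j, b i j ∈ N) (hc : ∀ i j, c i j ∈ M) {τ : ℝ}
    (b1 : ∀ η j, ∑ i, ‖b i j η‖ ^ 2 ≤ ‖η‖ ^ 2) (b2 : ∀ η i, ∑ j, ‖star (b i j) η‖ ^ 2 ≤ ‖η‖ ^ 2)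
    (c1 : ∀ η j, ∑ i, ‖(b i j - c i j) η‖ ^ 2 ≤ τ ^ 2 * ‖η‖ ^ 2)
    (c2 : ∀ η i, ∑ j, ‖star (b i j - c i j) η‖ ^ 2 ≤ τ ^ 2 * ‖η‖ ^ 2) (g : J → Γ) (k : I → Γ)
    {d p q α β : ℝ} (hp : 0 ≤ p) (hq : 0 ≤ q) (hα : p * (d ^ 2 * Fintype.card (I × J)) = α)
    (hβ : q * (d ^ 2 * Fintype.card (I × J)) = β) (hα' : α * Fintype.card J = 1)
    (hβ' : β * Fintype.card I = 1) :
    p * ‖(gX d l g k a H - gX d l g k b H) ξ‖ ^ 2 +
        q * ‖star (gX d l g k a H - gX d l g k b H) ξ‖ ^ 2 ≤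
      α * ∑ i, ∑ j, ‖(a i j - b i j) (H ξ)‖ ^ 2 + β * ∑ i, ∑ j, ‖star (a i j - b i j) (H ξ)‖ ^ 2 ∧
    p * ‖gX d l g k b H ξ - gX d κ g k c H₁ (W ξ)‖ ^ 2 +
        q * ‖star (gX d l g k b H) ξ - star (gX d κ g k c H₁) (W ξ)‖ ^ 2 ≤
      6 * (5 * δ ^ 2 + 4 * τ ^ 2) * ‖H ξ‖ ^ 2 := by
  have hab : ∀ i j, a i j - b i j ∈ N := fun i j => sub_mem (ha i j) (hb i j)
  have hα0 : 0 ≤ α := hα ▸ by positivity
  have hβ0 : 0 ≤ β := hβ ▸ by positivity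
  constructor
  · rw [gX_sub, gX_apply, gX_star d h.bim.ul h.l_mem g k hab hH', hs.star_eq, ← hα, ← hβ,
      mul_assoc p, mul_assoc q]
    refine add_le_add (mul_le_mul_of_nonneg_left ((g_avg _ _).trans_eq ?_) hp)
      (mul_le_mul_of_nonneg_left ((g_avg _ _).trans_eq ?_) hq)
    · simp only [g_norm h hζ (hab _ _), Fintype.sum_prod_type]
    · simp only [g_norm h hζ (star_mem (hab _ _)), Fintype.sum_prod_type]
  · rw [gX_apply, gX_apply, gX_star d h.bim.ul h.l_mem g k hb hH',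
      gX_star d hI.std.bim.ul hI.std.l_mem g k hc hH₁', hs.star_eq, e1, e2, ← smul_sub,
      ← smul_sub, ← Finset.sum_sub_distrib, ← Finset.sum_sub_distrib]
    have k1 : ∑ x : I × J, ‖l (g x.2) (b x.1 x.2 (l (k x.1) (H ξ))) -
        κ (g x.2) (c x.1 x.2 (κ (k x.1) (W (H ξ))))‖ ^ 2 ≤
        Fintype.card J * (3 * (5 * δ ^ 2 + 4 * τ ^ 2) * ‖H ξ‖ ^ 2) := by
      rw [Fintype.sum_prod_type_right]
      refine (Finset.sum_le_sum fun j _ => g_col h hI hδ hζ (fun i => hb i j) (fun i => hc i j)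
        (fun η => b1 η j) (fun η => c1 η j) (fun _ => g j) k).trans_eq ?_
      rw [Finset.sum_const, Finset.card_univ, nsmul_eq_mul]
    have k2 : ∑ x : I × J, ‖l (k x.1)⁻¹ (star (b x.1 x.2) (l (g x.2)⁻¹ (H ξ))) -
        κ (k x.1)⁻¹ (star (c x.1 x.2) (κ (g x.2)⁻¹ (W (H ξ))))‖ ^ 2 ≤
        Fintype.card I * (3 * (5 * δ ^ 2 + 4 * τ ^ 2) * ‖H ξ‖ ^ 2) := by
      rw [Fintype.sum_prod_type]
      refine (Finset.sum_le_sum fun i _ => g_col h hI hδ hζ (fun j => star_mem (hb i j))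
        (fun j => star_mem (hc i j)) (fun η => b2 η i) (fun η => by
          simpa only [star_sub] using c2 η i) (fun _ => (k i)⁻¹) fun j => (g j)⁻¹).trans_eq ?_
      rw [Finset.sum_const, Finset.card_univ, nsmul_eq_mul]
    have k3 := mul_le_mul_of_nonneg_left k1 hα0
    have k4 := mul_le_mul_of_nonneg_left k2 hβ0
    rw [← mul_assoc, hα', one_mul] at k3
    rw [← mul_assoc, hβ', one_mul] at k4
    refine (add_le_add (mul_le_mul_of_nonneg_left (g_avg _ _) hp)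
      (mul_le_mul_of_nonneg_left (g_avg _ _) hq)).trans ?_
    rw [← mul_assoc p, ← mul_assoc q, hα, hβ]
    linarith

omit [CompleteSpace K] in
theorem gX_gA (S : Sample Γ) (y H : K →L[ℂ] K) {p q : ℕ} (hp : 0 < p) (hq : 0 < q) :
    gX (√(S.n + 1) / ((S.n + 1) * p * ((S.n + 1) * q))) l
      (fun j : Fin (S.n + 1) × Fin q => S.s j.1) (fun i : Fin (S.n + 1) × Fin p => (S.s i.1)⁻¹)
      (fun i j => gA l S y i.1 j.1) H = y * H := by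
  have hp' : (p : ℂ) ≠ 0 := by exact_mod_cast hp.ne'
  have hq' : (q : ℂ) ≠ 0 := by exact_mod_cast hq.ne'
  have hn : (S.n : ℂ) + 1 ≠ 0 := by exact_mod_cast S.n.succ_ne_zero
  rw [gX, div_eq_inv_mul, Complex.ofReal_mul, mul_smul, Finset.smul_sum]
  simp only [← smul_mul_assoc _ _ H, gA_inv, Finset.sum_const, Finset.card_univ, Fintype.card_prod,
    Fintype.card_fin, ← Nat.cast_smul_eq_nsmul ℂ, smul_smul]
  push_cast
  rw [inv_mul_cancel₀ (by simp [hp', hq', hn]), one_smul]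

theorem g_rhs (h : Std N ξ l r) (hζ : ζ ∈ Fix l r) (S : Sample Γ) {y : K →L[ℂ] K} (hy : y ∈ N)
    (p : ℕ) {q : ℕ} (hq : 0 < q) {A B : ℝ}
    (h1 : ‖(p : ℂ) • S.av fun s => (l s⁻¹ * (star y * y) * l s) ζ‖ ^ 2 ≤ A)
    (h2 : p * q * (⟪y ζ, S.av2 fun s t =>
      (l (s * t⁻¹)⁻¹ * (y * star y) * l (s * t⁻¹)) (y ζ)⟫_ℂ).re ≤ B) :
    (((S.n : ℝ) + 1) * q)⁻¹ * (∑ j : Fin (S.n + 1) × Fin q, ‖∑ i : Fin (S.n + 1) × Fin p,
      gA l S (star y) j.1 i.1 (gA l S y i.1 j.1 ζ)‖ ^ 2 +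
      ∑ i : Fin (S.n + 1) × Fin p, ∑ j : Fin (S.n + 1) × Fin q, ∑ j' : Fin (S.n + 1) × Fin q,
        ‖gA l S (star y) j'.1 i.1 (gA l S y i.1 j.1 ζ)‖ ^ 2) ≤ A + B := by
  have hq' : (0 : ℝ) < q := by exact_mod_cast hq
  have h0 : (0 : ℝ) < ((S.n : ℝ) + 1) * q := by positivity
  simp only [g_T1, g_T2 h hζ S hy, Finset.sum_const, Finset.card_univ, Fintype.card_prod,
    Fintype.card_fin, nsmul_eq_mul]
  push_cast
  rw [← mul_add, inv_mul_cancel_left₀ h0.ne']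
  exact add_le_add h1 h2

end Aux

/-- One step of the approximation in the weighted graph norm. -/
theorem graph_step (ε : ℝ) (hε : 0 < ε) : ∃ δ : ℝ, 0 < δ ∧ ∀ (Γ : Type w) [Group Γ] (K : Type u)
    [NormedAddCommGroup K] [InnerProductSpace ℂ K] [CompleteSpace K] (_ : DM.{u, w} Γ)
    (N M : VonNeumannAlgebra K) (ξ : K) (l r κ κ' : Γ →* (K →L[ℂ] K)) (W : K →L[ℂ] K),
    StdE N ξ l r → Itf δ M ξ l r κ κ' W → Close δ N M → ∀ p q : ℕ, 0 < p → 0 < q → ∀ x ∈ N,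
    ∃ x' ∈ N, ∃ y ∈ M,
      p * ‖(x - x') ξ‖ ^ 2 + q * ‖star (x - x') ξ‖ ^ 2 ≤
        1 / 2 * (p * ‖x ξ‖ ^ 2 + q * ‖star x ξ‖ ^ 2) ∧
      p * ‖x' ξ - y (W ξ)‖ ^ 2 + q * ‖star x' ξ - star y (W ξ)‖ ^ 2 ≤
        ε ^ 2 * (p * ‖x ξ‖ ^ 2 + q * ‖star x ξ‖ ^ 2) := by
  have hk := one_le_dk.{u}
  have hk2 : 1 ≤ dk.{u} ^ 2 := one_le_pow₀ hk
  obtain ⟨δ, hδ, hδ1, hδ2⟩ : ∃ δ : ℝ, 0 < δ ∧ δ ≤ 1 / 4 ∧ 30 * (dk.{u} ^ 2 * δ) ≤ ε :=
    ⟨min (1 / 4) (ε / (30 * dk.{u} ^ 2)), by positivity, min_le_left _ _, by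
      rw [← mul_assoc]
      refine (mul_le_mul_of_nonneg_left (min_le_right _ _) (by positivity)).trans_eq ?_
      field_simp⟩
  refine ⟨δ, hδ, fun Γ _ K _ _ _ D N M ξ l r κ κ' W hE hI hc p q hp hq x hx => ?_⟩
  have hp' : (0 : ℝ) < p := by exact_mod_cast hp
  have hq' : (0 : ℝ) < q := by exact_mod_cast hq
  set n := p * ‖x ξ‖ ^ 2 + q * ‖star x ξ‖ ^ 2 with hn
  rcases (show 0 ≤ n by positivity).eq_or_lt with h0 | h0
  · refine ⟨0, zero_mem _, 0, zero_mem _, ?_, ?_⟩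
    · rw [sub_zero, ← hn, ← h0]
      norm_num
    · rw [← h0]
      simp
  have h := hE.std
  obtain ⟨H, y, a1, a2, a3, a4, a5, a6, a7, a8⟩ := g_weight D hE hx p q
    (e := n / (‖ξ‖ ^ 2 + 1)) (by positivity)
  have a9 : ‖H ξ‖ ^ 2 ≤ 2 * n := by
    have : n / (‖ξ‖ ^ 2 + 1) * ‖ξ‖ ^ 2 ≤ n := by
      rw [div_mul_eq_mul_div, div_le_iff₀ (by positivity)]
      nlinarith
    linarith
  have hζ : H ξ ∈ Fix l r := h.fix_of_comm a1 (fun g => (g_cen (h.l_mem g) a2).symm) h.fix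
  have y1 : y (H ξ) = x ξ := by rw [← a5, mul_apply_eq_comp]
  have y2 : star y (H ξ) = star x ξ := by
    rw [← a5, star_mul, a3.star_eq, ← g_cen (star_mem a4) a2, mul_apply_eq_comp]
  have m1 : star y * y ∈ N := mul_mem (star_mem a4) a4
  have m2 : y * star y ∈ N := mul_mem a4 (star_mem a4)
  have hη : 0 < n / 2 := by positivity
  obtain ⟨S, ⟨s1, s2⟩, s3, s4⟩ := (((g_ev1 D h hζ m1 a7 hη).and
    (g_ev2 D h m2 p a8 (y (H ξ)) hη)).and ((g_ev1 D h hζ m2 a8 hη).and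
    (g_ev2 D h m1 q a7 (star y (H ξ)) hη))).exists
  have r1 := g_rhs h hζ S a4 p hq s1 s2
  have r2 := g_rhs h hζ S (star_mem a4) q hp (A := ‖H ξ‖ ^ 2 + n / 2)
    (B := q * ‖star y (H ξ)‖ ^ 2 + n / 2) (by rwa [star_star]) (by rwa [star_star])
  rw [star_star] at r2
  have ha : ∀ (i : Fin (S.n + 1) × Fin p) (j : Fin (S.n + 1) × Fin q), gA l S y i.1 j.1 ∈ N :=
    fun i j => gA_mem h S a4 _ _
  obtain ⟨b, c, hb, hc', b1, b2, c1, c2, hk'⟩ := khin hc hδ.le _ ha (H ξ)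
    (α := (((S.n : ℝ) + 1) * q)⁻¹) (β := (((S.n : ℝ) + 1) * p)⁻¹) (by positivity) (by positivity)
  simp only [gA_star h.bim.ul] at hk'
  obtain ⟨H₁, d1, d2, d3, d4⟩ := hI.cen_map hE hδ1 a1 a2
  rw [a3.star_eq] at d4
  have hsq : √((S.n : ℝ) + 1) ^ 2 = S.n + 1 := Real.sq_sqrt (by positivity)
  obtain ⟨f1, f2⟩ := g_fin h hI (by linarith) a2 a3 hζ d2 d3 d4 ha hb hc' b1 b2 c1 c2
    (fun j => S.s j.1) (fun i => (S.s i.1)⁻¹)
    (d := √(S.n + 1) / ((S.n + 1) * p * ((S.n + 1) * q))) hp'.le hq'.le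
    (α := (((S.n : ℝ) + 1) * q)⁻¹) (β := (((S.n : ℝ) + 1) * p)⁻¹)
    (by simp only [Fintype.card_prod, Fintype.card_fin, div_pow, hsq]; push_cast; field_simp)
    (by simp only [Fintype.card_prod, Fintype.card_fin, div_pow, hsq]; push_cast; field_simp)
    (by simp only [Fintype.card_prod, Fintype.card_fin]; push_cast; field_simp)
    (by simp only [Fintype.card_prod, Fintype.card_fin]; push_cast; field_simp)
  rw [gX_gA S y H hp hq, a5] at f1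
  refine ⟨_, gX_mem _ h.l_mem _ _ hb a1, _, gX_mem _ hI.std.l_mem _ _ hc' d1, f1.trans ?_,
    f2.trans ?_⟩
  · rw [y1] at r1
    rw [y2] at r2
    linarith
  · have t1 : δ ≤ dk.{u} ^ 2 * δ := le_mul_of_one_le_left hδ.le hk2
    have t2 := pow_le_pow_left₀ hδ.le t1 2
    have t3 := pow_le_pow_left₀ (by positivity) hδ2 2
    have t4 : 6 * (5 * δ ^ 2 + 4 * (4 * dk.{u} ^ 2 * δ) ^ 2) * 2 ≤ ε ^ 2 := by
      nlinarith [sq_nonneg (dk.{u} ^ 2 * δ)]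
    calc _ ≤ 6 * (5 * δ ^ 2 + 4 * (4 * dk.{u} ^ 2 * δ) ^ 2) * (2 * n) :=
          mul_le_mul_of_nonneg_left a9 (by positivity)
      _ ≤ _ := by
          rw [← mul_assoc]
          exact mul_le_mul_of_nonneg_right t4 h0.le

end Vale.Agent.P096
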