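import Mathlib

/-! Splitting of bilinear forms dominated by a sum of two Hilbertian products. -/

open scoped ComplexConjugate

namespace Vale.Agent.P096

/-- Positive semidefinite Hermitian form. -/
structure PSD {E : Type*} [AddCommGroup E] [Module ℂ E] (p : E →ₗ⋆[ℂ] E →ₗ[ℂ] ℂ) : Prop where
  herm : ∀ x y, conj (p x y) = p y x
  pos : ∀ x, 0 ≤ (p x x).re

section Aux

open Matrix
open scoped ComplexOrder

theorem hm_sp {κ : Type*} [Fintype κ] [DecidableEq κ] {H : Matrix κ κ ℂ} (hH : H.PosDef) :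
    ∃ (U : Matrix κ κ ℂ) (d : κ → ℝ), (∀ k, 0 < d k) ∧ U * Uᴴ = 1 ∧ Uᴴ * U = 1 ∧
      H = (U * diagonal fun k => (d k : ℂ)) * (U * diagonal fun k => (d k : ℂ))ᴴ := by
  refine ⟨hH.1.eigenvectorUnitary, fun k => √(hH.1.eigenvalues k),
    fun k => Real.sqrt_pos.2 (hH.eigenvalues_pos k), ?_, ?_, ?_⟩
  · exact (Matrix.mem_unitaryGroup_iff.1 hH.1.eigenvectorUnitary.2)
  · exact (Matrix.mem_unitaryGroup_iff'.1 hH.1.eigenvectorUnitary.2)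
  · have h := hH.1.spectral_theorem
    rw [Unitary.conjStarAlgAut_apply] at h
    rw [conjTranspose_mul, diagonal_conjTranspose, Matrix.mul_assoc, ← Matrix.mul_assoc (diagonal _),
      diagonal_mul_diagonal, ← Matrix.mul_assoc]
    refine h.trans ?_
    refine congrArg (fun D => (hH.1.eigenvectorUnitary : Matrix κ κ ℂ) * diagonal D *
      (hH.1.eigenvectorUnitary : Matrix κ κ ℂ)ᴴ) (funext fun k => ?_)
    simp only [Function.comp, Pi.star_apply, RCLike.star_def, Complex.conj_ofReal]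
    rw [← Complex.ofReal_mul, Real.mul_self_sqrt (hH.eigenvalues_pos k).le]
    rfl

theorem hm_dd {κ : Type*} [Fintype κ] [DecidableEq κ] {d : κ → ℝ} (hd : ∀ k, 0 < d k) :
    (diagonal fun k => (d k : ℂ)) * (diagonal fun k => (((d k)⁻¹ : ℝ) : ℂ)) = 1 ∧
      (diagonal fun k => (((d k)⁻¹ : ℝ) : ℂ)) * (diagonal fun k => (d k : ℂ)) = 1 := by
  rw [diagonal_mul_diagonal, diagonal_mul_diagonal, ← diagonal_one]
  constructor
  · refine congrArg diagonal (funext fun k => ?_)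
    rw [← Complex.ofReal_mul, mul_inv_cancel₀ (hd k).ne', Complex.ofReal_one]
  · refine congrArg diagonal (funext fun k => ?_)
    rw [← Complex.ofReal_mul, inv_mul_cancel₀ (hd k).ne', Complex.ofReal_one]

theorem hm_sd {κ : Type*} [Fintype κ] [DecidableEq κ] {H H' : Matrix κ κ ℂ} (hH : H.PosDef)
    (hH' : H'.PosDef) : ∃ (S T : Matrix κ κ ℂ) (d : κ → ℝ), (∀ k, 0 < d k) ∧ S * T = 1 ∧
      T * S = 1 ∧ H = S * Sᴴ ∧
      H' = (S * diagonal fun k => (d k : ℂ)) * (S * diagonal fun k => (d k : ℂ))ᴴ := by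
  obtain ⟨U, d, hd, h1, h2, h3⟩ := hm_sp hH
  obtain ⟨h4, h5⟩ := hm_dd hd
  set D := diagonal fun k => (d k : ℂ)
  set D' := diagonal fun k => (((d k)⁻¹ : ℝ) : ℂ)
  have a1 : U * D * (D' * Uᴴ) = 1 := by
    rw [Matrix.mul_assoc, ← Matrix.mul_assoc D, h4, Matrix.one_mul, h1]
  have a2 : D' * Uᴴ * (U * D) = 1 := by
    rw [Matrix.mul_assoc, ← Matrix.mul_assoc Uᴴ, h2, Matrix.one_mul, h5]
  generalize U * D = R at h3 a1 a2
  generalize D' * Uᴴ = R' at a1 a2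
  have hu : IsUnit R' := ⟨⟨R', R, a2, a1⟩, rfl⟩
  obtain ⟨V, e, he, g1, g2, g3⟩ := hm_sp (hu.posDef_star_right_conjugate_iff.2 hH')
  refine ⟨R * V, Vᴴ * R', e, he, ?_, ?_, ?_, ?_⟩
  · rw [Matrix.mul_assoc, ← Matrix.mul_assoc V, g1, Matrix.one_mul, a1]
  · rw [Matrix.mul_assoc, ← Matrix.mul_assoc R', a2, Matrix.one_mul, g2]
  · rw [conjTranspose_mul, Matrix.mul_assoc, ← Matrix.mul_assoc V, g1, Matrix.one_mul, h3]
  · rw [Matrix.mul_assoc R, conjTranspose_mul R, Matrix.mul_assoc R, ← Matrix.mul_assoc (V * _),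
      ← g3, star_eq_conjTranspose, Matrix.mul_assoc, ← conjTranspose_mul, a1, conjTranspose_one,
      Matrix.mul_one, ← Matrix.mul_assoc, a1, Matrix.one_mul]

variable {E F : Type*} [AddCommGroup E] [Module ℂ E] [AddCommGroup F] [Module ℂ F]
  {ι κ ν : Type*} [Fintype ι] [Fintype κ] [Fintype ν]

/-- A matrix acting on a family of vectors. -/
def hmA (A : Matrix κ ι ℂ) (y : ι → E) : κ → E := fun k => ∑ i, A k i • y i

/-- Sum of squares of a family. -/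
def hmN (p : E →ₗ⋆[ℂ] E →ₗ[ℂ] ℂ) (x : ι → E) : ℝ := ∑ i, (p (x i) (x i)).re

/-- Pairing of a matrix with the Gram matrix. -/
def hmQ (p : E →ₗ⋆[ℂ] E →ₗ[ℂ] ℂ) (x : ι → E) (M : Matrix ι ι ℂ) : ℝ :=
  (∑ i, ∑ j, M i j * p (x i) (x j)).re

omit [Fintype ν] in
theorem hmA_mul (A : Matrix ν κ ℂ) (B : Matrix κ ι ℂ) (y : ι → E) :
    hmA A (hmA B y) = hmA (A * B) y := by
  funext k
  simp only [hmA, Matrix.mul_apply, Finset.smul_sum, Finset.sum_smul, smul_smul]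
  exact Finset.sum_comm

theorem hmA_one [DecidableEq ι] (y : ι → E) : hmA (1 : Matrix ι ι ℂ) y = y := by
  funext k
  simp [hmA, Matrix.one_apply]

theorem hmA_diag [DecidableEq ι] (d : ι → ℂ) (y : ι → E) (k : ι) :
    hmA (diagonal d) y k = d k • y k := by
  simp [hmA, Matrix.diagonal_apply]

theorem hmN_A (p : E →ₗ⋆[ℂ] E →ₗ[ℂ] ℂ) (A : Matrix κ ι ℂ) (y : ι → E) :
    hmN p (hmA A y) = hmQ p y (Aᴴ * A) := by
  unfold hmN hmQ
  rw [← Complex.re_sum]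
  refine congrArg Complex.re ?_
  simp only [hmA, map_sum, LinearMap.sum_apply, map_smulₛₗ, LinearMap.smul_apply, smul_eq_mul,
    RingHom.id_apply, Matrix.mul_apply, conjTranspose_apply, RCLike.star_def, Finset.sum_mul,
    Finset.mul_sum]
  rw [Finset.sum_comm]
  conv_rhs => rw [Finset.sum_comm]
  refine Finset.sum_congr rfl fun j _ => ?_
  rw [Finset.sum_comm]
  refine Finset.sum_congr rfl fun i _ => Finset.sum_congr rfl fun k _ => ?_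
  ring

theorem hmQ_add (p : E →ₗ⋆[ℂ] E →ₗ[ℂ] ℂ) (x : ι → E) (M M' : Matrix ι ι ℂ) :
    hmQ p x (M + M') = hmQ p x M + hmQ p x M' := by
  simp only [hmQ, Matrix.add_apply, add_mul, Finset.sum_add_distrib, Complex.add_re]

theorem hmN_nonneg {p : E →ₗ⋆[ℂ] E →ₗ[ℂ] ℂ} (hp : PSD p) (x : ι → E) : 0 ≤ hmN p x :=
  Finset.sum_nonneg fun i _ => hp.pos (x i)

theorem hm_p_smul (p : E →ₗ⋆[ℂ] E →ₗ[ℂ] ℂ) (c : ℂ) (x : E) :
    (p (c • x) (c • x)).re = ‖c‖ ^ 2 * (p x x).re := by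
  rw [map_smulₛₗ, map_smulₛₗ p, LinearMap.smul_apply, smul_eq_mul, smul_eq_mul, ← mul_assoc,
    RingHom.id_apply, Complex.mul_conj', ← Complex.ofReal_pow, Complex.re_ofReal_mul]

theorem hmN_smul (p : E →ₗ⋆[ℂ] E →ₗ[ℂ] ℂ) (c : ℂ) (x : ι → E) :
    hmN p (fun i => c • x i) = ‖c‖ ^ 2 * hmN p x := by
  simp only [hmN, hm_p_smul, Finset.mul_sum]

theorem hm_contr [DecidableEq κ] {q : E →ₗ⋆[ℂ] E →ₗ[ℂ] ℂ} (hq : PSD q) {B : Matrix κ ι ℂ}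
    {C : Matrix κ ν ℂ} (h : B * Bᴴ + C * Cᴴ = 1) (y : ι → E) : hmN q (hmA B y) ≤ hmN q y := by
  classical
  have h1 : (1 : Matrix ι ι ℂ)ᴴ * 1 =
      Bᴴ * B + ((1 - Bᴴ * B)ᴴ * (1 - Bᴴ * B) + (Cᴴ * B)ᴴ * (Cᴴ * B)) := by
    have h2 : (Cᴴ * B)ᴴ * (Cᴴ * B) = Bᴴ * B - Bᴴ * B * (Bᴴ * B) := by
      rw [conjTranspose_mul, conjTranspose_conjTranspose, Matrix.mul_assoc,
        ← Matrix.mul_assoc C, eq_sub_of_add_eq' h, Matrix.sub_mul, Matrix.one_mul, Matrix.mul_sub]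
      simp only [Matrix.mul_assoc]
    rw [h2, conjTranspose_sub, conjTranspose_one, conjTranspose_mul, conjTranspose_conjTranspose]
    noncomm_ring
  have h3 := hmN_A q (1 : Matrix ι ι ℂ) y
  rw [hmA_one, h1, hmQ_add, hmQ_add, ← hmN_A, ← hmN_A, ← hmN_A] at h3
  have a1 := hmN_nonneg hq (hmA (1 - Bᴴ * B) y)
  have a2 := hmN_nonneg hq (hmA (Cᴴ * B) y)
  linarith

theorem hm_half [DecidableEq κ] (p : E →ₗ⋆[ℂ] E →ₗ[ℂ] ℂ) {q : F →ₗ⋆[ℂ] F →ₗ[ℂ] ℂ} (hq : PSD q)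
    (e : κ → E) (y : ι → F) {A : Matrix κ ι ℂ} {S T : Matrix κ κ ℂ} {δ : ℂ} (hT : T * S = 1)
    (h : A * Aᴴ + (δ • 1 : Matrix κ κ ℂ) * (δ • 1 : Matrix κ κ ℂ)ᴴ = S * Sᴴ) :
    hmN p (hmA Sᵀ e) + hmN q (hmA T (hmA A y)) ≤
      hmN p (hmA Aᵀ e) + hmN q y + ‖δ‖ ^ 2 * hmN p e := by
  have h1 : hmN q (hmA T (hmA A y)) ≤ hmN q y := by
    rw [hmA_mul]
    refine hm_contr hq (C := T * (δ • 1 : Matrix κ κ ℂ)) ?_ y
    rw [conjTranspose_mul, conjTranspose_mul, Matrix.mul_assoc, Matrix.mul_assoc,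
      ← Matrix.mul_add, ← Matrix.mul_assoc A, ← Matrix.mul_assoc (δ • 1), ← Matrix.add_mul, h,
      Matrix.mul_assoc, ← conjTranspose_mul, hT, conjTranspose_one, Matrix.mul_one, hT]
  have h2 : ∀ {μ : Type _} [Fintype μ] (X : Matrix κ μ ℂ), (Xᵀ)ᴴ * Xᵀ = (X * Xᴴ)ᵀ := by
    intro μ _ X
    rw [transpose_mul]
    rfl
  have h2' : (Aᵀ)ᴴ * Aᵀ = (A * Aᴴ)ᵀ := by
    rw [transpose_mul]
    rfl
  have h3 : hmA (δ • 1 : Matrix κ κ ℂ)ᵀ e = fun k => δ • e k := by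
    funext k
    rw [transpose_smul, transpose_one, smul_one_eq_diagonal, hmA_diag]
  have h4 : hmN p (hmA Sᵀ e) = hmN p (hmA Aᵀ e) + ‖δ‖ ^ 2 * hmN p e := by
    rw [← hmN_smul, ← h3, hmN_A, hmN_A, hmN_A, h2, h2', h2, ← h, transpose_add, hmQ_add]
  linarith

theorem hm_tr (u : E →ₗ[ℂ] F →ₗ[ℂ] ℂ) (A : Matrix κ ι ℂ) (e : κ → E) (y : ι → F) :
    ∑ i, u (hmA Aᵀ e i) (y i) = ∑ k, u (e k) (hmA A y k) := by
  simp only [hmA, map_sum, LinearMap.sum_apply, map_smul, LinearMap.smul_apply, transpose_apply]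
  exact Finset.sum_comm

theorem hm_amgm {a b d : ℝ} (ha : 0 ≤ a) (hb : 0 ≤ b) (hd : 0 < d) :
    √a * √b ≤ (d ^ 2 * a + d⁻¹ ^ 2 * b) / 2 := by
  have h1 : d * √a * (d⁻¹ * √b) = √a * √b := by field_simp
  nlinarith [sq_nonneg (d * √a - d⁻¹ * √b), Real.sq_sqrt ha, Real.sq_sqrt hb]

theorem hm_fin {p₁ p₂ : E →ₗ⋆[ℂ] E →ₗ[ℂ] ℂ} {q₁ q₂ : F →ₗ⋆[ℂ] F →ₗ[ℂ] ℂ} (hp₁ : PSD p₁)
    (hp₂ : PSD p₂) (hq₁ : PSD q₁) (hq₂ : PSD q₂) (u : E →ₗ[ℂ] F →ₗ[ℂ] ℂ)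
    (h : ∀ x y, ‖u x y‖ ≤ √(p₁ x x).re * √(q₁ y y).re + √(p₂ x x).re * √(q₂ y y).re)
    (e : κ → E) (A : Matrix κ ι ℂ) (A' : Matrix κ ν ℂ) (y : ι → F) (y' : ν → F)
    (hy : hmA A y = hmA A' y') :
    ‖∑ i, u (hmA Aᵀ e i) (y i)‖ ≤
      (hmN p₁ (hmA Aᵀ e) + hmN q₁ y) / 2 + (hmN p₂ (hmA A'ᵀ e) + hmN q₂ y') / 2 := by
  classical
  have key : ∀ δ : ℝ, 0 < δ → ‖∑ i, u (hmA Aᵀ e i) (y i)‖ ≤
      (hmN p₁ (hmA Aᵀ e) + hmN q₁ y) / 2 + (hmN p₂ (hmA A'ᵀ e) + hmN q₂ y') / 2 +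
        δ ^ 2 * ((hmN p₁ e + hmN p₂ e) / 2) := by
    intro δ hδ
    have hu : IsUnit ((δ : ℂ) • 1 : Matrix κ κ ℂ) := by
      rw [smul_one_eq_diagonal]
      exact Matrix.isUnit_diagonal.2 (Pi.isUnit_iff.2 fun _ =>
        isUnit_iff_ne_zero.2 (Complex.ofReal_ne_zero.2 hδ.ne'))
    have hP : (((δ : ℂ) • 1 : Matrix κ κ ℂ) * ((δ : ℂ) • 1 : Matrix κ κ ℂ)ᴴ).PosDef :=
      PosDef.mul_conjTranspose_self _ (vecMul_injective_of_isUnit hu)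
    obtain ⟨S, T, d, hd, s1, s2, s3, s4⟩ := hm_sd
      (PosDef.posSemidef_add (posSemidef_self_mul_conjTranspose A) hP)
      (PosDef.posSemidef_add (posSemidef_self_mul_conjTranspose A') hP)
    obtain ⟨d1, d2⟩ := hm_dd hd
    have b1 := hm_half p₁ hq₁ e y s2 s3
    have b2 := hm_half p₂ hq₂ e y' (T := (diagonal fun k => (((d k)⁻¹ : ℝ) : ℂ)) * T) (by
      rw [Matrix.mul_assoc, ← Matrix.mul_assoc T, s2, Matrix.one_mul, d2]) s4
    rw [transpose_mul, diagonal_transpose, ← hmA_mul, ← hmA_mul, ← hy] at b2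
    have b3 : ∑ i, u (hmA Aᵀ e i) (y i) = ∑ k, u (hmA Sᵀ e k) (hmA T (hmA A y) k) := by
      rw [hm_tr, hm_tr, hmA_mul S, s1, hmA_one]
    rw [b3]
    generalize hmA Sᵀ e = e' at b1 b2
    generalize hmA T (hmA A y) = f' at b1 b2
    have b4 : ‖∑ k, u (e' k) (f' k)‖ ≤ (hmN p₁ e' + hmN q₁ f') / 2 +
        (hmN p₂ (hmA (diagonal fun k => (d k : ℂ)) e') +
          hmN q₂ (hmA (diagonal fun k => (((d k)⁻¹ : ℝ) : ℂ)) f')) / 2 := by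
      unfold hmN
      rw [← Finset.sum_add_distrib, ← Finset.sum_add_distrib, Finset.sum_div, Finset.sum_div,
        ← Finset.sum_add_distrib]
      refine (norm_sum_le _ _).trans (Finset.sum_le_sum fun k _ => (h _ _).trans ?_)
      rw [hmA_diag, hmA_diag, hm_p_smul, hm_p_smul, Complex.norm_real, Complex.norm_real,
        Real.norm_eq_abs, Real.norm_eq_abs, sq_abs, sq_abs]
      have c1 := hm_amgm (hp₁.pos (e' k)) (hq₁.pos (f' k)) one_pos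
      have c2 := hm_amgm (hp₂.pos (e' k)) (hq₂.pos (f' k)) (hd k)
      simp only [one_pow, one_mul, inv_one] at c1
      linarith
    rw [Complex.norm_real, Real.norm_eq_abs, sq_abs] at b1 b2
    linarith
  have hc : Continuous fun δ : ℝ =>
      (hmN p₁ (hmA Aᵀ e) + hmN q₁ y) / 2 + (hmN p₂ (hmA A'ᵀ e) + hmN q₂ y') / 2 +
        δ ^ 2 * ((hmN p₁ e + hmN p₂ e) / 2) := by fun_prop
  have ht := (hc.tendsto 0).mono_left (nhdsWithin_le_nhds (s := Set.Ioi 0))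
  simp only [ne_eq, OfNat.ofNat_ne_zero, not_false_eq_true, zero_pow, zero_mul, add_zero] at ht
  exact ge_of_tendsto ht (eventually_nhdsWithin_of_forall key)

/-- Values of the representations of a tensor. -/
def hmS (p : E →ₗ⋆[ℂ] E →ₗ[ℂ] ℂ) (q : F →ₗ⋆[ℂ] F →ₗ[ℂ] ℂ) (t : TensorProduct ℂ E F) : Set ℝ :=
  {r | ∃ (I : Type) (_ : Fintype I) (x : I → E) (y : I → F),
    t = ∑ i, x i ⊗ₜ[ℂ] y i ∧ r = (hmN p x + hmN q y) / 2}

theorem hmS_nonempty (p : E →ₗ⋆[ℂ] E →ₗ[ℂ] ℂ) (q : F →ₗ⋆[ℂ] F →ₗ[ℂ] ℂ)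
    (t : TensorProduct ℂ E F) : (hmS p q t).Nonempty := by
  obtain ⟨n, x, y, h⟩ := TensorProduct.exists_sum_tmul_eq t
  exact ⟨_, Fin n, inferInstance, x, y, h, rfl⟩

theorem hmS_nonneg {p : E →ₗ⋆[ℂ] E →ₗ[ℂ] ℂ} {q : F →ₗ⋆[ℂ] F →ₗ[ℂ] ℂ} (hp : PSD p) (hq : PSD q)
    (t : TensorProduct ℂ E F) : ∀ r ∈ hmS p q t, 0 ≤ r := by
  rintro r ⟨I, _, x, y, -, rfl⟩
  have := hmN_nonneg hp x
  have := hmN_nonneg hq y
  positivity

theorem hm_inf_add {A B : Set ℝ} (hA : A.Nonempty) (hB : B.Nonempty) {c : ℝ}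
    (h : ∀ a ∈ A, ∀ b ∈ B, c ≤ a + b) : c ≤ sInf A + sInf B := by
  have h1 : ∀ b ∈ B, c - sInf A ≤ b := fun b hb => by
    have : c - b ≤ sInf A := le_csInf hA fun a ha => by linarith [h a ha b hb]
    linarith
  linarith [le_csInf hB h1]

theorem hm_semi {p : E →ₗ⋆[ℂ] E →ₗ[ℂ] ℂ} {q : F →ₗ⋆[ℂ] F →ₗ[ℂ] ℂ} (hp : PSD p) (hq : PSD q) :
    ∃ N : Seminorm ℂ (TensorProduct ℂ E F), (∀ t, N t = sInf (hmS p q t)) ∧
      ∀ x y, N (x ⊗ₜ[ℂ] y) ≤ √(p x x).re * √(q y y).re := by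
  have hb : ∀ t, BddBelow (hmS p q t) := fun t => ⟨0, hmS_nonneg hp hq t⟩
  refine ⟨Seminorm.ofSMulLE (fun t => sInf (hmS p q t)) ?_ (fun t t' => ?_) fun c t => ?_,
    fun _ => rfl, fun x y => ?_⟩
  · refine le_antisymm (csInf_le (hb 0) ⟨Empty, inferInstance, Empty.elim, Empty.elim, ?_, ?_⟩)
      (le_csInf (hmS_nonempty p q 0) (hmS_nonneg hp hq 0))
    · simp
    · simp [hmN]
  · refine hm_inf_add (hmS_nonempty p q t) (hmS_nonempty p q t') ?_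
    rintro _ ⟨I, _, x, y, rfl, rfl⟩ _ ⟨J, _, x', y', rfl, rfl⟩
    refine csInf_le (hb _) ⟨I ⊕ J, inferInstance, Sum.elim x x', Sum.elim y y', ?_, ?_⟩
    · simp
    · simp only [hmN, Fintype.sum_sum_type, Sum.elim_inl, Sum.elim_inr]
      ring
  · obtain ⟨w, rfl⟩ := IsAlgClosed.exists_pow_nat_eq c two_pos
    rw [← smul_eq_mul, ← Real.sInf_smul_of_nonneg (norm_nonneg _)]
    refine csInf_le_csInf (hb _) (hmS_nonempty p q t).smul_set ?_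
    rintro _ ⟨_, ⟨I, _, x, y, rfl, rfl⟩, rfl⟩
    refine ⟨I, inferInstance, fun i => w • x i, fun i => w • y i, ?_, ?_⟩
    · rw [Finset.smul_sum]
      refine Finset.sum_congr rfl fun i _ => ?_
      rw [TensorProduct.smul_tmul_smul, sq]
    · rw [hmN_smul, hmN_smul, norm_pow]
      simp only [smul_eq_mul]
      ring
  · have h1 : ∀ d : ℝ, 0 < d →
        sInf (hmS p q (x ⊗ₜ[ℂ] y)) ≤ (d ^ 2 * (p x x).re + d⁻¹ ^ 2 * (q y y).re) / 2 := by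
      intro d hd
      refine csInf_le (hb _) ⟨Unit, inferInstance, fun _ => (d : ℂ) • x,
        fun _ => ((d⁻¹ : ℝ) : ℂ) • y, ?_, ?_⟩
      · rw [Fintype.sum_unique, TensorProduct.smul_tmul_smul, ← Complex.ofReal_mul,
          mul_inv_cancel₀ hd.ne', Complex.ofReal_one, one_smul]
      · simp only [hmN, Fintype.sum_unique, hm_p_smul, Complex.norm_real, Real.norm_eq_abs, sq_abs]
    show sInf (hmS p q (x ⊗ₜ[ℂ] y)) ≤ _
    have ha := hp.pos x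
    have hb := hq.pos y
    generalize (p x x).re = a at h1 ha
    generalize (q y y).re = b at h1 hb
    have h2 : ∀ ε : ℝ, 0 < ε → sInf (hmS p q (x ⊗ₜ[ℂ] y)) ≤ (√a + ε) * (√b + ε) := by
      intro ε hε
      have p1 : 0 < √a + ε := by positivity
      have p2 : 0 < √b + ε := by positivity
      refine (h1 √((√b + ε) / (√a + ε)) (Real.sqrt_pos.2 (div_pos p2 p1))).trans ?_
      rw [inv_pow, Real.sq_sqrt (div_pos p2 p1).le, inv_div]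
      have a1 : a ≤ (√a + ε) ^ 2 := by nlinarith [Real.sq_sqrt ha, Real.sqrt_nonneg a]
      have a2 : b ≤ (√b + ε) ^ 2 := by nlinarith [Real.sq_sqrt hb, Real.sqrt_nonneg b]
      have a3 : (√b + ε) / (√a + ε) * a ≤ (√a + ε) * (√b + ε) := by
        rw [div_mul_eq_mul_div, div_le_iff₀ p1]
        nlinarith [mul_le_mul_of_nonneg_left a1 p2.le]
      have a4 : (√a + ε) / (√b + ε) * b ≤ (√a + ε) * (√b + ε) := by
        rw [div_mul_eq_mul_div, div_le_iff₀ p2]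
        nlinarith [mul_le_mul_of_nonneg_left a2 p1.le]
      linarith
    have hc : Continuous fun ε : ℝ => (√a + ε) * (√b + ε) := by fun_prop
    have ht := (hc.tendsto 0).mono_left (nhdsWithin_le_nhds (s := Set.Ioi 0))
    simp only [add_zero] at ht
    exact ge_of_tendsto ht (eventually_nhdsWithin_of_forall h2)

theorem hm_key {p₁ p₂ : E →ₗ⋆[ℂ] E →ₗ[ℂ] ℂ} {q₁ q₂ : F →ₗ⋆[ℂ] F →ₗ[ℂ] ℂ} (hp₁ : PSD p₁)
    (hp₂ : PSD p₂) (hq₁ : PSD q₁) (hq₂ : PSD q₂) (u : E →ₗ[ℂ] F →ₗ[ℂ] ℂ)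
    (h : ∀ x y, ‖u x y‖ ≤ √(p₁ x x).re * √(q₁ y y).re + √(p₂ x x).re * √(q₂ y y).re)
    (t : TensorProduct ℂ E F) :
    ‖TensorProduct.lift u t‖ ≤ sInf (hmS p₁ q₁ t) + sInf (hmS p₂ q₂ t) := by
  classical
  refine hm_inf_add (hmS_nonempty _ _ t) (hmS_nonempty _ _ t) ?_
  rintro _ ⟨I, _, x, y, h1, rfl⟩ _ ⟨J, _, x', y', h2, rfl⟩
  let b := Module.Basis.ofVectorSpace ℂ E
  let s := (Finset.univ.biUnion fun i => (b.repr (x i)).support) ∪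
    Finset.univ.biUnion fun j => (b.repr (x' j)).support
  have hrep : ∀ z : E, (b.repr z).support ⊆ s → ∑ k : s, b.repr z k • b k = z := by
    intro z hz
    rw [Finset.sum_coe_sort s fun k => b.repr z k • b k]
    conv_rhs => rw [← b.linearCombination_repr z, Finsupp.linearCombination_apply]
    exact (Finsupp.sum_of_support_subset _ hz (fun i a => a • b i)
      fun i _ => zero_smul ℂ (b i)).symm
  have hx : hmA (Matrix.of fun (k : s) i => b.repr (x i) k)ᵀ (fun k => b k) = x :=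
    funext fun i => hrep _ ((Finset.subset_biUnion_of_mem (fun i => (b.repr (x i)).support)
      (Finset.mem_univ i)).trans Finset.subset_union_left)
  have hx' : hmA (Matrix.of fun (k : s) i => b.repr (x' i) k)ᵀ (fun k => b k) = x' :=
    funext fun i => hrep _ ((Finset.subset_biUnion_of_mem (fun i => (b.repr (x' i)).support)
      (Finset.mem_univ i)).trans Finset.subset_union_right)
  have h3 := hm_fin hp₁ hp₂ hq₁ hq₂ u h (fun k : s => b k)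
    (Matrix.of fun (k : s) i => b.repr (x i) k) (Matrix.of fun (k : s) i => b.repr (x' i) k) y y'
    (funext fun k => ?_)
  · rw [hx, hx'] at h3
    rw [h1, map_sum]
    exact h3
  · have := congrArg (TensorProduct.lift ((LinearMap.lsmul ℂ F).comp (b.coord k)))
      (h1.symm.trans h2)
    rw [map_sum, map_sum] at this
    exact this

end Aux

theorem hm_split {E F : Type*} [AddCommGroup E] [Module ℂ E] [AddCommGroup F] [Module ℂ F]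
    {p₁ p₂ : E →ₗ⋆[ℂ] E →ₗ[ℂ] ℂ} {q₁ q₂ : F →ₗ⋆[ℂ] F →ₗ[ℂ] ℂ} (hp₁ : PSD p₁) (hp₂ : PSD p₂)
    (hq₁ : PSD q₁) (hq₂ : PSD q₂) (u : E →ₗ[ℂ] F →ₗ[ℂ] ℂ)
    (h : ∀ x y, ‖u x y‖ ≤ √(p₁ x x).re * √(q₁ y y).re + √(p₂ x x).re * √(q₂ y y).re) :
    ∃ u₁ u₂ : E →ₗ[ℂ] F →ₗ[ℂ] ℂ, (∀ x y, u x y = u₁ x y + u₂ x y) ∧
      (∀ x y, ‖u₁ x y‖ ≤ √(p₁ x x).re * √(q₁ y y).re) ∧
      ∀ x y, ‖u₂ x y‖ ≤ √(p₂ x x).re * √(q₂ y y).re := by
  obtain ⟨N₁, a1, b1⟩ := hm_semi hp₁ hq₁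
  obtain ⟨N₂, a2, b2⟩ := hm_semi hp₂ hq₂
  let S : Submodule ℂ (TensorProduct ℂ E F × TensorProduct ℂ E F) :=
    LinearMap.eqLocus (LinearMap.fst ℂ _ _) (LinearMap.snd ℂ _ _)
  obtain ⟨g, hg, hle⟩ := Module.Dual.exists_extension_of_le_seminorm S
    ((TensorProduct.lift u).comp ((LinearMap.fst ℂ _ _).comp S.subtype))
    (p := N₁.comp (LinearMap.fst ℂ _ _) + N₂.comp (LinearMap.snd ℂ _ _)) (fun z => by
      have hz : z.1.1 = z.1.2 := z.2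
      show ‖TensorProduct.lift u z.1.1‖ ≤ N₁ z.1.1 + N₂ z.1.2
      rw [← hz, a1, a2]
      exact hm_key hp₁ hp₂ hq₁ hq₂ u h _)
  refine ⟨(TensorProduct.mk ℂ E F).compr₂ (g.comp (LinearMap.inl ℂ _ _)),
    (TensorProduct.mk ℂ E F).compr₂ (g.comp (LinearMap.inr ℂ _ _)), fun x y => ?_,
    fun x y => ?_, fun x y => ?_⟩
  · show u x y = g (x ⊗ₜ[ℂ] y, 0) + g (0, x ⊗ₜ[ℂ] y)
    rw [← map_add, Prod.mk_add_mk, add_zero, zero_add]
    exact (hg ⟨(x ⊗ₜ[ℂ] y, x ⊗ₜ[ℂ] y), rfl⟩).symm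
  · refine (hle (x ⊗ₜ[ℂ] y, 0)).trans ?_
    show N₁ (x ⊗ₜ[ℂ] y) + N₂ 0 ≤ _
    rw [map_zero, add_zero]
    exact b1 x y
  · refine (hle (0, x ⊗ₜ[ℂ] y)).trans ?_
    show N₁ 0 + N₂ (x ⊗ₜ[ℂ] y) ≤ _
    rw [map_zero, zero_add]
    exact b2 x y

end Vale.Agent.P096
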