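import Vale.Agent.P096.Basic
import Vale.Agent.P132.Tomita
import Vale.Agent.P132.Rt

/-! Complements on modular data. -/

open scoped InnerProductSpace Topology
open Filter

namespace Vale.Agent.P096

open Vale.Agent.P104 Vale.Agent.P132

universe u v w

variable {K : Type*} [NormedAddCommGroup K] [InnerProductSpace ℂ K] [CompleteSpace K]
  {N : VonNeumannAlgebra K} {J : K →L⋆[ℂ] K} {ξ : K} {F : FC K}

theorem ma_ann (F : FC K) {v u : K} (h : F.f fb v = F.f fa u) :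
    ∃ ρ, v = F.f fa ρ ∧ u = F.f fb ρ := by
  refine ⟨(2 : ℂ)⁻¹ • (F.f fa v + F.f fb u), ?_, ?_⟩
  · rw [map_smul, map_add, F.fa_fb_comm₃, ← h, F.fa_fa_add₃, smul_smul]
    norm_num
  · rw [map_smul, map_add, ← F.fa_fb_comm₃, h, F.fa_fa_add₃, smul_smul]
    norm_num

omit [CompleteSpace K] in
theorem ma_approx {a b v u : K}
    (h : ∀ ε : ℝ, 0 < ε → ∃ a' b' : K, ‖a - a'‖ ≤ ε ∧ ‖b - b'‖ ≤ ε ∧ ⟪a', v⟫_ℂ = ⟪b', u⟫_ℂ) :
    ⟪a, v⟫_ℂ = ⟪b, u⟫_ℂ := by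
  rw [← sub_eq_zero, ← norm_le_zero_iff]
  refine le_of_forall_pos_le_add fun ε hε => ?_
  have hp : 0 < ‖v‖ + ‖u‖ + 1 := by positivity
  obtain ⟨a', b', h1, h2, h3⟩ := h (ε / (‖v‖ + ‖u‖ + 1)) (by positivity)
  have e : ⟪a, v⟫_ℂ - ⟪b, u⟫_ℂ = ⟪a - a', v⟫_ℂ - ⟪b - b', u⟫_ℂ := by
    rw [inner_sub_left, inner_sub_left, h3]
    ring
  have h4 := (norm_inner_le_norm (𝕜 := ℂ) (a - a') v).trans
    (mul_le_mul_of_nonneg_right h1 (norm_nonneg _))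
  have h5 := (norm_inner_le_norm (𝕜 := ℂ) (b - b') u).trans
    (mul_le_mul_of_nonneg_right h2 (norm_nonneg _))
  have h6 : ε / (‖v‖ + ‖u‖ + 1) * (‖v‖ + ‖u‖ + 1) = ε := div_mul_cancel₀ _ hp.ne'
  have h7 : 0 ≤ ε / (‖v‖ + ‖u‖ + 1) := by positivity
  rw [e]
  refine (norm_sub_le _ _).trans ?_
  nlinarith

theorem ma_pair (F : FC K) {ρ ρ' : K} (e : F.f fa ρ = F.f fb ρ') (e' : F.f fb ρ = F.f fa ρ') :
    F.f fb ρ = F.f fa ρ := by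
  have hb := (bc_fa.mul bc_fa).sub (bc_fb.mul bc_fb)
  have h1 : F.f (fun s => fa s * fa s - fb s * fb s) ρ = 0 := by
    rw [F.f_sub (bc_fa.mul bc_fa) (bc_fb.mul bc_fb), sub_apply,
      ← F.f_f bc_fa bc_fa, ← F.f_f bc_fb bc_fb, e, e', F.fa_fb_comm₃, sub_self]
  have h2 : F.Supp ρ {0} := (F.supp_of_f_eq_zero hb h1).mono fun s hs => by
    have h3 : fa s * fa s - fb s * fb s = 0 := hs
    have h4 : (1 - ((Real.exp (s / 2) * Real.exp (s / 2) : ℝ) : ℂ)) * (fa s * fa s) = 0 := by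
      rw [← h3, fb_eq]
      push_cast
      ring
    rw [mul_eq_zero, or_iff_left (mul_ne_zero (fa_ne_zero s) (fa_ne_zero s)), sub_eq_zero, eq_comm,
      Complex.ofReal_eq_one, ← Real.exp_add, Real.exp_eq_one_iff] at h4
    show s = 0
    linarith
  rw [F.eigen_of_supp bc_fa h2, F.eigen_of_supp bc_fb h2, ← fa_neg, neg_zero]

theorem ma_J_star (h : Mod N J ξ F) (x : K →L[ℂ] K) : J (star (rt J x) ξ) = x ξ := by
  rw [h.cj.rt_star, h.cj.J_rt, star_star, h.fix]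

theorem ma_approx_comm (h : Mod N J ξ F) (ρ : K) {ε : ℝ} (hε : 0 < ε) :
    ∃ y ∈ N.commutant, ‖F.f fb ρ - y ξ‖ ≤ ε ∧ ‖F.f fa ρ - J (star y ξ)‖ ≤ ε := by
  obtain ⟨x, hx, h1, h2⟩ := h.approx ρ hε
  exact ⟨rt J x, h.bi.rt_mem x hx, h2, by rwa [ma_J_star h]⟩

/-- The graph is the annihilator of the graph of the commutant. -/
theorem mem_gr_of_ann (h : Mod N J ξ F) {v w : K}
    (e : ∀ y ∈ N.commutant, ⟪y ξ, v⟫_ℂ = ⟪w, star y ξ⟫_ℂ) :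
    ∃ ρ, v = F.f fa ρ ∧ J w = F.f fb ρ := by
  refine ma_ann F (ext_inner_left ℂ fun ρ => ?_)
  rw [← F.inner_fb₃, ← F.inner_fa₃]
  refine ma_approx fun ε hε => ?_
  obtain ⟨y, hy, h1, h2⟩ := ma_approx_comm h ρ hε
  exact ⟨_, _, h1, h2, by rw [e y hy, h.cj.inner]⟩

/-- The graph of the commutant is the annihilator of the graph. -/
theorem mem_gr_of_ann' (h : Mod N J ξ F) {v w : K}
    (e : ∀ x ∈ N, ⟪x ξ, v⟫_ℂ = ⟪w, star x ξ⟫_ℂ) : ∃ ρ, v = F.f fb ρ ∧ J w = F.f fa ρ := by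
  have : F.f fb (J w) = F.f fa v := by
    refine ext_inner_left ℂ fun ρ => ?_
    rw [← F.inner_fb₃, ← F.inner_fa₃, eq_comm]
    refine ma_approx fun ε hε => ?_
    obtain ⟨x, hx, h1, h2⟩ := h.pre.approx ρ hε
    exact ⟨_, _, h1, h2, by rw [e x hx, h.cj.inner]⟩
  obtain ⟨ρ, h1, h2⟩ := ma_ann F this
  exact ⟨ρ, h2, h1⟩

theorem rho_comm (h : Mod N J ξ F) {y : K →L[ℂ] K} (hy : y ∈ N.commutant) :
    ∃ ρ, y ξ = F.f fb ρ ∧ J (star y ξ) = F.f fa ρ := by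
  obtain ⟨x, hx, rfl⟩ := h.bi.rt_surj y hy
  obtain ⟨ρ, h1, h2⟩ := h.exists_rho hx
  exact ⟨ρ, h2, by rw [ma_J_star h, h1]⟩

theorem approx_comm (h : Mod N J ξ F) (ρ : K) {ε : ℝ} (hε : 0 < ε) :
    ∃ y ∈ N.commutant, ‖F.f fb ρ - y ξ‖ ≤ ε ∧ ‖F.f fa ρ - J (star y ξ)‖ ≤ ε := by
  exact ma_approx_comm h ρ hε

theorem cen_of_pair (h : Mod N J ξ F) {x y : K →L[ℂ] K} (hx : x ∈ N) (hy : y ∈ N.commutant)
    (e : x ξ = y ξ) (e' : star x ξ = star y ξ) : rt J x ξ = x ξ ∧ rt J x = y := by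
  obtain ⟨ρ, h1, h2⟩ := h.pre.exists_rho hx
  obtain ⟨ρ', h3, h4⟩ := rho_comm h hy
  have h5 : rt J x ξ = x ξ := by
    rw [h.rt_xi, h1, h2]
    exact ma_pair F (ρ' := ρ') (by rw [← h1, ← h3, e]) (by rw [← h2, ← h4, e'])
  exact ⟨h5, h.cyc.sep_comm.ext (h.bi.rt_mem x hx) hy (h5.trans e)⟩

theorem cen_of_mem (h : Mod N J ξ F) {a : K →L[ℂ] K} (ha : a ∈ Cen N ξ) : rt J a ξ = a ξ := by
  obtain ⟨ρ, h1, h2⟩ := h.pre.exists_rho ha.1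
  obtain ⟨ρ', h3, h4⟩ := mem_gr_of_ann' h (v := a ξ) (w := star a ξ) fun x hx => by
    have := ha.2 (star x) (star_mem hx)
    rw [mul_apply_eq_comp, mul_apply_eq_comp] at this
    rw [ContinuousLinearMap.star_eq_adjoint a, ContinuousLinearMap.adjoint_inner_left, this,
      ContinuousLinearMap.star_eq_adjoint x, ContinuousLinearMap.adjoint_inner_right]
  rw [h.rt_xi, h1, h2]
  exact ma_pair F (ρ' := ρ') (by rw [← h1, ← h3]) (by rw [← h2, ← h4])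

theorem mem_cen (h : Mod N J ξ F) {a : K →L[ℂ] K} (ha : a ∈ N) (e : rt J a ξ = a ξ) :
    a ∈ Cen N ξ := by
  refine ⟨ha, fun x hx => ?_⟩
  have h1 : rt J (star a) ξ = star a ξ := by
    rw [h.rt_xi, star_star, ← e, h.cj.J_rt, h.fix]
  rw [mul_apply_eq_comp, mul_apply_eq_comp, ← e,
    h.bi.comm_apply hx ha, h.cj.inner_rt_right, h1, ContinuousLinearMap.star_eq_adjoint,
    ContinuousLinearMap.adjoint_inner_left]

theorem sigma_mem_comm (h : Mod N J ξ F) (t : ℝ) {y : K →L[ℂ] K} (hy : y ∈ N.commutant) :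
    F.σ t y ∈ N.commutant := by
  obtain ⟨x, hx, rfl⟩ := h.bi.rt_surj y hy
  rw [h.pre.σ_rt]
  exact h.bi.rt_mem _ (h.sigma_mem t x hx)

theorem sigma_comm {M : VonNeumannAlgebra K} (h : ∀ t, ∀ y ∈ M, F.σ t y ∈ M) (t : ℝ)
    {y : K →L[ℂ] K} (hy : y ∈ M.commutant) : F.σ t y ∈ M.commutant := by
  rw [VonNeumannAlgebra.mem_commutant_iff] at hy ⊢
  intro g hg
  have e : F.σ t (F.σ (-t) g) = g := by rw [F.σ_σ, add_neg_cancel, F.σ_zero]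
  rw [← e, ← F.σ_mul, ← F.σ_mul, hy _ (h (-t) g hg)]

section Std

variable {Γ : Type*} [Group Γ] {l r : Γ →* (K →L[ℂ] K)}

theorem Std.ma_pair (hs : Std N ξ l r) (h : Mod N J ξ F) (g : Γ) :
    rt J (l g⁻¹) ξ = l g⁻¹ ξ ∧ rt J (l g⁻¹) = r g :=
  cen_of_pair h (hs.l_mem _) (hs.r_mem _) (fix_r hs.fix g).symm
    (by rw [hs.bim.ul, hs.bim.ur, inv_inv, fix_l hs.fix])

theorem Std.rt_l (hs : Std N ξ l r) (h : Mod N J ξ F) (g : Γ) : rt J (l g⁻¹) = r g := by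
  exact (hs.ma_pair h g).2

theorem Std.J_l (hs : Std N ξ l r) (h : Mod N J ξ F) (g : Γ) (η : K) :
    J (l g η) = r g (J η) := by
  rw [h.cj.J_apply, hs.bim.ul, hs.rt_l h]

theorem Std.J_r (hs : Std N ξ l r) (h : Mod N J ξ F) (g : Γ) (η : K) :
    J (r g η) = l g (J η) := by
  refine h.cj.inj ?_
  rw [h.cj.inv, hs.J_l h, h.cj.inv]

theorem Std.l_f (hs : Std N ξ l r) (h : Mod N J ξ F) (g : Γ) {k : ℝ → ℂ} (hk : BC k) :
    l g * F.f k = F.f k * l g := by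
  have := (hs.ma_pair h g⁻¹).1
  rw [inv_inv] at this
  exact h.comm_of_cen (hs.l_mem g) this hk

theorem Std.r_f (hs : Std N ξ l r) (h : Mod N J ξ F) (g : Γ) {k : ℝ → ℂ} (hk : BC k) :
    r g * F.f k = F.f k * r g := by
  rw [← hs.rt_l h]
  exact h.rt_comm_of_cen (hs.l_mem _) (hs.ma_pair h g).1 hk

end Std

theorem central_V (h : Mod N J ξ F) {z : K →L[ℂ] K} (hz : z ∈ N) (hz' : z ∈ N.commutant) (t : ℝ) :
    F.V t (z ξ) = z ξ ∧ J (z ξ) = star z ξ := by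
  have e := (cen_of_pair h hz hz' rfl rfl).1
  refine ⟨by rw [← h.σ_xi, h.σ_of_cen hz e], ?_⟩
  rw [← e, h.cj.J_rt, h.fix]

end Vale.Agent.P096
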