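import Vale.Agent.P096.Graph
import Vale.Agent.P096.HM
import Vale.Agent.P096.ModAux

/-! Operators close to one that exchange the Tomita graphs. -/

open scoped InnerProductSpace Topology
open Filter

namespace Vale.Agent.P096

open Vale.Agent.P104 Vale.Agent.P132

universe u v w

theorem gv_rat {S A C z : ℝ}
    (h : ∀ p q : ℕ, 0 < p → 0 < q → z ≤ S + (p : ℝ) / q * A + (q : ℝ) / p * C) {t : ℝ}
    (ht : 0 < t) : z ≤ S + t * A + t⁻¹ * C := by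
  by_contra hlt
  rw [not_le] at hlt
  have hc : ContinuousAt (fun u : ℝ => S + u * A + u⁻¹ * C) t :=
    (continuousAt_const.add (continuousAt_id.mul continuousAt_const)).add
      ((continuousAt_inv₀ ht.ne').mul continuousAt_const)
  have h1 : ∀ᶠ u in 𝓝 t, S + u * A + u⁻¹ * C < z ∧ 0 < u :=
    (hc.eventually (gt_mem_nhds hlt)).and (lt_mem_nhds ht)
  obtain ⟨r, h2, h3⟩ := (Rat.denseRange_cast (𝕜 := ℝ)).mem_nhds h1
  have h4 : 0 < r.num := Rat.num_pos.2 (by exact_mod_cast h3)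
  have h5 : ((r.num.toNat : ℕ) : ℝ) = (r.num : ℝ) := by
    rw [← Int.cast_natCast, Int.toNat_of_nonneg h4.le]
  have h6 := h r.num.toNat r.den (by omega) r.den_pos
  rw [h5, ← inv_div (r.num : ℝ), ← Rat.cast_def] at h6
  exact absurd h6 (not_le.2 h2)

theorem gv_opt {S A C z : ℝ} (hA : 0 ≤ A) (hC : 0 ≤ C)
    (h : ∀ p q : ℕ, 0 < p → 0 < q → z ≤ S + (p : ℝ) / q * A ^ 2 + (q : ℝ) / p * C ^ 2) :
    z ≤ S + 2 * (A * C) := by
  have key : ∀ η : ℝ, 0 < η → z ≤ S + 2 * ((A + η) * (C + η)) := fun η hη => by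
    have hA' : 0 < A + η := by linarith
    have hC' : 0 < C + η := by linarith
    have h1 := gv_rat h (div_pos hC' hA')
    have h2 : (C + η) / (A + η) * A ^ 2 ≤ (A + η) * (C + η) := by
      rw [div_mul_eq_mul_div, div_le_iff₀ hA']
      have : A ^ 2 ≤ (A + η) ^ 2 := by nlinarith
      nlinarith
    have h3 : ((C + η) / (A + η))⁻¹ * C ^ 2 ≤ (A + η) * (C + η) := by
      rw [inv_div, div_mul_eq_mul_div, div_le_iff₀ hC']
      have : C ^ 2 ≤ (C + η) ^ 2 := by nlinarith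
      nlinarith
    linarith
  have hc : Tendsto (fun η : ℝ => S + 2 * ((A + η) * (C + η))) (𝓝[>] 0)
      (𝓝 (S + 2 * ((A + 0) * (C + 0)))) :=
    tendsto_nhdsWithin_of_tendsto_nhds (Continuous.tendsto (by fun_prop) 0)
  rw [add_zero, add_zero] at hc
  exact ge_of_tendsto hc (eventually_nhdsWithin_of_forall fun η hη => key η hη)

theorem gv_cs {p q a a' b b' : ℝ} (hp : 0 < p) (hq : 0 < q) :
    a * b + a' * b' ≤ √(p * a ^ 2 + q * a' ^ 2) * √(b ^ 2 / p + b' ^ 2 / q) := by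
  rw [← Real.sqrt_mul (by positivity)]
  refine Real.le_sqrt_of_sq_le ?_
  have e : (p * a ^ 2 + q * a' ^ 2) * (b ^ 2 / p + b' ^ 2 / q) - (a * b + a' * b') ^ 2 =
      (p * a * b' - q * a' * b) ^ 2 / (p * q) := by
    field_simp
    ring
  have : 0 ≤ (p * a * b' - q * a' * b) ^ 2 / (p * q) := by positivity
  linarith

theorem gv_pair {K : Type*} [NormedAddCommGroup K] [InnerProductSpace ℂ K] {p q : ℝ} (hp : 0 < p)
    (hq : 0 < q) (a a' b b' : K) : ‖⟪b, a⟫_ℂ - ⟪a', b'⟫_ℂ‖ ≤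
      √(p * ‖a‖ ^ 2 + q * ‖a'‖ ^ 2) * √(‖b‖ ^ 2 / p + ‖b'‖ ^ 2 / q) := by
  refine (norm_sub_le _ _).trans (le_trans ?_ (gv_cs hp hq))
  have h1 := norm_inner_le_norm (𝕜 := ℂ) b a
  have h2 := norm_inner_le_norm (𝕜 := ℂ) a' b'
  linarith [mul_comm ‖a‖ ‖b‖]

theorem gv_sqrt {u v c : ℝ} (hc : 0 ≤ c) (h : u ≤ c ^ 2 * v) : √u ≤ c * √v := by
  refine (Real.sqrt_le_sqrt h).trans_eq ?_
  rw [Real.sqrt_mul (sq_nonneg c), Real.sqrt_sq hc]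

theorem gv_comm {K : Type*} [NormedAddCommGroup K] [InnerProductSpace ℂ K] [CompleteSpace K]
    {M : VonNeumannAlgebra K} {y z : K →L[ℂ] K} (hy : y ∈ M.commutant) (hz : z ∈ M) (ζ : K) :
    ⟪y ζ, z ζ⟫_ℂ = ⟪star z ζ, star y ζ⟫_ℂ := by
  have h := VonNeumannAlgebra.mem_commutant_iff.1 (star_mem hy) z hz
  have h' : z (star y ζ) = star y (z ζ) := congrArg (fun T : K →L[ℂ] K => T ζ) h
  rw [ContinuousLinearMap.star_eq_adjoint z, ContinuousLinearMap.adjoint_inner_left, h',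
    ContinuousLinearMap.star_eq_adjoint y, ContinuousLinearMap.adjoint_inner_right]

theorem gv_iter {K : Type*} [NormedAddCommGroup K] [InnerProductSpace ℂ K] [CompleteSpace K]
    {N M : VonNeumannAlgebra K} {ξ ξ' : K} {p q e : ℝ} (hp : 0 < p) (hq : 0 < q) (he : 0 ≤ e)
    (h : ∀ x ∈ N, ∃ x' ∈ N, ∃ y ∈ M,
      p * ‖(x - x') ξ‖ ^ 2 + q * ‖star (x - x') ξ‖ ^ 2 ≤
        1 / 2 * (p * ‖x ξ‖ ^ 2 + q * ‖star x ξ‖ ^ 2) ∧
      p * ‖x' ξ - y ξ'‖ ^ 2 + q * ‖star x' ξ - star y ξ'‖ ^ 2 ≤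
        e ^ 2 * (p * ‖x ξ‖ ^ 2 + q * ‖star x ξ‖ ^ 2))
    {y : K →L[ℂ] K} (hy : y ∈ M.commutant) {x : K →L[ℂ] K} (hx : x ∈ N) :
    ‖⟪y ξ', x ξ⟫_ℂ - ⟪star x ξ, star y ξ'⟫_ℂ‖ ≤ 4 * e *
      (√(p * ‖x ξ‖ ^ 2 + q * ‖star x ξ‖ ^ 2) * √(‖y ξ'‖ ^ 2 / p + ‖star y ξ'‖ ^ 2 / q)) := by
  set Y := √(‖y ξ'‖ ^ 2 / p + ‖star y ξ'‖ ^ 2 / q) with hY
  have hY0 : 0 ≤ Y := Real.sqrt_nonneg _
  have key : ∀ k : ℕ, ∀ x ∈ N, ‖⟪y ξ', x ξ⟫_ℂ - ⟪star x ξ, star y ξ'⟫_ℂ‖ ≤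
      (4 * e + (3 / 4) ^ k) * (√(p * ‖x ξ‖ ^ 2 + q * ‖star x ξ‖ ^ 2) * Y) := by
    intro k
    induction k with
    | zero =>
      intro x _
      have h1 := gv_pair hp hq (x ξ) (star x ξ) (y ξ') (star y ξ')
      have h2 : 0 ≤ √(p * ‖x ξ‖ ^ 2 + q * ‖star x ξ‖ ^ 2) * Y := by positivity
      rw [pow_zero]
      nlinarith
    | succ k ih =>
      intro x hx
      obtain ⟨x', hx', z, hz, h1, h2⟩ := h x hx
      set n := √(p * ‖x ξ‖ ^ 2 + q * ‖star x ξ‖ ^ 2) with hn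
      have hn0 : 0 ≤ n := Real.sqrt_nonneg _
      have h3 : √(p * ‖(x - x') ξ‖ ^ 2 + q * ‖star (x - x') ξ‖ ^ 2) ≤ 3 / 4 * n :=
        gv_sqrt (by norm_num) (h1.trans (mul_le_mul_of_nonneg_right (by norm_num) (by positivity)))
      have h4 := gv_sqrt he h2
      have h5 := ih (x - x') (sub_mem hx hx')
      have h6 := gv_pair hp hq (x' ξ - z ξ') (star x' ξ - star z ξ') (y ξ') (star y ξ')
      have e1 : ⟪y ξ', x ξ⟫_ℂ - ⟪star x ξ, star y ξ'⟫_ℂ =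
          (⟪y ξ', (x - x') ξ⟫_ℂ - ⟪star (x - x') ξ, star y ξ'⟫_ℂ) +
          (⟪y ξ', x' ξ - z ξ'⟫_ℂ - ⟪star x' ξ - star z ξ', star y ξ'⟫_ℂ) := by
        rw [star_sub, sub_apply, sub_apply, inner_sub_right, inner_sub_right, inner_sub_left,
          inner_sub_left, gv_comm hy hz]
        ring
      have h7 : (0 : ℝ) ≤ 4 * e + (3 / 4) ^ k := by positivity
      have h8 := mul_le_mul_of_nonneg_left (mul_le_mul_of_nonneg_right h3 hY0) h7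
      have h9 := mul_le_mul_of_nonneg_right h4 hY0
      rw [e1]
      refine (norm_add_le _ _).trans ?_
      rw [← hn] at h9
      calc _ ≤ (4 * e + (3 / 4) ^ k) * (3 / 4 * n * Y) + e * n * Y := by linarith
        _ = _ := by ring
  have hl : Tendsto (fun k : ℕ => (4 * e + (3 / 4) ^ k) *
      (√(p * ‖x ξ‖ ^ 2 + q * ‖star x ξ‖ ^ 2) * Y)) atTop
      (𝓝 ((4 * e + 0) * (√(p * ‖x ξ‖ ^ 2 + q * ‖star x ξ‖ ^ 2) * Y))) :=
    (tendsto_const_nhds.add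
      (tendsto_pow_atTop_nhds_zero_of_lt_one (by norm_num) (by norm_num))).mul_const _
  rw [add_zero] at hl
  exact ge_of_tendsto' hl fun k => key k x hx

theorem gv_fin {z e a a' b b' : ℝ} (hz : 0 ≤ z) (he : 0 ≤ e) (ha : 0 ≤ a) (ha' : 0 ≤ a')
    (hb : 0 ≤ b) (hb' : 0 ≤ b') (h : ∀ p q : ℕ, 0 < p → 0 < q →
      z ≤ e * (√(p * a ^ 2 + q * a' ^ 2) * √(b ^ 2 / p + b' ^ 2 / q))) :
    z ≤ e * (a * b + a' * b') := by
  have h1 : z ^ 2 ≤ e ^ 2 * (a ^ 2 * b ^ 2 + a' ^ 2 * b' ^ 2) + 2 * (e * a * b' * (e * a' * b)) := by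
    refine gv_opt (by positivity) (by positivity) fun p q hp hq => ?_
    have hp' : (0 : ℝ) < p := by exact_mod_cast hp
    have hq' : (0 : ℝ) < q := by exact_mod_cast hq
    refine (pow_le_pow_left₀ hz (h p q hp hq) 2).trans_eq ?_
    rw [mul_pow, mul_pow, Real.sq_sqrt (by positivity), Real.sq_sqrt (by positivity)]
    field_simp
    ring
  refine (pow_le_pow_iff_left₀ hz (by positivity) two_ne_zero).1 (h1.trans_eq ?_)
  ring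

theorem gr_ineq (ε : ℝ) (hε : 0 < ε) : ∃ δ : ℝ, 0 < δ ∧ ∀ (Γ : Type w) [Group Γ] (K : Type u)
    [NormedAddCommGroup K] [InnerProductSpace ℂ K] [CompleteSpace K] (_ : DM.{u, w} Γ)
    (N M : VonNeumannAlgebra K) (ξ : K) (l r κ κ' : Γ →* (K →L[ℂ] K)) (W : K →L[ℂ] K),
    StdE N ξ l r → Itf δ M ξ l r κ κ' W → Close δ N M → GrIneq ε N M ξ (W ξ) := by
  obtain ⟨δ, hδ, h⟩ := graph_step.{u, w} (ε / 4) (by positivity)
  refine ⟨δ, hδ, fun Γ _ K _ _ _ D N M ξ l r κ κ' W h1 h2 h3 x hx y hy => ?_⟩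
  refine gv_fin (norm_nonneg _) hε.le (norm_nonneg _) (norm_nonneg _) (norm_nonneg _)
    (norm_nonneg _) fun p q hp hq => ?_
  have := gv_iter (ξ' := W ξ) (e := ε / 4) (p := p) (q := q) (by exact_mod_cast hp)
    (by exact_mod_cast hq) (by positivity) (h Γ K D N M ξ l r κ κ' W h1 h2 h3 p q hp hq) hy hx
  rwa [mul_div_cancel₀ _ (by norm_num)] at this

variable {K : Type*} [NormedAddCommGroup K] [InnerProductSpace ℂ K] [CompleteSpace K]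
  {N M : VonNeumannAlgebra K} {ξ ξ' : K} {ε : ℝ}

/-- The form `c ^ 2 ⟪x ξ, x' ξ⟫`. -/
noncomputable def gvF₁ (N : VonNeumannAlgebra K) (ξ : K) (c : ℝ) :
    N.toStarSubalgebra →ₗ⋆[ℂ] N.toStarSubalgebra →ₗ[ℂ] ℂ :=
  LinearMap.mk₂'ₛₗ (starRingEnd ℂ) (RingHom.id ℂ)
    (fun x x' => ((c ^ 2 : ℝ) : ℂ) * ⟪(x : K →L[ℂ] K) ξ, (x' : K →L[ℂ] K) ξ⟫_ℂ)
    (fun x y z => by simp [inner_add_left, mul_add])
    (fun a x y => by
      simp only [SetLike.val_smul, smul_apply, inner_smul_left, smul_eq_mul]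
      ring)
    (fun x y z => by simp [inner_add_right, mul_add])
    (fun a x y => by simp [inner_smul_right, mul_left_comm])

/-- The form `c ^ 2 ⟪x'* ξ, x* ξ⟫`. -/
noncomputable def gvF₂ (N : VonNeumannAlgebra K) (ξ : K) (c : ℝ) :
    N.toStarSubalgebra →ₗ⋆[ℂ] N.toStarSubalgebra →ₗ[ℂ] ℂ :=
  LinearMap.mk₂'ₛₗ (starRingEnd ℂ) (RingHom.id ℂ)
    (fun x x' => ((c ^ 2 : ℝ) : ℂ) * ⟪star (x' : K →L[ℂ] K) ξ, star (x : K →L[ℂ] K) ξ⟫_ℂ)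
    (fun x y z => by simp [inner_add_right, mul_add])
    (fun a x y => by simp [inner_smul_right, mul_left_comm])
    (fun x y z => by simp [inner_add_left, mul_add])
    (fun a x y => by simp [inner_smul_left, mul_left_comm, mul_comm])

omit [CompleteSpace K] in
theorem gv_re (c : ℝ) (v : K) : (((c ^ 2 : ℝ) : ℂ) * ⟪v, v⟫_ℂ).re = (c * ‖v‖) ^ 2 := by
  rw [inner_self_eq_norm_sq_to_K, Complex.re_ofReal_mul, mul_pow]
  norm_cast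

theorem gvF₁_psd (N : VonNeumannAlgebra K) (ξ : K) (c : ℝ) : PSD (gvF₁ N ξ c) :=
  ⟨fun x y => by
    show (starRingEnd ℂ) (_ * _) = _ * _
    rw [map_mul, Complex.conj_ofReal, inner_conj_symm],
   fun x => (sq_nonneg _).trans_eq (gv_re c ((x : K →L[ℂ] K) ξ)).symm⟩

theorem gvF₂_psd (N : VonNeumannAlgebra K) (ξ : K) (c : ℝ) : PSD (gvF₂ N ξ c) :=
  ⟨fun x y => by
    show (starRingEnd ℂ) (_ * _) = _ * _
    rw [map_mul, Complex.conj_ofReal, inner_conj_symm],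
   fun x => (sq_nonneg _).trans_eq (gv_re c (star (x : K →L[ℂ] K) ξ)).symm⟩

theorem gvF₁_sqrt (ξ : K) {c : ℝ} (hc : 0 ≤ c) (x : N.toStarSubalgebra) :
    √(gvF₁ N ξ c x x).re = c * ‖(x : K →L[ℂ] K) ξ‖ :=
  (congrArg Real.sqrt (gv_re c _)).trans (Real.sqrt_sq (by positivity))

theorem gvF₂_sqrt (ξ : K) {c : ℝ} (hc : 0 ≤ c) (x : N.toStarSubalgebra) :
    √(gvF₂ N ξ c x x).re = c * ‖star (x : K →L[ℂ] K) ξ‖ :=
  (congrArg Real.sqrt (gv_re c _)).trans (Real.sqrt_sq (by positivity))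

/-- The defect form. -/
noncomputable def gvU (N M : VonNeumannAlgebra K) (ξ ξ' : K) :
    N.toStarSubalgebra →ₗ[ℂ] M.toStarSubalgebra →ₗ[ℂ] ℂ :=
  LinearMap.mk₂ ℂ
    (fun x y => ⟪star (y : K →L[ℂ] K) ξ', (x : K →L[ℂ] K) ξ⟫_ℂ -
      ⟪star (x : K →L[ℂ] K) ξ, (y : K →L[ℂ] K) ξ'⟫_ℂ)
    (fun x y z => by simp [inner_add_left, inner_add_right]; ring)
    (fun a x y => by simp [inner_smul_left, inner_smul_right, mul_sub, mul_comm])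
    (fun x y z => by simp [inner_add_left, inner_add_right]; ring)
    (fun a x y => by simp [inner_smul_left, inner_smul_right, mul_sub, mul_comm])

theorem gv_form (hε : 0 ≤ ε) (hc : Cyc N ξ) (hc' : Cyc M ξ')
    (b : M.toStarSubalgebra → N.toStarSubalgebra → ℂ)
    (ha : ∀ y x x', b y (x + x') = b y x + b y x') (hs : ∀ y (c : ℂ) x, b y (c • x) = c * b y x)
    (ha' : ∀ y y' x, b (y + y') x = b y x + b y' x)
    (hs' : ∀ (c : ℂ) y x, b (c • y) x = (starRingEnd ℂ) c * b y x)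
    (hb : ∀ y x, ‖b y x‖ ≤ ε * (‖(y : K →L[ℂ] K) ξ'‖ * ‖(x : K →L[ℂ] K) ξ‖)) :
    ∃ S : K →L[ℂ] K, ‖S‖ ≤ ε ∧ ∀ (y : M.toStarSubalgebra) (x : N.toStarSubalgebra),
      ⟪(y : K →L[ℂ] K) ξ', S ((x : K →L[ℂ] K) ξ)⟫_ℂ = b y x := by
  classical
  let B : (K →L[ℂ] K) → (K →L[ℂ] K) → ℂ := fun y x =>
    if h : y ∈ M ∧ x ∈ N then b ⟨y, h.1⟩ ⟨x, h.2⟩ else 0
  have hB : ∀ {y x} (hy : y ∈ M) (hx : x ∈ N), B y x = b ⟨y, hy⟩ ⟨x, hx⟩ := fun hy hx =>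
    dif_pos ⟨hy, hx⟩
  obtain ⟨S, h1, h2⟩ := exists_op_form hc hc' B
    (fun y hy x hx x' hx' => by
      rw [hB hy hx, hB hy hx', hB hy (add_mem hx hx')]
      exact ha ⟨y, hy⟩ ⟨x, hx⟩ ⟨x', hx'⟩)
    (fun y hy c x hx => by
      rw [hB hy hx, hB hy (vn_smul c hx)]
      exact hs ⟨y, hy⟩ c ⟨x, hx⟩)
    (fun y hy y' hy' x hx => by
      rw [hB hy hx, hB hy' hx, hB (add_mem hy hy') hx]
      exact ha' ⟨y, hy⟩ ⟨y', hy'⟩ ⟨x, hx⟩)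
    (fun c y hy x hx => by
      rw [hB hy hx, hB (vn_smul c hy) hx]
      exact hs' c ⟨y, hy⟩ ⟨x, hx⟩) hε
    (fun y hy x hx => by
      rw [hB hy hx]
      exact hb ⟨y, hy⟩ ⟨x, hx⟩)
  exact ⟨S, h1, fun y x => (h2 y y.2 x x.2).trans (hB y.2 x.2)⟩

theorem GrIneq.split (h : GrIneq ε N M ξ ξ') (hε : 0 ≤ ε) (hc : Cyc N ξ)
    (hc' : Cyc M.commutant ξ') : ∃ V₁ V₂ : K →L[ℂ] K, ‖V₁ - 1‖ ≤ ε ∧ ‖V₂ - 1‖ ≤ ε ∧
      ∀ x ∈ N, ∀ y ∈ M.commutant, ⟪y ξ', V₁ (x ξ)⟫_ℂ = ⟪V₂ (star x ξ), star y ξ'⟫_ℂ := by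
  obtain ⟨u₁, u₂, h1, h2, h3⟩ := hm_split (gvF₁_psd N ξ 1) (gvF₂_psd N ξ 1)
    (gvF₂_psd M.commutant ξ' ε) (gvF₁_psd M.commutant ξ' ε) (gvU N M.commutant ξ ξ')
    fun x y => by
      have := h x x.2 (star y) (star_mem y.2)
      rw [star_star] at this
      rw [gvF₁_sqrt _ zero_le_one, gvF₂_sqrt _ zero_le_one, gvF₁_sqrt _ hε, gvF₂_sqrt _ hε]
      refine le_of_le_of_eq this ?_
      ring
  obtain ⟨S₁, a1, a2⟩ := gv_form hε hc hc' (fun y x => u₁ x (star y))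
    (fun y x x' => by simp) (fun y c x => by simp) (fun y y' x => by simp)
    (fun c y x => by simp) fun y x => by
      have := h2 x (star y)
      rw [gvF₁_sqrt _ zero_le_one, gvF₂_sqrt _ hε, StarMemClass.coe_star, star_star] at this
      refine le_of_le_of_eq this ?_
      ring
  obtain ⟨S₂, b1, b2⟩ := gv_form hε hc hc' (fun y x => (starRingEnd ℂ) (u₂ (star x) y))
    (fun y x x' => by simp) (fun y c x => by simp) (fun y y' x => by simp)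
    (fun c y x => by simp) fun y x => by
      have := h3 (star x) y
      rw [gvF₂_sqrt _ zero_le_one, gvF₁_sqrt _ hε, StarMemClass.coe_star, star_star] at this
      rw [Complex.norm_conj]
      refine le_of_le_of_eq this ?_
      ring
  refine ⟨1 - S₁, 1 + S₂, by simpa using a1, by simpa using b1, fun x hx y hy => ?_⟩
  have e1 := h1 ⟨x, hx⟩ (star ⟨y, hy⟩)
  have e2 : ⟪y ξ', S₁ (x ξ)⟫_ℂ = _ := a2 ⟨y, hy⟩ ⟨x, hx⟩
  have e3 : ⟪star y ξ', S₂ (star x ξ)⟫_ℂ = _ := b2 (star ⟨y, hy⟩) (star ⟨x, hx⟩)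
  have e4 : gvU N M.commutant ξ ξ' ⟨x, hx⟩ (star ⟨y, hy⟩) =
      ⟪star (star y) ξ', x ξ⟫_ℂ - ⟪star x ξ, star y ξ'⟫_ℂ := rfl
  rw [star_star] at e3 e4
  rw [sub_apply, add_apply, one_apply_eq_self, one_apply_eq_self, inner_sub_right, inner_add_left,
    ← inner_conj_symm (S₂ (star x ξ)), e3, e2, Complex.conj_conj]
  rw [e4] at e1
  linear_combination e1

/-- Mutually inverse graph maps. -/
structure GrIso (ε : ℝ) (J J' : K →L⋆[ℂ] K) (F F' : FC K) (V₁ V₂ G₁ G₂ B C : K →L[ℂ] K) :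
    Prop where
  n₁ : ‖V₁ - 1‖ ≤ ε
  n₂ : ‖V₂ - 1‖ ≤ ε
  n₃ : ‖G₁ - 1‖ ≤ ε
  n₄ : ‖G₂ - 1‖ ≤ ε
  B_eq : ∀ η, B η = J' (V₂ (J η))
  C_eq : ∀ η, C η = J (G₂ (J' η))
  vg : V₁ * G₁ = 1
  gv : G₁ * V₁ = 1
  bc : B * C = 1
  cb : C * B = 1
  map : GrMap F F' V₁ B
  map' : GrMap F' F G₁ C

/-- Conjugation of an operator by two antiunitaries. -/
noncomputable def gvC (J' : K →L⋆[ℂ] K) (V : K →L[ℂ] K) (J : K →L⋆[ℂ] K) : K →L[ℂ] K :=
  J'.comp (V.comp J)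

omit [CompleteSpace K] in
theorem gvC_apply (J' : K →L⋆[ℂ] K) (V : K →L[ℂ] K) (J : K →L⋆[ℂ] K) (η : K) :
    gvC J' V J η = J' (V (J η)) := rfl

theorem gv_map {J J' : K →L⋆[ℂ] K} {F F' : FC K} (h : Mod N J ξ F) (h' : Mod M J' ξ' F')
    {V₁ V₂ : K →L[ℂ] K}
    (e : ∀ x ∈ N, ∀ y ∈ M.commutant, ⟪y ξ', V₁ (x ξ)⟫_ℂ = ⟪V₂ (star x ξ), star y ξ'⟫_ℂ) :
    GrMap F F' V₁ (gvC J' V₂ J) := fun ρ => by
  refine mem_gr_of_ann h' (w := V₂ (J (F.f fb ρ))) fun y hy => ?_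
  have : ⟪F.f fa ρ, star V₁ (y ξ')⟫_ℂ = ⟪F.f fb ρ, J (star V₂ (star y ξ'))⟫_ℂ := by
    refine ma_approx fun δ hδ => ?_
    obtain ⟨x, hx, h1, h2⟩ := h.pre.approx ρ hδ
    refine ⟨_, _, h1, h2, ?_⟩
    rw [h.cj.inner, ContinuousLinearMap.star_eq_adjoint V₁, ContinuousLinearMap.star_eq_adjoint V₂,
      ContinuousLinearMap.adjoint_inner_right, ContinuousLinearMap.adjoint_inner_left,
      ← inner_conj_symm, e x hx y hy, inner_conj_symm]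
  rw [ContinuousLinearMap.star_eq_adjoint V₁, ContinuousLinearMap.adjoint_inner_right] at this
  rw [← inner_conj_symm, this, inner_conj_symm, h.cj.inner_left,
    ContinuousLinearMap.star_eq_adjoint V₂, ContinuousLinearMap.adjoint_inner_right]

/-- The map induced on parameters. -/
noncomputable def gvT (F F' : FC K) (A B : K →L[ℂ] K) : K →L[ℂ] K :=
  (2 : ℂ)⁻¹ • (F'.f fa * A * F.f fa + F'.f fb * B * F.f fb)

theorem GrMap.gvT_spec {F F' : FC K} {A B : K →L[ℂ] K} (h : GrMap F F' A B) (ρ : K) :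
    A (F.f fa ρ) = F'.f fa (gvT F F' A B ρ) ∧ B (F.f fb ρ) = F'.f fb (gvT F F' A B ρ) := by
  obtain ⟨ρ', h1, h2⟩ := h ρ
  have : gvT F F' A B ρ = ρ' := by
    show (2 : ℂ)⁻¹ • (F'.f fa (A (F.f fa ρ)) + F'.f fb (B (F.f fb ρ))) = ρ'
    rw [h1, h2, F'.fa_fa_add₃, smul_smul]
    norm_num
  rw [this]
  exact ⟨h1, h2⟩

theorem gv_norm (F : FC K) (ρ : K) : ‖F.f fa ρ‖ ^ 2 + ‖F.f fb ρ‖ ^ 2 = 2 * ‖ρ‖ ^ 2 := by
  have : ⟪F.f fa ρ, F.f fa ρ⟫_ℂ + ⟪F.f fb ρ, F.f fb ρ⟫_ℂ = 2 * ⟪ρ, ρ⟫_ℂ := by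
    rw [F.inner_fa₃, F.inner_fb₃, ← inner_add_right, F.fa_fa_add₃, inner_smul_right]
  have h := congrArg Complex.re this
  rw [Complex.add_re, ← Complex.ofReal_ofNat, Complex.re_ofReal_mul] at h
  rw [← inner_self_eq_norm_sq (𝕜 := ℂ), ← inner_self_eq_norm_sq (𝕜 := ℂ),
    ← inner_self_eq_norm_sq (𝕜 := ℂ)]
  exact h

omit [CompleteSpace K] in
theorem gv_mul_near {A B : K →L[ℂ] K} (hA : ‖A - 1‖ ≤ ε) (hB : ‖B - 1‖ ≤ ε) (hε' : ε ≤ 1 / 10)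
    (η : K) : ‖A (B η) - η‖ ≤ 1 / 2 * ‖η‖ := by
  have hε : 0 ≤ ε := (norm_nonneg _).trans hA
  have h1 : ‖B η - η‖ ≤ ε * ‖η‖ :=
    ((B - 1).le_opNorm η).trans (mul_le_mul_of_nonneg_right hB (norm_nonneg _))
  have h2 : ‖A (B η) - B η‖ ≤ ε * ‖B η‖ :=
    ((A - 1).le_opNorm (B η)).trans (mul_le_mul_of_nonneg_right hA (norm_nonneg _))
  have h3 : ‖B η‖ ≤ ‖B η - η‖ + ‖η‖ := norm_le_norm_sub_add _ _
  have h4 : ‖A (B η) - η‖ ≤ ‖A (B η) - B η‖ + ‖B η - η‖ := norm_sub_le_norm_sub_add_norm_sub _ _ _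
  have h5 := norm_nonneg η
  have h6 : ε * ‖η‖ ≤ 1 / 10 * ‖η‖ := mul_le_mul_of_nonneg_right hε' h5
  have h7 : ε * ‖B η‖ ≤ 1 / 10 * ‖B η‖ := mul_le_mul_of_nonneg_right hε' (norm_nonneg _)
  linarith

theorem gv_onto {F F' : FC K} {A B A' B' : K →L[ℂ] K} (h : GrMap F F' A B) (h' : GrMap F' F A' B')
    (h1 : ∀ η, ‖A (A' η) - η‖ ≤ 1 / 2 * ‖η‖) (h2 : ∀ η, ‖B (B' η) - η‖ ≤ 1 / 2 * ‖η‖) (ρ' : K) :
    ∃ ρ, A (F.f fa ρ) = F'.f fa ρ' ∧ B (F.f fb ρ) = F'.f fb ρ' := by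
  have hT : ‖gvT F F' A B * gvT F' F A' B' - 1‖ ≤ 1 / 2 := by
    refine ContinuousLinearMap.opNorm_le_bound _ (by norm_num) fun σ => ?_
    have e : (gvT F F' A B * gvT F' F A' B' - 1) σ = gvT F F' A B (gvT F' F A' B' σ) - σ := rfl
    obtain ⟨a1, a2⟩ := h'.gvT_spec σ
    obtain ⟨b1, b2⟩ := h.gvT_spec (gvT F' F A' B' σ)
    have c1 := h1 (F'.f fa σ)
    have c2 := h2 (F'.f fb σ)
    rw [a1, b1, ← map_sub] at c1
    rw [a2, b2, ← map_sub] at c2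
    have d1 := pow_le_pow_left₀ (norm_nonneg _) c1 2
    have d2 := pow_le_pow_left₀ (norm_nonneg _) c2 2
    have n1 := gv_norm F' (gvT F F' A B (gvT F' F A' B' σ) - σ)
    have n2 := gv_norm F' σ
    rw [e]
    refine (pow_le_pow_iff_left₀ (norm_nonneg _) (by positivity) two_ne_zero).1 ?_
    rw [mul_pow] at d1 d2 ⊢
    linarith
  obtain ⟨s, hs, -, -⟩ := exists_inv hT le_rfl
  have e : gvT F F' A B (gvT F' F A' B' (s ρ')) = ρ' := congrArg (fun T : K →L[ℂ] K => T ρ') hs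
  obtain ⟨b1, b2⟩ := h.gvT_spec (gvT F' F A' B' (s ρ'))
  exact ⟨_, by rw [b1, e], by rw [b2, e]⟩

theorem exists_grIso {J J' : K →L⋆[ℂ] K} {F F' : FC K} (h : Mod N J ξ F) (h' : Mod M J' ξ' F')
    (h1 : GrIneq ε N M ξ ξ') (h2 : GrIneq ε N.commutant M.commutant ξ ξ') (hε : 0 ≤ ε)
    (hε' : ε ≤ 1 / 10) : ∃ V₁ V₂ G₁ G₂ B C, GrIso (2 * ε) J J' F F' V₁ V₂ G₁ G₂ B C := by
  obtain ⟨V₁, V₂, n1, n2, e⟩ := h1.split hε h.cyc h'.sep.cyc_comm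
  obtain ⟨W₁, W₂, m1, m2, e'⟩ := h2.split hε h.sep.cyc_comm
    (by rw [M.commutant_commutant]; exact h'.cyc)
  rw [M.commutant_commutant] at e'
  have g1 := gv_map h h' e
  have g2 : GrMap F' F (star W₁) (gvC J (star W₂) J') := gv_map h' h fun y hy x hx => by
    rw [ContinuousLinearMap.star_eq_adjoint W₁, ContinuousLinearMap.star_eq_adjoint W₂,
      ContinuousLinearMap.adjoint_inner_right, ContinuousLinearMap.adjoint_inner_left,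
      ← inner_conj_symm, e' x hx y hy, inner_conj_symm]
  have m1' : ‖star W₁ - 1‖ ≤ ε := by rwa [← norm_star, star_sub, star_star, star_one]
  have m2' : ‖star W₂ - 1‖ ≤ ε := by rwa [← norm_star, star_sub, star_star, star_one]
  obtain ⟨G₁, a1, a2, a3⟩ := exists_inv n1 (by linarith)
  obtain ⟨G₂, b1, b2, b3⟩ := exists_inv n2 (by linarith)
  have b1' : ∀ η, V₂ (G₂ η) = η := fun η => congrArg (fun T : K →L[ℂ] K => T η) b1
  have b2' : ∀ η, G₂ (V₂ η) = η := fun η => congrArg (fun T : K →L[ℂ] K => T η) b2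
  have a2' : ∀ η, G₁ (V₁ η) = η := fun η => congrArg (fun T : K →L[ℂ] K => T η) a2
  have cb : ∀ η, gvC J G₂ J' (gvC J' V₂ J η) = η := fun η => by
    rw [gvC_apply, gvC_apply, h'.cj.inv, b2', h.cj.inv]
  refine ⟨V₁, V₂, G₁, G₂, gvC J' V₂ J, gvC J G₂ J', by linarith, by linarith, a3, b3,
    fun _ => rfl, fun _ => rfl, a1, a2, ContinuousLinearMap.ext fun η => ?_,
    ContinuousLinearMap.ext cb, g1, fun ρ' => ?_⟩
  · show gvC J' V₂ J (gvC J G₂ J' η) = η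
    rw [gvC_apply, gvC_apply, h.cj.inv, b1', h'.cj.inv]
  · obtain ⟨ρ, c1, c2⟩ := gv_onto g1 g2 (gv_mul_near n1 m1' hε') (fun η => by
      have := gv_mul_near n2 m2' hε' (J' η)
      rw [h'.cj.norm, ← h'.cj.norm (_ - _), map_sub, h'.cj.inv] at this
      rwa [gvC_apply, gvC_apply, h.cj.inv]) ρ'
    exact ⟨ρ, by rw [← c1, a2'], by rw [← c2, cb]⟩

end Vale.Agent.P096
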