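import Vale.Agent.P096.Amp
import Vale.Agent.P096.Polar

/-! Truncated Khintchine inequality combined with complete closeness. -/

open scoped InnerProductSpace Topology
open Filter

namespace Vale.Agent.P096

open Vale.Agent.P104 Vale.Agent.P132

universe u v w

/-- The sign of a bit. -/
def khSg (b : Bool) : ℝ := if b then 1 else -1

theorem khSg_mul_self (b : Bool) : khSg b * khSg b = 1 := by cases b <;> simp [khSg]

theorem khSg_not (b : Bool) : khSg (!b) = -khSg b := by cases b <;> simp [khSg]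

theorem kh_norm_smul {E : Type*} [NormedAddCommGroup E] [NormedSpace ℂ E] (b : Bool) (v : E) :
    ‖(khSg b : ℂ) • v‖ = ‖v‖ := by cases b <;> simp [khSg]

theorem kh_zero {P : Type} [Fintype P] [DecidableEq P] {p q r s : P} (h1 : q ≠ p) (h2 : r ≠ p)
    (h3 : s ≠ p) : ∑ w : P → Bool, khSg (w p) * khSg (w q) * (khSg (w r) * khSg (w s)) = 0 := by
  have hi : Function.Involutive fun w : P → Bool => Function.update w p (!w p) := fun w => by simp
  have h4 := Equiv.sum_comp hi.toPerm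
    fun w : P → Bool => khSg (w p) * khSg (w q) * (khSg (w r) * khSg (w s))
  simp only [Function.Involutive.coe_toPerm, Function.update_self, Function.update_of_ne h1,
    Function.update_of_ne h2, Function.update_of_ne h3, khSg_not, neg_mul,
    Finset.sum_neg_distrib] at h4
  linarith

section

variable {K L : Type*} [NormedAddCommGroup K] [InnerProductSpace ℂ K] [CompleteSpace K]
  [NormedAddCommGroup L] [InnerProductSpace ℂ L] [CompleteSpace L]

omit [CompleteSpace K] in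
theorem kh_orth {P I : Type} [Fintype P] [DecidableEq P] [Fintype I] {p q : I → P}
    (hp : Function.Injective p) (hq : ∀ i i', q i ≠ p i') (v : I → K) :
    ∑ w : P → Bool, ‖∑ i, ((khSg (w (p i)) * khSg (w (q i)) : ℝ) : ℂ) • v i‖ ^ 2 =
      ∑ _w : P → Bool, ∑ i, ‖v i‖ ^ 2 := by
  have h1 : ∀ s : I → ℝ, ‖∑ i, (s i : ℂ) • v i‖ ^ 2 = ∑ i, ∑ i', s i * s i' * (⟪v i, v i'⟫_ℂ).re :=
    fun s => by
      rw [← inner_self_eq_norm_sq (𝕜 := ℂ), sum_inner, map_sum]
      refine Finset.sum_congr rfl fun i _ => ?_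
      rw [inner_sum, map_sum]
      refine Finset.sum_congr rfl fun i' _ => ?_
      rw [inner_smul_left, inner_smul_right, Complex.conj_ofReal, ← mul_assoc, ← Complex.ofReal_mul]
      exact Complex.re_ofReal_mul _ _
  simp only [h1]
  rw [Finset.sum_comm, Finset.sum_comm (s := Finset.univ (α := P → Bool))]
  refine Finset.sum_congr rfl fun i _ => ?_
  rw [Finset.sum_comm, Finset.sum_eq_single_of_mem i (Finset.mem_univ i) fun i' _ hi => ?_]
  · refine Finset.sum_congr rfl fun w _ => ?_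
    rw [mul_mul_mul_comm, khSg_mul_self, khSg_mul_self, one_mul, one_mul]
    exact inner_self_eq_norm_sq (𝕜 := ℂ) _
  · rw [← Finset.sum_mul, kh_zero (hq i i) (hp.ne hi) (hq i' i), zero_mul]

omit [CompleteSpace K] in
theorem kh_avg {P I J : Type} [Fintype P] [DecidableEq P] [Fintype I] [Fintype J] {e : I → J → P}
    (he : ∀ i j i' j', e i j = e i' j' → i = i' ∧ j = j') (v : I → J → J → K) :
    ∑ w : P → Bool, ∑ j, ∑ j', ‖∑ i, ((khSg (w (e i j')) * khSg (w (e i j)) : ℝ) : ℂ) •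
      v i j j'‖ ^ 2 ≤ ∑ _w : P → Bool, (∑ j, ‖∑ i, v i j j‖ ^ 2 + ∑ i, ∑ j, ∑ j', ‖v i j j'‖ ^ 2) := by
  classical
  have h1 : ∀ j j', ∑ w : P → Bool, ‖∑ i, ((khSg (w (e i j')) * khSg (w (e i j)) : ℝ) : ℂ) •
      v i j j'‖ ^ 2 ≤ ∑ _w : P → Bool,
        ((if j = j' then ‖∑ i, v i j j‖ ^ 2 else 0) + ∑ i, ‖v i j j'‖ ^ 2) := fun j j' => by
    by_cases h : j = j'
    · subst h
      refine Finset.sum_le_sum fun w _ => ?_
      simp only [khSg_mul_self, Complex.ofReal_one, one_smul, if_true, le_add_iff_nonneg_right]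
      positivity
    · rw [kh_orth (fun i i' h' => (he _ _ _ _ h').1) fun i i' h' => h (he _ _ _ _ h').2]
      simp [h]
  rw [Finset.sum_comm]
  refine (Finset.sum_le_sum fun j _ => Finset.sum_comm.trans_le
    (Finset.sum_le_sum fun j' _ => h1 j j')).trans_eq ?_
  simp only [Finset.sum_const, ← Finset.smul_sum, Finset.sum_add_distrib, Finset.sum_ite_eq,
    Finset.mem_univ, if_true]
  rw [Finset.sum_comm (s := Finset.univ (α := I))]
  exact congrArg _ (congrArg _ (Finset.sum_congr rfl fun j _ => Finset.sum_comm))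

theorem kh_clip {X : K →L[ℂ] K} (hX : IsSelfAdjoint X) : ∃ X' : K →L[ℂ] K, star X' = X' ∧
    ‖X'‖ ≤ 1 ∧ (∀ y, Commute X y → Commute X' y) ∧
      ∀ v, 16 * ‖(X - X') v‖ ^ 2 ≤ ‖(X * X) v‖ ^ 2 := by
  have c1 : Continuous fun t : ℝ => max (-1) (min t 1) := by fun_prop
  have c2 : Continuous fun t : ℝ => (t - max (-1) (min t 1)) / max (t * t) 1 :=
    Continuous.div (by fun_prop) (by fun_prop) fun t => (lt_max_of_lt_right one_pos).ne'
  refine ⟨cfc (fun t : ℝ => max (-1) (min t 1)) X, IsSelfAdjoint.cfc.star_eq,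
    norm_cfc_le zero_le_one fun t _ => abs_le.2 ⟨le_max_left _ _, max_le (by norm_num)
      (min_le_right _ _)⟩, fun y hy => hy.cfc_real _, fun v => ?_⟩
  have h1 : X - cfc (fun t : ℝ => max (-1) (min t 1)) X =
      cfc (fun t : ℝ => (t - max (-1) (min t 1)) / max (t * t) 1) X * (X * X) := by
    conv_lhs => rw [← cfc_id' ℝ X, ← cfc_comp' .., ← cfc_sub ..]
    conv_rhs => enter [2]; rw [← cfc_id' ℝ X, ← cfc_mul ..]
    rw [← cfc_mul _ _ _ c2.continuousOn]
    refine cfc_congr fun t _ => ?_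
    rcases le_total (t * t) 1 with h | h
    · have h2 := abs_le.1 (abs_le_one_iff_mul_self_le_one.2 h)
      simp [min_eq_left h2.2, max_eq_right h2.1]
    · simp only [max_eq_left h]
      rw [div_mul_cancel₀ _ (one_pos.trans_le h).ne']
  have h2 : ‖cfc (fun t : ℝ => (t - max (-1) (min t 1)) / max (t * t) 1) X‖ ≤ 1 / 4 := by
    refine norm_cfc_le (by norm_num) fun t _ => ?_
    have h3 : 0 < max (t * t) 1 := lt_max_of_lt_right one_pos
    have h4 := le_max_left (t * t) 1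
    rw [Real.norm_eq_abs, abs_div, abs_of_pos h3, div_le_iff₀ h3, abs_le]
    rcases le_total t 1 with h | h
    · rw [min_eq_left h]
      rcases le_total (-1) t with h' | h'
      · rw [max_eq_right h']
        constructor <;> linarith
      · rw [max_eq_left h']
        constructor <;> nlinarith [sq_nonneg (t + 2)]
    · rw [min_eq_right h, max_eq_right (show (-1 : ℝ) ≤ 1 by norm_num)]
      constructor <;> nlinarith [sq_nonneg (t - 2)]
  have h3 := ContinuousLinearMap.le_of_opNorm_le _ h2 ((X * X) v)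
  rw [h1, mul_apply_eq_comp]
  nlinarith [norm_nonneg (cfc (fun t : ℝ => (t - max (-1) (min t 1)) / max (t * t) 1) X ((X * X) v))]

theorem kh_col {ι κ : Type} [Fintype κ] (A : Amp ι K L) {f : κ → ι} (hf : Function.Injective f)
    (T : L →L[ℂ] L) (j : ι) (η : K) : ∑ i, ‖A.ent T (f i) j η‖ ^ 2 ≤ ‖T (A.J j η)‖ ^ 2 := by
  have h := sum_le_hasSum (Finset.univ.map ⟨f, hf⟩) (fun _ _ => sq_nonneg _) (A.sum (T (A.J j η)))
  rwa [Finset.sum_map] at h

theorem kh_col' {ι κ : Type} [Fintype κ] (A : Amp ι K L) {f : κ → ι} (hf : Function.Injective f)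
    {T : L →L[ℂ] L} {c : ℝ} (hT : ‖T‖ ≤ c) (j : ι) (η : K) :
    ∑ i, ‖A.ent T (f i) j η‖ ^ 2 ≤ c ^ 2 * ‖η‖ ^ 2 := by
  rw [← mul_pow, ← A.norm_J j η]
  exact (kh_col A hf T j η).trans (pow_le_pow_left₀ (norm_nonneg _) (T.le_of_opNorm_le hT _) 2)

theorem kh_ent_sub {ι : Type} (A : Amp ι K L) (S T : L →L[ℂ] L) (i j : ι) :
    A.ent (S - T) i j = A.ent S i j - A.ent T i j := by
  ext η
  simp [Amp.ent_apply]

theorem kh_star_smul (b : Bool) (x : K →L[ℂ] K) :
    star ((khSg b : ℂ) • x) = (khSg b : ℂ) • star x := by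
  rw [star_smul, Complex.star_def, Complex.conj_ofReal]

end

theorem khin {K : Type u} [NormedAddCommGroup K] [InnerProductSpace ℂ K] [CompleteSpace K]
    {N M : VonNeumannAlgebra K} {γ : ℝ} (h : Close γ N M) (hγ : 0 ≤ γ) {I J : Type} [Fintype I]
    [Fintype J] (a : I → J → (K →L[ℂ] K)) (ha : ∀ i j, a i j ∈ N) (ζ : K) {α β : ℝ} (hα : 0 ≤ α)
    (hβ : 0 ≤ β) : ∃ b c : I → J → (K →L[ℂ] K), (∀ i j, b i j ∈ N) ∧ (∀ i j, c i j ∈ M) ∧
      (∀ η j, ∑ i, ‖b i j η‖ ^ 2 ≤ ‖η‖ ^ 2) ∧ (∀ η i, ∑ j, ‖star (b i j) η‖ ^ 2 ≤ ‖η‖ ^ 2) ∧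
      (∀ η j, ∑ i, ‖(b i j - c i j) η‖ ^ 2 ≤ (4 * dk.{u} ^ 2 * γ) ^ 2 * ‖η‖ ^ 2) ∧
      (∀ η i, ∑ j, ‖star (b i j - c i j) η‖ ^ 2 ≤ (4 * dk.{u} ^ 2 * γ) ^ 2 * ‖η‖ ^ 2) ∧
      16 * (α * ∑ i, ∑ j, ‖(a i j - b i j) ζ‖ ^ 2 + β * ∑ i, ∑ j, ‖star (a i j - b i j) ζ‖ ^ 2) ≤
        α * (∑ j, ‖∑ i, star (a i j) (a i j ζ)‖ ^ 2 +
          ∑ i, ∑ j, ∑ j', ‖star (a i j') (a i j ζ)‖ ^ 2) +
        β * (∑ i, ‖∑ j, a i j (star (a i j) ζ)‖ ^ 2 +
          ∑ j, ∑ i, ∑ i', ‖a i' j (star (a i j) ζ)‖ ^ 2) := by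
  classical
  obtain ⟨L, _, _, _, ⟨A⟩⟩ := exists_amp (I ⊕ J) K
  have h1 := kh_avg (e := fun (i : I) (j : J) => (i, j)) (fun _ _ _ _ => Prod.mk.inj)
    fun i j j' => star (a i j') (a i j ζ)
  have h2 := kh_avg (e := fun (j : J) (i : I) => (i, j)) (fun _ _ _ _ h => (Prod.mk.inj h).symm)
    fun j i i' => a i' j (star (a i j) ζ)
  have h3 := add_le_add (mul_le_mul_of_nonneg_left h1 hα) (mul_le_mul_of_nonneg_left h2 hβ)
  rw [Finset.mul_sum, Finset.mul_sum, Finset.mul_sum Finset.univ _ α,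
    Finset.mul_sum Finset.univ _ β, ← Finset.sum_add_distrib, ← Finset.sum_add_distrib] at h3
  obtain ⟨w, -, hw⟩ := Finset.exists_le_of_sum_le Finset.univ_nonempty h3
  obtain ⟨X, hX⟩ := A.exists_mat (Sum.elim
    (fun i => Sum.elim (fun _ => 0) fun j => (khSg (w (i, j)) : ℂ) • a i j)
    fun j => Sum.elim (fun i => (khSg (w (i, j)) : ℂ) • star (a i j)) fun _ => 0)
  have sX : star X = X := A.ext_ent fun i j => by
    rw [← A.star_ent, hX, hX]
    rcases i with i | i <;> rcases j with j | j <;> simp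
  have mX : X ∈ A.mat N := A.mem_mat.2 fun i j => by
    rw [hX]
    rcases i with i | i <;> rcases j with j | j
    exacts [zero_mem _, vn_smul _ (ha _ _), vn_smul _ (star_mem (ha _ _)), zero_mem _]
  obtain ⟨X', s1, n1, c1, k1⟩ := kh_clip (X := X) sX
  have m1 : X' ∈ A.mat N := A.mem_mat'.2 fun y hy => (c1 _ (A.mem_mat'.1 mX y hy).symm).eq.symm
  obtain ⟨Y, mY, hY⟩ := (A.close_mat h hγ).1 X' m1
  have hY' : ‖X' - Y‖ ≤ 4 * dk.{u} ^ 2 * γ :=
    hY.trans (mul_le_of_le_one_right (by positivity) n1)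
  have e1 : ∀ i j, a i j - (khSg (w (i, j)) : ℂ) • A.ent X' (.inl i) (.inr j) =
      (khSg (w (i, j)) : ℂ) • A.ent (X - X') (.inl i) (.inr j) := fun i j => by
    rw [kh_ent_sub, hX, smul_sub, Sum.elim_inl, Sum.elim_inr, smul_smul, ← Complex.ofReal_mul,
      khSg_mul_self, Complex.ofReal_one, one_smul]
  refine ⟨fun i j => (khSg (w (i, j)) : ℂ) • A.ent X' (.inl i) (.inr j),
    fun i j => (khSg (w (i, j)) : ℂ) • A.ent Y (.inl i) (.inr j),
    fun i j => vn_smul _ (A.mem_mat.1 m1 _ _), fun i j => vn_smul _ (A.mem_mat.1 mY _ _),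
    fun η j => ?_, fun η i => ?_, fun η j => ?_, fun η i => ?_, le_trans ?_ hw⟩
  · simp only [smul_apply, kh_norm_smul]
    simpa using kh_col' A Sum.inl_injective n1 _ η
  · simp only [kh_star_smul, smul_apply, kh_norm_smul, A.star_ent, s1]
    simpa using kh_col' A Sum.inr_injective n1 _ η
  · simp only [← smul_sub, ← kh_ent_sub, smul_apply, kh_norm_smul]
    exact kh_col' A Sum.inl_injective hY' _ η
  · simp only [← smul_sub, ← kh_ent_sub, kh_star_smul, smul_apply, kh_norm_smul, A.star_ent]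
    exact kh_col' A Sum.inr_injective (by rwa [norm_star]) _ η
  · simp only [e1, kh_star_smul, smul_apply, kh_norm_smul, A.star_ent, star_sub, sX, s1]
    rw [mul_add, mul_left_comm, mul_left_comm _ β, Finset.sum_comm, Finset.mul_sum _ _ 16,
      Finset.mul_sum _ _ 16]
    refine add_le_add (mul_le_mul_of_nonneg_left (Finset.sum_le_sum fun j _ => ?_) hα)
      (mul_le_mul_of_nonneg_left (Finset.sum_le_sum fun i _ => ?_) hβ)
    · refine (mul_le_mul_of_nonneg_left (kh_col A Sum.inl_injective _ _ ζ) (by norm_num)).trans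
        ((k1 _).trans_eq ?_)
      simp only [A.norm_sq_eq, ← A.ent_apply, A.ent_mul, hX, Fintype.sum_sum_type]
      simp [-Complex.coe_smul, smul_smul, mul_comm]
    · refine (mul_le_mul_of_nonneg_left (kh_col A Sum.inr_injective _ _ ζ) (by norm_num)).trans
        ((k1 _).trans_eq ?_)
      simp only [A.norm_sq_eq, ← A.ent_apply, A.ent_mul, hX, Fintype.sum_sum_type]
      simp [-Complex.coe_smul, smul_smul, mul_comm]

end Vale.Agent.P096
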