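import Vale.Agent.P096.Mean

/-! Normalised approximate representations. -/

open scoped InnerProductSpace Topology
open Filter

namespace Vale.Agent.P096

open Vale.Agent.P104 Vale.Agent.P132

universe u v w

/-- Fixed point of a map which halves uniform distances. -/
theorem lemK_fix {ι E : Type*} [NormedAddCommGroup E] [CompleteSpace E] (A : ι → Set E)
    (hA : ∀ g, IsClosed (A g)) (T : (ι → E) → (ι → E))
    (hT : ∀ κ, (∀ g, κ g ∈ A g) → ∀ g, T κ g ∈ A g)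
    (hL : ∀ κ κ' : ι → E, (∀ g, κ g ∈ A g) → (∀ g, κ' g ∈ A g) → ∀ β : ℝ,
      (∀ g, ‖κ g - κ' g‖ ≤ β) → ∀ g, ‖T κ g - T κ' g‖ ≤ β / 2)
    (k0 : ι → E) (h0 : ∀ g, k0 g ∈ A g) (C : ℝ) (hC : ∀ g, ‖k0 g - T k0 g‖ ≤ C) :
    ∃ κ : ι → E, (∀ g, κ g ∈ A g) ∧ T κ = κ := by
  have hmem : ∀ n : ℕ, ∀ g, (T^[n] k0) g ∈ A g := by
    intro n
    induction n with
    | zero => exact h0
    | succ n ih => rw [Function.iterate_succ_apply']; exact hT _ ih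
  have hstep : ∀ n : ℕ, ∀ g, ‖(T^[n] k0) g - (T^[n + 1] k0) g‖ ≤ (2 * C) / 2 / 2 ^ n := by
    intro n
    induction n with
    | zero =>
      intro g
      have := hC g
      simp only [Function.iterate_zero, id_eq, zero_add, Function.iterate_one, pow_zero, div_one]
      linarith
    | succ n ih =>
      intro g
      have := hL _ _ (hmem n) (hmem (n + 1)) _ ih g
      rw [Function.iterate_succ_apply' T (n + 1), Function.iterate_succ_apply' T n]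
      rw [Function.iterate_succ_apply' T n] at this
      refine this.trans (le_of_eq ?_)
      rw [pow_succ]
      ring
  have hd : ∀ g, ∀ n : ℕ, dist ((T^[n] k0) g) ((T^[n + 1] k0) g) ≤ (2 * C) / 2 / 2 ^ n :=
    fun g n => by rw [dist_eq_norm]; exact hstep n g
  have hc : ∀ g, ∃ y, Tendsto (fun n => (T^[n] k0) g) atTop (𝓝 y) := fun g =>
    cauchySeq_tendsto_of_complete (cauchySeq_of_le_geometric_two (hd g))
  choose κ hκ using hc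
  have hκA : ∀ g, κ g ∈ A g := fun g =>
    (hA g).mem_of_tendsto (hκ g) (Eventually.of_forall fun n => hmem n g)
  refine ⟨κ, hκA, funext fun g => ?_⟩
  have hn : ∀ n : ℕ, ∀ g, ‖(T^[n] k0) g - κ g‖ ≤ (2 * C) / 2 ^ n := fun n g => by
    rw [← dist_eq_norm]
    exact dist_le_of_le_geometric_two_of_tendsto (hd g) (hκ g) n
  have h1 : Tendsto (fun n => (T^[n + 1] k0) g) atTop (𝓝 (κ g)) :=
    (hκ g).comp (tendsto_add_atTop_nat 1)
  have h2 : Tendsto (fun n => (T^[n + 1] k0) g) atTop (𝓝 (T κ g)) := by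
    rw [tendsto_iff_norm_sub_tendsto_zero]
    have h3 : Tendsto (fun n : ℕ => (2 * C) / 2 ^ n / 2) atTop (𝓝 0) := by
      have h4 : Tendsto (fun n : ℕ => (2 * C) / (2 : ℝ) ^ n) atTop (𝓝 0) :=
        tendsto_const_nhds.div_atTop (tendsto_pow_atTop_atTop_of_one_lt one_lt_two)
      simpa using h4.div_const 2
    refine squeeze_zero (fun _ => norm_nonneg _) (fun n => ?_) h3
    rw [Function.iterate_succ_apply']
    exact hL _ _ (hmem n) hκA _ (hn n) g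
  exact tendsto_nhds_unique h2 h1

section Ring

variable {B : Type*} [NormedRing B] {ρ β : ℝ}

theorem lemK_le2 {x u : B} (hρ : ρ ≤ 1) (hu : ‖u‖ ≤ 1) (hx : ‖x - u‖ ≤ ρ) : ‖x‖ ≤ 2 := by
  have : ‖x‖ ≤ ‖x - u‖ + ‖u‖ := by simpa using norm_add_le (x - u) u
  linarith

theorem lemK_mul_le {x y : B} {a b : ℝ} (hx : ‖x‖ ≤ a) (hy : ‖y‖ ≤ b) : ‖x * y‖ ≤ a * b :=
  (norm_mul_le x y).trans (mul_le_mul hx hy (norm_nonneg _) ((norm_nonneg _).trans hx))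

theorem lemK_n2 {x y u v : B} (hρ : ρ ≤ 1) (hu : ‖u‖ ≤ 1) (hv : ‖v‖ ≤ 1) (hx : ‖x - u‖ ≤ ρ)
    (hy : ‖y - v‖ ≤ ρ) : ‖x * y - u * v‖ ≤ 3 * ρ := by
  have e : x * y - u * v = (x - u) * y + u * (y - v) := by noncomm_ring
  have h1 := lemK_mul_le hx (lemK_le2 hρ hv hy)
  have h2 := lemK_mul_le hu hy
  rw [e]
  linarith [norm_add_le ((x - u) * y) (u * (y - v))]

theorem lemK_n3 {x y z u v w : B} (hρ : ρ ≤ 1) (hu : ‖u‖ ≤ 1) (hv : ‖v‖ ≤ 1) (hw : ‖w‖ ≤ 1)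
    (hx : ‖x - u‖ ≤ ρ) (hy : ‖y - v‖ ≤ ρ) (hz : ‖z - w‖ ≤ ρ) :
    ‖x * y * z - u * v * w‖ ≤ 7 * ρ := by
  have e : x * y * z - u * v * w = (x * y - u * v) * z + u * v * (z - w) := by noncomm_ring
  have h1 := lemK_mul_le (lemK_n2 hρ hu hv hx hy) (lemK_le2 hρ hw hz)
  have h2 := lemK_mul_le (lemK_mul_le hu hv) hz
  rw [e]
  linarith [norm_add_le ((x * y - u * v) * z) (u * v * (z - w))]

theorem lemK_tri {x y z x' y' z' u v w : B} (hρ : ρ ≤ 1) (hu : ‖u‖ ≤ 1) (hv : ‖v‖ ≤ 1)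
    (hw : ‖w‖ ≤ 1) (hy : ‖y - v‖ ≤ ρ) (hz : ‖z - w‖ ≤ ρ) (hx' : ‖x' - u‖ ≤ ρ)
    (hy' : ‖y' - v‖ ≤ ρ) (b1 : ‖x - x'‖ ≤ β) (b2 : ‖y - y'‖ ≤ β) (b3 : ‖z - z'‖ ≤ β) :
    ‖(x * y * z - x' * y' * z') - ((x - x') * (v * w) + u * (y - y') * w + u * v * (z - z'))‖ ≤
      9 * (ρ * β) := by
  have e : (x * y * z - x' * y' * z') - ((x - x') * (v * w) + u * (y - y') * w + u * v * (z - z')) =
      (x - x') * (y * z - v * w) + ((x' - u) * (y - y') * z + u * (y - y') * (z - w)) +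
        (x' * y' - u * v) * (z - z') := by noncomm_ring
  have h1 := lemK_mul_le b1 (lemK_n2 hρ hv hw hy hz)
  have h2 := lemK_mul_le (lemK_mul_le hx' b2) (lemK_le2 hρ hw hz)
  have h3 := lemK_mul_le (lemK_mul_le hu b2) hz
  have h4 := lemK_mul_le (lemK_n2 hρ hu hv hx' hy') b3
  rw [e]
  linarith [norm_add₃_le (a := (x - x') * (y * z - v * w))
    (b := (x' - u) * (y - y') * z + u * (y - y') * (z - w)) (c := (x' * y' - u * v) * (z - z')),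
    norm_add_le ((x' - u) * (y - y') * z) (u * (y - y') * (z - w))]

end Ring

section Main

variable {Γ : Type w} [Group Γ] {K : Type v} [NormedAddCommGroup K] [InnerProductSpace ℂ K]
  [CompleteSpace K] (D : DM.{v, w} Γ)

/-- The averaged triple product. -/
noncomputable def lemKK (κ : Γ → (K →L[ℂ] K)) (g : Γ) : K →L[ℂ] K :=
  D.om fun s t => κ s⁻¹ * κ (s * g * t) * κ t⁻¹

/-- The left correction. -/
noncomputable def lemKA (k0 κ : Γ → (K →L[ℂ] K)) : K →L[ℂ] K :=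
  1 - D.om fun s _ => κ s⁻¹ * k0 s

/-- The corrected average. -/
noncomputable def lemKG (k0 κ : Γ → (K →L[ℂ] K)) (g : Γ) : K →L[ℂ] K :=
  lemKK D κ g + lemKA D k0 κ * κ g

/-- The contraction. -/
noncomputable def lemKT (k0 κ : Γ → (K →L[ℂ] K)) (g : Γ) : K →L[ℂ] K :=
  lemKG D k0 κ g - κ g * (lemKG D k0 κ 1 - 1)

/-- The middle term. -/
noncomputable def lemKE (l : Γ →* (K →L[ℂ] K)) (b : Γ → (K →L[ℂ] K)) (g : Γ) : K →L[ℂ] K :=
  D.om fun s t => l s⁻¹ * b (s * g * t) * l t⁻¹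

variable {l r : Γ →* (K →L[ℂ] K)} {k0 κ κ' : Γ → (K →L[ℂ] K)} {ρ β δ : ℝ}
  {N M : VonNeumannAlgebra K} {ξ : K}

omit [Group Γ] in
theorem lemK_bd {b : Γ → (K →L[ℂ] K)} {C : ℝ} (h : ∀ g, ‖b g‖ ≤ C) (φ : Γ → Γ → Γ) :
    Bd2 fun s t => b (φ s t) := ⟨C, fun _ _ => h _⟩

theorem lemKK_near (hl : URep l) (hρ : ρ ≤ 1) (h : ∀ g, ‖κ g - l g‖ ≤ ρ) (g : Γ) :
    ‖lemKK D κ g - l g‖ ≤ 7 * ρ := by
  refine D.om_sub_const_le fun s t => ?_
  have e : l g = l s⁻¹ * l (s * g * t) * l t⁻¹ := by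
    rw [← map_mul, ← map_mul]
    congr 1
    group
  rw [e]
  exact lemK_n3 hρ (hl.norm_le _) (hl.norm_le _) (hl.norm_le _) (h _) (h _) (h _)

theorem lemKA_le (hl : URep l) (hρ : ρ ≤ 1) (h0 : ∀ g, ‖k0 g - l g‖ ≤ ρ)
    (h : ∀ g, ‖κ g - l g‖ ≤ ρ) : ‖lemKA D k0 κ‖ ≤ 3 * ρ := by
  rw [lemKA, norm_sub_rev]
  refine D.om_sub_const_le fun s _ => ?_
  have e : (1 : K →L[ℂ] K) = l s⁻¹ * l s := by rw [← map_mul, inv_mul_cancel, map_one]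
  rw [e]
  exact lemK_n2 hρ (hl.norm_le _) (hl.norm_le _) (h _) (h0 _)

theorem lemKG_near (hl : URep l) (hρ : ρ ≤ 1) (h0 : ∀ g, ‖k0 g - l g‖ ≤ ρ)
    (h : ∀ g, ‖κ g - l g‖ ≤ ρ) (g : Γ) : ‖lemKG D k0 κ g - l g‖ ≤ 13 * ρ := by
  have e : lemKG D k0 κ g - l g = (lemKK D κ g - l g) + lemKA D k0 κ * κ g := by
    rw [lemKG]; abel
  have h1 := lemKK_near D hl hρ h g
  have h2 := lemK_mul_le (lemKA_le D hl hρ h0 h) (lemK_le2 hρ (hl.norm_le g) (h g))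
  rw [e]
  linarith [norm_add_le (lemKK D κ g - l g) (lemKA D k0 κ * κ g)]

theorem lemKG_one (hl : URep l) (hρ : ρ ≤ 1) (h0 : ∀ g, ‖k0 g - l g‖ ≤ ρ)
    (h : ∀ g, ‖κ g - l g‖ ≤ ρ) : ‖lemKG D k0 κ 1 - 1‖ ≤ 13 * ρ := by
  have := lemKG_near D hl hρ h0 h 1
  rwa [map_one] at this

theorem lemKT_near (hl : URep l) (hρ : ρ ≤ 1) (h0 : ∀ g, ‖k0 g - l g‖ ≤ ρ)
    (h : ∀ g, ‖κ g - l g‖ ≤ ρ) (g : Γ) : ‖lemKT D k0 κ g - l g‖ ≤ 39 * ρ := by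
  have e : lemKT D k0 κ g - l g = (lemKG D k0 κ g - l g) - κ g * (lemKG D k0 κ 1 - 1) := by
    rw [lemKT]; abel
  have h1 := lemKG_near D hl hρ h0 h g
  have h2 := lemK_mul_le (lemK_le2 hρ (hl.norm_le g) (h g)) (lemKG_one D hl hρ h0 h)
  rw [e]
  linarith [norm_sub_le (lemKG D k0 κ g - l g) (κ g * (lemKG D k0 κ 1 - 1))]

theorem lemKE_exact (hS : Std N ξ l r) {n : Γ → (K →L[ℂ] K)} {C : ℝ} (hn : ∀ g, n g ∈ N)
    (hC : ∀ g, ‖n g‖ ≤ C) (g : Γ) : lemKE D l n g = l g * lemKE D l n 1 := by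
  have hl := hS.bim.ul
  have hbd : ∀ g, Bd2 fun s t => l s⁻¹ * n (s * g * t) * l t⁻¹ := fun g =>
    ((hl.bd2 fun s _ => s⁻¹).mul (lemK_bd hC fun s t => s * g * t)).mul (hl.bd2 fun _ t => t⁻¹)
  have hmem : ∀ g, lemKE D l n g ∈ N := fun g =>
    D.om_mem (hbd g) fun s t => mul_mem (mul_mem (hS.l_mem _) (hn _)) (hS.l_mem _)
  have hrn : ∀ x ∈ N, ∀ (k : Γ) (η : K), r k (x η) = x (r k η) := fun x hx k η =>
    (congrArg (fun T : K →L[ℂ] K => T η)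
      (VonNeumannAlgebra.mem_commutant_iff.1 (hS.r_mem k) x hx)).symm
  obtain ⟨ζ, hζ, hv⟩ := D.vm_de hS.bim.urep_diag (n := fun h => n h (l h⁻¹ ξ)) (C := C * ‖ξ‖)
    fun h => by
      have := (n h).le_of_opNorm_le (hC h) (l h⁻¹ ξ)
      rwa [hl.norm_apply] at this
  have key : ∀ g, lemKE D l n g (l g⁻¹ ξ) = ζ := fun g => by
    rw [lemKE, D.om_apply (hbd g), ← hv g]
    congr 1
    funext s t
    rw [Bim.diag_apply, hrn _ (hn _), ← hS.bim.comm_apply, fix_r hS.fix, inv_inv]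
    show l s⁻¹ (n (s * g * t) (l t⁻¹ (l g⁻¹ ξ))) = _
    rw [rep_mul_apply, rep_mul_apply]
    congr 4
    group
  have h1 : lemKE D l n 1 ξ = ζ := by
    have := key 1
    rwa [inv_one, map_one] at this
  have h2 : lemKE D l n g * l g⁻¹ - l g * lemKE D l n 1 * l g⁻¹ = 0 := by
    refine hS.sep _ (sub_mem (mul_mem (hmem g) (hS.l_mem _))
      (mul_mem (mul_mem (hS.l_mem _) (hmem 1)) (hS.l_mem _))) ?_
    show lemKE D l n g (l g⁻¹ ξ) - l g (lemKE D l n 1 (l g⁻¹ ξ)) = 0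
    rw [key g, ← fix_r hS.fix, ← hrn _ (hmem 1), h1, ← Bim.diag_apply hS.bim, hζ g, sub_self]
  have h3 := congrArg (fun T => T * l g) (sub_eq_zero.1 h2)
  simp only [mul_assoc, ← map_mul, inv_mul_cancel, map_one, mul_one] at h3
  exact h3

theorem lemKE_key (hS : Std N ξ l r) (hc : Close δ N M) (hδ : 0 ≤ δ) (hδ1 : δ ≤ 1)
    {b : Γ → (K →L[ℂ] K)} (hb : ∀ g, b g ∈ M) (hβ : ∀ g, ‖b g‖ ≤ β) (g : Γ) :
    ‖lemKE D l b g - l g * lemKE D l b 1‖ ≤ 2 * (δ * β) := by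
  have hl := hS.bim.ul
  choose n hn hnb using fun h => hc.2 (b h) (hb h)
  have hβ0 : 0 ≤ β := (norm_nonneg _).trans (hβ 1)
  have hnb' : ∀ h, ‖b h - n h‖ ≤ δ * β := fun h =>
    (hnb h).trans (mul_le_mul_of_nonneg_left (hβ h) hδ)
  have hC : ∀ h, ‖n h‖ ≤ 2 * β := fun h => by
    have h1 : ‖n h‖ ≤ ‖b h‖ + ‖b h - n h‖ := by
      simpa using norm_sub_le (b h) (b h - n h)
    have h2 : δ * β ≤ β := mul_le_of_le_one_left hβ0 hδ1
    linarith [hβ h, hnb' h]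
  have hd : ∀ g, ‖lemKE D l b g - lemKE D l n g‖ ≤ δ * β := fun g => by
    refine D.om_sub_le
      (((hl.bd2 fun s _ => s⁻¹).mul (lemK_bd hβ fun s t => s * g * t)).mul (hl.bd2 fun _ t => t⁻¹))
      (((hl.bd2 fun s _ => s⁻¹).mul (lemK_bd hC fun s t => s * g * t)).mul (hl.bd2 fun _ t => t⁻¹))
      fun s t => ?_
    rw [← sub_mul, ← mul_sub]
    have := lemK_mul_le (lemK_mul_le (hl.norm_le s⁻¹) (hnb' (s * g * t))) (hl.norm_le t⁻¹)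
    linarith
  have e : lemKE D l b g - l g * lemKE D l b 1 =
      (lemKE D l b g - lemKE D l n g) - l g * (lemKE D l b 1 - lemKE D l n 1) := by
    rw [lemKE_exact D hS hn hC g]
    noncomm_ring
  have h2 := lemK_mul_le (hl.norm_le g) (hd 1)
  rw [e]
  linarith [norm_sub_le (lemKE D l b g - lemKE D l n g) (l g * (lemKE D l b 1 - lemKE D l n 1)),
    hd g]

theorem lemKG_diff (hl : URep l) (hρ : ρ ≤ 1) (h0 : ∀ g, ‖k0 g - l g‖ ≤ ρ)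
    (h : ∀ g, ‖κ g - l g‖ ≤ ρ) (h' : ∀ g, ‖κ' g - l g‖ ≤ ρ) (hβ : ∀ g, ‖κ g - κ' g‖ ≤ β) (g : Γ) :
    ‖(lemKG D k0 κ g - lemKG D k0 κ' g) - (lemKE D l (fun g => κ g - κ' g) g +
      l g * D.om fun _ t => l t * (κ t⁻¹ - κ' t⁻¹))‖ ≤ 15 * (ρ * β) := by
  have b2 : ∀ g, ‖κ g‖ ≤ 2 := fun g => lemK_le2 hρ (hl.norm_le g) (h g)
  have b2' : ∀ g, ‖κ' g‖ ≤ 2 := fun g => lemK_le2 hρ (hl.norm_le g) (h' g)
  have b20 : ∀ g, ‖k0 g‖ ≤ 2 := fun g => lemK_le2 hρ (hl.norm_le g) (h0 g)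
  have dK : Bd2 fun s t => κ s⁻¹ * κ (s * g * t) * κ t⁻¹ :=
    ((lemK_bd b2 fun s _ => s⁻¹).mul (lemK_bd b2 fun s t => s * g * t)).mul
      (lemK_bd b2 fun _ t => t⁻¹)
  have dK' : Bd2 fun s t => κ' s⁻¹ * κ' (s * g * t) * κ' t⁻¹ :=
    ((lemK_bd b2' fun s _ => s⁻¹).mul (lemK_bd b2' fun s t => s * g * t)).mul
      (lemK_bd b2' fun _ t => t⁻¹)
  have dP : Bd2 fun s (_ : Γ) => (κ s⁻¹ - κ' s⁻¹) * l s :=
    (lemK_bd (b := fun g => κ g - κ' g) hβ fun s _ => s⁻¹).mul (hl.bd2 fun s _ => s)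
  have dP' : Bd2 fun s (_ : Γ) => (κ s⁻¹ - κ' s⁻¹) * k0 s :=
    (lemK_bd (b := fun g => κ g - κ' g) hβ fun s _ => s⁻¹).mul (lemK_bd b20 fun s _ => s)
  have dE : Bd2 fun s t => l s⁻¹ * (κ (s * g * t) - κ' (s * g * t)) * l t⁻¹ :=
    ((hl.bd2 fun s _ => s⁻¹).mul
      (lemK_bd (b := fun g => κ g - κ' g) hβ fun s t => s * g * t)).mul (hl.bd2 fun _ t => t⁻¹)
  have dQ : Bd2 fun (_ : Γ) t => l t * (κ t⁻¹ - κ' t⁻¹) :=
    (hl.bd2 fun _ t => t).mul (lemK_bd (b := fun g => κ g - κ' g) hβ fun _ t => t⁻¹)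
  set P := D.om fun s (_ : Γ) => (κ s⁻¹ - κ' s⁻¹) * l s with hP
  set P' := D.om fun s (_ : Γ) => (κ s⁻¹ - κ' s⁻¹) * k0 s with hP'
  set Q := D.om fun (_ : Γ) t => l t * (κ t⁻¹ - κ' t⁻¹) with hQ
  set E := lemKE D l (fun g => κ g - κ' g) g with hE
  have h1 : ‖(lemKK D κ g - lemKK D κ' g) - (P * l g + E + l g * Q)‖ ≤ 9 * (ρ * β) := by
    rw [lemKK, lemKK, ← D.om_sub dK dK', hP, hQ, hE, lemKE, ← D.om_mul_right _ dP,
      ← D.om_mul_left _ dQ, ← D.om_add (dP.mul (Bd2.const _)) dE,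
      ← D.om_add ((dP.mul (Bd2.const _)).add dE) ((Bd2.const _).mul dQ)]
    refine D.om_sub_le (dK.sub dK')
      (((dP.mul (Bd2.const _)).add dE).add ((Bd2.const _).mul dQ)) fun s t => ?_
    have e1 : (κ s⁻¹ - κ' s⁻¹) * l s * l g = (κ s⁻¹ - κ' s⁻¹) * (l (s * g * t) * l t⁻¹) := by
      rw [mul_assoc, ← map_mul, ← map_mul, mul_inv_cancel_right]
    have e2 : l g * (l t * (κ t⁻¹ - κ' t⁻¹)) = l s⁻¹ * l (s * g * t) * (κ t⁻¹ - κ' t⁻¹) := by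
      rw [← mul_assoc, ← map_mul, ← map_mul, mul_assoc s, inv_mul_cancel_left]
    rw [e1, e2]
    exact lemK_tri hρ (hl.norm_le _) (hl.norm_le _) (hl.norm_le _) (h _) (h _) (h' _) (h' _)
      (hβ _) (hβ _) (hβ _)
  have h2 : lemKA D k0 κ - lemKA D k0 κ' = -P' := by
    have dA : Bd2 fun s (_ : Γ) => κ s⁻¹ * k0 s :=
      (lemK_bd b2 fun s _ => s⁻¹).mul (lemK_bd b20 fun s _ => s)
    have dA' : Bd2 fun s (_ : Γ) => κ' s⁻¹ * k0 s :=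
      (lemK_bd b2' fun s _ => s⁻¹).mul (lemK_bd b20 fun s _ => s)
    have : P' = D.om (fun s (_ : Γ) => κ s⁻¹ * k0 s) - D.om fun s (_ : Γ) => κ' s⁻¹ * k0 s := by
      rw [← D.om_sub dA dA', hP']
      simp only [sub_mul]
    rw [this, lemKA, lemKA]
    abel
  have h3 : ‖P' - P‖ ≤ β * ρ := by
    refine D.om_sub_le dP' dP fun s _ => ?_
    rw [← mul_sub]
    exact lemK_mul_le (hβ _) (h0 _)
  have h4 : ‖P‖ ≤ β * 1 := D.om_norm_le fun s _ => lemK_mul_le (hβ _) (hl.norm_le _)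
  have e : (lemKG D k0 κ g - lemKG D k0 κ' g) - (E + l g * Q) =
      ((lemKK D κ g - lemKK D κ' g) - (P * l g + E + l g * Q)) -
        ((P' - P) * κ g + P * (κ g - l g)) + lemKA D k0 κ' * (κ g - κ' g) := by
    have : lemKA D k0 κ = lemKA D k0 κ' - P' := by rw [sub_eq_add_neg, ← h2]; abel
    rw [lemKG, lemKG, this]
    noncomm_ring
  have h5 := lemK_mul_le h3 (b2 g)
  have h6 := lemK_mul_le h4 (h g)
  have h7 := lemK_mul_le (lemKA_le D hl hρ h0 h') (hβ g)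
  rw [e]
  linarith [norm_add_le (((lemKK D κ g - lemKK D κ' g) - (P * l g + E + l g * Q)) -
      ((P' - P) * κ g + P * (κ g - l g))) (lemKA D k0 κ' * (κ g - κ' g)),
    norm_sub_le ((lemKK D κ g - lemKK D κ' g) - (P * l g + E + l g * Q))
      ((P' - P) * κ g + P * (κ g - l g)), norm_add_le ((P' - P) * κ g) (P * (κ g - l g))]

theorem lemKT_diff (hS : Std N ξ l r) (hc : Close δ N M) (hδ : 0 ≤ δ) (hδρ : δ ≤ ρ) (hρ : ρ ≤ 1)
    (h0 : ∀ g, ‖k0 g - l g‖ ≤ ρ) (h : ∀ g, ‖κ g - l g‖ ≤ ρ) (h' : ∀ g, ‖κ' g - l g‖ ≤ ρ)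
    (hm : ∀ g, κ g ∈ M) (hm' : ∀ g, κ' g ∈ M) (hβ : ∀ g, ‖κ g - κ' g‖ ≤ β) (g : Γ) :
    ‖lemKT D k0 κ g - lemKT D k0 κ' g‖ ≤ 62 * (ρ * β) := by
  have hl := hS.bim.ul
  have hβ0 : 0 ≤ β := (norm_nonneg _).trans (hβ 1)
  have h1 := lemKG_diff D hl hρ h0 h h' hβ g
  have h2 := lemKG_diff D hl hρ h0 h h' hβ 1
  have h3 := lemKE_key D hS hc hδ (hδρ.trans hρ) (b := fun g => κ g - κ' g)
    (fun g => sub_mem (hm g) (hm' g)) hβ g
  have hQ : ‖D.om fun (_ : Γ) t => l t * (κ t⁻¹ - κ' t⁻¹)‖ ≤ 1 * β :=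
    D.om_norm_le fun _ t => lemK_mul_le (hl.norm_le _) (hβ _)
  have hE : ‖lemKE D l (fun g => κ g - κ' g) 1‖ ≤ 1 * β * 1 :=
    D.om_norm_le fun s t => lemK_mul_le (lemK_mul_le (hl.norm_le _) (hβ _)) (hl.norm_le _)
  rw [map_one, one_mul] at h2
  set Q := D.om fun (_ : Γ) t => l t * (κ t⁻¹ - κ' t⁻¹)
  set E := lemKE D l (fun g => κ g - κ' g) g
  set E1 := lemKE D l (fun g => κ g - κ' g) 1
  have hρβ : ρ * β ≤ β := mul_le_of_le_one_left hβ0 hρ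
  have hδβ : δ * β ≤ ρ * β := mul_le_mul_of_nonneg_right hδρ hβ0
  have h4 : ‖lemKG D k0 κ 1 - lemKG D k0 κ' 1‖ ≤ 17 * β := by
    have e : lemKG D k0 κ 1 - lemKG D k0 κ' 1 =
        (lemKG D k0 κ 1 - lemKG D k0 κ' 1 - (E1 + Q)) + (E1 + Q) := by abel
    rw [e]
    linarith [norm_add_le (lemKG D k0 κ 1 - lemKG D k0 κ' 1 - (E1 + Q)) (E1 + Q),
      norm_add_le E1 Q]
  have h5 := lemK_mul_le (hβ g) (lemKG_one D hl hρ h0 h)
  have h6 := lemK_mul_le (h' g) h4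
  have h7 := lemK_mul_le (hl.norm_le g) h2
  have e : lemKT D k0 κ g - lemKT D k0 κ' g = (E - l g * E1) +
      (lemKG D k0 κ g - lemKG D k0 κ' g - (E + l g * Q)) -
      ((κ g - κ' g) * (lemKG D k0 κ 1 - 1) + (κ' g - l g) * (lemKG D k0 κ 1 - lemKG D k0 κ' 1) +
        l g * (lemKG D k0 κ 1 - lemKG D k0 κ' 1 - (E1 + Q))) := by
    rw [lemKT, lemKT]
    noncomm_ring
  rw [e]
  refine (norm_sub_le _ _).trans ?_
  linarith [norm_add_le (E - l g * E1) (lemKG D k0 κ g - lemKG D k0 κ' g - (E + l g * Q)),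
    norm_add₃_le (a := (κ g - κ' g) * (lemKG D k0 κ 1 - 1))
      (b := (κ' g - l g) * (lemKG D k0 κ 1 - lemKG D k0 κ' 1))
      (c := l g * (lemKG D k0 κ 1 - lemKG D k0 κ' 1 - (E1 + Q)))]

theorem lemKG_mem (hl : URep l) (hρ : ρ ≤ 1) (h0 : ∀ g, ‖k0 g - l g‖ ≤ ρ)
    (h : ∀ g, ‖κ g - l g‖ ≤ ρ) (hm0 : ∀ g, k0 g ∈ M) (hm : ∀ g, κ g ∈ M) (g : Γ) :
    lemKG D k0 κ g ∈ M := by
  have b2 : ∀ g, ‖κ g‖ ≤ 2 := fun g => lemK_le2 hρ (hl.norm_le g) (h g)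
  have b20 : ∀ g, ‖k0 g‖ ≤ 2 := fun g => lemK_le2 hρ (hl.norm_le g) (h0 g)
  refine add_mem (D.om_mem (((lemK_bd b2 fun s _ => s⁻¹).mul
    (lemK_bd b2 fun s t => s * g * t)).mul (lemK_bd b2 fun _ t => t⁻¹)) fun s t =>
      mul_mem (mul_mem (hm _) (hm _)) (hm _)) (mul_mem (sub_mem (one_mem _) ?_) (hm g))
  exact D.om_mem ((lemK_bd b2 fun s _ => s⁻¹).mul (lemK_bd b20 fun s _ => s)) fun s _ =>
    mul_mem (hm _) (hm0 _)

end Main

theorem lemK (ε : ℝ) (hε : 0 < ε) : ∃ δ : ℝ, 0 < δ ∧ ∀ (Γ : Type w) [Group Γ] (K : Type v)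
    [NormedAddCommGroup K] [InnerProductSpace ℂ K] [CompleteSpace K] (D : DM.{v, w} Γ)
    (N M : VonNeumannAlgebra K) (ξ : K) (l r : Γ →* (K →L[ℂ] K)), Std N ξ l r → Close δ N M →
    ∃ κ Y A, KEq D ε l κ Y A ∧ (∀ g, κ g ∈ M) ∧ Y ∈ M := by
  classical
  obtain ⟨ρ, hρ0, hρ1, hρε⟩ : ∃ ρ : ℝ, 0 < ρ ∧ ρ ≤ 1 / 124 ∧ ρ ≤ ε / 13 :=
    ⟨min (1 / 124) (ε / 13), lt_min (by norm_num) (by positivity), min_le_left _ _,
      min_le_right _ _⟩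
  refine ⟨ρ / 80, by positivity, fun Γ _ K _ _ _ D N M ξ l r hS hc => ?_⟩
  have hl := hS.bim.ul
  have hρ : ρ ≤ 1 := by linarith
  obtain ⟨k0, hk1, hkm, hk⟩ : ∃ k0 : Γ → (K →L[ℂ] K), k0 1 = 1 ∧ (∀ g, k0 g ∈ M) ∧
      ∀ g, ‖k0 g - l g‖ ≤ ρ / 80 := by
    choose y hy hyb using fun g => hc.1 (l g) (hS.l_mem g)
    refine ⟨fun g => if g = 1 then 1 else y g, if_pos rfl, fun g => ?_, fun g => ?_⟩
    · by_cases hg : g = 1
      · simp only [if_pos hg]; exact one_mem _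
      · simp only [if_neg hg]; exact hy g
    · by_cases hg : g = 1
      · simp only [if_pos hg]
        rw [hg, map_one, sub_self, norm_zero]
        positivity
      · simp only [if_neg hg]
        rw [norm_sub_rev]
        exact (hyb g).trans (mul_le_of_le_one_right (by positivity) (hl.norm_le g))
  have hk' : ∀ g, ‖k0 g - l g‖ ≤ ρ := fun g => (hk g).trans (by linarith)
  let A : Γ → Set (K →L[ℂ] K) := fun g => {x | x ∈ M ∧ ‖x - l g‖ ≤ ρ ∧ (g = 1 → x = 1)}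
  have hA : ∀ g, IsClosed (A g) := fun g => by
    refine (vn_closed M).inter (IsClosed.inter ?_ ?_)
    · exact isClosed_le (f := fun x : K →L[ℂ] K => ‖x - l g‖) (g := fun _ => ρ)
        (continuous_id.sub continuous_const).norm continuous_const
    · by_cases hg : g = 1
      · simp only [hg, forall_const]; exact isClosed_singleton
      · simp only [hg, false_imp_iff]; exact isClosed_univ
  have hL : ∀ κ κ' : Γ → (K →L[ℂ] K), (∀ g, κ g ∈ A g) → (∀ g, κ' g ∈ A g) → ∀ β : ℝ,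
      (∀ g, ‖κ g - κ' g‖ ≤ β) → ∀ g, ‖lemKT D k0 κ g - lemKT D k0 κ' g‖ ≤ β / 2 := by
    intro κ κ' h h' β hβ g
    have hβ0 : 0 ≤ β := (norm_nonneg _).trans (hβ 1)
    have := lemKT_diff D hS hc (by positivity) (by linarith) hρ hk' (fun g => (h g).2.1)
      (fun g => (h' g).2.1) (fun g => (h g).1) (fun g => (h' g).1) hβ g
    have h2 : ρ * β ≤ 1 / 124 * β := mul_le_mul_of_nonneg_right hρ1 hβ0
    linarith
  have h0 : ∀ g, k0 g ∈ A g := fun g => ⟨hkm g, hk' g, fun hg => by rw [hg, hk1]⟩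
  have hT0 : ∀ g, ‖lemKT D k0 k0 g - l g‖ ≤ 39 * (ρ / 80) :=
    lemKT_near D hl (by linarith) hk hk
  have hT : ∀ κ : Γ → (K →L[ℂ] K), (∀ g, κ g ∈ A g) → ∀ g, lemKT D k0 κ g ∈ A g := by
    intro κ h g
    have hG := lemKG_mem D hl hρ hk' (fun g => (h g).2.1) hkm fun g => (h g).1
    refine ⟨sub_mem (hG g) (mul_mem (h g).1 (sub_mem (hG 1) (one_mem _))), ?_, fun hg => ?_⟩
    · have h1 := hL κ k0 h h0 (ρ + ρ / 80) (fun g => by
        have e : κ g - k0 g = (κ g - l g) - (k0 g - l g) := by abel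
        rw [e]
        exact (norm_sub_le _ _).trans (add_le_add (h g).2.1 (hk g))) g
      have e : lemKT D k0 κ g - l g =
          (lemKT D k0 κ g - lemKT D k0 k0 g) + (lemKT D k0 k0 g - l g) := by abel
      rw [e]
      linarith [norm_add_le (lemKT D k0 κ g - lemKT D k0 k0 g) (lemKT D k0 k0 g - l g), hT0 g]
    · rw [hg, lemKT, (h 1).2.2 rfl, one_mul, sub_sub_cancel]
  obtain ⟨κ, hκ, hfix⟩ := lemK_fix A hA (lemKT D k0) hT hL k0 h0 (2 * ρ) fun g => by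
    have e : k0 g - lemKT D k0 k0 g = (k0 g - l g) - (lemKT D k0 k0 g - l g) := by abel
    rw [e]
    linarith [norm_sub_le (k0 g - l g) (lemKT D k0 k0 g - l g), hk' g, hT0 g]
  have hκ' : ∀ g, ‖κ g - l g‖ ≤ ρ := fun g => (hκ g).2.1
  refine ⟨κ, lemKG D k0 κ 1, lemKA D k0 κ, ⟨(hκ 1).2.2 rfl, fun g => (hκ' g).trans (by linarith),
    (lemKG_one D hl hρ hk' hκ').trans (by linarith), (lemKA_le D hl hρ hk' hκ').trans (by linarith),
    fun g => ?_⟩, fun g => (hκ g).1, lemKG_mem D hl hρ hk' hκ' hkm (fun g => (hκ g).1) 1⟩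
  have h1 : lemKG D k0 κ g - κ g * (lemKG D k0 κ 1 - 1) = κ g := congrFun hfix g
  have h2 : κ g * lemKG D k0 κ 1 = lemKG D k0 κ g := by
    rw [mul_sub, mul_one, ← sub_add, add_eq_right, sub_eq_zero] at h1
    exact h1.symm
  exact h2

end Vale.Agent.P096
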