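import Vale.Agent.P096.Basic

/-! Calculus of means. -/

open scoped InnerProductSpace Topology
open Filter

namespace Vale.Agent.P096

open Vale.Agent.P104 Vale.Agent.P132

universe u v w

variable {Γ : Type w} [Group Γ] {K : Type v} [NormedAddCommGroup K] [InnerProductSpace ℂ K]
  [CompleteSpace K]

section Av

variable {E F : Type*}

omit [Group Γ] in
theorem Sample.mean_norm_av_le [NormedAddCommGroup E] [NormedSpace ℂ E] (S : Sample Γ)
    {f : Γ → E} {C : ℝ} (h : ∀ s, ‖f s‖ ≤ C) : ‖S.av f‖ ≤ C := by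
  have h1 : ‖∑ i, f (S.s i)‖ ≤ ((S.n : ℝ) + 1) * C := by
    refine (norm_sum_le _ _).trans ((Finset.sum_le_sum fun i _ => h (S.s i)).trans ?_)
    simp
  have h2 : ‖((S.n : ℂ) + 1)⁻¹‖ = ((S.n : ℝ) + 1)⁻¹ := by
    rw [norm_inv]
    congr 1
    exact_mod_cast Complex.norm_natCast (S.n + 1)
  have h3 : (0 : ℝ) < (S.n : ℝ) + 1 := by positivity
  rw [Sample.av, norm_smul, h2, inv_mul_le_iff₀ h3]
  exact h1

omit [Group Γ] in
theorem Sample.mean_av_const [AddCommGroup E] [Module ℂ E] (S : Sample Γ) (x : E) :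
    S.av (fun _ => x) = x := by
  have h : ((S.n : ℂ) + 1) ≠ 0 := by exact_mod_cast Nat.succ_ne_zero S.n
  rw [Sample.av, Finset.sum_const, Finset.card_univ, Fintype.card_fin, ← Nat.cast_smul_eq_nsmul ℂ,
    smul_smul, Nat.cast_add, Nat.cast_one, inv_mul_cancel₀ h, one_smul]

omit [Group Γ] in
theorem Sample.mean_av_map [AddCommGroup E] [Module ℂ E] [AddCommGroup F] [Module ℂ F]
    (S : Sample Γ) (T : E →ₗ[ℂ] F) (f : Γ → E) : S.av (fun s => T (f s)) = T (S.av f) := by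
  rw [Sample.av, Sample.av, map_smul, map_sum]

omit [Group Γ] in
theorem Sample.mean_av2_map [AddCommGroup E] [Module ℂ E] [AddCommGroup F] [Module ℂ F]
    (S : Sample Γ) (T : E →ₗ[ℂ] F) (f : Γ → Γ → E) :
    S.av2 (fun s t => T (f s t)) = T (S.av2 f) := by
  rw [Sample.av2, Sample.av2, ← S.mean_av_map T]
  congr 1
  funext s
  exact S.mean_av_map T (f s)

omit [Group Γ] in
theorem Sample.mean_av_add [AddCommGroup E] [Module ℂ E] (S : Sample Γ) (f g : Γ → E) :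
    S.av (fun s => f s + g s) = S.av f + S.av g := by
  rw [Sample.av, Sample.av, Sample.av, Finset.sum_add_distrib, smul_add]

omit [Group Γ] in
theorem Sample.mean_av2_add [AddCommGroup E] [Module ℂ E] (S : Sample Γ) (f g : Γ → Γ → E) :
    S.av2 (fun s t => f s t + g s t) = S.av2 f + S.av2 g := by
  rw [Sample.av2, Sample.av2, Sample.av2, ← S.mean_av_add]
  congr 1
  funext s
  exact S.mean_av_add (f s) (g s)

omit [Group Γ] in
theorem Sample.mean_av2_const [AddCommGroup E] [Module ℂ E] (S : Sample Γ) (x : E) :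
    S.av2 (fun _ _ => x) = x := by
  rw [Sample.av2]
  simp only [S.mean_av_const]

omit [Group Γ] in
theorem Sample.mean_av_conj (S : Sample Γ) (f : Γ → ℂ) :
    S.av (fun s => (starRingEnd ℂ) (f s)) = (starRingEnd ℂ) (S.av f) := by
  simp [Sample.av]

omit [Group Γ] in
theorem Sample.mean_av2_conj (S : Sample Γ) (f : Γ → Γ → ℂ) :
    S.av2 (fun s t => (starRingEnd ℂ) (f s t)) = (starRingEnd ℂ) (S.av2 f) := by
  rw [Sample.av2, Sample.av2, ← S.mean_av_conj]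
  congr 1
  funext s
  exact S.mean_av_conj (f s)

omit [Group Γ] in
theorem Sample.mean_re_av_le (S : Sample Γ) {f : Γ → ℂ} {C : ℝ} (h : ∀ s, (f s).re ≤ C) :
    (S.av f).re ≤ C := by
  have h1 : (∑ i, f (S.s i)).re ≤ ((S.n : ℝ) + 1) * C := by
    rw [Complex.re_sum]
    refine (Finset.sum_le_sum fun i _ => h (S.s i)).trans ?_
    simp
  have h2 : ((S.n : ℂ) + 1)⁻¹ = ((((S.n : ℝ) + 1)⁻¹ : ℝ) : ℂ) := by push_cast; rfl
  have h3 : (0 : ℝ) < (S.n : ℝ) + 1 := by positivity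
  rw [Sample.av, h2, smul_eq_mul, Complex.re_ofReal_mul, inv_mul_le_iff₀ h3]
  exact h1

omit [Group Γ] [CompleteSpace K] in
theorem Sample.mean_inner_av (S : Sample Γ) (η : K) (f : Γ → K) :
    ⟪η, S.av f⟫_ℂ = S.av fun s => ⟪η, f s⟫_ℂ :=
  (S.mean_av_map (innerSL ℂ η).toLinearMap f).symm

omit [Group Γ] [CompleteSpace K] in
theorem Sample.mean_inner_av2 (S : Sample Γ) (η : K) (f : Γ → Γ → K) :
    ⟪η, S.av2 f⟫_ℂ = S.av2 fun s t => ⟪η, f s t⟫_ℂ :=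
  (S.mean_av2_map (innerSL ℂ η).toLinearMap f).symm

omit [Group Γ] [CompleteSpace K] in
theorem Sample.mean_av_inner (S : Sample Γ) (η : K) (f : Γ → K) :
    ⟪S.av f, η⟫_ℂ = S.av fun s => ⟪f s, η⟫_ℂ := by
  rw [← inner_conj_symm, S.mean_inner_av, ← S.mean_av_conj]
  simp only [inner_conj_symm]

omit [Group Γ] [CompleteSpace K] in
theorem Sample.mean_av2_apply (S : Sample Γ) (f : Γ → Γ → (K →L[ℂ] K)) (η : K) :
    S.av2 f η = S.av2 fun s t => f s t η :=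
  (S.mean_av2_map (ContinuousLinearMap.apply ℂ K η).toLinearMap f).symm

theorem Sample.mean_av_inv [AddCommGroup E] [Module ℂ E] (S : Sample Γ)
    (h : ∃ σ : Equiv.Perm (Fin (S.n + 1)), ∀ i, S.s (σ i) = (S.s i)⁻¹) (f : Γ → E) :
    S.av (fun s => f s⁻¹) = S.av f := by
  obtain ⟨σ, hσ⟩ := h
  rw [Sample.av, Sample.av, ← Equiv.sum_comp σ fun i => f (S.s i)]
  simp only [hσ]

end Av

theorem Sample.norm_av2_le {E : Type*} [NormedAddCommGroup E] [NormedSpace ℂ E] (S : Sample Γ)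
    {f : Γ → Γ → E} {C : ℝ} (h : ∀ s t, ‖f s t‖ ≤ C) : ‖S.av2 f‖ ≤ C := by
  exact S.mean_norm_av_le fun s => S.mean_norm_av_le (h s)

theorem Sample.av2_eq {E : Type*} [AddCommGroup E] [Module ℂ E] (S : Sample Γ) (f : Γ → Γ → E) :
    S.av2 f = (((S.n : ℂ) + 1)⁻¹ ^ 2) • ∑ i, ∑ j, f (S.s i) (S.s j) := by
  simp only [Sample.av2, Sample.av]
  rw [← Finset.smul_sum, smul_smul, sq]

theorem Sample.av2_const_right {E : Type*} [AddCommGroup E] [Module ℂ E] (S : Sample Γ)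
    (f : Γ → E) : S.av2 (fun s _ => f s) = S.av f := by
  rw [Sample.av2]
  simp only [S.mean_av_const]

theorem Bd2.of_le {E : Type*} [Norm E] {f : Γ → Γ → E} {C : ℝ} (h : ∀ s t, ‖f s t‖ ≤ C) :
    Bd2 f := ⟨C, h⟩

theorem Bd2.apply {f : Γ → Γ → (K →L[ℂ] K)} (h : Bd2 f) (η : K) : Bd2 fun s t => f s t η := by
  obtain ⟨C, hC⟩ := h
  exact ⟨C * ‖η‖, fun s t => (f s t).le_of_opNorm_le (hC s t) η⟩

theorem Bd2.const {E : Type*} [Norm E] (x : E) : Bd2 fun (_ _ : Γ) => x := ⟨‖x‖, fun _ _ => le_rfl⟩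

theorem Bd2.add {E : Type*} [SeminormedAddCommGroup E] {f g : Γ → Γ → E} (hf : Bd2 f)
    (hg : Bd2 g) : Bd2 fun s t => f s t + g s t := by
  obtain ⟨C, hC⟩ := hf
  obtain ⟨C', hC'⟩ := hg
  exact ⟨C + C', fun s t => (norm_add_le _ _).trans (add_le_add (hC s t) (hC' s t))⟩

theorem Bd2.sub {E : Type*} [SeminormedAddCommGroup E] {f g : Γ → Γ → E} (hf : Bd2 f)
    (hg : Bd2 g) : Bd2 fun s t => f s t - g s t := by
  obtain ⟨C, hC⟩ := hf
  obtain ⟨C', hC'⟩ := hg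
  exact ⟨C + C', fun s t => (norm_sub_le _ _).trans (add_le_add (hC s t) (hC' s t))⟩

theorem Bd2.mul {f g : Γ → Γ → (K →L[ℂ] K)} (hf : Bd2 f) (hg : Bd2 g) :
    Bd2 fun s t => f s t * g s t := by
  obtain ⟨C, hC⟩ := hf
  obtain ⟨C', hC'⟩ := hg
  exact ⟨C * C', fun s t => (norm_mul_le _ _).trans
    (mul_le_mul (hC s t) (hC' s t) (norm_nonneg _) ((norm_nonneg _).trans (hC s t)))⟩

theorem Bd2.app {f : Γ → Γ → (K →L[ℂ] K)} {g : Γ → Γ → K} (hf : Bd2 f) (hg : Bd2 g) :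
    Bd2 fun s t => f s t (g s t) := by
  obtain ⟨C, hC⟩ := hf
  obtain ⟨C', hC'⟩ := hg
  exact ⟨C * C', fun s t => ((f s t).le_opNorm _).trans
    (mul_le_mul (hC s t) (hC' s t) (norm_nonneg _) ((norm_nonneg _).trans (hC s t)))⟩

theorem URep.bd2 {π : Γ →* (K →L[ℂ] K)} (h : URep π) (φ : Γ → Γ → Γ) :
    Bd2 fun s t => π (φ s t) := ⟨1, fun _ _ => h.norm_le _⟩

namespace DM

variable (D : DM.{v, w} Γ)

theorem vm_tendsto {f : Γ → Γ → K} (h : Bd2 f) (η : K) :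
    Tendsto (fun S : Sample Γ => ⟪η, S.av2 f⟫_ℂ) D.U (𝓝 ⟪η, D.vm f⟫_ℂ) := by
  obtain ⟨C, hC⟩ := h
  obtain ⟨y, -, hy⟩ := exists_wlim_vec D.U (fun S : Sample Γ => S.av2 f) (C := C)
    (Eventually.of_forall fun S => S.norm_av2_le hC)
  have h1 : ∃ ζ : K, ∀ η : K,
      Tendsto (fun S : Sample Γ => ⟪η, S.av2 f⟫_ℂ) D.U (𝓝 ⟪η, ζ⟫_ℂ) := ⟨y, hy⟩
  rw [DM.vm, dif_pos h1]
  exact h1.choose_spec η

theorem vm_eq {f : Γ → Γ → K} {ζ : K}
    (h : ∀ η, Tendsto (fun S : Sample Γ => ⟪η, S.av2 f⟫_ℂ) D.U (𝓝 ⟪η, ζ⟫_ℂ)) : D.vm f = ζ := by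
  have h1 : ∃ ζ : K, ∀ η : K,
      Tendsto (fun S : Sample Γ => ⟪η, S.av2 f⟫_ℂ) D.U (𝓝 ⟪η, ζ⟫_ℂ) := ⟨ζ, h⟩
  rw [DM.vm, dif_pos h1]
  exact ext_inner_left ℂ fun η => tendsto_nhds_unique (h1.choose_spec η) (h η)

theorem mean_vm_congr {f g : Γ → Γ → K}
    (h : ∀ᶠ S in (D.U : Filter (Sample Γ)), S.av2 f = S.av2 g) : D.vm f = D.vm g := by
  have key : ∀ ζ η : K, Tendsto (fun S : Sample Γ => ⟪η, S.av2 f⟫_ℂ) D.U (𝓝 ⟪η, ζ⟫_ℂ) ↔
      Tendsto (fun S : Sample Γ => ⟪η, S.av2 g⟫_ℂ) D.U (𝓝 ⟪η, ζ⟫_ℂ) := fun ζ η =>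
    tendsto_congr' (h.mono fun S hS => by simp only [hS])
  by_cases h1 : ∃ ζ : K, ∀ η : K,
      Tendsto (fun S : Sample Γ => ⟪η, S.av2 f⟫_ℂ) D.U (𝓝 ⟪η, ζ⟫_ℂ)
  · obtain ⟨ζ, hζ⟩ := h1
    rw [D.vm_eq hζ, D.vm_eq fun η => (key ζ η).1 (hζ η)]
  · have h2 : ¬∃ ζ : K, ∀ η : K,
        Tendsto (fun S : Sample Γ => ⟪η, S.av2 g⟫_ℂ) D.U (𝓝 ⟪η, ζ⟫_ℂ) :=
      fun ⟨ζ, hζ⟩ => h1 ⟨ζ, fun η => (key ζ η).2 (hζ η)⟩
    rw [DM.vm, DM.vm, dif_neg h1, dif_neg h2]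

theorem vm_const (ζ : K) : D.vm (fun _ _ => ζ) = ζ := by
  refine D.vm_eq fun η => ?_
  simp only [Sample.mean_av2_const]
  exact tendsto_const_nhds

theorem vm_add {f g : Γ → Γ → K} (hf : Bd2 f) (hg : Bd2 g) :
    D.vm (fun s t => f s t + g s t) = D.vm f + D.vm g := by
  refine D.vm_eq fun η => ?_
  simp only [Sample.mean_av2_add, inner_add_right]
  exact (D.vm_tendsto hf η).add (D.vm_tendsto hg η)

theorem vm_sub {f g : Γ → Γ → K} (hf : Bd2 f) (hg : Bd2 g) :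
    D.vm (fun s t => f s t - g s t) = D.vm f - D.vm g := by
  have h := D.vm_add (hf.sub hg) hg
  simp only [sub_add_cancel] at h
  exact eq_sub_of_add_eq h.symm

theorem vm_smul (c : ℂ) {f : Γ → Γ → K} (hf : Bd2 f) :
    D.vm (fun s t => c • f s t) = c • D.vm f := by
  refine D.vm_eq fun η => ?_
  have h : ∀ S : Sample Γ, S.av2 (fun s t => c • f s t) = c • S.av2 f := fun S => by
    rw [S.av2_eq, S.av2_eq, smul_comm c]
    simp only [Finset.smul_sum]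
  simp only [h, inner_smul_right]
  exact (D.vm_tendsto hf η).const_mul c

theorem vm_map {L : Type v} [NormedAddCommGroup L] [InnerProductSpace ℂ L] [CompleteSpace L]
    (T : K →L[ℂ] L) {f : Γ → Γ → K} (hf : Bd2 f) : D.vm (fun s t => T (f s t)) = T (D.vm f) := by
  refine D.vm_eq fun η => ?_
  have h : ∀ S : Sample Γ, S.av2 (fun s t => T (f s t)) = T (S.av2 f) := fun S =>
    S.mean_av2_map T.toLinearMap f
  simp only [h, ← ContinuousLinearMap.adjoint_inner_left]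
  exact D.vm_tendsto hf _

theorem vm_norm_le {f : Γ → Γ → K} {C : ℝ} (h : ∀ s t, ‖f s t‖ ≤ C) : ‖D.vm f‖ ≤ C := by
  exact norm_le_of_wlim (U := (D.U : Filter (Sample Γ))) (x := fun S : Sample Γ => S.av2 f)
    (Eventually.of_forall fun S => S.norm_av2_le h) (D.vm_tendsto ⟨C, h⟩)

theorem vm_sub_le {f g : Γ → Γ → K} (hf : Bd2 f) (hg : Bd2 g) {C : ℝ}
    (h : ∀ s t, ‖f s t - g s t‖ ≤ C) : ‖D.vm f - D.vm g‖ ≤ C := by
  rw [← D.vm_sub hf hg]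
  exact D.vm_norm_le h

theorem vm_sub_const_le {f : Γ → Γ → K} {ζ : K} {C : ℝ} (h : ∀ s t, ‖f s t - ζ‖ ≤ C) :
    ‖D.vm f - ζ‖ ≤ C := by
  have hf : Bd2 f := ⟨C + ‖ζ‖, fun s t => by
    have := norm_add_le (f s t - ζ) ζ
    rw [sub_add_cancel] at this
    linarith [h s t]⟩
  have := D.vm_sub_le hf (Bd2.const ζ) h
  rwa [D.vm_const] at this

theorem vm_inner_le {f : Γ → Γ → K} (hf : Bd2 f) {η : K} {c : ℂ} {C : ℝ}
    (h : ∀ s t, ‖⟪η, f s t⟫_ℂ - c‖ ≤ C) : ‖⟪η, D.vm f⟫_ℂ - c‖ ≤ C := by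
  refine le_of_tendsto ((D.vm_tendsto hf η).sub_const c).norm (Eventually.of_forall fun S => ?_)
  have e : ⟪η, S.av2 f⟫_ℂ - c = S.av2 fun s t => ⟪η, f s t⟫_ℂ - c := by
    simp only [sub_eq_add_neg]
    rw [S.mean_av2_add, S.mean_av2_const, S.mean_inner_av2]
  rw [e]
  exact S.norm_av2_le h

theorem vm_re_le {f : Γ → Γ → K} (hf : Bd2 f) {η : K} {C : ℝ}
    (h : ∀ s t, (⟪η, f s t⟫_ℂ).re ≤ C) : (⟪η, D.vm f⟫_ℂ).re ≤ C := by
  refine le_of_tendsto ((Complex.continuous_re.tendsto _).comp (D.vm_tendsto hf η))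
    (Eventually.of_forall fun S => ?_)
  show (⟪η, S.av2 f⟫_ℂ).re ≤ C
  rw [S.mean_inner_av2]
  exact S.mean_re_av_le fun s => S.mean_re_av_le (h s)

theorem vm_swap (f : Γ → Γ → K) : D.vm (fun s t => f t s) = D.vm f := by
  refine D.mean_vm_congr (Eventually.of_forall fun S => ?_)
  rw [S.av2_eq, S.av2_eq, Finset.sum_comm]

theorem vm_inv_left (f : Γ → Γ → K) : D.vm (fun s t => f s⁻¹ t) = D.vm f := by
  exact D.mean_vm_congr (D.symm.mono fun S hS => S.mean_av_inv hS fun s => S.av (f s))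

theorem vm_inv_right (f : Γ → Γ → K) : D.vm (fun s t => f s t⁻¹) = D.vm f := by
  refine D.mean_vm_congr (D.symm.mono fun S hS => ?_)
  rw [Sample.av2, Sample.av2]
  congr 1
  funext s
  exact S.mean_av_inv hS (f s)

/-- Double ergodicity. -/
theorem vm_de {π : Γ →* (K →L[ℂ] K)} (hπ : URep π) {n : Γ → K} {C : ℝ} (h : ∀ g, ‖n g‖ ≤ C) :
    ∃ ζ : K, (∀ g, π g ζ = ζ) ∧ ∀ g, D.vm (fun s t => π s⁻¹ (n (s * g * t))) = ζ := by
  obtain ⟨ζ, h1, h2⟩ := D.de K π hπ n C h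
  exact ⟨ζ, h1, fun g => D.vm_eq (h2 g)⟩

theorem vm_de0 {π : Γ →* (K →L[ℂ] K)} (hπ : URep π) {n : Γ → K} {C : ℝ} (h : ∀ g, ‖n g‖ ≤ C)
    (g : Γ) : π g (D.vm fun s t => π s⁻¹ (n t)) = D.vm fun s t => π s⁻¹ (n t) := by
  obtain ⟨ζ, h1, h2⟩ := D.de0 K π hπ n C h
  rw [D.vm_eq h2, h1]

/-- Mean ergodic theorem: both means give the projection onto the fixed vectors. -/
theorem vm_erg {π : Γ →* (K →L[ℂ] K)} (hπ : URep π) (η : K) : ∃ ζ : K, (∀ g, π g ζ = ζ) ∧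
    (∀ ζ' : K, (∀ g, π g ζ' = ζ') → ⟪ζ', ζ⟫_ℂ = ⟪ζ', η⟫_ℂ) ∧
    D.vm (fun s _ => π s⁻¹ η) = ζ ∧ D.vm (fun s t => π (s * t)⁻¹ η) = ζ ∧
    Tendsto (fun S : Sample Γ => S.av fun s => π s⁻¹ η) D.U (𝓝 ζ) := by
  have adj : ∀ (g : Γ) (x y : K), ⟪x, π g⁻¹ y⟫_ℂ = ⟪π g x, y⟫_ℂ := fun g x y => by
    rw [← hπ g, ContinuousLinearMap.star_eq_adjoint, ContinuousLinearMap.adjoint_inner_right]
  obtain ⟨ζ, hζ, hv⟩ := D.vm_de hπ (n := fun _ => η) (C := ‖η‖) fun _ => le_rfl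
  have h1 : D.vm (fun s _ => π s⁻¹ η) = ζ := hv 1
  have key : ∀ (φ : Γ → Γ → Γ) (ζ' : K), (∀ g, π g ζ' = ζ') →
      ⟪ζ', D.vm fun s t => π (φ s t)⁻¹ η⟫_ℂ = ⟪ζ', η⟫_ℂ := fun φ ζ' hζ' => by
    have := D.vm_inner_le ((hπ.bd2 fun s t => (φ s t)⁻¹).apply η) (η := ζ') (c := ⟪ζ', η⟫_ℂ)
      (C := 0) fun s t => by rw [adj, hζ', sub_self, norm_zero]
    exact sub_eq_zero.1 (norm_le_zero_iff.1 this)
  have h2 : ∀ ζ' : K, (∀ g, π g ζ' = ζ') → ⟪ζ', ζ⟫_ℂ = ⟪ζ', η⟫_ℂ := fun ζ' hζ' => by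
    rw [← h1]
    exact key (fun s _ => s) ζ' hζ'
  have h3 : D.vm (fun s t => π (s * t)⁻¹ η) = ζ := by
    have e : D.vm (fun s t => π (s * t)⁻¹ η) = D.vm fun s t => π s⁻¹ (π t⁻¹ η) := by
      rw [← D.vm_swap]
      simp only [mul_inv_rev, rep_mul_apply]
    have hf : ∀ g, π g (D.vm fun s t => π (s * t)⁻¹ η) = D.vm fun s t => π (s * t)⁻¹ η := by
      rw [e]
      exact D.vm_de0 hπ (n := fun t => π t⁻¹ η) (C := ‖η‖) fun g => (hπ.norm_apply _ _).le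
    have hd : ∀ g, π g ((D.vm fun s t => π (s * t)⁻¹ η) - ζ) =
        (D.vm fun s t => π (s * t)⁻¹ η) - ζ := fun g => by rw [map_sub, hf, hζ]
    rw [← sub_eq_zero, ← inner_self_eq_zero (𝕜 := ℂ), inner_sub_right, h2 _ hd,
      key (fun s t => s * t) _ hd, sub_self]
  refine ⟨ζ, hζ, h2, h1, h3, ?_⟩
  have h4 : D.vm (fun s t => π (s * t⁻¹) η) = ζ := by
    rw [← h3, ← D.vm_swap fun s t => π (s * t)⁻¹ η,
      ← D.vm_inv_left fun s t => π (s * t⁻¹) η]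
    simp only [mul_inv_rev]
  have h5 := D.vm_tendsto ((hπ.bd2 fun s t => s * t⁻¹).apply η) η
  rw [h4] at h5
  have h6 : ⟪η, ζ⟫_ℂ = ⟪ζ, ζ⟫_ℂ := by
    rw [← inner_conj_symm, ← h2 ζ hζ, inner_conj_symm]
  have h7 : ∀ S : Sample Γ, ‖(S.av fun s => π s⁻¹ η) - ζ‖ ^ 2 =
      (⟪η, S.av2 fun s t => π (s * t⁻¹) η⟫_ℂ - ⟪ζ, ζ⟫_ℂ).re := fun S => by
    have a1 : ⟪ζ, S.av fun s => π s⁻¹ η⟫_ℂ = ⟪ζ, ζ⟫_ℂ := by
      rw [S.mean_inner_av, h2 ζ hζ]
      simp only [adj, hζ, S.mean_av_const]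
    have a2 : ⟪S.av fun s => π s⁻¹ η, ζ⟫_ℂ = ⟪ζ, ζ⟫_ℂ := by
      rw [← inner_conj_symm, a1, inner_conj_symm]
    have a3 : ⟪S.av fun s => π s⁻¹ η, S.av fun s => π s⁻¹ η⟫_ℂ =
        ⟪η, S.av2 fun s t => π (s * t⁻¹) η⟫_ℂ := by
      rw [S.mean_av_inner, S.mean_inner_av2, Sample.av2]
      congr 1
      funext s
      rw [S.mean_inner_av]
      congr 1
      funext t
      rw [← rep_mul_apply, ← adj, inv_inv]
    rw [← inner_self_eq_norm_sq (𝕜 := ℂ), inner_sub_left, inner_sub_right, inner_sub_right, a1, a2,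
      a3, sub_self, sub_zero]
    rfl
  have h8 : Tendsto (fun S : Sample Γ => ‖(S.av fun s => π s⁻¹ η) - ζ‖ ^ 2) D.U (𝓝 0) := by
    simp only [h7]
    have := (Complex.continuous_re.tendsto _).comp (h5.sub_const ⟪ζ, ζ⟫_ℂ)
    rwa [h6, sub_self, Complex.zero_re] at this
  rw [tendsto_iff_norm_sub_tendsto_zero]
  have h9 := h8.sqrt
  simpa only [Real.sqrt_sq (norm_nonneg _), Real.sqrt_zero] using h9

theorem om_apply {f : Γ → Γ → (K →L[ℂ] K)} (h : Bd2 f) (η : K) :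
    D.om f η = D.vm fun s t => f s t η := by
  obtain ⟨C, hC⟩ := h
  obtain ⟨y, -, hy⟩ := exists_wlim D.U (fun S : Sample Γ => S.av2 f) (C := C)
    (Eventually.of_forall fun S => S.norm_av2_le hC)
  have h1 : ∃ T : K →L[ℂ] K, ∀ η : K, T η = D.vm fun s t => f s t η :=
    ⟨y, fun ζ => (D.vm_eq fun η => by simpa only [Sample.mean_av2_apply] using hy η ζ).symm⟩
  rw [DM.om, dif_pos h1]
  exact h1.choose_spec η

theorem om_const (x : K →L[ℂ] K) : D.om (fun _ _ => x) = x := by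
  ext η
  rw [D.om_apply (Bd2.const x), D.vm_const]

theorem om_add {f g : Γ → Γ → (K →L[ℂ] K)} (hf : Bd2 f) (hg : Bd2 g) :
    D.om (fun s t => f s t + g s t) = D.om f + D.om g := by
  ext η
  rw [D.om_apply (hf.add hg), ContinuousLinearMap.add_apply, D.om_apply hf, D.om_apply hg,
    ← D.vm_add (hf.apply η) (hg.apply η)]
  rfl

theorem om_sub {f g : Γ → Γ → (K →L[ℂ] K)} (hf : Bd2 f) (hg : Bd2 g) :
    D.om (fun s t => f s t - g s t) = D.om f - D.om g := by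
  have h := D.om_add (hf.sub hg) hg
  simp only [sub_add_cancel] at h
  exact eq_sub_of_add_eq h.symm

theorem om_smul (c : ℂ) {f : Γ → Γ → (K →L[ℂ] K)} (hf : Bd2 f) :
    D.om (fun s t => c • f s t) = c • D.om f := by
  have hb : Bd2 fun s t => c • f s t := by
    obtain ⟨C, hC⟩ := hf
    exact ⟨‖c‖ * C, fun s t => (norm_smul_le _ _).trans
      (mul_le_mul_of_nonneg_left (hC s t) (norm_nonneg _))⟩
  ext η
  rw [D.om_apply hb, ContinuousLinearMap.smul_apply, D.om_apply hf, ← D.vm_smul c (hf.apply η)]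
  rfl

theorem om_mul_left (a : K →L[ℂ] K) {f : Γ → Γ → (K →L[ℂ] K)} (hf : Bd2 f) :
    D.om (fun s t => a * f s t) = a * D.om f := by
  ext η
  rw [D.om_apply ((Bd2.const a).mul hf), ContinuousLinearMap.mul_apply, D.om_apply hf,
    ← D.vm_map a (hf.apply η)]
  rfl

theorem om_mul_right (a : K →L[ℂ] K) {f : Γ → Γ → (K →L[ℂ] K)} (hf : Bd2 f) :
    D.om (fun s t => f s t * a) = D.om f * a := by
  ext η
  rw [D.om_apply (hf.mul (Bd2.const a)), ContinuousLinearMap.mul_apply, D.om_apply hf]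
  rfl

theorem om_star {f : Γ → Γ → (K →L[ℂ] K)} (hf : Bd2 f) :
    D.om (fun s t => star (f s t)) = star (D.om f) := by
  have hb : Bd2 fun s t => star (f s t) := by
    obtain ⟨C, hC⟩ := hf
    exact ⟨C, fun s t => (norm_star _).trans_le (hC s t)⟩
  ext ζ
  rw [D.om_apply hb]
  refine D.vm_eq fun η => ?_
  have h1 := (Complex.continuous_conj.tendsto _).comp (D.vm_tendsto (hf.apply η) ζ)
  rw [← D.om_apply hf, inner_conj_symm] at h1
  rw [ContinuousLinearMap.star_eq_adjoint, ContinuousLinearMap.adjoint_inner_right]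
  refine h1.congr fun S => ?_
  show (starRingEnd ℂ) ⟪ζ, S.av2 fun s t => f s t η⟫_ℂ = _
  rw [S.mean_inner_av2, S.mean_inner_av2, ← S.mean_av2_conj]
  simp only [inner_conj_symm, ContinuousLinearMap.star_eq_adjoint,
    ContinuousLinearMap.adjoint_inner_right]

theorem om_norm_le {f : Γ → Γ → (K →L[ℂ] K)} {C : ℝ} (h : ∀ s t, ‖f s t‖ ≤ C) : ‖D.om f‖ ≤ C := by
  refine ContinuousLinearMap.opNorm_le_bound _ ((norm_nonneg _).trans (h 1 1)) fun η => ?_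
  rw [D.om_apply ⟨C, h⟩]
  exact D.vm_norm_le fun s t => (f s t).le_of_opNorm_le (h s t) η

theorem om_sub_le {f g : Γ → Γ → (K →L[ℂ] K)} (hf : Bd2 f) (hg : Bd2 g) {C : ℝ}
    (h : ∀ s t, ‖f s t - g s t‖ ≤ C) : ‖D.om f - D.om g‖ ≤ C := by
  rw [← D.om_sub hf hg]
  exact D.om_norm_le h

theorem om_sub_const_le {f : Γ → Γ → (K →L[ℂ] K)} {x : K →L[ℂ] K} {C : ℝ}
    (h : ∀ s t, ‖f s t - x‖ ≤ C) : ‖D.om f - x‖ ≤ C := by
  have hf : Bd2 f := ⟨C + ‖x‖, fun s t => by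
    have := norm_add_le (f s t - x) x
    rw [sub_add_cancel] at this
    linarith [h s t]⟩
  have := D.om_sub_le hf (Bd2.const x) h
  rwa [D.om_const] at this

theorem om_mem {M : VonNeumannAlgebra K} {f : Γ → Γ → (K →L[ℂ] K)} (hf : Bd2 f)
    (h : ∀ s t, f s t ∈ M) : D.om f ∈ M := by
  refine mem_of_wlim (U := (D.U : Filter (Sample Γ))) (x := fun S : Sample Γ => S.av2 f)
    (Eventually.of_forall fun S => ?_) fun η ζ => ?_
  · rw [S.av2_eq]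
    exact vn_smul _ (sum_mem fun i _ => sum_mem fun j _ => h _ _)
  · simp only [Sample.mean_av2_apply]
    rw [D.om_apply hf]
    exact D.vm_tendsto (hf.apply ζ) η

theorem mean_om_congr {f g : Γ → Γ → (K →L[ℂ] K)}
    (h : ∀ η, D.vm (fun s t => f s t η) = D.vm fun s t => g s t η) : D.om f = D.om g := by
  by_cases h1 : ∃ T : K →L[ℂ] K, ∀ η : K, T η = D.vm fun s t => f s t η
  · have h2 : ∃ T : K →L[ℂ] K, ∀ η : K, T η = D.vm fun s t => g s t η :=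
      h1.imp fun T hT η => (hT η).trans (h η)
    rw [DM.om, DM.om, dif_pos h1, dif_pos h2]
    ext η
    rw [h1.choose_spec η, h2.choose_spec η, h η]
  · have h2 : ¬∃ T : K →L[ℂ] K, ∀ η : K, T η = D.vm fun s t => g s t η :=
      fun h3 => h1 (h3.imp fun T hT η => (hT η).trans (h η).symm)
    rw [DM.om, DM.om, dif_neg h1, dif_neg h2]

theorem om_swap (f : Γ → Γ → (K →L[ℂ] K)) : D.om (fun s t => f t s) = D.om f := by
  exact D.mean_om_congr fun η => D.vm_swap fun s t => f s t η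

theorem om_inv_left (f : Γ → Γ → (K →L[ℂ] K)) : D.om (fun s t => f s⁻¹ t) = D.om f := by
  exact D.mean_om_congr fun η => D.vm_inv_left fun s t => f s t η

theorem om_inv_right (f : Γ → Γ → (K →L[ℂ] K)) : D.om (fun s t => f s t⁻¹) = D.om f := by
  exact D.mean_om_congr fun η => D.vm_inv_right fun s t => f s t η

end DM

/-- On a commutative group the mean of `f (s * t)` is invariant. -/
theorem DM.om_invariant {Γ : Type w} [CommGroup Γ] (D : DM.{v, w} Γ) {f : Γ → (K →L[ℂ] K)} {C : ℝ}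
    (h : ∀ g, ‖f g‖ ≤ C) (g : Γ) :
    D.om (fun s t => f (g * (s * t))) = D.om fun s t => f (s * t) := by
  refine D.mean_om_congr fun η => ?_
  have h1 : URep (1 : Γ →* (K →L[ℂ] K)) := fun g => by simp
  obtain ⟨ζ, -, hv⟩ := D.vm_de h1 (n := fun g => f g η) (C := C * ‖η‖) fun g =>
    (f g).le_of_opNorm_le (h g) η
  have e1 := hv g
  have e2 := hv 1
  simp only [MonoidHom.one_apply, ContinuousLinearMap.one_apply, mul_one] at e1 e2
  rw [e2, ← e1]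
  congr 1
  funext s t
  rw [mul_comm s g, mul_assoc]

/-- Fixed point algebras of close algebras are close. The unitaries may form a projective
representation. -/
theorem near_fix {Γ : Type w} [CommGroup Γ] (D : DM.{v, w} Γ) {N M : VonNeumannAlgebra K} {γ : ℝ}
    (u : Γ → (K →L[ℂ] K)) (hu : ∀ g, u g ∈ unitary (K →L[ℂ] K))
    (hm : ∀ g h x, u (g * h) * x * star (u (g * h)) = u g * (u h * x * star (u h)) * star (u g))
    (hM : ∀ g, ∀ y ∈ M, u g * y * star (u g) ∈ M) (h : Near γ (N : Set (K →L[ℂ] K)) M) :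
    Near γ {x | x ∈ N ∧ ∀ g, u g * x = x * u g} {y | y ∈ M ∧ ∀ g, u g * y = y * u g} := by
  intro x hx
  obtain ⟨y, hy, hxy⟩ := h x hx.1
  have hn : ∀ (g : Γ) (z : K →L[ℂ] K), ‖u g * z * star (u g)‖ = ‖z‖ := fun g z => by
    rw [CStarRing.norm_mul_mem_unitary _ (Unitary.star_mem (hu g)),
      CStarRing.norm_mem_unitary_mul _ (hu g)]
  have hb : Bd2 fun s t => u (s * t) * y * star (u (s * t)) := ⟨‖y‖, fun s t => (hn _ _).le⟩
  refine ⟨D.om fun s t => u (s * t) * y * star (u (s * t)),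
    ⟨D.om_mem hb fun s t => hM _ y hy, fun g => ?_⟩, ?_⟩
  · have e : u g * D.om (fun s t => u (s * t) * y * star (u (s * t))) * star (u g) =
        D.om fun s t => u (s * t) * y * star (u (s * t)) := by
      rw [← D.om_mul_left _ hb, ← D.om_mul_right _ ((Bd2.const _).mul hb),
        ← D.om_invariant (f := fun k => u k * y * star (u k)) (fun k => (hn k y).le) g]
      congr 1
      funext s t
      rw [hm g]
    conv_rhs => rw [← e]
    rw [mul_assoc _ (star (u g)), (Unitary.mem_iff.1 (hu g)).1, mul_one]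
  · rw [norm_sub_rev]
    refine D.om_sub_const_le fun s t => ?_
    have e : u (s * t) * y * star (u (s * t)) - x = u (s * t) * (y - x) * star (u (s * t)) := by
      rw [mul_sub, sub_mul, hx.2, mul_assoc x, (Unitary.mem_iff.1 (hu _)).2, mul_one]
    rw [e, hn, norm_sub_rev]
    exact hxy

section E

variable {N : VonNeumannAlgebra K} {ξ : K} {l r : Γ →* (K →L[ℂ] K)} (D : DM.{v, w} Γ)

theorem mean_norm_conj (hl : URep l) (T : K →L[ℂ] K) (g k : Γ) : ‖l k * T * l g‖ = ‖T‖ := by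
  rw [CStarRing.norm_mul_mem_unitary _ (hl.unitary g),
    CStarRing.norm_mem_unitary_mul _ (hl.unitary k)]

theorem mean_bd_conj (hl : URep l) (T : K →L[ℂ] K) (φ ψ : Γ → Γ → Γ) :
    Bd2 fun s t => l (φ s t) * T * l (ψ s t) := ⟨‖T‖, fun _ _ => (mean_norm_conj hl T _ _).le⟩

theorem DM.E_norm_le (hl : URep l) (T : K →L[ℂ] K) : ‖D.E l T‖ ≤ ‖T‖ := by
  exact D.om_norm_le fun s _ => (mean_norm_conj hl T s s⁻¹).le

theorem DM.E_star (hl : URep l) (T : K →L[ℂ] K) : D.E l (star T) = star (D.E l T) := by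
  rw [DM.E, DM.E, ← D.om_star (mean_bd_conj hl T (fun s _ => s⁻¹) fun s _ => s)]
  congr 1
  funext s _
  rw [star_mul, star_mul, hl, hl, inv_inv, mul_assoc]

theorem DM.E_add (hl : URep l) (S T : K →L[ℂ] K) : D.E l (S + T) = D.E l S + D.E l T := by
  rw [DM.E, DM.E, DM.E, ← D.om_add (mean_bd_conj hl S (fun s _ => s⁻¹) fun s _ => s)
    (mean_bd_conj hl T (fun s _ => s⁻¹) fun s _ => s)]
  simp only [mul_add, add_mul]

theorem DM.E_smul (hl : URep l) (c : ℂ) (T : K →L[ℂ] K) : D.E l (c • T) = c • D.E l T := by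
  rw [DM.E, DM.E, ← D.om_smul c (mean_bd_conj hl T (fun s _ => s⁻¹) fun s _ => s)]
  simp only [mul_smul_comm, smul_mul_assoc]

theorem DM.E_mul (hl : URep l) {a b : K →L[ℂ] K} (ha : ∀ g, Commute a (l g))
    (hb : ∀ g, Commute b (l g)) (T : K →L[ℂ] K) : D.E l (a * T * b) = a * D.E l T * b := by
  have hb' := mean_bd_conj hl T (fun s _ => s⁻¹) fun s _ => s
  rw [DM.E, DM.E, ← D.om_mul_left a hb', ← D.om_mul_right b ((Bd2.const a).mul hb')]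
  congr 1
  funext s _
  calc l s⁻¹ * (a * T * b) * l s = (l s⁻¹ * a) * T * (b * l s) := by simp only [mul_assoc]
    _ = (a * l s⁻¹) * T * (l s * b) := by rw [(ha s⁻¹).eq, (hb s).eq]
    _ = a * (l s⁻¹ * T * l s) * b := by simp only [mul_assoc]

theorem DM.E_sub_le (hl : URep l) {T : K →L[ℂ] K} {c : ℝ} (h : ∀ g, ‖T * l g - l g * T‖ ≤ c) :
    ‖D.E l T - T‖ ≤ c := by
  refine D.om_sub_const_le fun s _ => ?_
  have e : l s⁻¹ * T * l s - T = l s⁻¹ * (T * l s - l s * T) := by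
    rw [mul_sub, ← mul_assoc, ← mul_assoc, ← map_mul, inv_mul_cancel, map_one, one_mul]
  rw [e, CStarRing.norm_mem_unitary_mul _ (hl.unitary _)]
  exact h s

theorem DM.E_re_le (hl : URep l) {T : K →L[ℂ] K} {η : K} {c : ℝ}
    (h : ∀ g, (⟪l g η, T (l g η)⟫_ℂ).re ≤ c) : (⟪η, D.E l T η⟫_ℂ).re ≤ c := by
  have hb' := mean_bd_conj hl T (fun s _ => s⁻¹) fun s _ => s
  rw [DM.E, D.om_apply hb']
  refine D.vm_re_le (hb'.apply η) fun s _ => ?_
  show (⟪η, l s⁻¹ (T (l s η))⟫_ℂ).re ≤ c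
  rw [← hl s, ContinuousLinearMap.star_eq_adjoint, ContinuousLinearMap.adjoint_inner_right]
  exact h s

theorem DM.E_nonneg (hl : URep l) {T : K →L[ℂ] K} (h : 0 ≤ T) : 0 ≤ D.E l T := by
  rw [ContinuousLinearMap.nonneg_iff_isPositive, ContinuousLinearMap.isPositive_def'] at h ⊢
  refine ⟨?_, fun η => ?_⟩
  · show star (D.E l T) = D.E l T
    rw [← D.E_star hl, h.1.star_eq]
  · have h1 := D.E_re_le hl (T := (-1 : ℂ) • T) (η := η) (c := 0) fun g => by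
      have h2 := h.2 (l g η)
      rw [ContinuousLinearMap.reApplyInnerSelf_apply, inner_re_symm] at h2
      rw [ContinuousLinearMap.smul_apply, neg_one_smul, inner_neg_right, Complex.neg_re]
      exact neg_nonpos.2 h2
    rw [D.E_smul hl, ContinuousLinearMap.smul_apply, neg_one_smul, inner_neg_right,
      Complex.neg_re] at h1
    rw [ContinuousLinearMap.reApplyInnerSelf_apply, inner_re_symm]
    exact neg_nonpos.1 h1

theorem Std.E_mem (h : Std N ξ l r) {T : K →L[ℂ] K} (hT : T ∈ N) : D.E l T ∈ N := by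
  exact D.om_mem (mean_bd_conj h.bim.ul T (fun s _ => s⁻¹) fun s _ => s) fun s _ =>
    mul_mem (mul_mem (h.l_mem _) hT) (h.l_mem _)

theorem Std.mean_r_apply (h : Std N ξ l r) {T : K →L[ℂ] K} (hT : T ∈ N) (k : Γ) (η : K) :
    r k (T η) = T (r k η) :=
  (congrArg (fun S : K →L[ℂ] K => S η)
    (VonNeumannAlgebra.mem_commutant_iff.1 (h.r_mem k) T hT)).symm

theorem Std.mean_conj_apply (h : Std N ξ l r) {T : K →L[ℂ] K} (hT : T ∈ N) {ζ : K}
    (hζ : ζ ∈ Fix l r) (s : Γ) : (l s⁻¹ * T * l s) ζ = h.bim.diag s⁻¹ (T ζ) := by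
  rw [Bim.diag_apply, h.mean_r_apply hT, fix_r hζ, inv_inv]
  rfl

theorem Std.mean_E_apply (h : Std N ξ l r) {T : K →L[ℂ] K} (hT : T ∈ N) {ζ : K}
    (hζ : ζ ∈ Fix l r) : D.E l T ζ = D.vm fun s _ => h.bim.diag s⁻¹ (T ζ) := by
  rw [DM.E, D.om_apply (mean_bd_conj h.bim.ul T (fun s _ => s⁻¹) fun s _ => s)]
  simp only [h.mean_conj_apply hT hζ]

theorem Std.E_fix (h : Std N ξ l r) {T : K →L[ℂ] K} (hT : T ∈ N) {ζ : K} (hζ : ζ ∈ Fix l r) :
    D.E l T ζ ∈ Fix l r := by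
  obtain ⟨ζ', h1, -, h2, -⟩ := D.vm_erg h.bim.urep_diag (T ζ)
  rw [h.mean_E_apply D hT hζ, h2]
  exact h1

theorem Std.E_inner (h : Std N ξ l r) {T : K →L[ℂ] K} (hT : T ∈ N) {ζ ζ' : K} (hζ : ζ ∈ Fix l r)
    (hζ' : ζ' ∈ Fix l r) : ⟪ζ', D.E l T ζ⟫_ℂ = ⟪ζ', T ζ⟫_ℂ := by
  obtain ⟨ζ₀, -, h1, h2, -⟩ := D.vm_erg h.bim.urep_diag (T ζ)
  rw [h.mean_E_apply D hT hζ, h2]
  exact h1 ζ' hζ'

theorem Std.mean_comm_of_fix (h : Std N ξ l r) {x : K →L[ℂ] K} (hx : x ∈ N)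
    (hf : x ξ ∈ Fix l r) (g : Γ) : Commute x (l g) := by
  have h1 : l g * x * l g⁻¹ = x := by
    refine h.sep.ext (mul_mem (mul_mem (h.l_mem _) hx) (h.l_mem _)) hx ?_
    have := h.mean_conj_apply hx h.fix g⁻¹
    rw [inv_inv] at this
    rw [this]
    exact hf g
  show x * l g = l g * x
  conv_lhs => rw [← h1]
  rw [mul_assoc, ← map_mul, inv_mul_cancel, map_one, mul_one]

theorem Std.E_comm (h : Std N ξ l r) {T : K →L[ℂ] K} (hT : T ∈ N) (g : Γ) :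
    Commute (D.E l T) (l g) := by
  exact h.mean_comm_of_fix (h.E_mem D hT) (h.E_fix D hT h.fix) g

theorem Std.E_eq (h : Std N ξ l r) {T : K →L[ℂ] K} (hT : T ∈ N) :
    D.om (fun s t => l (s * t)⁻¹ * T * l (s * t)) = D.E l T := by
  have hb := mean_bd_conj h.bim.ul T (fun s t => (s * t)⁻¹) fun s t => s * t
  refine h.sep.ext (D.om_mem hb fun s t => mul_mem (mul_mem (h.l_mem _) hT) (h.l_mem _))
    (h.E_mem D hT) ?_
  obtain ⟨ζ₀, -, -, h2, h3, -⟩ := D.vm_erg h.bim.urep_diag (T ξ)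
  rw [h.mean_E_apply D hT h.fix, h2, D.om_apply hb, ← h3]
  simp only [h.mean_conj_apply hT h.fix]

theorem Std.E_strong (h : Std N ξ l r) {T : K →L[ℂ] K} (hT : T ∈ N) {ζ : K} (hζ : ζ ∈ Fix l r) :
    Tendsto (fun S : Sample Γ => S.av fun s => (l s⁻¹ * T * l s) ζ) D.U (𝓝 (D.E l T ζ)) := by
  obtain ⟨ζ₀, -, -, h2, -, h4⟩ := D.vm_erg h.bim.urep_diag (T ζ)
  rw [h.mean_E_apply D hT hζ, h2]
  simpa only [h.mean_conj_apply hT hζ] using h4

theorem Std.fix_of_comm (h : Std N ξ l r) {x : K →L[ℂ] K} (hx : x ∈ N)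
    (hc : ∀ g, Commute x (l g)) {ζ : K} (hζ : ζ ∈ Fix l r) : x ζ ∈ Fix l r := by
  intro g
  rw [h.mean_r_apply hx]
  have e : l g (x (r g ζ)) = x (l g (r g ζ)) :=
    (congrArg (fun S : K →L[ℂ] K => S (r g ζ)) (hc g).eq).symm
  rw [e, hζ g]

theorem StdE.central (h : StdE N ξ l r) {x : K →L[ℂ] K} (hx : x ∈ N)
    (hc : ∀ g, Commute x (l g)) : x ∈ N.commutant := by
  have hs := h.std
  have app : ∀ {a b : K →L[ℂ] K}, a ∈ N → b ∈ N.commutant → ∀ η, a (b η) = b (a η) :=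
    fun ha hb η => congrArg (fun S : K →L[ℂ] K => S η)
      (VonNeumannAlgebra.mem_commutant_iff.1 hb _ ha)
  have adj : ∀ (a : K →L[ℂ] K) (u v : K), ⟪u, a v⟫_ℂ = ⟪star a u, v⟫_ℂ := fun a u v => by
    rw [ContinuousLinearMap.star_eq_adjoint, ContinuousLinearMap.adjoint_inner_left]
  have hc' : ∀ g, Commute (star x) (l g) := fun g => by
    have := (hc g⁻¹).star_star
    rwa [hs.bim.ul, inv_inv] at this
  have approx : ∀ ε : ℝ, 0 < ε → ∃ z ∈ N, z ∈ N.commutant ∧ ‖star x ξ - z ξ‖ ≤ ε ∧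
      ‖star z ξ - x ξ‖ ≤ 3 * ε := fun ε hε => by
    obtain ⟨z, hz, hz', h1⟩ := h.erg _ (hs.fix_of_comm (star_mem hx) hc' hs.fix) ε hε
    obtain ⟨z', hy, hy', h2⟩ := h.erg _ (hs.fix_of_comm hx hc hs.fix) ε hε
    refine ⟨z, hz, hz', h1, ?_⟩
    have hw : star z - z' ∈ N := sub_mem (star_mem hz) hy
    have hw' : star z - z' ∈ N.commutant := sub_mem (star_mem hz') hy'
    generalize hwd : star z - z' = w at hw hw'
    have n1 : ‖star w ξ‖ = ‖w ξ‖ := by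
      have e : ⟪star w ξ, star w ξ⟫_ℂ = ⟪w ξ, w ξ⟫_ℂ := by
        rw [← adj, app hw (star_mem hw'), adj (star w), star_star]
      rw [inner_self_eq_norm_sq_to_K, inner_self_eq_norm_sq_to_K] at e
      have e' : ‖star w ξ‖ ^ 2 = ‖w ξ‖ ^ 2 := by exact_mod_cast e
      exact (pow_left_inj₀ (norm_nonneg _) (norm_nonneg _) two_ne_zero).1 e'
    have e1 : ⟪w ξ, star z ξ - x ξ⟫_ℂ = ⟪z ξ - star x ξ, star w ξ⟫_ℂ := by
      rw [inner_sub_right, inner_sub_left, adj (star z), adj x, star_star, app hz hw',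
        app (star_mem hx) hw', adj (star w), adj (star w), star_star]
    have e2 : w ξ = (star z ξ - x ξ) + (x ξ - z' ξ) := by
      rw [← hwd, ContinuousLinearMap.sub_apply]
      abel
    have n2 : ‖w ξ‖ * ‖w ξ‖ ≤ (2 * ε) * ‖w ξ‖ := by
      have a1 : ⟪w ξ, w ξ⟫_ℂ = ⟪z ξ - star x ξ, star w ξ⟫_ℂ + ⟪w ξ, x ξ - z' ξ⟫_ℂ := by
        rw [← e1, ← inner_add_right, ← e2]
      have a2 : ‖⟪w ξ, w ξ⟫_ℂ‖ = ‖w ξ‖ * ‖w ξ‖ := by
        rw [inner_self_eq_norm_sq_to_K, norm_pow, RCLike.norm_ofReal, abs_norm, sq]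
      have a3 := norm_inner_le_norm (𝕜 := ℂ) (z ξ - star x ξ) (star w ξ)
      have a4 := norm_inner_le_norm (𝕜 := ℂ) (w ξ) (x ξ - z' ξ)
      rw [n1, norm_sub_rev] at a3
      have a5 := mul_le_mul_of_nonneg_right h1 (norm_nonneg (w ξ))
      have a6 := mul_le_mul_of_nonneg_left h2 (norm_nonneg (w ξ))
      rw [← a2, a1]
      linarith [norm_add_le ⟪z ξ - star x ξ, star w ξ⟫_ℂ ⟪w ξ, x ξ - z' ξ⟫_ℂ]
    have n3 : ‖w ξ‖ ≤ 2 * ε := by
      by_contra hlt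
      have hlt' : 2 * ε < ‖w ξ‖ := not_le.1 hlt
      nlinarith
    have e3 : star z ξ - x ξ = w ξ - (x ξ - z' ξ) := by rw [e2]; abel
    rw [e3]
    linarith [norm_sub_le (w ξ) (x ξ - z' ξ)]
  refine VonNeumannAlgebra.mem_commutant_iff.2 fun y hy => ?_
  refine hs.sep.ext (mul_mem hy hx) (mul_mem hx hy) (ext_inner_left ℂ fun η => ?_)
  refine hs.sep.cyc_comm.ext (f := fun η => ⟪η, (y * x) ξ⟫_ℂ) (g := fun η => ⟪η, (x * y) ξ⟫_ℂ)
    (by fun_prop) (by fun_prop) (fun y' hy' => ?_) η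
  show ⟪y' ξ, y (x ξ)⟫_ℂ = ⟪y' ξ, x (y ξ)⟫_ℂ
  rw [← sub_eq_zero, ← norm_le_zero_iff]
  refine le_of_forall_pos_le_add fun δ hδ => ?_
  have hA : 0 < 3 * ‖star y (y' ξ)‖ + ‖y'‖ * ‖y ξ‖ + 1 := by positivity
  obtain ⟨z, hz, hz', h1, h2⟩ := approx (δ / (3 * ‖star y (y' ξ)‖ + ‖y'‖ * ‖y ξ‖ + 1))
    (div_pos hδ hA)
  generalize hε : δ / (3 * ‖star y (y' ξ)‖ + ‖y'‖ * ‖y ξ‖ + 1) = ε at h1 h2
  have hε0 : 0 ≤ ε := hε ▸ (div_pos hδ hA).le
  have hε1 : ε * (3 * ‖star y (y' ξ)‖ + ‖y'‖ * ‖y ξ‖ + 1) = δ := by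
    rw [← hε, div_mul_cancel₀ _ hA.ne']
  have e : ⟪y' ξ, y (x ξ)⟫_ℂ - ⟪y' ξ, x (y ξ)⟫_ℂ =
      -⟪star y (y' ξ), star z ξ - x ξ⟫_ℂ - ⟪y' (star x ξ - z ξ), y ξ⟫_ℂ := by
    have b1 : ⟪star y (y' ξ), star z ξ⟫_ℂ = ⟪y' (z ξ), y ξ⟫_ℂ := by
      rw [← adj, app hy (star_mem hz'), adj (star z), star_star, app hz hy']
    rw [inner_sub_right, map_sub, inner_sub_left, b1, adj y, adj x (y' ξ),
      app (star_mem hx) hy']
    ring
  have a1 := norm_inner_le_norm (𝕜 := ℂ) (star y (y' ξ)) (star z ξ - x ξ)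
  have a2 := norm_inner_le_norm (𝕜 := ℂ) (y' (star x ξ - z ξ)) (y ξ)
  have a3 := mul_le_mul_of_nonneg_left h2 (norm_nonneg (star y (y' ξ)))
  have a4 : ‖y' (star x ξ - z ξ)‖ * ‖y ξ‖ ≤ ‖y'‖ * ε * ‖y ξ‖ :=
    mul_le_mul_of_nonneg_right (y'.le_opNorm_of_le h1) (norm_nonneg _)
  rw [e]
  have a5 := norm_sub_le (-⟪star y (y' ξ), star z ξ - x ξ⟫_ℂ) ⟪y' (star x ξ - z ξ), y ξ⟫_ℂ
  rw [norm_neg] at a5
  nlinarith

theorem StdE.E_central (h : StdE N ξ l r) {T : K →L[ℂ] K} (hT : T ∈ N) :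
    D.E l T ∈ N.commutant :=
  h.central (h.std.E_mem D hT) (h.std.E_comm D hT)

end E

end Vale.Agent.P096
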