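import Vale.Agent.P096.Polar

/-! Reduction and induction of von Neumann algebras. -/

open scoped InnerProductSpace Topology
open Filter

namespace Vale.Agent.P096

open Vale.Agent.P104 Vale.Agent.P132

universe u v w

variable {K L : Type*} [NormedAddCommGroup K] [InnerProductSpace ℂ K] [CompleteSpace K]
  [NormedAddCommGroup L] [InnerProductSpace ℂ L] [CompleteSpace L]

theorem cmpr_apply (V : K →L[ℂ] L) (x : L →L[ℂ] L) (η : K) :
    cmpr V x η = ContinuousLinearMap.adjoint V (x (V η)) := rfl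

theorem inner_cmpr (V : K →L[ℂ] L) (x : L →L[ℂ] L) (ζ η : K) :
    ⟪ζ, cmpr V x η⟫_ℂ = ⟪V ζ, x (V η)⟫_ℂ := by
  rw [cmpr_apply, ContinuousLinearMap.adjoint_inner_right]

theorem cmpr_add (V : K →L[ℂ] L) (x y : L →L[ℂ] L) : cmpr V (x + y) = cmpr V x + cmpr V y := by
  exact bas_cmpr_add V x y

theorem cmpr_sub (V : K →L[ℂ] L) (x y : L →L[ℂ] L) : cmpr V (x - y) = cmpr V x - cmpr V y := by
  exact bas_cmpr_sub V x y

theorem cmpr_smul (V : K →L[ℂ] L) (c : ℂ) (x : L →L[ℂ] L) : cmpr V (c • x) = c • cmpr V x := by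
  exact bas_cmpr_smul V c x

theorem cmpr_star (V : K →L[ℂ] L) (x : L →L[ℂ] L) : star (cmpr V x) = cmpr V (star x) := by
  ext η
  refine ext_inner_left ℂ fun ζ => ?_
  rw [inner_star_right, inner_cmpr, inner_star_right, cmpr_apply,
    ContinuousLinearMap.adjoint_inner_left]

theorem norm_cmpr_le {V : K →L[ℂ] L} (hV : ‖V‖ ≤ 1) (x : L →L[ℂ] L) : ‖cmpr V x‖ ≤ ‖x‖ := by
  exact bas_norm_cmpr_le hV x

/-- `V` is an isometry with range projection `p`. -/
structure Iso (V : K →L[ℂ] L) (p : L →L[ℂ] L) : Prop where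
  left : ∀ η, ContinuousLinearMap.adjoint V (V η) = η
  right : ∀ ζ, V (ContinuousLinearMap.adjoint V ζ) = p ζ

theorem Iso.norm {V : K →L[ℂ] L} {p : L →L[ℂ] L} (h : Iso V p) (η : K) : ‖V η‖ = ‖η‖ := by
  rw [norm_eq_sqrt_re_inner (𝕜 := ℂ), norm_eq_sqrt_re_inner (𝕜 := ℂ) η,
    ← ContinuousLinearMap.adjoint_inner_right, h.left]

theorem Iso.opNorm_le {V : K →L[ℂ] L} {p : L →L[ℂ] L} (h : Iso V p) : ‖V‖ ≤ 1 := by
  exact ContinuousLinearMap.opNorm_le_bound _ zero_le_one fun η => by rw [h.norm, one_mul]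

theorem Iso.norm_adj {V : K →L[ℂ] L} {p : L →L[ℂ] L} (h : Iso V p) (ζ : L) :
    ‖ContinuousLinearMap.adjoint V ζ‖ = ‖p ζ‖ := by
  rw [← h.right, h.norm]

theorem Iso.cmpr_one {V : K →L[ℂ] L} {p : L →L[ℂ] L} (h : Iso V p) : cmpr V 1 = 1 := by
  ext η
  exact h.left η

theorem Iso.cmpr_mul {V : K →L[ℂ] L} {p : L →L[ℂ] L} (h : Iso V p) (x y : L →L[ℂ] L) :
    cmpr V x * cmpr V y = cmpr V (x * p * y) := by
  ext η
  show ContinuousLinearMap.adjoint V (x (V (ContinuousLinearMap.adjoint V (y (V η))))) = _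
  rw [h.right]
  rfl

theorem Iso.proj_apply {V : K →L[ℂ] L} {p : L →L[ℂ] L} (h : Iso V p) (η : K) : p (V η) = V η := by
  rw [← h.right, h.left]

theorem Iso.adj_proj {V : K →L[ℂ] L} {p : L →L[ℂ] L} (h : Iso V p) (ζ : L) :
    ContinuousLinearMap.adjoint V (p ζ) = ContinuousLinearMap.adjoint V ζ := by
  rw [← h.right, h.left]

theorem Iso.cmpr_mul_proj {V : K →L[ℂ] L} {p : L →L[ℂ] L} (h : Iso V p) (x : L →L[ℂ] L) :
    cmpr V (x * p) = cmpr V x := by
  ext η
  show ContinuousLinearMap.adjoint V (x (p (V η))) = _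
  rw [h.proj_apply]
  rfl

theorem Iso.cmpr_proj_mul {V : K →L[ℂ] L} {p : L →L[ℂ] L} (h : Iso V p) (x : L →L[ℂ] L) :
    cmpr V (p * x) = cmpr V x := by
  ext η
  exact h.adj_proj _

theorem Iso.cmpr_proj {V : K →L[ℂ] L} {p : L →L[ℂ] L} (h : Iso V p) (x : L →L[ℂ] L) :
    cmpr V (p * x * p) = cmpr V x := by
  rw [h.cmpr_mul_proj, h.cmpr_proj_mul]

theorem Iso.norm_cmpr {V : K →L[ℂ] L} {p : L →L[ℂ] L} (h : Iso V p) (x : L →L[ℂ] L) :
    ‖cmpr V x‖ = ‖p * x * p‖ := by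
  have hp : ∀ ζ, ‖p ζ‖ ≤ ‖ζ‖ := fun ζ => by
    rw [← h.norm_adj]
    refine ((ContinuousLinearMap.adjoint V).le_opNorm ζ).trans ?_
    rw [LinearIsometryEquiv.norm_map]
    exact mul_le_of_le_one_left (norm_nonneg _) h.opNorm_le
  refine le_antisymm ?_ (ContinuousLinearMap.opNorm_le_bound _ (norm_nonneg _) fun ζ => ?_)
  · rw [← h.cmpr_proj]
    exact norm_cmpr_le h.opNorm_le _
  · show ‖p (x (p ζ))‖ ≤ _
    rw [← h.norm_adj, ← h.right]
    refine ((cmpr V x).le_opNorm _).trans (mul_le_mul_of_nonneg_left ?_ (norm_nonneg _))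
    rw [h.norm_adj]
    exact hp ζ

theorem exists_iso {L : Type u} [NormedAddCommGroup L] [InnerProductSpace ℂ L] [CompleteSpace L]
    {p : L →L[ℂ] L} (hp : IsStarProjection p) : ∃ (K : Type u) (_ : NormedAddCommGroup K)
      (_ : InnerProductSpace ℂ K) (_ : CompleteSpace K) (V : K →L[ℂ] L), Iso V p := by
  let D : Submodule ℂ L := LinearMap.ker ((1 - p : L →L[ℂ] L) : L →ₗ[ℂ] L)
  have hD : IsClosed (D : Set L) := (1 - p : L →L[ℂ] L).isClosed_ker
  have : CompleteSpace D := hD.completeSpace_coe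
  have h1 : ∀ ζ, p ζ ∈ D := fun ζ => congrArg (fun T : L →L[ℂ] L => T ζ) hp.one_sub_mul_self
  have h2 : ∀ η : D, p η = η := fun η => (sub_eq_zero.1 η.2).symm
  have h3 : p.codRestrict D h1 = ContinuousLinearMap.adjoint D.subtypeL := by
    rw [ContinuousLinearMap.eq_adjoint_iff]
    intro ζ η
    show ⟪p ζ, (η : L)⟫_ℂ = ⟪ζ, (η : L)⟫_ℂ
    rw [← inner_star_right, hp.isSelfAdjoint.star_eq, h2]
  refine ⟨D, inferInstance, inferInstance, inferInstance, D.subtypeL, fun η => ?_, fun ζ => ?_⟩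
  · rw [← h3]
    exact Subtype.ext (h2 η)
  · rw [← h3]
    rfl

theorem red_ext {ι : Type*} (v : ι → L) {X Y : L →L[ℂ] L} (h1 : ∀ i, X (v i) = Y (v i))
    (h2 : ∀ ζ, (∀ i, ⟪v i, ζ⟫_ℂ = 0) → X ζ = Y ζ) : X = Y := by
  let D := (Submodule.span ℂ (Set.range v)).topologicalClosure
  have hD : D ≤ LinearMap.ker ((X - Y : L →L[ℂ] L) : L →ₗ[ℂ] L) := by
    refine Submodule.topologicalClosure_minimal _ (Submodule.span_le.2 ?_) (X - Y).isClosed_ker
    rintro _ ⟨i, rfl⟩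
    exact sub_eq_zero.2 (h1 i)
  ext ζ
  obtain ⟨a, ha, b, hb, rfl⟩ := D.exists_add_mem_mem_orthogonal ζ
  have h3 : X a = Y a := sub_eq_zero.1 (hD ha)
  rw [map_add, map_add, h3, h2 b fun i => hb _
    (Submodule.le_topologicalClosure _ (Submodule.subset_span ⟨i, rfl⟩))]

theorem red_iso {ι : Type*} (v w : ι → L) (h : ∀ i j, ⟪w i, w j⟫_ℂ = ⟪v i, v j⟫_ℂ) :
    ∃ X : L →L[ℂ] L, (∀ i, X (v i) = w i) ∧ ∀ ζ, (∀ i, ⟪v i, ζ⟫_ℂ = 0) → X ζ = 0 := by
  let e : (ι →₀ ℂ) →ₗ[ℂ] L := Finsupp.linearCombination ℂ v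
  let f : (ι →₀ ℂ) →ₗ[ℂ] L := Finsupp.linearCombination ℂ w
  have hsum : ∀ c d, ⟪f c, f d⟫_ℂ = ⟪e c, e d⟫_ℂ := by
    intro c d
    induction c using Finsupp.induction_linear with
    | zero => simp
    | add c c' h1 h2 => simp only [map_add, inner_add_left, h1, h2]
    | single i a =>
      induction d using Finsupp.induction_linear with
      | zero => simp
      | add d d' h1 h2 => simp only [map_add, inner_add_right, h1, h2]
      | single j b =>
        simp only [e, f, Finsupp.linearCombination_single, inner_smul_left, inner_smul_right, h]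
  let D := (LinearMap.range e).topologicalClosure
  let e' : (ι →₀ ℂ) →ₗ[ℂ] D := e.codRestrict D fun c => Submodule.le_topologicalClosure _ ⟨c, rfl⟩
  have hd : DenseRange e' := Metric.denseRange_iff.2 fun η ε hε => by
    have hη : (η : L) ∈ closure (LinearMap.range e : Set L) := η.2
    obtain ⟨_, ⟨c, rfl⟩, hc⟩ := Metric.mem_closure_iff.1 hη ε hε
    exact ⟨c, hc⟩
  have hn : ∀ c, ‖f c‖ ≤ 1 * ‖e' c‖ := fun c => by
    rw [one_mul, norm_eq_sqrt_re_inner (𝕜 := ℂ), hsum, ← norm_eq_sqrt_re_inner]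
    exact le_rfl
  refine ⟨(f.extendOfNorm e').comp D.orthogonalProjectionOnto, fun i => ?_, fun ζ hζ => ?_⟩
  · have h1 : v i = e' (Finsupp.single i 1) := by
      show v i = e (Finsupp.single i 1)
      simp only [e, Finsupp.linearCombination_single, one_smul]
    rw [ContinuousLinearMap.comp_apply, h1,
      Submodule.orthogonalProjectionOnto_mem_subspace_eq_self,
      LinearMap.extendOfNorm_eq hd ⟨1, hn⟩]
    simp only [f, Finsupp.linearCombination_single, one_smul]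
  · have h1 : ζ ∈ Dᗮ := by
      rw [Submodule.orthogonal_closure, Finsupp.range_linearCombination]
      intro u hu
      induction hu using Submodule.span_induction with
      | mem x hx =>
        obtain ⟨i, rfl⟩ := hx
        exact hζ i
      | zero => simp
      | add x y _ _ hx hy => rw [inner_add_left, hx, hy, add_zero]
      | smul a x _ hx => rw [inner_smul_left, hx, mul_zero]
    rw [ContinuousLinearMap.comp_apply,
      Submodule.orthogonalProjectionOnto_apply_of_mem_orthogonal h1, map_zero]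

theorem red_unit (A : VonNeumannAlgebra L) {V : K →L[ℂ] L} {T : K →L[ℂ] K}
    (hT : T ∈ vnc (cmpr V '' (A : Set (L →L[ℂ] L)))) (hu : T ∈ unitary (K →L[ℂ] K)) :
    ∃ x ∈ A.commutant, ∀ η, x (V η) = V (T η) := by
  obtain ⟨X, h1, h2⟩ := red_iso (ι := A × K) (fun i => (i.1 : L →L[ℂ] L) (V i.2))
    (fun i => (i.1 : L →L[ℂ] L) (V (T i.2))) fun i j => by
      have h3 := (mem_vnc.1 hT _ ⟨_, mul_mem (star_mem i.1.2) j.1.2, rfl⟩).1
      have h4 : ∀ η η', ⟪(i.1 : L →L[ℂ] L) (V η), (j.1 : L →L[ℂ] L) (V η')⟫_ℂ =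
          ⟪η, cmpr V (star (i.1 : L →L[ℂ] L) * j.1) η'⟫_ℂ := fun η η' => by
        rw [inner_cmpr, ← inner_star_right]
        rfl
      rw [h4, h4, ← mul_apply_eq_comp, h3, mul_apply_eq_comp, ← inner_star_right,
        ← mul_apply_eq_comp (star T), Unitary.star_mul_self_of_mem hu]
      rfl
  refine ⟨X, VonNeumannAlgebra.mem_commutant_iff.2 fun y hy => ?_, fun η =>
    h1 (⟨1, one_mem _⟩, η)⟩
  refine red_ext (ι := A × K) (fun i => (i.1 : L →L[ℂ] L) (V i.2)) (fun i => ?_) fun ζ hζ => ?_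
  · exact (congrArg y (h1 i)).trans (h1 (⟨y * i.1, mul_mem hy i.1.2⟩, i.2)).symm
  · show y (X ζ) = X (y ζ)
    rw [h2 ζ hζ, map_zero, h2 _ fun i => ?_]
    rw [← inner_star_left]
    exact hζ (⟨star y * i.1, mul_mem (star_mem hy) i.1.2⟩, i.2)

theorem red_key (A : VonNeumannAlgebra L) {V : K →L[ℂ] L}
    (hV : ∀ η, ContinuousLinearMap.adjoint V (V η) = η) {T : K →L[ℂ] K}
    (hT : T ∈ vnc (cmpr V '' (A : Set (L →L[ℂ] L)))) : ∃ x ∈ A.commutant, cmpr V x = T := by
  obtain ⟨c, g, h1, rfl⟩ := exists_four_vn hT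
  choose x hx hx' using fun i => red_unit A (h1 i).1 (h1 i).2.1
  refine ⟨∑ i, c i • x i, sum_mem fun i _ => vn_smul _ (hx i), ?_⟩
  ext η
  simp only [cmpr_apply, sum_apply, smul_apply, map_sum, map_smul, hx', hV]

/-- The reduction and induction theorem. -/
theorem exists_red (N : VonNeumannAlgebra L) {e p : L →L[ℂ] L} (he : IsStarProjection e)
    (heN : e ∈ N) (hp : IsStarProjection p) (hpN : p ∈ N.commutant) {V : K →L[ℂ] L}
    (hV : Iso V (e * p)) : ∃ N₁ : VonNeumannAlgebra K,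
      (∀ x₁, x₁ ∈ N₁ ↔ ∃ x ∈ N, cmpr V x = x₁) ∧
      ∀ y₁, y₁ ∈ N₁.commutant ↔ ∃ y ∈ N.commutant, cmpr V y = y₁ := by
  have hS : ∀ A : VonNeumannAlgebra L, ∀ y ∈ cmpr V '' (A : Set (L →L[ℂ] L)),
      star y ∈ cmpr V '' (A : Set (L →L[ℂ] L)) := by
    rintro A _ ⟨y, hy, rfl⟩
    exact ⟨star y, star_mem hy, (cmpr_star V y).symm⟩
  have hc : ∀ x ∈ N, ∀ y ∈ N.commutant, cmpr V y * cmpr V x = cmpr V x * cmpr V y := by
    intro x hx y hy
    have hee : e * e = e := he.isIdempotentElem.eq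
    have hpp : p * p = p := hp.isIdempotentElem.eq
    have c1 : p * e = e * p := (commute_of_mem N hpN heN).eq
    have c2 : ∀ a ∈ N, ∀ b ∈ N.commutant, b * a = a * b := fun a ha b hb =>
      (commute_of_mem N hb ha).eq
    have k1 : e * p * (y * (e * p) * x) * (e * p) = (p * y * p) * (e * x * e) := by
      calc e * p * (y * (e * p) * x) * (e * p)
          = (e * (p * y)) * (e * p) * (x * (e * p)) := by simp only [mul_assoc]
        _ = ((p * y) * e) * (e * p) * (x * (e * p)) := by rw [c2 e heN _ (mul_mem hpN hy)]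
        _ = (p * y) * (e * e) * (p * ((x * e) * p)) := by simp only [mul_assoc]
        _ = (p * y) * e * (p * (p * (x * e))) := by rw [hee, c2 _ (mul_mem hx heN) p hpN]
        _ = (p * y) * (e * (p * p)) * (x * e) := by simp only [mul_assoc]
        _ = (p * y * p) * (e * x * e) := by rw [hpp, ← c1]; simp only [mul_assoc]
    have k2 : e * p * (x * (e * p) * y) * (e * p) = (e * x * e) * (p * y * p) := by
      calc e * p * (x * (e * p) * y) * (e * p)
          = e * (p * (x * e)) * p * (y * e) * p := by simp only [mul_assoc]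
        _ = e * ((x * e) * p) * p * (e * y) * p := by
            rw [c2 _ (mul_mem hx heN) p hpN, c2 e heN y hy]
        _ = e * x * (e * ((p * p) * e)) * y * p := by simp only [mul_assoc]
        _ = (e * x * (e * e)) * (p * y * p) := by rw [hpp, c1]; simp only [mul_assoc]
        _ = (e * x * e) * (p * y * p) := by rw [hee]
    rw [hV.cmpr_mul, hV.cmpr_mul, ← hV.cmpr_proj, k1, ← hV.cmpr_proj (x * _ * y), k2,
      c2 _ (mul_mem (mul_mem heN hx) heN) _ (mul_mem (mul_mem hpN hy) hpN)]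
  have h1 : ∀ x₁, x₁ ∈ vnc (cmpr V '' (N.commutant : Set (L →L[ℂ] L))) ↔
      ∃ x ∈ N, cmpr V x = x₁ := fun x₁ => by
    constructor
    · intro h
      have := red_key N.commutant hV.left h
      rwa [N.commutant_commutant] at this
    · rintro ⟨x, hx, rfl⟩
      rw [mem_vnc' (hS _)]
      rintro _ ⟨y, hy, rfl⟩
      exact hc x hx y hy
  refine ⟨_, h1, fun y₁ => ⟨fun h => red_key N hV.left ?_, ?_⟩⟩
  · rw [mem_vnc' (hS _)]
    rintro _ ⟨x, hx, rfl⟩
    exact VonNeumannAlgebra.mem_commutant_iff.1 h _ ((h1 _).2 ⟨x, hx, rfl⟩)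
  · rintro ⟨y, hy, rfl⟩
    exact mem_vnc_commutant ⟨y, hy, rfl⟩

end Vale.Agent.P096
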