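import Vale.Agent.P096.Step8
import Vale.Agent.P096.Mean
import Vale.Agent.P096.DE
import Vale.Agent.P096.Red

/-! Return from the core. -/

open scoped InnerProductSpace Topology
open Filter

namespace Vale.Agent.P096

open Vale.Agent.P104 Vale.Agent.P132

universe u v w

section

variable {K L : Type u} [NormedAddCommGroup K] [InnerProductSpace ℂ K] [CompleteSpace K]
  [NormedAddCommGroup L] [InnerProductSpace ℂ L] [CompleteSpace L]
  {A : Amp ℤ K L} {Θ : L →L[ℂ] L} {F : FC K} {τ γ ε : ℝ} {N M : VonNeumannAlgebra K}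

/-- Conjugation by the perturbed group. -/
noncomputable def s8f (A : Amp ℤ K L) (Θ : L →L[ℂ] L) (F : FC K) (τ : ℝ) (Y : L →L[ℂ] L)
    (g : Multiplicative ℝ) : L →L[ℂ] L :=
  pU A Θ F τ g.toAdd * Y * star (pU A Θ F τ g.toAdd)

/-- `Y x` is the block diagonal operator of the discrete orbit of `x`. -/
def S8Y (A : Amp ℤ K L) (F : FC K) (τ : ℝ) (Y : (K →L[ℂ] K) → (L →L[ℂ] L)) : Prop :=
  ∀ x, ‖Y x‖ ≤ ‖x‖ ∧ ∀ (n : ℤ) η, Y x (A.J n η) = A.J n (F.σ (n * τ) x η)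

theorem s8_Y (A : Amp ℤ K L) (F : FC K) (τ : ℝ) : ∃ Y, S8Y A F τ Y := by
  choose Y h1 h2 _ using fun x : K →L[ℂ] K => A.exists_diag (fun n : ℤ => F.σ (n * τ) x)
    (norm_nonneg x) fun n => F.σ_norm_le₃ _ x
  exact ⟨Y, fun x => ⟨h1 x, h2 x⟩⟩

theorem s8f_mul (h : Shift A Θ) (g g' : Multiplicative ℝ) (Y : L →L[ℂ] L) :
    s8f A Θ F τ Y (g * g') =
      pU A Θ F τ g.toAdd * s8f A Θ F τ Y g' * star (pU A Θ F τ g.toAdd) := by
  simp only [s8f, toAdd_mul, h.pU_add, star_mul, mul_assoc]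

theorem s8f_norm (h : Shift A Θ) (g : Multiplicative ℝ) (Y : L →L[ℂ] L) :
    ‖s8f A Θ F τ Y g‖ = ‖Y‖ := by
  rw [s8f, CStarRing.norm_mul_mem_unitary _ (Unitary.star_mem (h.pU_unitary _)),
    CStarRing.norm_mem_unitary_mul _ (h.pU_unitary _)]

theorem s8_near (h : Shift A Θ) (hM : ∀ t, ∀ y ∈ M, F.σ t y ∈ M)
    (hn : Near γ (A.mat N : Set (L →L[ℂ] L)) (A.mat M)) :
    Near γ (pR A Θ F τ N : Set (L →L[ℂ] L)) (pR A Θ F τ M) := by
  obtain ⟨D⟩ := exists_dm.{u} (Multiplicative ℝ)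
  intro x hx
  obtain ⟨y, hy, h1⟩ := near_fix D (fun g => pU A Θ F τ g.toAdd) (fun _ => h.pU_unitary _)
    (fun g g' x => s8f_mul h g g' x) (fun g y hy => h.conj_mem hM _ hy) hn x
    ⟨(h.mem_pR.1 hx).1, fun g => (h.mem_pR.1 hx).2 _⟩
  exact ⟨y, h.mem_pR.2 ⟨hy.1, fun t => hy.2 (Multiplicative.ofAdd t)⟩, h1⟩

theorem s8_bd (h : Shift A Θ) (Y : L →L[ℂ] L) : Bd2 fun s t => s8f A Θ F τ Y (s * t) :=
  ⟨_, fun _ _ => (s8f_norm h _ _).le⟩

theorem s8_mem (h : Shift A Θ) (D : DM.{u, 0} (Multiplicative ℝ))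
    (hN : ∀ t, ∀ y ∈ N, F.σ t y ∈ N) {Y : L →L[ℂ] L} (hY : Y ∈ A.mat N) :
    D.om (fun s t => s8f A Θ F τ Y (s * t)) ∈ pR A Θ F τ N := by
  refine h.mem_pR.2 ⟨D.om_mem (s8_bd h Y) fun s t => h.conj_mem hN _ hY, fun t => ?_⟩
  have h1 := D.om_invariant (f := s8f A Θ F τ Y) (fun g => (s8f_norm h g _).le)
    (Multiplicative.ofAdd t)
  simp only [s8f_mul h (Multiplicative.ofAdd t), toAdd_ofAdd] at h1
  rw [D.om_mul_right _ ((Bd2.const _).mul (s8_bd h Y)), D.om_mul_left _ (s8_bd h Y)] at h1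
  conv_rhs => rw [← h1, mul_assoc, Unitary.star_mul_self_of_mem (h.pU_unitary t), mul_one]

theorem S8Y.mem {Y : (K →L[ℂ] K) → (L →L[ℂ] L)} (hY : S8Y A F τ Y)
    (hN : ∀ t, ∀ y ∈ N, F.σ t y ∈ N) {x : K →L[ℂ] K} (hx : x ∈ N) : Y x ∈ A.mat N := by
  refine A.mem_mat'.2 fun y hy => A.ext_J fun n η => ?_
  rw [mul_apply_eq_comp, mul_apply_eq_comp, A.dJ, (hY _).2, (hY _).2, A.dJ]
  exact congrArg (fun T : K →L[ℂ] K => A.J n (T η)) (commute_of_mem N hy (hN (n * τ) x hx)).eq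

theorem s8_lift (h : Shift A Θ) (D : DM.{u, 0} (Multiplicative ℝ))
    (hN : ∀ t, ∀ y ∈ N, F.σ t y ∈ N) {Y : (K →L[ℂ] K) → (L →L[ℂ] L)} (hY : S8Y A F τ Y)
    (h0 : 0 ≤ ε) (hl : Lift ε (pR A Θ F τ N) (pR A Θ F τ M)) : LiftTo ε N M fun x =>
      cmpr (A.J 0) (D.om fun s t => s8f A Θ F τ (Y x) (s * t)) := by
  refine lift_cmpr (a := fun x => x) (A.J 0) (A.opNorm_J_le 0)
    (fun x => D.om fun s t => s8f A Θ F τ (Y x) (s * t)) (fun x _ y _ => ?_) (fun c x _ => ?_)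
    (fun x hx => ⟨s8_mem h D hN (hY.mem hN hx),
      D.om_norm_le fun _ _ => (s8f_norm h _ _).trans_le (hY x).1⟩) (fun y hy => ?_) h0 hl
  · have e : Y (x + y) = Y x + Y y := A.ext_J fun n η => by
      rw [add_apply, (hY _).2, (hY _).2, (hY _).2, F.σ_add, add_apply, map_add]
    rw [← D.om_add (s8_bd h _) (s8_bd h _)]
    simp only [e, s8f, mul_add, add_mul]
  · have e : Y (c • x) = c • Y x := A.ext_J fun n η => by
      rw [smul_apply, (hY _).2, (hY _).2, F.σ_smul, smul_apply, map_smul]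
    rw [← D.om_smul c (s8_bd h _)]
    simp only [e, s8f, mul_smul_comm, smul_mul_assoc]
  · rw [← A.ent_eq_cmpr]
    exact A.mem_mat.1 (h.mem_pR.1 hy).1 0 0

theorem s8_est (h : Shift A Θ) (hτ : 0 < τ) {Y : (K →L[ℂ] K) → (L →L[ℂ] L)} (hY : S8Y A F τ Y)
    (x : K →L[ℂ] K) (g : Multiplicative ℝ) : ∃ s ∈ Set.Icc (0 : ℝ) 1, ∃ Z : L →L[ℂ] L,
      ‖Z‖ ≤ 2 * ‖x‖ ∧ (∀ (n : ℤ) η, Z (A.J n η) = A.J n (F.σ ((s + n) * τ) x η - x η)) ∧
      ∀ v, ‖s8f A Θ F τ (Y x) g v - A.d x v‖ =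
        ‖Z (star (NormedSpace.exp ((s : ℂ) • Complex.I • Θ)) v)‖ := by
  obtain ⟨m, hm⟩ : ∃ m : ℤ, m = ⌊g.toAdd / τ⌋ := ⟨_, rfl⟩
  obtain ⟨s, hs⟩ : ∃ s, s = Int.fract (g.toAdd / τ) := ⟨_, rfl⟩
  have e1 : g = Multiplicative.ofAdd (s * τ) * Multiplicative.ofAdd (m * τ) := by
    rw [← ofAdd_add, ← add_mul, hs, hm, Int.fract_add_floor, div_mul_cancel₀ _ hτ.ne', ofAdd_toAdd]
  have e2 : pU A Θ F τ (m * τ) * Y x = Y x * pU A Θ F τ (m * τ) := A.ext_J fun n η => by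
    rw [mul_apply_eq_comp, mul_apply_eq_comp, (hY _).2, h.pU_J hτ, h.pU_J hτ, (hY _).2,
      Int.cast_add, add_comm (n : ℝ), add_mul, ← F.σ_σ, F.σ_V]
  have hV : ∀ t, A.d (F.V t) ∈ unitary (L →L[ℂ] L) := fun t => by
    rw [Unitary.mem_iff, ← map_star, ← map_mul, ← map_mul, F.V_star, F.V_neg_mul₃, F.V_mul_neg₃,
      map_one, and_self]
  obtain ⟨E, hE⟩ : ∃ E, E = NormedSpace.exp ((s : ℂ) • Complex.I • Θ) := ⟨_, rfl⟩
  have e3 : pU A Θ F τ (s * τ) = E * A.d (F.V (s * τ)) := by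
    rw [pU, mul_div_cancel_right₀ _ hτ.ne', hE]
  have hu : E ∈ unitary (L →L[ℂ] L) := by
    have h1 := mul_mem (h.pU_unitary (F := F) (τ := τ) (s * τ)) (Unitary.star_mem (hV (s * τ)))
    rwa [e3, mul_assoc, Unitary.mul_star_self_of_mem (hV _), mul_one] at h1
  have e4 : A.d x * E = E * A.d x := hE ▸ (((h.comm x).smul_right _).smul_right _).exp_right.eq
  refine ⟨s, hs ▸ ⟨Int.fract_nonneg _, (Int.fract_lt_one _).le⟩,
    A.d (F.V (s * τ)) * Y x * star (A.d (F.V (s * τ))) - A.d x, ?_, fun n η => ?_, fun v => ?_⟩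
  · refine (norm_sub_le _ _).trans ?_
    rw [CStarRing.norm_mul_mem_unitary _ (Unitary.star_mem (hV _)),
      CStarRing.norm_mem_unitary_mul _ (hV _)]
    linarith [(hY x).1, A.norm_d_le x]
  · rw [sub_apply, mul_apply_eq_comp, mul_apply_eq_comp, ← map_star, F.V_star, A.dJ, A.dJ,
      (hY _).2, A.dJ, map_sub, add_mul, ← F.σ_σ, F.σ_apply₃ (s * τ)]
  · have e5 : s8f A Θ F τ (Y x) g - A.d x =
        E * (A.d (F.V (s * τ)) * Y x * star (A.d (F.V (s * τ))) - A.d x) * star E := by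
      rw [e1, s8f_mul h, s8f, toAdd_ofAdd, toAdd_ofAdd, e2, mul_assoc (Y x),
        Unitary.mul_star_self_of_mem (h.pU_unitary _), mul_one, e3, mul_sub, sub_mul, ← e4,
        mul_assoc (A.d x), Unitary.mul_star_self_of_mem hu, mul_one]
      simp only [star_mul, mul_assoc]
    rw [← sub_apply, e5, ← hE, mul_apply_eq_comp, mul_apply_eq_comp,
      ContinuousLinearMap.norm_map_of_mem_unitary hu]

theorem s8_lim (A : Amp ℤ K L) {ι : Type*} {l : Filter ι} {Z : ι → (L →L[ℂ] L)} {C : ℝ}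
    (hC : 0 ≤ C) (hZ : ∀ i, ‖Z i‖ ≤ C) (h : ∀ n η, Tendsto (fun i => Z i (A.J n η)) l (𝓝 0))
    {v : ι → L} {w : L} (hv : Tendsto v l (𝓝 w)) : Tendsto (fun i => ‖Z i (v i)‖) l (𝓝 0) := by
  have h1 : IsClosed {w | Tendsto (fun i => Z i w) l (𝓝 0)} :=
    (LipschitzWith.uniformEquicontinuous (fun i => Z i) ⟨C, hC⟩ fun i =>
      (Z i).lipschitz.weaken (hZ i)).equicontinuous.isClosed_setOfPred_tendsto continuous_const
  have h2 : Tendsto (fun i => Z i w) l (𝓝 0) :=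
    h1.mem_of_tendsto (A.hasSum_JP w) (Eventually.of_forall fun s => by
      simpa only [Set.mem_ofPred_eq, map_sum, Finset.sum_const_zero] using
        tendsto_finsetSum s fun n _ => h n (A.P n w))
  have h3 := ((tendsto_iff_norm_sub_tendsto_zero.1 hv).const_mul C).add h2.norm
  rw [mul_zero, norm_zero, add_zero] at h3
  refine squeeze_zero (fun _ => norm_nonneg _) (fun i => ?_) h3
  have h4 := (Z i).le_of_opNorm_le (hZ i) (v i - w)
  rw [map_sub] at h4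
  linarith [norm_sub_norm_le (Z i (v i)) (Z i w)]

theorem s8_bad (D : DM.{u, 0} (Multiplicative ℝ)) (f : Multiplicative ℝ → L) (w : L) :
    ∃ g, ‖D.vm (fun s t => f (s * t)) - w‖ ≤ 2 * ‖f g - w‖ := by
  by_contra h
  push Not at h
  have h1 := D.vm_sub_const_le (f := fun s t => f (s * t)) (ζ := w)
    (C := ‖D.vm (fun s t => f (s * t)) - w‖ / 2) fun s t => by linarith [h (s * t)]
  linarith [h 1, norm_nonneg (f 1 - w)]

end

theorem kk4_of_kk5 (h : KK.{u} P5) : KK.{u} P4 := by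
  intro ε hε
  obtain ⟨δ, hδ, h5⟩ := h ε hε
  have hk := one_le_dk.{u}
  refine ⟨δ / (4 * dk.{u} ^ 2), by positivity, fun K _ _ _ N M ⟨J, ξ, F, hM, h22, hσ⟩ hc => ?_⟩
  obtain ⟨L, _, _, _, ⟨A⟩⟩ := exists_amp ℤ K
  obtain ⟨Θ, hΘ⟩ := exists_shift A
  obtain ⟨D⟩ := exists_dm.{u} (Multiplicative ℝ)
  have hc' := A.close_mat hc (by positivity)
  rw [mul_div_cancel₀ _ (by positivity)] at hc'
  obtain ⟨τ, hτ, hτ'⟩ : ∃ τ : ℕ → ℝ, (∀ m, 0 < τ m) ∧ Tendsto τ (hyperfilter ℕ) (𝓝 0) :=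
    ⟨fun m => 1 / ((m : ℝ) + 1), fun m => by positivity,
      tendsto_one_div_add_atTop_nhds_zero_nat.mono_left Nat.hyperfilter_le_atTop⟩
  choose Y hY using fun m => s8_Y A F (τ m)
  refine lift_of_lim (hyperfilter ℕ)
    (fun m x => cmpr (A.J 0) (D.om fun s t => s8f A Θ F (τ m) (Y m x) (s * t)))
    (Eventually.of_forall fun m => s8_lift hΘ D hM.sigma_mem (hY m) hε.le (h5 L _ _
      (hΘ.p5 (hτ m) hM h22) ⟨s8_near hΘ hσ hc'.1, s8_near hΘ hM.sigma_mem hc'.2⟩))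
    (fun m x _ => (bas_norm_cmpr_le (A.opNorm_J_le 0) _).trans
      (D.om_norm_le fun _ _ => (s8f_norm hΘ _ _).trans_le (hY m x).1))
    fun x _ η ζ => tendsto_const_nhds.inner (tendsto_iff_norm_sub_tendsto_zero.2 ?_)
  choose g hg using fun m => s8_bad D (fun g => s8f A Θ F (τ m) (Y m x) g (A.J 0 ζ))
    (A.d x (A.J 0 ζ))
  choose s hs Z z1 z2 z3 using fun m => s8_est hΘ (hτ m) (hY m) x (g m)
  obtain ⟨s₀, -, hs₀⟩ := isCompact_Icc.ultrafilter_le_nhds ((hyperfilter ℕ).map s)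
    (le_principal_iff.2 (mem_map.2 (Eventually.of_forall hs)))
  have h1 : Tendsto s (hyperfilter ℕ) (𝓝 s₀) := hs₀
  let _ : NormedAlgebra ℚ (L →L[ℂ] L) := .restrictScalars ℚ ℂ _
  have h2 : Continuous fun s : ℝ =>
      star (NormedSpace.exp ((s : ℂ) • Complex.I • Θ)) (A.J 0 ζ) := by fun_prop
  have h3 := s8_lim A (by positivity) z1 (fun n η => by
    have h4 := ((F.sc_σ x).1 η).continuousAt.tendsto.comp
      (show Tendsto (fun m => (s m + n) * τ m) (hyperfilter ℕ) (𝓝 0) by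
        simpa using (h1.add_const (n : ℝ)).mul hτ')
    have h5 := ((A.J n).continuous.tendsto _).comp (h4.sub_const (x η))
    simp only [F.σ_zero, sub_self, map_zero] at h5
    exact h5.congr fun m => (z2 m n η).symm) ((h2.tendsto s₀).comp h1)
  refine squeeze_zero (fun _ => norm_nonneg _) (fun m => ?_) (mul_zero (2 : ℝ) ▸ h3.const_mul 2)
  have h4 := hg m
  rw [z3, ← D.om_apply (s8_bd hΘ _)] at h4
  refine le_trans (le_of_eq_of_le ?_ (A.norm_P_le 0 _)) h4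
  rw [map_sub, A.dJ, A.PJ, A.P_eq]
  rfl

end Vale.Agent.P096
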