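import Vale.Agent.P096.TLeg

/-! Existence of the system of legs. -/

open scoped InnerProductSpace Topology
open Filter

namespace Vale.Agent.P096

open Vale.Agent.P104 Vale.Agent.P132



universe u

/-- Left generator in the basis adapted to the vector `a 00 + b 11`. -/
def mA (a b : ℝ) : Matrix (Fin 4) (Fin 4) ℂ :=
  !![0, 0, b, 0; a, 0, 0, -b; 0, 0, 0, 0; 0, 0, a, 0]

/-- Right generator in the same basis. -/
def mB (a b : ℝ) : Matrix (Fin 4) (Fin 4) ℂ :=
  !![0, b, 0, 0; 0, 0, 0, 0; a, 0, 0, -b; 0, a, 0, 0]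

theorem star_mA (a b : ℝ) : star (mA a b) =
    (!![0, a, 0, 0; 0, 0, 0, 0; b, 0, 0, a; 0, -b, 0, 0] : Matrix (Fin 4) (Fin 4) ℂ) := by
  ext i j
  fin_cases i <;> fin_cases j <;> simp [mA, Matrix.star_apply]

theorem star_mB (a b : ℝ) : star (mB a b) =
    (!![0, 0, a, 0; b, 0, 0, a; 0, 0, 0, 0; 0, 0, -b, 0] : Matrix (Fin 4) (Fin 4) ℂ) := by
  ext i j
  fin_cases i <;> fin_cases j <;> simp [mB, Matrix.star_apply]

theorem mA_sq (a b : ℝ) : mA a b * mA a b = 0 := by
  ext i j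
  fin_cases i <;> fin_cases j <;> simp [mA, Matrix.mul_apply, Fin.sum_univ_four, mul_comm]

theorem mB_sq (a b : ℝ) : mB a b * mB a b = 0 := by
  ext i j
  fin_cases i <;> fin_cases j <;> simp [mB, Matrix.mul_apply, Fin.sum_univ_four, mul_comm]

theorem mA_sum {a b : ℝ} (h : (a : ℂ) * a + b * b = 1) :
    star (mA a b) * mA a b + mA a b * star (mA a b) = 1 := by
  rw [star_mA]
  ext i j
  fin_cases i <;> fin_cases j <;> simp [mA, Matrix.mul_apply, Fin.sum_univ_four, mul_comm] <;>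
    linear_combination h

theorem mB_sum {a b : ℝ} (h : (a : ℂ) * a + b * b = 1) :
    star (mB a b) * mB a b + mB a b * star (mB a b) = 1 := by
  rw [star_mB]
  ext i j
  fin_cases i <;> fin_cases j <;> simp [mB, Matrix.mul_apply, Fin.sum_univ_four, mul_comm] <;>
    linear_combination h

theorem mA_mB (a b : ℝ) : mA a b * mB a b = mB a b * mA a b := by
  ext i j
  fin_cases i <;> fin_cases j <;> simp [mA, mB, Matrix.mul_apply, Fin.sum_univ_four, mul_comm]

theorem mA_mB' (a b : ℝ) : star (mA a b) * mB a b = mB a b * star (mA a b) := by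
  rw [star_mA]
  ext i j
  fin_cases i <;> fin_cases j <;>
    simp [mB, Matrix.mul_apply, Fin.sum_univ_four, mul_comm, add_comm]

theorem m_col {a c : ℝ} (k : Fin 4) : ((c : ℂ) • mA a (c * a) - star (mB a (c * a))) k 0 = 0 := by
  rw [star_mB]
  fin_cases k <;> simp [mA]

theorem m_col' {a c : ℝ} (k : Fin 4) : (star (mA a (c * a)) - (c : ℂ) • mB a (c * a)) k 0 = 0 := by
  rw [star_mA]
  fin_cases k <;> simp [mB]

theorem m_00 (a b : ℝ) : (star (mA a b) * mA a b) 0 0 = (a : ℂ) * a := by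
  rw [star_mA]
  simp [mA, Matrix.mul_apply, Fin.sum_univ_four]

theorem mem_of_smul {W : Submodule ℂ (Fin 4 → ℂ)} {a : ℝ} (ha : a ≠ 0) {v w : Fin 4 → ℂ}
    (h : w ∈ W) (e : w = (a : ℂ) • v) : v ∈ W :=
  (W.smul_mem_iff (by exact_mod_cast ha)).1 (e ▸ h)

theorem mA_gen {a b : ℝ} (ha : a ≠ 0) (hb : b ≠ 0) (W : Submodule ℂ (Fin 4 → ℂ))
    (h0 : Pi.single 0 1 ∈ W)
    (h : ∀ w ∈ W, (mA a b).mulVec w ∈ W ∧ (star (mA a b)).mulVec w ∈ W) (k : Fin 4) :
    Pi.single k 1 ∈ W := by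
  have h1 : Pi.single 1 1 ∈ W := mem_of_smul ha (h _ h0).1 (by
    ext i; fin_cases i <;> simp [mA])
  have h2 : Pi.single 2 1 ∈ W := mem_of_smul hb (h _ h0).2 (by
    rw [star_mA]; ext i; fin_cases i <;> simp)
  have h3 : Pi.single 3 1 ∈ W := mem_of_smul ha (W.sub_mem (h _ h2).1 (W.smul_mem (b : ℂ) h0)) (by
    ext i; fin_cases i <;> simp [mA])
  fin_cases k
  exacts [h0, h1, h2, h3]

theorem mB_gen {a b : ℝ} (ha : a ≠ 0) (hb : b ≠ 0) (W : Submodule ℂ (Fin 4 → ℂ))
    (h0 : Pi.single 0 1 ∈ W)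
    (h : ∀ w ∈ W, (mB a b).mulVec w ∈ W ∧ (star (mB a b)).mulVec w ∈ W) (k : Fin 4) :
    Pi.single k 1 ∈ W := by
  have h2 : Pi.single 2 1 ∈ W := mem_of_smul ha (h _ h0).1 (by
    ext i; fin_cases i <;> simp [mB])
  have h1 : Pi.single 1 1 ∈ W := mem_of_smul hb (h _ h0).2 (by
    rw [star_mB]; ext i; fin_cases i <;> simp)
  have h3 : Pi.single 3 1 ∈ W := mem_of_smul ha (W.sub_mem (h _ h1).1 (W.smul_mem (b : ℂ) h0)) (by
    ext i; fin_cases i <;> simp [mB])
  fin_cases k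
  exacts [h0, h1, h2, h3]

section

variable {K L : Type*} [NormedAddCommGroup K] [InnerProductSpace ℂ K] [CompleteSpace K]
  [NormedAddCommGroup L] [InnerProductSpace ℂ L] [CompleteSpace L]
  {A : Amp (ℝ × ℕ →₀ Fin 4) K L} (G : Leg A)

theorem Leg.vac0 (σ : ℝ × ℕ) {m : Matrix (Fin 4) (Fin 4) ℂ} (hm : ∀ k, m k 0 = 0) (η : K) :
    G.leg σ m (A.J 0 η) = 0 := by
  rw [G.act]
  simp [hm]

theorem Leg.car (m : ℝ × ℕ → Matrix (Fin 4) (Fin 4) ℂ) (h1 : ∀ σ, m σ * m σ = 0)
    (h2 : ∀ σ, star (m σ) * m σ + m σ * star (m σ) = 1) : Car fun σ => G.leg σ (m σ) :=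
  ⟨fun σ => by rw [← map_mul, h1, map_zero],
    fun σ => by rw [← map_star, ← map_mul, ← map_mul, ← map_add, h2, map_one],
    fun _ _ h => G.comm h _ _, fun _ _ h => by rw [← map_star]; exact G.comm h _ _⟩

end

theorem exists_legs (K : Type u) [NormedAddCommGroup K] [InnerProductSpace ℂ K]
    [CompleteSpace K] : ∃ (L : Type u) (_ : NormedAddCommGroup L) (_ : InnerProductSpace ℂ L)
      (_ : CompleteSpace L), Nonempty (Legs K L) := by
  obtain ⟨L, i1, i2, i3, ⟨A⟩⟩ := exists_amp (ℝ × ℕ →₀ Fin 4) K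
  obtain ⟨G⟩ := exists_leg A
  let a : ℝ → ℝ := fun s => (√(1 + Real.exp s))⁻¹
  let b : ℝ → ℝ := fun s => Real.exp (s / 2) * a s
  have a0 : ∀ s, 0 < a s := fun s => by positivity
  have b0 : ∀ s, 0 < b s := fun s => mul_pos (Real.exp_pos _) (a0 s)
  have aa : ∀ s, (1 + Real.exp s) * (a s * a s) = 1 := fun s => by
    rw [← mul_inv, Real.mul_self_sqrt (by positivity), mul_inv_cancel₀ (by positivity)]
  have ab : ∀ s, (a s : ℂ) * a s + b s * b s = 1 := fun s => by
    have e : Real.exp (s / 2) * Real.exp (s / 2) = Real.exp s := by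
      rw [← Real.exp_add, add_halves]
    have : a s * a s + b s * b s = 1 := by
      rw [← aa s, ← e]
      ring
    exact_mod_cast this
  refine ⟨L, i1, i2, i3, ⟨{
    V := A.J 0
    d := A.d
    A := fun σ => G.leg σ (mA (a σ.1) (b σ.1))
    B := fun σ => G.leg σ (mB (a σ.1) (b σ.1))
    iso := fun η ζ => by rw [A.adj, A.PJ]
    dV := fun x η => A.dJ x 0 η
    dA := fun x σ => G.comm_d σ _ x
    dB := fun x σ => G.comm_d σ _ x
    AB := fun σ τ => ?_
    AB' := fun σ τ => ?_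
    carA := G.car _ (fun _ => mA_sq _ _) fun σ => mA_sum (ab σ.1)
    carB := G.car _ (fun _ => mB_sq _ _) fun σ => mB_sum (ab σ.1)
    genA := G.gen _ fun σ => mA_gen (a0 _).ne' (b0 _).ne'
    genB := G.gen _ fun σ => mB_gen (a0 _).ne' (b0 _).ne'
    vac := fun s n η => ?_
    vac' := fun s n η => ?_
    tail := fun s ζ => ?_
    tail' := fun s ζ => ?_
    nrm := fun s ζ => ?_ }⟩⟩
  · rcases eq_or_ne σ τ with rfl | h
    · rw [Commute, SemiconjBy, ← map_mul, ← map_mul, mA_mB]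
    · exact G.comm h _ _
  · rw [← map_star]
    rcases eq_or_ne σ τ with rfl | h
    · rw [Commute, SemiconjBy, ← map_mul, ← map_mul, mA_mB']
    · exact G.comm h _ _
  · have := G.vac0 (s, n) (m_col (a := a s) (c := Real.exp (s / 2))) η
    rw [map_sub, map_smul, map_star, sub_apply, smul_apply, sub_eq_zero] at this
    exact this
  · have := G.vac0 (s, n) (m_col' (a := a s) (c := Real.exp (s / 2))) η
    rw [map_sub, map_smul, map_star, sub_apply, smul_apply, sub_eq_zero] at this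
    exact this
  · have := G.tendsto_zero s (m_col (a := a s) (c := Real.exp (s / 2))) ζ
    simp only [map_sub, map_smul, map_star, sub_apply, smul_apply] at this
    exact this
  · have := G.tendsto_zero s (m_col' (a := a s) (c := Real.exp (s / 2))) ζ
    simp only [map_sub, map_smul, map_star, sub_apply, smul_apply] at this
    exact this
  · have h1 := ((Complex.continuous_re.tendsto _).comp
      (G.tendsto_inner s (star (mA (a s) (b s)) * mA (a s) (b s)) ζ ζ)).const_mul (1 + Real.exp s)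
    have h2 : (1 + Real.exp s) * ((star (mA (a s) (b s)) * mA (a s) (b s)) 0 0 * ⟪ζ, ζ⟫_ℂ).re =
        ‖ζ‖ ^ 2 := by
      rw [m_00, inner_self_eq_norm_sq_to_K, ← Complex.ofReal_mul, Complex.re_ofReal_mul,
        ← mul_assoc, aa, one_mul]
      norm_cast
    rw [h2] at h1
    refine h1.congr fun n => ?_
    rw [norm_sq_apply, ← map_star, ← map_mul]
    rfl

end Vale.Agent.P096
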