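import Vale.Agent.P096.TDefs
import Vale.Agent.P132.Bic

/-! From the bicentralizer to the relative Dixmier property. -/

open scoped InnerProductSpace Topology
open Filter

namespace Vale.Agent.P096

open Vale.Agent.P104 Vale.Agent.P132

variable {H : Type*} [NormedAddCommGroup H] [InnerProductSpace ℂ H] [CompleteSpace H]
  {M : VonNeumannAlgebra H} {J : H →L⋆[ℂ] H} {ξ : H} {F : FC H}

/-- An asymptotic form of the mean ergodic theorem of Alaoglu and Birkhoff. -/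
theorem exists_asym_fix (U : ℝ → Set (H →L[ℂ] H)) (one : ∀ δ, 0 < δ → 1 ∈ U δ)
    (mono : ∀ δ δ', δ ≤ δ' → U δ ⊆ U δ') (iso : ∀ δ, ∀ T ∈ U δ, ∀ η, ‖T η‖ = ‖η‖)
    (mul : ∀ δ δ', ∀ T ∈ U δ, ∀ T' ∈ U δ', T * T' ∈ U (δ + δ')) (η₀ : H) :
    ∃ η : H, (∀ δ, 0 < δ → η ∈ closure (convexHull ℝ ((fun T : H →L[ℂ] H => T η₀) '' U δ))) ∧
      ∀ γ, 0 < γ → ∃ δ, 0 < δ ∧ ∀ T ∈ U δ, ‖T η - η‖ ≤ γ := by
  obtain ⟨C, hC⟩ : ∃ C : ℝ → Set H, ∀ d,
    C d = closure (convexHull ℝ ((fun T : H →L[ℂ] H => T η₀) '' U d)) := ⟨_, fun _ => rfl⟩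
  simp only [← hC]
  have cv : ∀ d, Convex ℝ (C d) := fun d => hC d ▸ (convex_convexHull ℝ _).closure
  have cl : ∀ d, IsClosed (C d) := fun d => hC d ▸ isClosed_closure
  have gen : ∀ d, ∀ T ∈ U d, T η₀ ∈ C d := fun d T hT =>
    hC d ▸ subset_closure (subset_convexHull ℝ _ ⟨T, hT, rfl⟩)
  have mn : ∀ d (S : Set H), Convex ℝ S → IsClosed S → (∀ T ∈ U d, T η₀ ∈ S) → C d ⊆ S :=
    fun d S h1 h2 h3 => hC d ▸ closure_minimal (convexHull_min
      (by rintro _ ⟨T, hT, rfl⟩; exact h3 T hT) h1) h2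
  have mo : ∀ d d', d ≤ d' → C d ⊆ C d' := fun d d' h =>
    mn d _ (cv d') (cl d') fun T hT => gen d' T (mono d d' h hT)
  obtain ⟨ν, hν⟩ : ∃ ν : ℝ → ℝ, ∀ d, ν d = sInf ((fun x => ‖x‖ ^ 2) '' C d) := ⟨_, fun _ => rfl⟩
  have na : ∀ d, ∀ x ∈ C d, ν d ≤ ‖x‖ ^ 2 := fun d x hx =>
    hν d ▸ csInf_le ⟨0, by rintro _ ⟨y, -, rfl⟩; positivity⟩ ⟨x, hx, rfl⟩
  have nb : ∀ d, 0 < d → ∀ ε, 0 < ε → ∃ x ∈ C d, ‖x‖ ^ 2 < ν d + ε := fun d hd ε hε => by
    obtain ⟨_, ⟨x, hx, rfl⟩, h⟩ := exists_lt_of_csInf_lt (s := (fun x => ‖x‖ ^ 2) '' C d)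
      ⟨_, _, gen d 1 (one d hd), rfl⟩ (b := ν d + ε) (by rw [← hν]; linarith)
    exact ⟨x, hx, h⟩
  obtain ⟨m, hm⟩ : ∃ m, m = sSup (ν '' Set.Ioi 0) := ⟨_, rfl⟩
  have nd : ∀ d, 0 < d → ν d ≤ m := fun d hd => hm ▸ le_csSup ⟨‖η₀‖ ^ 2, by
    rintro _ ⟨d', hd', rfl⟩; exact na d' _ (gen d' 1 (one d' hd'))⟩ ⟨d, hd, rfl⟩
  have ne : ∀ ε, 0 < ε → ∃ d, 0 < d ∧ m - ε < ν d := fun ε hε => by
    obtain ⟨_, ⟨d, hd, rfl⟩, h⟩ := exists_lt_of_lt_csSup (s := ν '' Set.Ioi 0) (b := m - ε)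
      ⟨_, 1, Set.mem_Ioi.2 one_pos, rfl⟩ (by rw [← hm]; linarith)
    exact ⟨d, hd, h⟩
  have key : ∀ d, ∀ x ∈ C d, ∀ y ∈ C d, ‖x - y‖ ^ 2 ≤ 2 * ‖x‖ ^ 2 + 2 * ‖y‖ ^ 2 - 4 * ν d :=
    fun d x hx y hy => by
      have h1 := na d _ (cv d hx hy (a := 1 / 2) (b := 1 / 2) (by norm_num) (by norm_num) (by norm_num))
      rw [← smul_add, norm_smul, Real.norm_of_nonneg (by norm_num)] at h1
      have := parallelogram_law_with_norm ℂ x y
      nlinarith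
  choose x hx hx' using fun n : ℕ => nb _ (Nat.one_div_pos_of_nat (n := n)) _
    (Nat.one_div_pos_of_nat (n := n))
  have hx2 : ∀ n : ℕ, ‖x n‖ ^ 2 ≤ m + 1 / ((n : ℝ) + 1) := fun n => by
    linarith [hx' n, nd _ (Nat.one_div_pos_of_nat (n := n))]
  have cau : CauchySeq x := Metric.cauchySeq_iff'.2 fun ε hε => by
    obtain ⟨d, hd, h⟩ := ne (ε ^ 2 / 8) (by positivity)
    obtain ⟨N, hN⟩ := exists_nat_one_div_lt (lt_min hd (show 0 < ε ^ 2 / 8 by positivity))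
    refine ⟨N, fun n hn => ?_⟩
    have h1 : 1 / ((n : ℝ) + 1) ≤ 1 / ((N : ℝ) + 1) := Nat.one_div_le_one_div hn
    have h2 := lt_min_iff.1 hN
    have := key d _ (mo _ _ (h1.trans h2.1.le) (hx n)) _ (mo _ _ h2.1.le (hx N))
    rw [dist_eq_norm]
    exact lt_of_pow_lt_pow_left₀ 2 hε.le (by linarith [hx2 n, hx2 N])
  obtain ⟨η, hη⟩ := cauchySeq_tendsto_of_complete cau
  have mem : ∀ d, 0 < d → η ∈ C d := fun d hd => (cl d).mem_of_tendsto hη
    ((tendsto_one_div_add_atTop_nhds_zero_nat.eventually (ge_mem_nhds hd)).mono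
      fun n hn => mo _ _ hn (hx n))
  have nm : ‖η‖ ^ 2 ≤ m := le_of_tendsto_of_tendsto' (hη.norm.pow 2)
    (by simpa using (tendsto_one_div_add_atTop_nhds_zero_nat (𝕜 := ℝ)).const_add m) hx2
  refine ⟨η, mem, fun γ hγ => ?_⟩
  obtain ⟨d, hd, h⟩ := ne (γ ^ 2 / 4) (by positivity)
  refine ⟨d / 2, half_pos hd, fun T hT => ?_⟩
  have h1 : T η ∈ C (d / 2 + d / 2) := mn (d / 2) (T ⁻¹' C (d / 2 + d / 2))
    ((cv _).linear_preimage (T.restrictScalars ℝ).toLinearMap) ((cl _).preimage T.continuous)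
    (fun T' hT' => gen _ _ (mul _ _ T hT T' hT')) (mem _ (half_pos hd))
  rw [add_halves] at h1
  have := key d _ h1 _ (mem d hd)
  rw [iso _ T hT] at this
  exact le_of_sq_le_sq (by linarith) hγ.le

theorem TRD.norm_unit {u : H →L[ℂ] H} (hu : u ∈ unitary (H →L[ℂ] H)) (η : H) : ‖u η‖ = ‖η‖ :=
  (ContinuousLinearMap.norm_map_iff_adjoint_comp_self u).2 hu.1 η

/-- Cayley transform. -/
theorem exists_cayley {k : H →L[ℂ] H} (hM : k ∈ M) (hk : IsSelfAdjoint k) :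
    ∃ R ∈ M, R * (1 - Complex.I • k) = 1 ∧ (1 - Complex.I • k) * R = 1 ∧ ‖R‖ ≤ 1 ∧
      (2 : ℂ) • R - 1 ∈ unitary (H →L[ℂ] H) := by
  have h0 : -Complex.I ∉ spectrum ℂ k := fun h => by
    have := hk.mem_spectrum_eq_re h
    simp at this
  obtain ⟨w, hw⟩ := spectrum.notMem_iff.1 h0
  obtain ⟨D, hD⟩ : ∃ D, D = 1 - Complex.I • k := ⟨_, rfl⟩
  have e : D = Complex.I • (w : H →L[ℂ] H) := by
    rw [hD, hw, Algebra.algebraMap_eq_smul_one, smul_sub, smul_smul]; simp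
  obtain ⟨R, h1, h2⟩ : ∃ R, R * D = 1 ∧ D * R = 1 := ⟨-Complex.I • ((w⁻¹ : (H →L[ℂ] H)ˣ) : H →L[ℂ] H),
    by rw [e, smul_mul_smul_comm]; simp, by rw [e, smul_mul_smul_comm]; simp⟩
  have sD : star D = (2 : ℂ) • 1 - D := by
    rw [hD, star_sub, star_one, star_smul, hk.star_eq]; simp; module
  have c : D * star D = star D * D := by
    rw [sD]; simp only [mul_sub, sub_mul, mul_smul_comm, smul_mul_assoc, mul_one, one_mul]
  have u1 : (2 : ℂ) • R - 1 = star D * R := by rw [sD, sub_mul, h2, smul_mul_assoc, one_mul]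
  have u2 : (2 : ℂ) • R - 1 = R * star D := by rw [sD, mul_sub, h1, mul_smul_comm, mul_one]
  have hu : (2 : ℂ) • R - 1 ∈ unitary (H →L[ℂ] H) := by
    constructor
    · rw [u1, star_mul, star_star, mul_assoc, ← mul_assoc D, c, mul_assoc, h2, mul_one, ← star_mul,
        h2, star_one]
    · rw [u2, star_mul, star_star, mul_assoc, ← mul_assoc (star D), ← c, mul_assoc, ← star_mul,
        h1, star_one, mul_one, h1]
  rw [← hD]
  refine ⟨R, mem_of_commute M fun y hy => ?_, h1, h2, ?_, hu⟩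
  · have cD : y * D = D * y := commute_of_mem M hy (hD ▸ sub_mem (one_mem M) (vn_smul _ hM))
    calc y * R = R * D * y * R := by rw [h1, one_mul]
      _ = R * y := by rw [mul_assoc R, ← cD, mul_assoc, mul_assoc, h2, mul_one]
  · refine ContinuousLinearMap.opNorm_le_bound _ zero_le_one fun η => ?_
    have h3 := TRD.norm_unit hu η
    have h4 := norm_add_le (((2 : ℂ) • R - 1) η) η
    simp only [ContinuousLinearMap.sub_apply, ContinuousLinearMap.smul_apply,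
      ContinuousLinearMap.one_apply, sub_add_cancel, norm_smul, Complex.norm_ofNat] at h3 h4
    linarith

theorem TRD.flip (h : Mod M J ξ F) (x : H →L[ℂ] H) :
    star x ξ - rt J (star x) ξ = -J (x ξ - rt J x ξ) := by
  rw [map_sub, h.bi.cj.J_apply, h.bi.cj.J_rt, h.fix, neg_sub]

theorem TRD.sa (h : Mod M J ξ F) {η : H}
    (hη : ∀ γ : ℝ, 0 < γ → ∃ δ : ℝ, 0 < δ ∧ ∀ u ∈ M, u ∈ unitary (H →L[ℂ] H) →
      ‖u ξ - rt J u ξ‖ ≤ δ → ‖u η - rt J u η‖ ≤ γ) {k : ℕ → (H →L[ℂ] H)} (hk : Bd M k)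
    (hs : ∀ n, IsSelfAdjoint (k n)) (h0 : Tendsto (fun n => k n ξ - rt J (k n) ξ) atTop (𝓝 0)) :
    Tendsto (fun n => k n η - rt J (k n) η) atTop (𝓝 0) := by
  obtain ⟨hM, C, hC⟩ := hk
  have C0 : 0 ≤ C := (norm_nonneg _).trans (hC 0)
  have cj := h.bi.cj
  refine NormedAddGroup.tendsto_nhds_zero.2 fun γ hγ => ?_
  obtain ⟨δ, hδ, hu⟩ := hη (γ / (1 + C) ^ 2) (by positivity)
  filter_upwards [NormedAddGroup.tendsto_nhds_zero.1 h0 (δ / 2) (half_pos hδ)] with n hn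
  obtain ⟨R, hR, h1, h2, nR, u⟩ := exists_cayley (hM n) (hs n)
  obtain ⟨D, hD⟩ : ∃ D, D = 1 - Complex.I • k n := ⟨_, rfl⟩
  have mD : D ∈ M := hD ▸ sub_mem (one_mem M) (vn_smul _ (hM n))
  have nD : ‖D‖ ≤ 1 + C := hD ▸ (norm_sub_le _ _).trans (add_le_add ContinuousLinearMap.norm_id_le
    (by rw [norm_smul, Complex.norm_I, one_mul]; exact hC n))
  have eD : ∀ ζ, ‖rt J D ζ - D ζ‖ = ‖k n ζ - rt J (k n) ζ‖ := fun ζ => by
    have : rt J D ζ - D ζ = Complex.I • (k n ζ - rt J (k n) ζ) := by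
      rw [hD, rt_sub, rt_smul, cj.rt_one]; simp [smul_sub]
    rw [this, norm_smul, Complex.norm_I, one_mul]
  have eu : ∀ ζ, ‖((2 : ℂ) • R - 1) ζ - rt J ((2 : ℂ) • R - 1) ζ‖ = 2 * ‖R ζ - rt J R ζ‖ := fun ζ => by
    have : ((2 : ℂ) • R - 1) ζ - rt J ((2 : ℂ) • R - 1) ζ = (2 : ℂ) • (R ζ - rt J R ζ) := by
      rw [rt_sub, rt_smul, cj.rt_one]; simp [smul_sub]
    rw [this, norm_smul, Complex.norm_ofNat]
  rw [← hD] at h1 h2
  have a1 : ∀ ζ, R (D ζ) = ζ := fun ζ => congrArg (fun T : H →L[ℂ] H => T ζ) h1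
  have a2 : ∀ ζ, D (R ζ) = ζ := fun ζ => congrArg (fun T : H →L[ℂ] H => T ζ) h2
  have e1 : R ξ - rt J R ξ = R (rt J R (rt J D ξ - D ξ)) := by
    rw [map_sub, map_sub, ← cj.rt_mul_apply, h2, cj.rt_one, h.bi.comm_apply hR hR, a1]; rfl
  have e2 : rt J D η - D η = D (rt J D (R η - rt J R η)) := by
    rw [map_sub, map_sub, ← cj.rt_mul_apply, h1, cj.rt_one, h.bi.comm_apply mD mD, a2]; rfl
  have n1 : ‖R ξ - rt J R ξ‖ ≤ δ / 2 := by
    rw [e1]
    refine (R.le_of_opNorm_le nR _).trans ?_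
    rw [one_mul]
    refine (cj.norm_rt_le _ _).trans ?_
    rw [eD]
    exact (mul_le_of_le_one_left (norm_nonneg _) nR).trans hn.le
  have n2 := hu _ (sub_mem (vn_smul _ hR) (one_mem M)) u (by rw [eu]; linarith)
  rw [eu, le_div_iff₀ (by positivity)] at n2
  rw [← eD, e2]
  have n3 := (D.le_of_opNorm_le nD (rt J D (R η - rt J R η))).trans (mul_le_mul_of_nonneg_left
    ((cj.norm_rt_le _ _).trans (mul_le_mul_of_nonneg_right nD (norm_nonneg _))) (by positivity))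
  linarith

/-- It is enough to test asymptotic commutation on unitaries. -/
theorem mem_KB_of_unitary (h : Mod M J ξ F) {η : H}
    (hη : ∀ γ : ℝ, 0 < γ → ∃ δ : ℝ, 0 < δ ∧ ∀ u ∈ M, u ∈ unitary (H →L[ℂ] H) →
      ‖u ξ - rt J u ξ‖ ≤ δ → ‖u η - rt J u η‖ ≤ γ) : η ∈ KB M J ξ := by
  intro x hx
  have h0 := hx.zero
  obtain ⟨⟨hM, C, hC⟩, -⟩ := hx
  have h1 : Tendsto (fun n => star (x n) ξ - rt J (star (x n)) ξ) atTop (𝓝 0) := by
    simpa only [TRD.flip h, map_zero, neg_zero, Function.comp] using ((J.continuous.tendsto _).comp h0).neg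
  have a := TRD.sa h hη (k := fun n => x n + star (x n))
    ⟨fun n => add_mem (hM n) (star_mem (hM n)), C + C, fun n => (norm_add_le _ _).trans
      (add_le_add (hC n) (by rw [norm_star]; exact hC n))⟩
    (fun n => IsSelfAdjoint.add_star_self _) (by
      have := h0.add h1
      rw [add_zero] at this
      refine this.congr fun n => ?_
      simp only [rt_add, ContinuousLinearMap.add_apply]; abel)
  have b := TRD.sa h hη (k := fun n => Complex.I • (x n - star (x n)))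
    ⟨fun n => vn_smul _ (sub_mem (hM n) (star_mem (hM n))), C + C, fun n => by
      rw [norm_smul, Complex.norm_I, one_mul]
      exact (norm_sub_le _ _).trans (add_le_add (hC n) (by rw [norm_star]; exact hC n))⟩
    (fun n => by simp [IsSelfAdjoint, smul_sub]; abel) (by
      have := (h0.sub h1).const_smul Complex.I
      rw [sub_zero, smul_zero] at this
      refine this.congr fun n => ?_
      simp only [rt_sub, rt_smul, ContinuousLinearMap.sub_apply, ContinuousLinearMap.smul_apply]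
      module)
  have := (a.sub (b.const_smul Complex.I)).const_smul (2⁻¹ : ℂ)
  rw [smul_zero, sub_zero, smul_zero] at this
  refine this.congr fun n => ?_
  simp only [rt_sub, rt_smul, rt_add, ContinuousLinearMap.sub_apply, ContinuousLinearMap.smul_apply,
    ContinuousLinearMap.add_apply, smul_sub, smul_smul, Complex.I_mul_I]
  module

theorem TRD.norm_rt_unit (h : Mod M J ξ F) {u : H →L[ℂ] H} (hu : u ∈ unitary (H →L[ℂ] H)) (η : H) :
    ‖rt J u η‖ = ‖η‖ := by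
  rw [h.bi.cj.norm_rt_apply, TRD.norm_unit (Unitary.star_mem hu), h.bi.cj.norm]

theorem TRD.state (h : Mod M J ξ F) {u x : H →L[ℂ] H} (hM : u ∈ M) (hu : u ∈ unitary (H →L[ℂ] H))
    (hx : x ∈ M) : ‖⟪ξ, (star u * x * u) ξ⟫_ℂ - ⟪ξ, x ξ⟫_ℂ‖ ≤ 2 * ‖ξ‖ * ‖u ξ - rt J u ξ‖ * ‖x‖ := by
  have e1 : ⟪ξ, (star u * x * u) ξ⟫_ℂ = ⟪u ξ, x (u ξ)⟫_ℂ :=
    ContinuousLinearMap.adjoint_inner_right u ξ _
  have e2 : ⟪ξ, x ξ⟫_ℂ = ⟪rt J u ξ, x (rt J u ξ)⟫_ℂ := by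
    rw [h.bi.cj.inner_rt_left, h.bi.comm_apply hx hM, ← h.bi.cj.rt_mul_apply, hu.2, h.bi.cj.rt_one]
    rfl
  have e3 : ⟪u ξ, x (u ξ)⟫_ℂ - ⟪rt J u ξ, x (rt J u ξ)⟫_ℂ =
      ⟪u ξ - rt J u ξ, x (u ξ)⟫_ℂ + ⟪rt J u ξ, x (u ξ - rt J u ξ)⟫_ℂ := by
    rw [map_sub, inner_sub_left, inner_sub_right]; ring
  have n1 := (norm_inner_le_norm (𝕜 := ℂ) (u ξ - rt J u ξ) (x (u ξ))).trans
    (mul_le_mul_of_nonneg_left (x.le_opNorm _) (norm_nonneg _))
  have n2 := (norm_inner_le_norm (𝕜 := ℂ) (rt J u ξ) (x (u ξ - rt J u ξ))).trans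
    (mul_le_mul_of_nonneg_left (x.le_opNorm _) (norm_nonneg _))
  rw [TRD.norm_unit hu] at n1
  rw [TRD.norm_rt_unit h hu] at n2
  rw [e1, e2, e3]
  linarith [norm_add_le ⟪u ξ - rt J u ξ, x (u ξ)⟫_ℂ ⟪rt J u ξ, x (u ξ - rt J u ξ)⟫_ℂ]

theorem TRD.gen (h : Mod M J ξ F) {u y : H →L[ℂ] H} (hM : u ∈ M) (hu : u ∈ unitary (H →L[ℂ] H))
    (hy : y ∈ M) : ‖(u * rt J (star u)) (y ξ) - (u * y * star u) ξ‖ ≤ ‖y‖ * ‖u ξ - rt J u ξ‖ := by
  have : (u * rt J (star u)) (y ξ) - (u * y * star u) ξ = u (y (J (u ξ - rt J u ξ))) := by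
    rw [← neg_neg (J _), ← TRD.flip h, neg_sub, map_sub, map_sub, h.bi.comm_apply hy (star_mem hM)]
    rfl
  rw [this, TRD.norm_unit hu, ← h.bi.cj.norm (u ξ - rt J u ξ)]
  exact y.le_opNorm _

theorem rd_of_bic (h : Mod M J ξ F) (hZ : ∀ a ∈ Bic M J ξ, Zc M a) : RD M ξ := by
  intro y hy v δ hδ
  have cj := h.bi.cj
  obtain ⟨η, h1, h2⟩ := exists_asym_fix (fun d => {T | ∃ u ∈ M, u ∈ unitary (H →L[ℂ] H) ∧
      ‖u ξ - rt J u ξ‖ ≤ d ∧ T = u * rt J (star u)})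
    (fun d hd => ⟨1, one_mem M, one_mem _, by simpa [cj.rt_one] using hd.le, by simp [cj.rt_one]⟩)
    (fun d d' hd T ⟨u, a, b, c, e⟩ => ⟨u, a, b, c.trans hd, e⟩)
    (by
      rintro d _ ⟨u, -, b, -, rfl⟩ ζ
      exact (TRD.norm_unit b _).trans (TRD.norm_rt_unit h (Unitary.star_mem b) _))
    (by
      rintro d d' _ ⟨u, a, b, c, rfl⟩ _ ⟨w, a', b', c', rfl⟩
      refine ⟨u * w, mul_mem a a', mul_mem b b', ?_, ?_⟩
      · have : (u * w) ξ - rt J (u * w) ξ = rt J w (u ξ - rt J u ξ) + u (w ξ - rt J w ξ) := by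
          rw [map_sub, map_sub, cj.rt_mul_apply, h.bi.comm_apply a a']
          simp
        rw [this]
        refine (norm_add_le _ _).trans ?_
        rw [TRD.norm_unit b, TRD.norm_rt_unit h b']
        exact add_le_add c c'
      · rw [star_mul, cj.rt_mul, mul_assoc, mul_assoc, ← mul_assoc w, h.bi.comm a' (star_mem a),
          mul_assoc]) (y ξ)
  have kb : η ∈ KB M J ξ := mem_KB_of_unitary h fun γ hγ => by
    obtain ⟨d, hd, k⟩ := h2 γ hγ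
    refine ⟨d, hd, fun u a b c => ?_⟩
    have : u η - rt J u η = rt J u ((u * rt J (star u)) η - η) := by
      rw [map_sub, ContinuousLinearMap.mul_apply, ← h.bi.comm_apply a a, ← cj.rt_mul_apply, b.1,
        cj.rt_one]
      rfl
    rw [this, TRD.norm_rt_unit h b]
    exact k _ ⟨u, a, b, c, rfl⟩
  have ap : ∀ d : ℝ, 0 < d → ∃ x ∈ M, ‖x‖ ≤ ‖y‖ ∧ ‖η - x ξ‖ ≤ (‖y‖ + 1) * d := fun d hd => by
    obtain ⟨ζ, hζ, hd'⟩ := Metric.mem_closure_iff.1 (h1 d hd) d hd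
    have : ζ ∈ {ζ : H | ∃ x ∈ M, ‖x‖ ≤ ‖y‖ ∧ ‖ζ - x ξ‖ ≤ ‖y‖ * d} := by
      refine convexHull_min ?_ ?_ hζ
      · rintro _ ⟨_, ⟨u, a, b, c, rfl⟩, rfl⟩
        refine ⟨u * y * star u, mul_mem (mul_mem a hy) (star_mem a), ?_,
          (TRD.gen h a b hy).trans (mul_le_mul_of_nonneg_left c (norm_nonneg _))⟩
        refine ContinuousLinearMap.opNorm_le_bound _ (norm_nonneg _) fun ζ => ?_
        rw [← TRD.norm_unit (Unitary.star_mem b) ζ]
        exact (TRD.norm_unit b _).trans_le (y.le_opNorm _)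
      · rintro a ⟨x, x1, x2, x3⟩ b ⟨w, w1, w2, w3⟩ s t hs ht hst
        refine ⟨(s : ℂ) • x + (t : ℂ) • w, add_mem (vn_smul _ x1) (vn_smul _ w1), ?_, ?_⟩
        · refine (norm_add_le _ _).trans ?_
          rw [norm_smul, norm_smul, Complex.norm_of_nonneg hs, Complex.norm_of_nonneg ht]
          calc _ ≤ s * ‖y‖ + t * ‖y‖ := by gcongr
            _ = _ := by rw [← add_mul, hst, one_mul]
        · have : s • a + t • b - ((s : ℂ) • x + (t : ℂ) • w) ξ = s • (a - x ξ) + t • (b - w ξ) := by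
            simp only [ContinuousLinearMap.add_apply, ContinuousLinearMap.smul_apply,
              Complex.coe_smul, smul_sub]
            abel
          rw [this]
          refine (norm_add_le _ _).trans ?_
          rw [norm_smul, norm_smul, Real.norm_of_nonneg hs, Real.norm_of_nonneg ht]
          calc _ ≤ s * (‖y‖ * d) + t * (‖y‖ * d) := by gcongr
            _ = _ := by rw [← add_mul, hst, one_mul]
    obtain ⟨x, x1, x2, x3⟩ := this
    refine ⟨x, x1, x2, ?_⟩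
    rw [dist_eq_norm] at hd'
    linarith [norm_sub_le_norm_sub_add_norm_sub η ζ (x ξ)]
  choose x x1 x2 x3 using fun n : ℕ => ap _ (Nat.one_div_pos_of_nat (n := n))
  have lim : Tendsto (fun n => x n ξ) atTop (𝓝 η) := by
    rw [tendsto_iff_norm_sub_tendsto_zero]
    refine squeeze_zero (fun _ => norm_nonneg _) (fun n => (norm_sub_rev _ _).trans_le (x3 n)) ?_
    simpa using (tendsto_one_div_add_atTop_nhds_zero_nat (𝕜 := ℝ)).const_mul (‖y‖ + 1)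
  obtain ⟨z, z1, z2, z3, -⟩ := h.sep.exists_lim (Eventually.of_forall fun n => ⟨x1 n, x2 n⟩) lim
  have zc := hZ z (h.bic_iff.2 ⟨z1, z3 ▸ kb⟩)
  obtain ⟨d, hd, d1, d2⟩ : ∃ d : ℝ, 0 < d ∧ 2 * ‖ξ‖ * d ≤ δ ∧ ‖v‖ * (‖y‖ * d) ≤ δ / 2 := by
    have p : 0 < 2 * ‖ξ‖ + 2 * (‖v‖ * ‖y‖) + 1 := by positivity
    have e := mul_div_cancel₀ δ p.ne'
    have p' : 0 < δ / (2 * ‖ξ‖ + 2 * (‖v‖ * ‖y‖) + 1) := by positivity
    have q1 := mul_nonneg (norm_nonneg ξ) p'.le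
    have q2 := mul_nonneg (mul_nonneg (norm_nonneg v) (norm_nonneg y)) p'.le
    exact ⟨_, p', by linarith, by linarith⟩
  have out : ∃ u ∈ M, u ∈ unitary (H →L[ℂ] H) ∧ ‖u ξ - rt J u ξ‖ ≤ d ∧
      (⟪v, (u * rt J (star u)) (y ξ)⟫_ℂ).re < (⟪v, η⟫_ℂ).re + δ / 2 := by
    by_contra hc
    push Not at hc
    have : η ∈ {ζ : H | (⟪v, η⟫_ℂ).re + δ / 2 ≤ (⟪v, ζ⟫_ℂ).re} := by
      refine closure_minimal (convexHull_min ?_ ?_) (isClosed_le (by fun_prop) (by fun_prop)) (h1 d hd)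
      · rintro _ ⟨_, ⟨u, a, b, c, rfl⟩, rfl⟩
        exact hc u a b c
      · exact convex_halfSpace_ge (f := fun ζ : H => (⟪v, ζ⟫_ℂ).re)
          ⟨fun a b => by simp [inner_add_right], fun c a => by
            rw [← Complex.coe_smul, inner_smul_right]; simp⟩ _
    simp only [Set.mem_setOf_eq] at this
    linarith
  obtain ⟨u, a, b, c, e⟩ := out
  refine ⟨u, a, b, fun w hw => (TRD.state h a b hw).trans (mul_le_mul_of_nonneg_right
    ((mul_le_mul_of_nonneg_left c (by positivity)).trans d1) (norm_nonneg _)), z, zc.1, zc.2, z2, ?_⟩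
  have n := (Complex.abs_re_le_norm _).trans ((norm_inner_le_norm (𝕜 := ℂ) v _).trans
    (mul_le_mul_of_nonneg_left ((TRD.gen h a b hy).trans
      (mul_le_mul_of_nonneg_left c (norm_nonneg _))) (norm_nonneg _)))
  rw [inner_sub_right, Complex.sub_re] at n
  rw [ContinuousLinearMap.sub_apply, z3, inner_sub_right, Complex.sub_re]
  linarith [(abs_le.1 n).1]

end Vale.Agent.P096
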