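import Vale.Agent.P096.TNear
import Vale.Agent.P096.Dk
import Vale.Agent.P096.Red

/-! The tensor product algebra. -/

open scoped InnerProductSpace Topology
open Filter

namespace Vale.Agent.P096

open Vale.Agent.P104 Vale.Agent.P132

variable {K L : Type*} [NormedAddCommGroup K] [InnerProductSpace ℂ K] [CompleteSpace K]
  [NormedAddCommGroup L] [InnerProductSpace ℂ L] [CompleteSpace L]

theorem Gen.cyc {V : K →L[ℂ] L} {I : Type*} {A : I → (L →L[ℂ] L)} (hG : Gen V A)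
    {N : VonNeumannAlgebra K} {P : VonNeumannAlgebra L} {ξ : K} (hc : Cyc N ξ)
    (hd : ∀ x ∈ N, ∃ X ∈ P, X (V ξ) = V (x ξ)) (hA : ∀ i, A i ∈ P) : Cyc P (V ξ) := by
  let S : Submodule ℂ L :=
    { carrier := {ζ | ∃ X ∈ P, X (V ξ) = ζ}
      add_mem' := by
        rintro _ _ ⟨X, hX, rfl⟩ ⟨Y, hY, rfl⟩
        exact ⟨X + Y, add_mem hX hY, rfl⟩
      zero_mem' := ⟨0, zero_mem _, rfl⟩
      smul_mem' := by
        rintro c _ ⟨X, hX, rfl⟩
        exact ⟨c • X, vn_smul c hX, rfl⟩ }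
  have inv : ∀ T ∈ P, ∀ ζ ∈ S.topologicalClosure, T ζ ∈ S.topologicalClosure := fun T hT ζ hζ =>
    map_mem_closure (f := T) (s := (S : Set L)) (t := (S : Set L)) T.continuous hζ (by
      rintro _ ⟨X, hX, rfl⟩
      exact ⟨T * X, mul_mem hT hX, rfl⟩)
  have hall := hG S.topologicalClosure S.isClosed_topologicalClosure (fun η => ?_)
    fun i ζ hζ => ⟨inv _ (hA i) ζ hζ, inv _ (star_mem (hA i)) ζ hζ⟩
  · intro ζ ε hε
    obtain ⟨_, ⟨X, hX, rfl⟩, hd⟩ := Metric.mem_closure_iff.1 (hall ζ) ε hε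
    exact ⟨X, hX, by rw [← dist_eq_norm]; exact hd.le⟩
  · refine map_mem_closure (f := V) (s := {η | ∃ x ∈ N, x ξ = η}) (t := (S : Set L))
      V.continuous (Metric.mem_closure_iff.2 fun ε hε => ?_) ?_
    · obtain ⟨x, hx, hd⟩ := hc η (ε / 2) (half_pos hε)
      exact ⟨x ξ, ⟨x, hx, rfl⟩, by rw [dist_eq_norm]; linarith⟩
    · rintro _ ⟨x, hx, rfl⟩
      exact hd x hx

theorem cen_of_partner {P : VonNeumannAlgebra L} {ζ : L} {X Y : L →L[ℂ] L} (hX : X ∈ P)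
    (hY : Y ∈ P.commutant) (e : X ζ = Y ζ) (e' : star X ζ = star Y ζ) : X ∈ Cen P ζ :=
  ⟨hX, fun x hx => by
    rw [mul_apply_eq_comp, mul_apply_eq_comp, ← inner_star_left, e', inner_star_left, e,
      ← mul_apply_eq_comp, (commute_of_mem P hY hx).eq, mul_apply_eq_comp]⟩

theorem cen_mul {P : VonNeumannAlgebra L} {ζ : L} {X Y : L →L[ℂ] L} (hX : X ∈ Cen P ζ)
    (hY : Y ∈ Cen P ζ) : X * Y ∈ Cen P ζ :=
  ⟨mul_mem hX.1 hY.1, fun x hx => by
    rw [mul_assoc, hX.2 _ (mul_mem hY.1 hx), mul_assoc, hY.2 _ (mul_mem hx hX.1), mul_assoc]⟩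

namespace Legs

variable (G : Legs K L) {N M : VonNeumannAlgebra K} {ξ : K}

theorem mem_ten {X : L →L[ℂ] L} : X ∈ G.ten N ↔
    X ∈ vnc (G.d '' (N.commutant : Set (K →L[ℂ] K))) ∧ X ∈ vnc (Set.range G.B) := by
  simp only [ten, mem_vnc, Set.mem_union, or_imp, forall_and]
  tauto

theorem d_vnc_B (x : K →L[ℂ] K) : G.d x ∈ vnc (Set.range G.B) := mem_vnc.2 (by
  rintro _ ⟨σ, rfl⟩
  refine ⟨(G.dB x σ).symm.eq, ?_⟩
  have := (G.dB (star x) σ).star_star
  rw [← map_star, star_star] at this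
  exact this.symm.eq)

theorem B_vnc_d (S : Set (K →L[ℂ] K)) (σ : ℝ × ℕ) : G.B σ ∈ vnc (G.d '' S) := mem_vnc.2 (by
  rintro _ ⟨y, -, rfl⟩
  exact ⟨(G.dB y σ).eq, by rw [← map_star]; exact (G.dB _ σ).eq⟩)

theorem d_mem {x : K →L[ℂ] K} (hx : x ∈ N) : G.d x ∈ G.ten N :=
  G.mem_ten.2 ⟨mem_vnc.2 (by
    rintro _ ⟨y, hy, rfl⟩
    rw [← map_star, ← map_mul, ← map_mul, ← map_mul, ← map_mul, (commute_of_mem N hy hx).eq,
      (commute_of_mem N (star_mem hy) hx).eq]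
    exact ⟨rfl, rfl⟩), G.d_vnc_B x⟩

theorem A_mem (σ : ℝ × ℕ) : G.A σ ∈ G.ten N :=
  G.mem_ten.2 ⟨mem_vnc.2 (by
    rintro _ ⟨y, -, rfl⟩
    exact ⟨(G.dA y σ).eq, by rw [← map_star]; exact (G.dA _ σ).eq⟩), mem_vnc.2 (by
    rintro _ ⟨τ, rfl⟩
    refine ⟨(G.AB σ τ).symm.eq, ?_⟩
    have := (G.AB' σ τ).star_star
    rw [star_star] at this
    exact this.symm.eq)⟩

theorem d_mem' {y : K →L[ℂ] K} (hy : y ∈ N.commutant) : G.d y ∈ (G.ten N).commutant :=
  mem_vnc_commutant (Or.inl ⟨y, hy, rfl⟩)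

theorem B_mem' (σ : ℝ × ℕ) : G.B σ ∈ (G.ten N).commutant :=
  mem_vnc_commutant (Or.inr ⟨σ, rfl⟩)

theorem cyc (h : Cyc N ξ) : Cyc (G.ten N) (G.V ξ) :=
  G.genA.cyc h (fun x hx => ⟨G.d x, G.d_mem hx, G.dV x ξ⟩) G.A_mem

theorem sep (h : Sep N ξ) : Sep (G.ten N) (G.V ξ) := by
  have := (G.genB.cyc (P := (G.ten N).commutant) h.cyc_comm
    (fun y hy => ⟨G.d y, G.d_mem' hy, G.dV y ξ⟩) G.B_mem').sep_comm
  rwa [VonNeumannAlgebra.commutant_commutant] at this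

theorem tail_ten (N : VonNeumannAlgebra K) (ξ : K) : Tail (G.ten N) (G.V ξ) := by
  intro c hc
  have e1 : Real.exp (2 * Real.log c / 2) = c := by
    rw [mul_div_cancel_left₀ _ two_ne_zero, Real.exp_log hc]
  have e2 : Real.exp (2 * Real.log c) = c ^ 2 := by
    rw [two_mul, Real.exp_add, Real.exp_log hc, sq]
  set s := 2 * Real.log c
  set r := √(1 + c ^ 2) with hr
  have r0 : 0 ≤ r := Real.sqrt_nonneg _
  have r2 : r ^ 2 = 1 + c ^ 2 := Real.sq_sqrt (by positivity)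
  have hc' : (c : ℂ) ≠ 0 := by exact_mod_cast hc.ne'
  have s1 : ∀ n, star ((r : ℂ) • G.A (s, n)) = (r : ℂ) • star (G.A (s, n)) := fun n => by
    rw [star_smul, Complex.star_def, Complex.conj_ofReal]
  have s2 : ∀ n, star (((r / c : ℝ) : ℂ) • star (G.B (s, n))) = ((r / c : ℝ) : ℂ) • G.B (s, n) :=
    fun n => by rw [star_smul, Complex.star_def, Complex.conj_ofReal, star_star]
  have k1 : ∀ n η, ((r : ℂ) • G.A (s, n)) η - (((r / c : ℝ) : ℂ) • star (G.B (s, n))) η =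
      ((r / c : ℝ) : ℂ) • (((Real.exp (s / 2) : ℝ) : ℂ) • G.A (s, n) η - star (G.B (s, n)) η) :=
    fun n η => by
      rw [e1, smul_sub, smul_smul, smul_apply, smul_apply, Complex.ofReal_div,
        div_mul_cancel₀ _ hc']
  have k2 : ∀ n η, star ((r : ℂ) • G.A (s, n)) η -
      ((c ^ 2 : ℝ) : ℂ) • star (((r / c : ℝ) : ℂ) • star (G.B (s, n))) η =
      (r : ℂ) • (star (G.A (s, n)) η - ((Real.exp (s / 2) : ℝ) : ℂ) • G.B (s, n) η) :=
    fun n η => by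
      have : ((c ^ 2 : ℝ) : ℂ) * ((r / c : ℝ) : ℂ) = r * c := by
        push_cast
        field_simp
      rw [e1, s1, s2, smul_sub, smul_apply, smul_apply, smul_smul, smul_smul, this]
  have nr : ∀ v : L, ‖(r : ℂ) • v‖ = √((1 + c ^ 2) * ‖v‖ ^ 2) := fun v => by
    rw [norm_smul, Complex.norm_real, Real.norm_of_nonneg r0, Real.sqrt_mul (by positivity),
      Real.sqrt_sq (norm_nonneg _)]
  refine ⟨fun n => (r : ℂ) • G.A (s, n), fun n => ((r / c : ℝ) : ℂ) • star (G.B (s, n)),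
    ⟨fun n => vn_smul _ (G.A_mem _), r, fun n => ?_⟩,
    fun n => vn_smul _ (star_mem (G.B_mem' _)), fun n => ?_, fun n => ?_, fun η => ?_,
    fun η => ?_, fun η => ?_, fun η => ?_⟩
  · rw [norm_smul, Complex.norm_real, Real.norm_of_nonneg r0]
    exact mul_le_of_le_one_right r0 (G.carA.norm_le _)
  · rw [← sub_eq_zero, k1, G.vac, sub_self, smul_zero]
  · rw [← sub_eq_zero, k2, G.vac', sub_self, smul_zero]
  · simp only [k1]
    simpa using (G.tail s η).const_smul ((r / c : ℝ) : ℂ)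
  · simp only [k2]
    simpa using (G.tail' s η).const_smul (r : ℂ)
  · have := (G.nrm s η).sqrt
    rw [e2, Real.sqrt_sq (norm_nonneg _)] at this
    simpa only [smul_apply, nr] using this
  · have h1 := ((G.nrm s η).const_sub ((1 + c ^ 2) * ‖η‖ ^ 2)).sqrt
    have h2 : √((1 + c ^ 2) * ‖η‖ ^ 2 - ‖η‖ ^ 2) = c * ‖η‖ := by
      rw [← Real.sqrt_sq (by positivity : 0 ≤ c * ‖η‖)]
      congr 1
      ring
    rw [e2, h2] at h1
    refine h1.congr fun n => ?_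
    rw [s1, smul_apply, nr, ← G.carA.norm_sq (s, n) η]
    congr 1
    ring

theorem m22 (N : VonNeumannAlgebra K) (ξ : K) : M22 (Cen (G.ten N) (G.V ξ)) := by
  have v1 : ∀ n, G.A (0, n) (G.V ξ) = star (G.B (0, n)) (G.V ξ) := fun n => by
    simpa using G.vac 0 n ξ
  have v2 : ∀ n, star (G.A (0, n)) (G.V ξ) = G.B (0, n) (G.V ξ) := fun n => by
    simpa using G.vac' 0 n ξ
  have c1 : ∀ n, G.A (0, n) ∈ Cen (G.ten N) (G.V ξ) := fun n =>
    cen_of_partner (G.A_mem _) (star_mem (G.B_mem' _)) (v1 n) (by rw [star_star, v2])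
  have c2 : ∀ n, star (G.A (0, n)) ∈ Cen (G.ten N) (G.V ξ) := fun n =>
    cen_of_partner (star_mem (G.A_mem _)) (G.B_mem' _) (v2 n) (by rw [star_star, v1])
  have hne : ((0 : ℝ), (0 : ℕ)) ≠ (0, 1) := by simp
  have m1 := G.carA.comm _ _ hne
  have m2 := G.carA.comm' _ _ hne
  have m3 := m2.star_star
  have m4 := m1.star_star
  rw [star_star] at m3
  have q : ∀ T : L →L[ℂ] L, Commute T (G.A (0, 1)) → Commute T (star (G.A (0, 1))) →
      ∀ k l : Fin 2, Commute T (![![star (G.A (0, 1)) * G.A (0, 1), star (G.A (0, 1))],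
        ![G.A (0, 1), G.A (0, 1) * star (G.A (0, 1))]] k l) := fun T h1 h2 k l => by
    fin_cases k <;> fin_cases l
    exacts [h2.mul_right h1, h2, h1, h1.mul_right h2]
  refine ⟨_, _, G.carA.isMU (0, 0), G.carA.isMU (0, 1), fun i j => ?_, fun i j => ?_⟩
  · fin_cases i <;> fin_cases j
    exacts [q _ (m2.mul_left m1) (m4.mul_left m3), q _ m2 m4, q _ m1 m3,
      q _ (m1.mul_left m2) (m3.mul_left m4)]
  · fin_cases i <;> fin_cases j
    exacts [⟨cen_mul (c2 0) (c1 0), cen_mul (c2 1) (c1 1)⟩, ⟨c2 0, c2 1⟩, ⟨c1 0, c1 1⟩,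
      ⟨cen_mul (c1 0) (c2 0), cen_mul (c1 1) (c2 1)⟩]

theorem lift {ε : ℝ} (hε : 0 ≤ ε) (h : Lift ε (G.ten N) (G.ten M)) : Lift ε N M := by
  have hV : ‖G.V‖ ≤ 1 := ContinuousLinearMap.opNorm_le_bound _ zero_le_one fun η => by
    rw [one_mul, norm_eq_sqrt_re_inner (𝕜 := ℂ), norm_eq_sqrt_re_inner (𝕜 := ℂ) η, G.iso]
  have := lift_cmpr (N := N) (M := M) G.V hV G.d (fun x _ y _ => map_add _ _ _)
    (fun c x _ => map_smul _ _ _)
    (fun x hx => ⟨G.d_mem hx, NonUnitalStarAlgHom.norm_apply_le G.d x⟩)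
    (fun Y hY => mem_of_commute M fun y hy => ?_) hε h
  · have e : ∀ x, cmpr G.V (G.d x) = x := fun x => ContinuousLinearMap.ext fun η =>
      ext_inner_left ℂ fun ζ => by rw [inner_cmpr, G.dV, G.iso]
    simp only [e] at this
    exact this
  · refine ContinuousLinearMap.ext fun η => ext_inner_left ℂ fun ζ => ?_
    rw [mul_apply_eq_comp, mul_apply_eq_comp, ← inner_star_left, inner_cmpr, inner_cmpr, ← G.dV,
      ← G.dV, map_star, inner_star_left, ← mul_apply_eq_comp,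
      (commute_of_mem _ (G.d_mem' hy) hY).eq, mul_apply_eq_comp]

end Legs

universe u

theorem Legs.close {K L : Type u} [NormedAddCommGroup K] [InnerProductSpace ℂ K] [CompleteSpace K]
    [NormedAddCommGroup L] [InnerProductSpace ℂ L] [CompleteSpace L] (G : Legs K L)
    {N M : VonNeumannAlgebra K} {γ : ℝ} (h : Close γ N M) (hγ : 0 ≤ γ) :
    Close (4 * dk.{u} ^ 2 * γ) (G.ten N) (G.ten M) := by
  have hk : 0 ≤ dk.{u} := zero_le_one.trans one_le_dk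
  have h1 := close_vnc_image G.d (h.commutant hγ) (by positivity)
  have e : 2 * dk.{u} * (2 * dk.{u} * γ) = 4 * dk.{u} ^ 2 * γ := by ring
  rw [e] at h1
  have es : ∀ A : VonNeumannAlgebra K, (G.ten A : Set (L →L[ℂ] L)) =
      {x | x ∈ vnc (G.d '' (A.commutant : Set (K →L[ℂ] K))) ∧ x ∈ vnc (Set.range G.B)} :=
    fun A => Set.ext fun _ => G.mem_ten
  constructor <;> rw [es, es]
  exacts [near_car G.carB (G.B_vnc_d _) h1.1, near_car G.carB (G.B_vnc_d _) h1.2]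

end Vale.Agent.P096
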