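import Vale.Agent.P096.TFin
import Vale.Agent.P096.TRD
import Vale.Agent.P096.TLegs
import Vale.Agent.P096.TTen

/-! Tensoring with an algebra with many tail eigenoperators. -/

open scoped InnerProductSpace Topology
open Filter

namespace Vale.Agent.P096

open Vale.Agent.P104 Vale.Agent.P132

universe u v w

theorem kk1_of_kk2 (h : KK.{u} P2) : KK.{u} P1 := by
  intro ε hε
  obtain ⟨δ, hδ, H⟩ := h ε hε
  have hk : 0 < dk.{u} := one_pos.trans_le one_le_dk
  refine ⟨δ / (4 * dk.{u} ^ 2), by positivity, fun K _ _ _ N M hP hc => ?_⟩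
  obtain ⟨ξ, h1, h2⟩ := hP
  obtain ⟨L, _, _, _, ⟨G⟩⟩ := exists_legs K
  obtain ⟨J, F, hm⟩ := exists_mod (G.cyc h1) (G.sep h2)
  refine G.lift hε.le (H L _ _ ⟨G.V ξ, G.cyc h1, G.sep h2, rd_of_bic hm fun a ha =>
    bic_central hm (G.tail_ten N ξ) (G.m22 N ξ) ha, G.m22 N ξ⟩
    ((G.close hc (by positivity)).mono (le_of_eq ?_)))
  field_simp

end Vale.Agent.P096
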