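import Vale.Agent.P096.Ultra

/-! Ergodicity in the ultrapower. -/

open scoped InnerProductSpace Topology
open Filter

namespace Vale.Agent.P096

open Vale.Agent.P104 Vale.Agent.P132

universe u v w

section Cor

variable {K L : Type*} [NormedAddCommGroup K] [InnerProductSpace ℂ K] [CompleteSpace K]
  [NormedAddCommGroup L] [InnerProductSpace ℂ L] [CompleteSpace L] {N : VonNeumannAlgebra L}
  {ξ : L} {e p a b : L →L[ℂ] L} {V : K →L[ℂ] L} {N₁ : VonNeumannAlgebra K}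

theorem ult_cen_star (ha : a ∈ Cen N ξ) : star a ∈ Cen N ξ := ⟨star_mem ha.1, fun x hx => by
  have := congrArg (starRingEnd ℂ) (ha.2 _ (star_mem hx))
  rw [inner_conj_symm, inner_conj_symm, ← inner_star_right, ← inner_star_right, star_mul, star_mul,
    star_star] at this
  exact this.symm⟩

theorem Iso.ult_idem (h : Iso V p) : p * p = p := by
  ext ζ
  rw [mul_apply_eq_comp, ← h.right ζ, ← h.right, h.left]

theorem Iso.ult_mul (h : Iso V p) (ha : Commute a p) (b : L →L[ℂ] L) :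
    cmpr V a * cmpr V b = cmpr V (a * b) ∧ cmpr V b * cmpr V a = cmpr V (b * a) := by
  constructor
  · rw [h.cmpr_mul, ← h.cmpr_proj, ← h.cmpr_proj (a * b), ha.eq, ← mul_assoc, ← mul_assoc,
      h.ult_idem, mul_assoc p a]
  · rw [h.cmpr_mul, ← h.cmpr_proj, ← h.cmpr_proj (b * a), mul_assoc b, ← ha.eq, mul_assoc p,
      mul_assoc p, mul_assoc b, mul_assoc a, h.ult_idem, mul_assoc b]

theorem Cor.ult_V (h : Cor N ξ e p V N₁) : V (ContinuousLinearMap.adjoint V ξ) = ξ := by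
  have h1 : p ξ = ξ := h.p_fix 1 (one_mem _)
  have h2 : e ξ = ξ := h.e_fix 1 (one_mem _)
  rw [h.iso.right, mul_apply_eq_comp, h1, h2]

theorem Cor.ult_inner (h : Cor N ξ e p V N₁) (v : K) (x : L →L[ℂ] L) :
    ⟪v, cmpr V x (ContinuousLinearMap.adjoint V ξ)⟫_ℂ = ⟪V v, x ξ⟫_ℂ := by
  rw [inner_cmpr, h.ult_V]

theorem Cor.ult_comm (h : Cor N ξ e p V N₁) (ha : a ∈ Cen N ξ) : Commute a (e * p) := by
  have h2 : (1 - e) ξ = 0 := sub_eq_zero.2 (h.e_fix 1 (one_mem _)).symm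
  have hq := h.e_proj.one_sub
  have k : ∀ a ∈ Cen N ξ, a * e = e * a * e := fun a ha => by
    have hm : (1 - e) * a ∈ N := mul_mem (sub_mem (one_mem _) h.e_mem) ha.1
    have := h.e_min _ hm (by
      rw [← inner_self_eq_zero (𝕜 := ℂ), ← inner_star_right, ← mul_apply_eq_comp, star_mul,
        hq.isSelfAdjoint.star_eq, mul_assoc, ← mul_assoc (1 - e), hq.isIdempotentElem.eq,
        (ult_cen_star ha).2 _ hm, mul_assoc, mul_apply_eq_comp, ← inner_star_left,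
        hq.isSelfAdjoint.star_eq, h2, inner_zero_left])
    rwa [sub_mul, sub_mul, one_mul, sub_eq_zero] at this
  have k2 := congrArg star (k _ (ult_cen_star ha))
  simp only [star_mul, star_star, h.e_proj.isSelfAdjoint.star_eq, ← mul_assoc] at k2
  exact Commute.mul_right ((k a ha).trans k2.symm) (commute_of_mem N h.p_mem ha.1).symm

theorem Cor.ult_cen (h : Cor N ξ e p V N₁) (ha : a ∈ Cen N ξ) :
    cmpr V a ∈ Cen N₁ (ContinuousLinearMap.adjoint V ξ) := by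
  refine ⟨(h.mem _).2 ⟨a, ha.1, rfl⟩, fun x hx => ?_⟩
  obtain ⟨y, hy, rfl⟩ := (h.mem _).1 hx
  obtain ⟨e1, e2⟩ := h.iso.ult_mul (h.ult_comm ha) y
  rw [e1, e2, h.ult_inner, h.ult_inner, h.ult_V, ha.2 y hy]

theorem Cor.ult_m22 (h : Cor N ξ e p V N₁) (h2 : M22 (Cen N ξ)) :
    M22 (Cen N₁ (ContinuousLinearMap.adjoint V ξ)) := by
  obtain ⟨a, b, ha, hb, hab, hm⟩ := h2
  have h0 : cmpr V 0 = 0 := by simpa using cmpr_smul V 0 0
  have k : ∀ a : Fin 2 → Fin 2 → (L →L[ℂ] L), IsMU 1 a → (∀ i j, a i j ∈ Cen N ξ) →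
      IsMU 1 fun i j => cmpr V (a i j) := fun a ha hm =>
    ⟨fun s t s' t' => by
      rw [(h.iso.ult_mul (h.ult_comm (hm _ _)) _).1, ha.mul, apply_ite (cmpr V), h0],
    fun s t => by rw [cmpr_star, ha.star],
    by rw [Fin.sum_univ_two, ← cmpr_add, ← h.iso.cmpr_one, ← ha.sum, Fin.sum_univ_two]⟩
  refine ⟨_, _, k a ha fun i j => (hm i j).1, k b hb fun i j => (hm i j).2, fun i j k l => ?_,
    fun i j => ⟨h.ult_cen (hm i j).1, h.ult_cen (hm i j).2⟩⟩
  obtain ⟨e1, e2⟩ := h.iso.ult_mul (h.ult_comm (hm i j).1) (b k l)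
  exact e1.trans ((congrArg _ (hab i j k l).eq).trans e2.symm)

end Cor

section UP

variable {K L : Type u} [NormedAddCommGroup K] [InnerProductSpace ℂ K] [CompleteSpace K]
  [NormedAddCommGroup L] [InnerProductSpace ℂ L] [CompleteSpace L] {N M : VonNeumannAlgebra K}
  {ξ : K} (U : UP K L)

/-- Bounded sequences in `N`. -/
noncomputable def ultA (N : VonNeumannAlgebra K) :
    StarSubalgebra ℂ (BoundedContinuousFunction ℕ (K →L[ℂ] K)) where
  carrier := {x | ∀ n, x n ∈ N}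
  mul_mem' hx hy n := mul_mem (hx n) (hy n)
  add_mem' hx hy n := add_mem (hx n) (hy n)
  algebraMap_mem' c _ := algebraMap_mem N.toStarSubalgebra c
  star_mem' hx n := star_mem (hx n)

theorem ultA_closed (N : VonNeumannAlgebra K) :
    IsClosed (ultA N : Set (BoundedContinuousFunction ℕ (K →L[ℂ] K))) := by
  have : (ultA N : Set (BoundedContinuousFunction ℕ (K →L[ℂ] K))) =
      ⋂ n, (fun x => x n) ⁻¹' (N : Set (K →L[ℂ] K)) := Set.ext fun x => by
    rw [Set.mem_iInter]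
    rfl
  rw [this]
  exact isClosed_iInter fun n => (vn_closed N).preimage (continuous_eval_const n)

theorem ult_near {A : Type u} [CStarAlgebra A] (π : A →⋆ₐ[ℂ] (L →L[ℂ] L)) {S : StarSubalgebra ℂ A}
    (hS : IsClosed (S : Set A)) {B : Set (L →L[ℂ] L)} {γ : ℝ} (hγ : 0 ≤ γ)
    (h : ∀ a ∈ S, ∃ y ∈ B, ‖π a - y‖ ≤ γ * ‖a‖) :
    Near (2 * dk.{u} * γ) (vnc B : Set (L →L[ℂ] L)) (vnc (π '' S)) := by
  rw [Set.image_eq_range]
  exact near_vnc (π.comp S.subtype) hγ fun a => h a a.2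

theorem ult_star {A : Type u} [CStarAlgebra A] (π : A →⋆ₐ[ℂ] (L →L[ℂ] L))
    (S : StarSubalgebra ℂ A) : ∀ y ∈ π '' S, star y ∈ π '' S := by
  rintro _ ⟨a, ha, rfl⟩
  exact ⟨star a, star_mem ha, map_star _ _⟩

theorem ult_bicomm {A : Type u} [CStarAlgebra A] (π : A →⋆ₐ[ℂ] (L →L[ℂ] L))
    {S : StarSubalgebra ℂ A} (hS : IsClosed (S : Set A)) {α β α' β' : L}
    (h : ∀ x ∈ S, ⟪α, π x β⟫_ℂ = ⟪α', π x β'⟫_ℂ) {X : L →L[ℂ] L}
    (hX : X ∈ (vnc (π '' S)).commutant) : ⟪α, X β⟫_ℂ = ⟪α', X β'⟫_ℂ := by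
  have := bicomm_inner (π.comp S.subtype) ![α, -α'] ![β, β'] (fun a => by
    simp only [Fin.sum_univ_two, Matrix.cons_val_zero, Matrix.cons_val_one, inner_neg_left]
    exact add_neg_eq_zero.2 (h a a.2)) (x := X) fun y hy =>
      VonNeumannAlgebra.mem_commutant_iff.1 hX y ((mem_vnc' (ult_star π S)).2 (by
        rintro _ ⟨a, ha, rfl⟩
        exact hy _ ⟨⟨a, ha⟩, rfl⟩))
  simpa only [Fin.sum_univ_two, Matrix.cons_val_zero, Matrix.cons_val_one, inner_neg_left,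
    add_neg_eq_zero] using this

/-- The generated von Neumann algebra. -/
noncomputable def UP.vn (N : VonNeumannAlgebra K) : VonNeumannAlgebra L :=
  (vnc (U.π '' ultA N)).commutant

theorem UP.mem_vn {x : BoundedContinuousFunction ℕ (K →L[ℂ] K)} (hx : ∀ n, x n ∈ N) :
    U.π x ∈ U.vn N := mem_vnc_commutant ⟨x, hx, rfl⟩

theorem UP.mem_vn' {y : BoundedContinuousFunction ℕ (K →L[ℂ] K)} (hy : ∀ n, y n ∈ N.commutant) :
    U.π y ∈ (U.vn N).commutant := by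
  rw [UP.vn, VonNeumannAlgebra.commutant_commutant, mem_vnc' (ult_star U.π _)]
  rintro _ ⟨a, ha, rfl⟩
  exact (map_mul U.π _ _).symm.trans ((congrArg U.π (BoundedContinuousFunction.ext fun n =>
    (commute_of_mem N (hy n) (ha n)).eq.symm)).trans (map_mul U.π _ _))

theorem UP.bicomm {α β α' β' : L}
    (h : ∀ x : BoundedContinuousFunction ℕ (K →L[ℂ] K), (∀ n, x n ∈ N) →
      ⟪α, U.π x β⟫_ℂ = ⟪α', U.π x β'⟫_ℂ) {X : L →L[ℂ] L} (hX : X ∈ U.vn N) :
    ⟪α, X β⟫_ℂ = ⟪α', X β'⟫_ℂ := ult_bicomm U.π (ultA_closed N) h hX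

theorem UP.near {δ : ℝ} (hδ : 0 ≤ δ) (h : Near δ (N : Set (K →L[ℂ] K)) M) :
    Near (2 * dk.{u} * δ) (vnc (U.π '' ultA M) : Set (L →L[ℂ] L)) (vnc (U.π '' ultA N)) := by
  refine ult_near U.π (ultA_closed N) hδ fun a ha => ?_
  choose y hy hn using fun n => h _ (ha n)
  have k : ∀ n, ‖a n - y n‖ ≤ δ * ‖a‖ := fun n =>
    (hn n).trans (mul_le_mul_of_nonneg_left (a.norm_coe_le_norm n) hδ)
  obtain ⟨d, hd⟩ : ∃ d : BoundedContinuousFunction ℕ (K →L[ℂ] K), ∀ n, d n = a n - y n :=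
    ⟨.ofNormedAddCommGroupDiscrete (fun n => a n - y n) _ k, fun _ => rfl⟩
  have hm : a - d ∈ ultA M := fun n => by
    rw [BoundedContinuousFunction.sub_apply, hd, sub_sub_cancel]
    exact hy n
  have : ‖U.π a - U.π (a - d)‖ ≤ δ * ‖a‖ := by
    rw [← map_sub, sub_sub_cancel]
    exact (NonUnitalStarAlgHom.norm_apply_le U.π d).trans
      ((BoundedContinuousFunction.norm_le ((norm_nonneg _).trans (k 0))).2 fun n => hd n ▸ k n)
  exact ⟨_, ⟨a - d, hm, rfl⟩, this⟩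

theorem UP.norm_le (a : BoundedContinuousFunction ℕ K) {C : ℝ} (h : ∀ n, ‖a n‖ ≤ C) :
    ‖U.q a‖ ≤ C := le_of_tendsto' (ult_norm (U.inner a a)) h

theorem UP.inner_pi (a b : BoundedContinuousFunction ℕ K)
    (x : BoundedContinuousFunction ℕ (K →L[ℂ] K)) :
    Tendsto (fun n => ⟪a n, x n (b n)⟫_ℂ) (hyperfilter ℕ) (𝓝 ⟪U.q a, U.π x (U.q b)⟫_ℂ) := by
  rw [U.act x b (ultAct x b) fun _ => rfl]
  exact U.inner _ _

/-- The diagonal embedding. -/
noncomputable def UP.V0 : K →L[ℂ] L :=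
  LinearMap.mkContinuous
    { toFun := fun η => U.q (.const ℕ η)
      map_add' := fun _ _ => map_add U.q (.const ℕ _) (.const ℕ _)
      map_smul' := fun c _ => map_smul U.q c (.const ℕ _) } 1
    fun η => U.norm_le _ fun _ => (one_mul _).ge

theorem UP.inner_V0 (η ζ : K) : ⟪U.V0 η, U.V0 ζ⟫_ℂ = ⟪η, ζ⟫_ℂ :=
  tendsto_nhds_unique (U.inner _ _) tendsto_const_nhds

theorem UP.pi_V0 (x : K →L[ℂ] K) (η : K) : U.π (.const ℕ x) (U.V0 η) = U.V0 (x η) :=
  U.act _ _ _ fun _ => rfl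

theorem UP.cen {a : BoundedContinuousFunction ℕ (K →L[ℂ] K)} (ha : ∀ n, a n ∈ N)
    (h : ∀ x : BoundedContinuousFunction ℕ (K →L[ℂ] K), (∀ n, x n ∈ N) → Tendsto
      (fun n => ⟪ξ, (x n * a n) ξ⟫_ℂ - ⟪ξ, (a n * x n) ξ⟫_ℂ) (hyperfilter ℕ) (𝓝 0)) :
    U.π a ∈ Cen (U.vn N) (U.V0 ξ) := by
  refine ⟨U.mem_vn ha, fun X hX => ?_⟩
  rw [mul_apply_eq_comp, mul_apply_eq_comp, ← inner_star_left]
  refine U.bicomm (fun x hx => ?_) hX
  rw [inner_star_left, ← mul_apply_eq_comp, ← mul_apply_eq_comp, ← map_mul, ← map_mul]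
  exact (sub_eq_zero.1 (tendsto_nhds_unique
    ((U.inner_pi _ _ (x * a)).sub (U.inner_pi _ _ (a * x))) (h x hx))).symm

theorem UP.m22 (h2 : M22 (Cen N ξ)) : M22 (Cen (U.vn N) (U.V0 ξ)) := by
  obtain ⟨a, b, ha, hb, hab, hm⟩ := h2
  have k : ∀ a : Fin 2 → Fin 2 → (K →L[ℂ] K), IsMU 1 a →
      IsMU 1 fun i j => U.π (.const ℕ (a i j)) := fun a ha =>
    ⟨fun s t s' t' => by
      rw [← map_mul, show BoundedContinuousFunction.const ℕ (a s t) * .const ℕ (a s' t') =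
        .const ℕ (a s t * a s' t') from rfl, ha.mul]
      split_ifs
      exacts [rfl, map_zero U.π],
    fun s t => by
      rw [← map_star, ← ha.star s t]
      rfl,
    by
      rw [Fin.sum_univ_two, ← map_add, ← map_one U.π]
      exact congrArg U.π (BoundedContinuousFunction.ext fun _ =>
        (Fin.sum_univ_two fun t => a t t).symm.trans ha.sum)⟩
  have c : ∀ a ∈ Cen N ξ, U.π (.const ℕ a) ∈ Cen (U.vn N) (U.V0 ξ) := fun a ha =>
    U.cen (fun _ => ha.1) fun x hx => tendsto_const_nhds.congr fun n =>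
      (sub_eq_zero.2 (ha.2 _ (hx n)).symm).symm
  exact ⟨_, _, k a ha, k b hb, fun i j k l => Commute.map (f := U.π)
    (BoundedContinuousFunction.ext fun _ => (hab i j k l).eq),
    fun i j => ⟨c _ (hm i j).1, c _ (hm i j).2⟩⟩

theorem UP.erg (hR : RD N ξ) {K₁ : Type u} [NormedAddCommGroup K₁] [InnerProductSpace ℂ K₁]
    [CompleteSpace K₁] {e p : L →L[ℂ] L} {V : K₁ →L[ℂ] L} {N₁ : VonNeumannAlgebra K₁}
    (h : Cor (U.vn N) (U.V0 ξ) e p V N₁) : Erg N₁ (ContinuousLinearMap.adjoint V (U.V0 ξ)) := by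
  intro v h1 h2
  have hδ : Tendsto (fun n : ℕ => 1 / ((n : ℝ) + 1)) (hyperfilter ℕ) (𝓝 0) :=
    tendsto_one_div_add_atTop_nhds_zero_nat.mono_left Nat.hyperfilter_le_atTop
  have k1 : ∀ y : BoundedContinuousFunction ℕ (K →L[ℂ] K), (∀ n, y n ∈ N) →
      (⟪V v, U.π y (U.V0 ξ)⟫_ℂ).re ≤ 0 := fun y hy => by
    have y0 : 0 ≤ ‖y‖ := norm_nonneg y
    refine le_of_forall_pos_le_add fun ε hε => ?_
    obtain ⟨b, hb⟩ := Metric.denseRange_iff.1 U.dense (V v)
      (ε / (2 * ‖y‖ * ‖ξ‖ + 1)) (by positivity)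
    choose u hu hu1 hu2 z hz hz' hz1 hz2 using fun n : ℕ =>
      hR _ (hy n) (b n) (1 / ((n : ℝ) + 1)) (by positivity)
    have nu : ∀ n, ‖u n‖ ≤ 1 := fun n => ContinuousLinearMap.opNorm_le_bound _ zero_le_one
      fun η => by rw [one_mul, ContinuousLinearMap.norm_map_of_mem_unitary (hu1 n)]
    have nz : ∀ n, ‖z n‖ ≤ ‖y‖ := fun n => (hz1 n).trans (y.norm_coe_le_norm n)
    let u' := BoundedContinuousFunction.ofNormedAddCommGroupDiscrete u _ nu
    let z' := BoundedContinuousFunction.ofNormedAddCommGroupDiscrete z _ nz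
    have c1 : U.π u' ∈ Cen (U.vn N) (U.V0 ξ) := U.cen hu fun x hx => by
      refine squeeze_zero_norm (fun n => ?_) (by simpa using hδ.mul_const ‖x‖)
      have := hu2 n _ (mul_mem (hu n) (hx n))
      rw [← mul_assoc, Unitary.star_mul_self_of_mem (hu1 n), one_mul,
        CStarRing.norm_mem_unitary_mul _ (hu1 n), one_div] at this
      exact this.trans (mul_le_mul_of_nonneg_left (x.norm_coe_le_norm n) (by positivity))
    have c2 := h.iso.ult_mul (h.ult_comm c1)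
    have c3 : cmpr V (U.π u') ∈ unitary _ := by
      rw [Unitary.mem_iff, cmpr_star, (c2 _).1, (c2 _).2, ← map_star, ← map_mul, ← map_mul,
        show star u' * u' = 1 from BoundedContinuousFunction.ext fun n => (hu1 n).1,
        show u' * star u' = 1 from BoundedContinuousFunction.ext fun n => (hu1 n).2, map_one,
        h.iso.cmpr_one]
      exact ⟨rfl, rfl⟩
    have c4 := h1 _ (h.ult_cen c1) c3 _ ((h.mem _).2 ⟨_, U.mem_vn hy, rfl⟩)
    rw [(c2 _).1, cmpr_star, (h.iso.ult_mul (h.ult_comm (ult_cen_star c1)) _).2, h.ult_inner,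
      h.ult_inner, ← map_star, ← map_mul, ← map_mul] at c4
    have c5 := h2 _ ((h.mem _).2 ⟨_, U.mem_vn (x := z') hz, rfl⟩)
      ((h.mem' _).2 ⟨_, U.mem_vn' hz', rfl⟩)
    rw [h.ult_inner] at c5
    have c6 : (⟪U.q b, U.π (u' * y * star u' - z') (U.V0 ξ)⟫_ℂ).re ≤ 0 :=
      le_of_tendsto_of_tendsto' ((Complex.continuous_re.tendsto _).comp (U.inner_pi _ _ _)) hδ hz2
    have c7 : ‖U.π (u' * y * star u' - z') (U.V0 ξ)‖ ≤ 2 * ‖y‖ * ‖ξ‖ := by
      rw [show U.π (u' * y * star u' - z') (U.V0 ξ) = _ from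
        U.act _ _ (ultAct _ (.const ℕ ξ)) fun _ => rfl]
      refine U.norm_le _ fun n => ((u n * y n * star (u n) - z n).le_opNorm ξ).trans
        (mul_le_mul_of_nonneg_right ((norm_sub_le _ _).trans ?_) (norm_nonneg _))
      rw [CStarRing.norm_mul_mem_unitary _ (Unitary.star_mem (hu1 n)),
        CStarRing.norm_mem_unitary_mul _ (hu1 n)]
      linarith [y.norm_coe_le_norm n, nz n]
    have c8 : ⟪V v, U.π y (U.V0 ξ)⟫_ℂ = ⟪U.q b, U.π (u' * y * star u' - z') (U.V0 ξ)⟫_ℂ +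
        ⟪V v - U.q b, U.π (u' * y * star u' - z') (U.V0 ξ)⟫_ℂ := by
      rw [inner_sub_left, add_sub_cancel, map_sub, sub_apply, inner_sub_right, c4, c5, sub_zero]
    have c9 := (Complex.re_le_norm _).trans ((norm_inner_le_norm (𝕜 := ℂ) (V v - U.q b) _).trans
      (mul_le_mul_of_nonneg_left c7 (norm_nonneg _)))
    rw [dist_eq_norm, lt_div_iff₀ (by positivity)] at hb
    rw [c8, Complex.add_re]
    nlinarith [norm_nonneg (V v - U.q b)]
  have k2 : ∀ X ∈ U.vn N, ⟪V v, X (U.V0 ξ)⟫_ℂ = 0 := fun X hX => by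
    rw [← inner_zero_left (𝕜 := ℂ) (X 0)]
    refine U.bicomm (fun y hy => ?_) hX
    have k := fun c : ℂ => k1 (c • y) fun n => vn_smul c (hy n)
    simp only [map_smul, smul_apply, inner_smul_right] at k
    have a1 := k 1
    have a2 := k (-1)
    have a3 := k Complex.I
    have a4 := k (-Complex.I)
    rw [inner_zero_left]
    simp only [one_mul, neg_mul, Complex.neg_re, Complex.I_mul_re] at a1 a2 a3 a4
    exact Complex.ext (by simpa using le_antisymm a1 (by linarith))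
      (by simpa using le_antisymm (by linarith) (by linarith))
  refine inner_self_eq_zero.1 (h.cyc.ext (f := fun ζ => ⟪v, ζ⟫_ℂ) (g := fun _ => 0)
    (by fun_prop) continuous_const (fun x hx => ?_) v)
  obtain ⟨y, hy, rfl⟩ := (h.mem _).1 hx
  rw [h.ult_inner, k2 y hy]

theorem UP.cmpr_mem {y : L →L[ℂ] L} (hy : y ∈ U.vn M) : cmpr U.V0 y ∈ M := by
  refine mem_of_commute M fun z hz => ?_
  ext η
  refine ext_inner_left ℂ fun ζ => ?_
  have e1 : U.V0 (star z ζ) = star (U.π (.const ℕ z)) (U.V0 ζ) := by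
    rw [← map_star]
    exact (U.pi_V0 _ _).symm
  rw [mul_apply_eq_comp, mul_apply_eq_comp, ← inner_star_left, inner_cmpr, inner_cmpr, e1,
    ← U.pi_V0 z, inner_star_left]
  exact congrArg (fun T : L →L[ℂ] L => ⟪U.V0 ζ, T (U.V0 η)⟫_ℂ)
    (commute_of_mem _ (U.mem_vn' (y := .const ℕ z) fun _ => hz) hy).eq

end UP

theorem kk2_of_kk3 (h : KK.{u} P3) : KK.{u} P2 := by
  intro ε hε
  obtain ⟨δ₁, h1, H1⟩ := h (ε / 3) (by positivity)
  obtain ⟨δ₂, h2, H2⟩ := corner.{u} (min δ₁ (ε / 3)) (by positivity)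
  have hk := one_le_dk.{u}
  have hδ : 0 < δ₂ / (2 * dk.{u} * (2 * dk.{u})) := by positivity
  refine ⟨_, hδ, fun K _ _ _ N M ⟨ξ, hc, hs, hR, h22⟩ hNM => ?_⟩
  obtain ⟨L, _, _, _, ⟨U⟩⟩ := exists_up K
  have hcl : Close δ₂ (U.vn N) (U.vn M) := (Close.commutant
    ⟨U.near hδ.le hNM.2, U.near hδ.le hNM.1⟩ (by positivity)).mono (le_of_eq (by field_simp))
  obtain ⟨K₁, _, _, _, e, p, V, N₁, M₁, hC, hcl₁, hl⟩ := H2 L _ _ (U.V0 ξ) hcl
  have l1 := hl _ (by positivity) (H1 K₁ N₁ M₁ ⟨_, hC.cyc, hC.sep, U.erg hR hC,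
    hC.ult_m22 (U.m22 h22)⟩ (hcl₁.mono (min_le_left _ _)))
  obtain ⟨θ, hθ, hθ'⟩ := lift_cmpr (N := N) (M := M) U.V0
    (LinearMap.mkContinuous_norm_le _ zero_le_one _) (fun x => U.π (.const ℕ x))
    (fun x _ y _ => map_add U.π (.const ℕ x) (.const ℕ y))
    (fun c x _ => map_smul U.π c (.const ℕ x))
    (fun x hx => ⟨U.mem_vn fun _ => hx, (NonUnitalStarAlgHom.norm_apply_le U.π _).trans
      (BoundedContinuousFunction.norm_const_le x)⟩) (fun y => U.cmpr_mem) hε.le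
    (l1.mono (by linarith [min_le_right δ₁ (ε / 3)]))
  have he : ∀ η, e (U.V0 η) = U.V0 η := hs.cyc_comm.ext (by fun_prop) (by fun_prop) fun y hy => by
    rw [← U.pi_V0]
    exact hC.e_fix _ (U.mem_vn' fun _ => hy)
  refine ⟨θ, hθ, fun x hx => ?_⟩
  have : cmpr U.V0 (e * U.π (.const ℕ x) * e) = x := by
    ext η
    refine ext_inner_left ℂ fun ζ => ?_
    rw [inner_cmpr, mul_apply_eq_comp, mul_apply_eq_comp, he, U.pi_V0, he, U.inner_V0]
  simpa only [this] using hθ' x hx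

end Vale.Agent.P096
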