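import Vale.Agent.P096.Newton

/-! From a linear lifting to a unitary. -/

open scoped InnerProductSpace Topology
open Filter

namespace Vale.Agent.P096

open Vale.Agent.P104 Vale.Agent.P132

universe u v w

section Aux

variable {K : Type*} [NormedAddCommGroup K] [InnerProductSpace ℂ K] [CompleteSpace K]
  {N M : VonNeumannAlgebra K}

theorem un_low (S : N.toStarSubalgebra →ₗ[ℂ] M.toStarSubalgebra) {c : ℝ} (hc : c ≤ 1 / 8)
    (h : ∀ x, ‖(S x : K →L[ℂ] K) - x‖ ≤ c * ‖x‖) (x : N.toStarSubalgebra) : ‖x‖ ≤ 2 * ‖S x‖ := by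
  have h1 : ‖x‖ ≤ ‖(x : K →L[ℂ] K) - S x‖ + ‖S x‖ := norm_le_norm_sub_add (x : K →L[ℂ] K) (S x)
  rw [norm_sub_rev] at h1
  nlinarith [h x, norm_nonneg x, norm_nonneg (S x)]

theorem un_bij (S : N.toStarSubalgebra →ₗ[ℂ] M.toStarSubalgebra) {c γ : ℝ} (hc : c ≤ 1 / 8)
    (h : ∀ x, ‖(S x : K →L[ℂ] K) - x‖ ≤ c * ‖x‖) (hγ : γ ≤ 1 / 8)
    (hM : Near γ (M : Set (K →L[ℂ] K)) N) : Function.Bijective S := by
  haveI : IsClosed (N.toStarSubalgebra : Set (K →L[ℂ] K)) := vn_closed N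
  have hl := un_low S hc h
  refine ⟨(injective_iff_map_eq_zero S).2 fun x hx => ?_, ?_⟩
  · have := hl x
    rw [hx, norm_zero, mul_zero] at this
    exact norm_le_zero_iff.1 this
  have hb : ∀ x, ‖S x‖ ≤ 2 * ‖x‖ := fun x => by
    have h1 : ‖S x‖ ≤ ‖(S x : K →L[ℂ] K) - x‖ + ‖x‖ := norm_le_norm_sub_add (S x : K →L[ℂ] K) x
    nlinarith [h x, norm_nonneg x]
  have hcl : IsClosed (LinearMap.range S : Set M.toStarSubalgebra) :=
    (ContinuousLinearMap.antilipschitz_of_bound (S.mkContinuous 2 hb) (K := 2)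
      hl).isClosed_range (S.mkContinuous 2 hb).uniformContinuous
  by_contra hne
  obtain ⟨y, y1, y2⟩ := riesz_lemma hcl (not_forall.1 hne) (r := 3 / 4) (by norm_num)
  obtain ⟨x, x1, x2⟩ := hM y y.2
  have a1 : 3 / 4 * ‖y‖ ≤ ‖(y : K →L[ℂ] K) - S ⟨x, x1⟩‖ := y2 (S ⟨x, x1⟩) ⟨_, rfl⟩
  have a2 : ‖(S ⟨x, x1⟩ : K →L[ℂ] K) - x‖ ≤ c * ‖x‖ := h ⟨x, x1⟩
  have a3 := norm_sub_le_norm_sub_add_norm_sub (y : K →L[ℂ] K) x (S ⟨x, x1⟩)
  have a4 := norm_le_norm_sub_add x (y : K →L[ℂ] K)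
  have a5 : 0 < ‖(y : K →L[ℂ] K)‖ := norm_pos_iff.2 fun h0 => y1 (by
    rw [show y = 0 from Subtype.ext h0]
    exact Submodule.zero_mem _)
  have a6 := mul_le_mul_of_nonneg_right hγ a5.le
  have a7 := mul_le_mul_of_nonneg_right hc (norm_nonneg x)
  rw [norm_sub_rev x] at a3 a4
  change 3 / 4 * ‖(y : K →L[ℂ] K)‖ ≤ _ at a1
  linarith

theorem un_sym {δ : ℝ} (h : Lift δ N M) :
    ∃ T : N.toStarSubalgebra →ₗ[ℂ] M.toStarSubalgebra, (∀ x, T (star x) = star (T x)) ∧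
      ∀ x, ‖(T x : K →L[ℂ] K) - x‖ ≤ δ * ‖x‖ := by
  haveI : IsClosed (N.toStarSubalgebra : Set (K →L[ℂ] K)) := vn_closed N
  haveI : IsClosed (M.toStarSubalgebra : Set (K →L[ℂ] K)) := vn_closed M
  obtain ⟨θ, h1, h2⟩ := h
  let T : N.toStarSubalgebra →ₗ[ℂ] M.toStarSubalgebra :=
    { toFun := fun x => ⟨θ x, (h2 x x.2).1⟩
      map_add' := fun x y => Subtype.ext (h1.1 x x.2 y y.2)
      map_smul' := fun c x => Subtype.ext (h1.2 c x x.2) }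
  refine ⟨nwSym T, nwSym_star T, fun x => ?_⟩
  have a1 : ‖θ x - x‖ ≤ δ * ‖(x : K →L[ℂ] K)‖ := (h2 x x.2).2
  have a2 : ‖θ (star x) - star (x : K →L[ℂ] K)‖ ≤ δ * ‖star (x : K →L[ℂ] K)‖ :=
    (h2 _ (star_mem x.2)).2
  rw [← norm_star, star_sub, star_star, norm_star (x : K →L[ℂ] K)] at a2
  refine le_trans (le_of_eq ?_) (nw_half a1 a2)
  congr 1
  change (2⁻¹ : ℂ) • (θ x + star (θ (star x))) - x = _
  module

end Aux

theorem unitary_of_lift (ε : ℝ) (hε : 0 < ε) : ∃ δ : ℝ, 0 < δ ∧ ∀ (K : Type u)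
    [NormedAddCommGroup K] [InnerProductSpace ℂ K] [CompleteSpace K] (N M : VonNeumannAlgebra K),
    Close δ N M → Lift δ N M → ∃ u ∈ unitary (K →L[ℂ] K), ‖u - 1‖ ≤ ε ∧
      (∀ x ∈ N, u * x * star u ∈ M) ∧ ∀ y ∈ M, star u * y * u ∈ N := by
  classical
  have hk := one_le_dk.{u}
  obtain ⟨c, hc, hc1, hc2⟩ : ∃ c : ℝ, 0 < c ∧ dk.{u} * c ≤ 1 / 8 ∧ 8 * (dk.{u} * c) ≤ ε := by
    refine ⟨min 1 ε / (8 * dk.{u}), by positivity, ?_⟩
    have e : dk.{u} * (min 1 ε / (8 * dk.{u})) = min 1 ε / 8 := by field_simp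
    rw [e]
    constructor <;> linarith [min_le_left 1 ε, min_le_right 1 ε]
  have hc3 : c ≤ 1 / 8 := (le_mul_of_one_le_left hc.le hk).trans hc1
  obtain ⟨δ0, hδ0, hstab⟩ := stab.{u} (c / 2) (by positivity)
  refine ⟨min (δ0 / 8) (c / 4), by positivity, fun K _ _ _ N M hcl hl => ?_⟩
  obtain ⟨d1, d2⟩ := le_min_iff.1 (le_refl (min (δ0 / 8) (c / 4)))
  have d0 : 0 < min (δ0 / 8) (c / 4) := by positivity
  generalize min (δ0 / 8) (c / 4) = δ at hcl hl d0 d1 d2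
  obtain ⟨T, T1, T2⟩ := un_sym hl
  have hT := un_bij T (by linarith) T2 (by linarith) hcl.2
  have T3 : ∀ x, ‖(T x : K →L[ℂ] K)‖ ≤ 2 * ‖x‖ := fun x => by
    have h1 : ‖(T x : K →L[ℂ] K)‖ ≤ ‖(T x : K →L[ℂ] K) - x‖ + ‖x‖ :=
      norm_le_norm_sub_add (T x : K →L[ℂ] K) x
    nlinarith [T2 x, norm_nonneg x]
  obtain ⟨m, hm⟩ : ∃ m : N.toStarSubalgebra →ₗ[ℂ] N.toStarSubalgebra →ₗ[ℂ] N.toStarSubalgebra,
      ∀ x y, T (m x y) = T x * T y :=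
    ⟨((LinearMap.mul ℂ M.toStarSubalgebra).compl₁₂ T T).compr₂
      (LinearEquiv.ofBijective T hT).symm.toLinearMap,
      fun x y => (LinearEquiv.ofBijective T hT).apply_symm_apply (T x * T y)⟩
  obtain ⟨ψ, p1, p2, p3⟩ := hstab K N m
    (fun x y z => hT.1 (by rw [hm, hm, hm, hm, mul_assoc]))
    (fun x y => hT.1 (by rw [T1, hm, hm, T1, T1, star_mul])) fun x y => by
      refine (un_low T (by linarith) T2 _).trans ?_
      have hxy := mul_nonneg (norm_nonneg x) (norm_nonneg y)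
      have a1 : ‖(T (x * y) : K →L[ℂ] K) - x * y‖ ≤ δ * (‖x‖ * ‖y‖) :=
        (T2 (x * y)).trans (mul_le_mul_of_nonneg_left (norm_mul_le x y) d0.le)
      have a2 := (norm_mul_le ((T x : K →L[ℂ] K) - x) (T y)).trans
        (mul_le_mul (T2 x) (T3 y) (norm_nonneg _) (by positivity))
      have a3 : ‖(x : K →L[ℂ] K) * ((T y : K →L[ℂ] K) - y)‖ ≤ ‖x‖ * (δ * ‖y‖) :=
        (norm_mul_le _ _).trans (mul_le_mul_of_nonneg_left (T2 y) (norm_nonneg _))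
      have a4 : ‖T (m x y - x * y)‖ = ‖((T x : K →L[ℂ] K) - x) * T y +
          x * ((T y : K →L[ℂ] K) - y) - ((T (x * y) : K →L[ℂ] K) - x * y)‖ := by
        rw [map_sub, hm]
        change ‖(T x : K →L[ℂ] K) * T y - T (x * y)‖ = _
        congr 1
        noncomm_ring
      have a5 := (norm_sub_le _ _).trans (add_le_add ((norm_add_le _ _).trans (add_le_add a2 a3)) a1)
      have a6 := mul_le_mul_of_nonneg_right d1 hxy
      rw [a4]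
      linarith
  obtain ⟨α, hα⟩ : ∃ α : N.toStarSubalgebra →ₗ[ℂ] M.toStarSubalgebra, ∀ x, α x = T (ψ x) :=
    ⟨T.comp ψ, fun _ => rfl⟩
  have q1 : ∀ x y, α (x * y) = α x * α y := fun x y => by rw [hα, hα, hα, p1, hm]
  have q2 : ∀ x, α (star x) = star (α x) := fun x => by rw [hα, hα, p2, T1]
  have q3 : ∀ x, ‖(α x : K →L[ℂ] K) - x‖ ≤ c * ‖x‖ := fun x => by
    have a1 := T2 (ψ x)
    have a2 : ‖(ψ x : K →L[ℂ] K) - x‖ ≤ c / 2 * ‖x‖ := p3 x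
    have a3 : ‖ψ x‖ ≤ 2 * ‖x‖ := by
      nlinarith [norm_le_norm_sub_add (ψ x) x, p3 x, norm_nonneg x]
    have a4 := mul_le_mul d2 a3 (norm_nonneg _) (by positivity)
    rw [hα]
    linarith [norm_sub_le_norm_sub_add_norm_sub (T (ψ x) : K →L[ℂ] K) (ψ x) x]
  have q4 := (un_bij α hc3 q3 (by linarith) hcl.2).2
  have q5 : α 1 = 1 := by
    obtain ⟨x, hx⟩ := q4 1
    rw [← mul_one (α 1), ← hx, ← q1, one_mul]
  obtain ⟨β, hβ⟩ : ∃ β : (K →L[ℂ] K) → (K →L[ℂ] K), ∀ x (hx : x ∈ N), β x = α ⟨x, hx⟩ :=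
    ⟨fun x => if h : x ∈ N then α ⟨x, h⟩ else 0, fun x hx => dif_pos hx⟩
  obtain ⟨W, w1, w2⟩ := hom_impl N β ⟨fun x hx y hy => by
      rw [hβ x hx, hβ y hy, hβ _ (add_mem hx hy)]
      exact congrArg Subtype.val (map_add α ⟨x, hx⟩ ⟨y, hy⟩), fun s x hx => by
      rw [hβ x hx, hβ _ (vn_smul s hx)]
      exact congrArg Subtype.val (map_smul α s ⟨x, hx⟩)⟩
    (by rw [hβ 1 (one_mem N)]; exact congrArg Subtype.val q5)
    (fun x hx y hy => by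
      rw [hβ x hx, hβ y hy, hβ _ (mul_mem hx hy)]
      exact congrArg Subtype.val (q1 ⟨x, hx⟩ ⟨y, hy⟩)) hc.le (by linarith)
    fun x hx => by rw [hβ x hx]; exact q3 ⟨x, hx⟩
  obtain ⟨u, u1, u2, u3⟩ := exists_polar w1 hc1
  have u4 : ∀ x (hx : x ∈ N), (α ⟨x, hx⟩ : K →L[ℂ] K) * u = u * x := fun x hx => by
    refine u3 _ _ (by rw [← hβ x hx, w2 x hx]) ?_
    rw [← w2 _ (star_mem hx), hβ _ (star_mem hx)]
    exact congrArg (fun z : M.toStarSubalgebra => (z : K →L[ℂ] K) * W) (q2 ⟨x, hx⟩).symm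
  refine ⟨u, u1, u2.trans hc2, fun x hx => ?_, fun y hy => ?_⟩
  · rw [← u4 x hx, mul_assoc, (Unitary.mem_iff.1 u1).2, mul_one]
    exact (α ⟨x, hx⟩).2
  · obtain ⟨x, hx⟩ := q4 ⟨y, hy⟩
    have e : y = α ⟨x, x.2⟩ := (congrArg Subtype.val hx).symm
    rw [e, mul_assoc, u4 x x.2, ← mul_assoc, (Unitary.mem_iff.1 u1).1, one_mul]
    exact x.2

end Vale.Agent.P096
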