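import Vale.Agent.P096.Step7
import Vale.Agent.P096.Step8b
import Vale.Agent.P096.Ultra2
import Vale.Agent.P096.Tens
import Vale.Agent.P096.Gen
import Vale.Agent.P096.Unit

/-! Assembly. -/

open scoped InnerProductSpace Topology
open Filter

namespace Vale.Agent.P096

open Vale.Agent.P104 Vale.Agent.P132

universe u v w

theorem kk0 : KK.{u} P0 :=
  kk0_of_kk1 (kk1_of_kk2 (kk2_of_kk3 (kk3_of_kk4 (kk4_of_kk5 (kk5_of_kk6 kk6)))))

theorem kk_of {P : PairProp.{u}} (h : KK P) (ε : ℝ) (hε : 0 < ε) : ∃ δ : ℝ, 0 < δ ∧ ∀ (K : Type u)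
    [NormedAddCommGroup K] [InnerProductSpace ℂ K] [CompleteSpace K] (N M : VonNeumannAlgebra K),
    P K N M → Close δ N M → ∃ u ∈ unitary (K →L[ℂ] K), ‖u - 1‖ ≤ ε ∧
      (∀ x ∈ N, u * x * star u ∈ M) ∧ ∀ y ∈ M, star u * y * u ∈ N := by
  obtain ⟨δ₁, h1, H1⟩ := unitary_of_lift.{u} ε hε
  obtain ⟨δ₂, h2, H2⟩ := h δ₁ h1
  exact ⟨min δ₁ δ₂, lt_min h1 h2, fun K _ _ _ N M hP hc =>
    H1 K N M (hc.mono (min_le_left _ _)) (H2 K N M hP (hc.mono (min_le_right _ _)))⟩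

end Vale.Agent.P096
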