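import Vale.Agent.P096.Dk
import Vale.Agent.P096.Polar
import Vale.Agent.P082.Main

/-! From a linear lifting to a unitary. -/

open scoped InnerProductSpace Topology
open Filter

namespace Vale.Agent.P096

open Vale.Agent.P104 Vale.Agent.P132

universe u v w

section Abstract

open Vale.Agent.P082

variable {A : Type*} [CStarAlgebra A]

/-- Quantitative vanishing of bounded cohomology. -/
def NwCoh (A : Type*) [CStarAlgebra A] : Prop :=
  ∀ (k : ℕ) (C : ℝ) (f : List A → A), 0 ≤ C → ML (k + 1) C f →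
    (∀ a l, l.length = k + 1 → dL f a l = 0) → Loc k ((k + 2) * C) f 1

theorem nw_len1 {l : List A} (h : l.length = 1) : ∃ x, l = [x] := List.length_eq_one_iff.1 h

theorem nw_len2 {l : List A} (h : l.length = 2) : ∃ x y, l = [x, y] := List.length_eq_two.1 h

theorem nw_len3 {l : List A} (h : l.length = 3) : ∃ x y z, l = [x, y, z] :=
  List.length_eq_three.1 h

/-- A bilinear map as a list cochain. -/
noncomputable def nwL (D : A →ₗ[ℂ] A →ₗ[ℂ] A) (l : List A) : A := D (l.headD 0) (l.tail.headD 0)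

theorem nwL_ml (D : A →ₗ[ℂ] A →ₗ[ℂ] A) {c : ℝ} (hD : ∀ x y, ‖D x y‖ ≤ c * (‖x‖ * ‖y‖)) :
    ML 2 c (nwL D) := by
  refine ⟨lin_succ (fun l _ => ⟨fun a b => ?_, fun s a => ?_⟩) fun a =>
    lin_succ (fun l _ => ⟨fun x y => ?_, fun s x => ?_⟩) fun b _ _ _ hi => absurd hi (by omega),
    fun l hl => ?_⟩
  · simp [nwL]
  · simp [nwL]
  · simp [nwL]
  · simp [nwL]
  · obtain ⟨x, y, rfl⟩ := nw_len2 hl
    simpa [nwL] using hD x y

theorem nw_dL_ml {f : List A → A} (hf : Lin 2 f) :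
    Lin 3 fun l => dL f (l.headD 0) l.tail := by
  have h0 : ∀ y, IsLinearMap ℂ fun a => f [a, y] := fun y => hf.head [y] rfl
  have h1 : ∀ x, IsLinearMap ℂ fun a => f [x, a] := fun x => (hf.cons x).head [] rfl
  refine lin_succ (fun l hl => ?_) fun a => lin_succ (fun l hl => ?_) fun b =>
    lin_succ (fun l hl => ?_) fun b _ _ _ hi => absurd hi (by omega)
  · obtain ⟨y, z, rfl⟩ := nw_len2 hl
    simp only [List.headD_cons, List.tail_cons, dL, bD_cons, bD_nil]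
    refine ⟨fun a b => ?_, fun s a => ?_⟩
    · simp only [add_mul, (h0 _).map_add]
      abel
    · simp only [smul_mul_assoc, (h0 _).map_smul, smul_sub]
  · obtain ⟨z, rfl⟩ := nw_len1 hl
    simp only [List.headD_cons, List.tail_cons, dL, bD_cons, bD_nil]
    refine ⟨fun x y => ?_, fun s x => ?_⟩
    · simp only [add_mul, mul_add, (h0 _).map_add, (h1 _).map_add]
      abel
    · simp only [smul_mul_assoc, mul_smul_comm, (h0 _).map_smul, (h1 _).map_smul, smul_sub]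
  · obtain rfl := List.length_eq_zero_iff.1 hl
    simp only [List.headD_cons, List.tail_cons, dL, bD_cons, bD_nil]
    refine ⟨fun x y => ?_, fun s x => ?_⟩
    · simp only [mul_add, (h1 _).map_add]
      abel
    · simp only [mul_smul_comm, (h1 _).map_smul, smul_sub]

/-- An approximate cocycle is close to a coboundary. -/
theorem nw_coh (hA : NwCoh A) (D : A →ₗ[ℂ] A →ₗ[ℂ] A) {c e : ℝ} (hc : 0 ≤ c) (he : 0 ≤ e)
    (hD : ∀ x y, ‖D x y‖ ≤ c * (‖x‖ * ‖y‖))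
    (hd : ∀ x y z, ‖x * D y z - (D (x * y) z - (D x (y * z) - D x y * z))‖ ≤
      e * (‖x‖ * (‖y‖ * ‖z‖))) :
    ∃ h : A →ₗ[ℂ] A, (∀ x, ‖h x‖ ≤ 3 * (c + 4 * e) * ‖x‖) ∧
      ∀ x y, ‖D x y - (x * h y - (h (x * y) - h x * y))‖ ≤ 4 * e * (‖x‖ * ‖y‖) := by
  have h2 := nwL_ml D hD
  obtain ⟨g, hg, hg'⟩ := hA 2 e (fun l => dL (nwL D) (l.headD 0) l.tail) he
    ⟨nw_dL_ml h2.lin, fun l hl => by
      obtain ⟨x, y, z, rfl⟩ := nw_len3 hl
      simpa [dL, bD_cons, bD_nil, nwL] using hd x y z⟩ fun a l hl => by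
      obtain ⟨x, y, z, rfl⟩ := nw_len3 hl
      simp only [dL, bD_cons, bD_nil, nwL, List.headD_cons, List.tail_cons, mul_sub, sub_mul,
        mul_assoc]
      abel
  obtain ⟨h, hh, hh'⟩ := hA 1 (c + ((2 : ℕ) + 2) * e) (fun l => nwL D l - g l) (by positivity)
    (h2.sub hg) fun a l hl => by
      rw [dL_sub, hg' a l hl, one_mul]
      exact sub_self _
  refine ⟨IsLinearMap.mk' _ (hh.lin.head [] rfl), fun x => ?_, fun x y => ?_⟩
  · have := hh.bd [x] rfl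
    simp only [np_cons, np_nil, mul_one] at this
    refine this.trans (le_of_eq ?_)
    push_cast
    ring
  · have h1 := hh' x [y] rfl
    have h3 := hg.bd [x, y] rfl
    simp only [dL, bD_cons, bD_nil, one_mul, nwL, List.headD_cons, List.tail_cons] at h1
    simp only [IsLinearMap.mk'_apply, h1, sub_sub_cancel]
    simp only [np_cons, np_nil, mul_one] at h3
    refine h3.trans (le_of_eq ?_)
    push_cast
    ring

/-- The symmetrised map. -/
noncomputable def nwSym {B : Type*} [CStarAlgebra B] (h : A →ₗ[ℂ] B) : A →ₗ[ℂ] B where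
  toFun x := (2⁻¹ : ℂ) • (h x + star (h (star x)))
  map_add' x y := by
    rw [star_add, map_add, map_add, star_add, ← smul_add]
    congr 1
    abel
  map_smul' s x := by
    rw [star_smul, map_smul, map_smul, star_smul, star_star, ← smul_add, smul_comm]
    rfl

theorem nwSym_apply {B : Type*} [CStarAlgebra B] (h : A →ₗ[ℂ] B) (x : A) :
    nwSym h x = (2⁻¹ : ℂ) • (h x + star (h (star x))) := rfl

theorem nwSym_star {B : Type*} [CStarAlgebra B] (h : A →ₗ[ℂ] B) (x : A) :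
    nwSym h (star x) = star (nwSym h x) := by
  rw [nwSym_apply, nwSym_apply, star_smul, star_add, star_star, star_star, add_comm]
  simp

theorem nw_half {E : Type*} [NormedAddCommGroup E] [NormedSpace ℂ E] {a b : E} {c : ℝ}
    (ha : ‖a‖ ≤ c) (hb : ‖b‖ ≤ c) : ‖(2⁻¹ : ℂ) • (a + b)‖ ≤ c := by
  rw [norm_smul, norm_inv, Complex.norm_two]
  linarith [norm_add_le a b]

theorem nw_coh_sym (hA : NwCoh A) (D : A →ₗ[ℂ] A →ₗ[ℂ] A) {c e : ℝ} (hc : 0 ≤ c) (he : 0 ≤ e)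
    (hs : ∀ x y, star (D x y) = D (star y) (star x))
    (hD : ∀ x y, ‖D x y‖ ≤ c * (‖x‖ * ‖y‖))
    (hd : ∀ x y z, ‖x * D y z - (D (x * y) z - (D x (y * z) - D x y * z))‖ ≤
      e * (‖x‖ * (‖y‖ * ‖z‖))) :
    ∃ h : A →ₗ[ℂ] A, (∀ x, h (star x) = star (h x)) ∧ (∀ x, ‖h x‖ ≤ 3 * (c + 4 * e) * ‖x‖) ∧
      ∀ x y, ‖D x y - (x * h y - (h (x * y) - h x * y))‖ ≤ 4 * e * (‖x‖ * ‖y‖) := by
  obtain ⟨h, h1, h2⟩ := nw_coh hA D hc he hD hd
  refine ⟨nwSym h, nwSym_star h, fun x => nw_half (h1 x) ?_, fun x y => ?_⟩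
  · rw [norm_star, ← norm_star x]
    exact h1 _
  · have h3 := h2 (star y) (star x)
    rw [← norm_star, norm_star y, norm_star x, mul_comm ‖y‖] at h3
    refine le_trans (le_of_eq ?_) (nw_half (h2 x y) h3)
    congr 1
    simp only [nwSym_apply, star_sub, star_mul, star_star, ← hs, mul_smul_comm, smul_mul_assoc,
      mul_add, add_mul]
    module

variable {m : A →ₗ[ℂ] A →ₗ[ℂ] A} {δ : ℝ}

/-- One step of the iteration. -/
theorem nw_step (hA : NwCoh A) (ha : ∀ x y z, m (m x y) z = m x (m y z))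
    (hs : ∀ x y, star (m x y) = m (star y) (star x)) (h0 : 0 ≤ δ) (hδ : δ ≤ 1 / 1000)
    (hm : ∀ x y, ‖m x y - x * y‖ ≤ δ * (‖x‖ * ‖y‖)) (ψ : A →ₗ[ℂ] A) {c : ℝ} (hc : 0 ≤ c)
    (hc1 : c ≤ δ) (h1 : ∀ x, ψ (star x) = star (ψ x)) (h2 : ∀ x, ‖ψ x - x‖ ≤ 8 * δ * ‖x‖)
    (h3 : ∀ x y, ‖m (ψ x) (ψ y) - ψ (x * y)‖ ≤ c * (‖x‖ * ‖y‖)) :
    ∃ k : A →ₗ[ℂ] A, (∀ x, k (star x) = star (k x)) ∧ (∀ x, ‖k x‖ ≤ 4 * c * ‖x‖) ∧
      ∀ x y, ‖m (ψ x - k x) (ψ y - k y) - (ψ (x * y) - k (x * y))‖ ≤ c / 2 * (‖x‖ * ‖y‖) := by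
  have n1 : ∀ x, ‖ψ x‖ ≤ 2 * ‖x‖ := fun x => by
    have := norm_le_norm_sub_add (ψ x) x
    nlinarith [h2 x, norm_nonneg x]
  have l1 : ∀ x w, ‖x * w - m (ψ x) w‖ ≤ 1 / 100 * (‖x‖ * ‖w‖) := fun x w => by
    have a1 := hm (ψ x) w
    have a2 := (norm_mul_le (ψ x - x) w).trans
      (mul_le_mul_of_nonneg_right (h2 x) (norm_nonneg w))
    have a3 := mul_le_mul_of_nonneg_left (mul_le_mul_of_nonneg_right (n1 x) (norm_nonneg w)) h0
    have a4 : x * w - m (ψ x) w = -(m (ψ x) w - ψ x * w) - (ψ x - x) * w := by noncomm_ring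
    have a5 := mul_le_mul_of_nonneg_right hδ (mul_nonneg (norm_nonneg x) (norm_nonneg w))
    rw [a4]
    refine (norm_sub_le _ _).trans ?_
    rw [norm_neg]
    linarith
  have l2 : ∀ x w, ‖w * x - m w (ψ x)‖ ≤ 1 / 100 * (‖w‖ * ‖x‖) := fun x w => by
    have := l1 (star x) (star w)
    rwa [h1, ← hs, ← star_mul, ← star_sub, norm_star, norm_star, norm_star, mul_comm ‖x‖] at this
  obtain ⟨D, hD⟩ : ∃ D : A →ₗ[ℂ] A →ₗ[ℂ] A, ∀ x y, D x y = m (ψ x) (ψ y) - ψ (x * y) :=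
    ⟨m.compl₁₂ ψ ψ - (LinearMap.mul ℂ A).compr₂ ψ, fun _ _ => rfl⟩
  simp only [← hD] at h3
  obtain ⟨k, k1, k2, k3⟩ := nw_coh_sym hA D hc (e := 2 / 100 * c) (by positivity)
    (fun x y => by rw [hD, hD, star_sub, hs, ← h1, ← h1, ← h1, star_mul]) h3 fun x y z => by
      have e1 : x * D y z - (D (x * y) z - (D x (y * z) - D x y * z)) =
          (x * D y z - m (ψ x) (D y z)) - (D x y * z - m (D x y) (ψ z)) := by
        have e2 := ha (ψ x) (ψ y) (ψ z)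
        rw [hD (x * y), hD x (y * z)]
        simp only [hD, map_sub, LinearMap.sub_apply, e2, mul_assoc]
        abel
      have a1 := (l1 x (D y z)).trans (mul_le_mul_of_nonneg_left
        (mul_le_mul_of_nonneg_left (h3 y z) (norm_nonneg x)) (by norm_num))
      have a2 := (l2 z (D x y)).trans (mul_le_mul_of_nonneg_left
        (mul_le_mul_of_nonneg_right (h3 x y) (norm_nonneg z)) (by norm_num))
      rw [e1]
      refine (norm_sub_le _ _).trans ?_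
      linarith
  have k4 : ∀ x, ‖k x‖ ≤ 4 * c * ‖x‖ := fun x =>
    (k2 x).trans (mul_le_mul_of_nonneg_right (by linarith) (norm_nonneg x))
  refine ⟨k, k1, k4, fun x y => ?_⟩
  have e1 : m (ψ x - k x) (ψ y - k y) - (ψ (x * y) - k (x * y)) =
      (D x y - (x * k y - (k (x * y) - k x * y))) + (x * k y - m (ψ x) (k y)) +
        (k x * y - m (k x) (ψ y)) + (m (k x) (k y) - k x * k y) + k x * k y := by
    simp only [hD, map_sub, LinearMap.sub_apply]
    abel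
  have hxy := mul_nonneg (norm_nonneg x) (norm_nonneg y)
  have a1 := (l1 x (k y)).trans (mul_le_mul_of_nonneg_left
    (mul_le_mul_of_nonneg_left (k4 y) (norm_nonneg x)) (by norm_num))
  have a2 := (l2 y (k x)).trans (mul_le_mul_of_nonneg_left
    (mul_le_mul_of_nonneg_right (k4 x) (norm_nonneg y)) (by norm_num))
  have a3 : ‖k x‖ * ‖k y‖ ≤ 16 / 1000 * (c * (‖x‖ * ‖y‖)) := by
    refine (mul_le_mul (k4 x) (k4 y) (norm_nonneg _) (by positivity)).trans ?_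
    have := mul_le_mul_of_nonneg_right (hc1.trans hδ) (mul_nonneg hc hxy)
    nlinarith
  have a4 := (hm (k x) (k y)).trans (mul_le_of_le_one_left (by positivity) (by linarith))
  have a5 := norm_mul_le (k x) (k y)
  have a6 := k3 x y
  have a7 := mul_nonneg hc hxy
  rw [e1]
  refine (norm_add_le _ _).trans ((add_le_add_left ((norm_add_le _ _).trans (add_le_add_left
    ((norm_add_le _ _).trans (add_le_add_left (norm_add_le _ _) _)) _)) _).trans ?_)
  linarith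

theorem nw_stab (hA : NwCoh A) (ha : ∀ x y z, m (m x y) z = m x (m y z))
    (hs : ∀ x y, star (m x y) = m (star y) (star x)) (h0 : 0 ≤ δ) (hδ : δ ≤ 1 / 1000)
    (hm : ∀ x y, ‖m x y - x * y‖ ≤ δ * (‖x‖ * ‖y‖)) :
    ∃ ψ : A →ₗ[ℂ] A, (∀ x y, ψ (x * y) = m (ψ x) (ψ y)) ∧
      (∀ x, ψ (star x) = star (ψ x)) ∧ ∀ x, ‖ψ x - x‖ ≤ 8 * δ * ‖x‖ := by
  obtain ⟨Q, hQ⟩ : ∃ Q : ℕ → (A →L[ℂ] A) → Prop, ∀ n ψ, Q n ψ ↔
      (∀ x, ψ (star x) = star (ψ x)) ∧ (∀ x, ‖ψ x - x‖ ≤ 8 * (δ - δ / 2 ^ n) * ‖x‖) ∧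
        ∀ x y, ‖m (ψ x) (ψ y) - ψ (x * y)‖ ≤ δ / 2 ^ n * (‖x‖ * ‖y‖) := ⟨_, fun _ _ => Iff.rfl⟩
  have hb : ∀ n ψ, Q n ψ → ∀ x, ‖ψ x - x‖ ≤ 8 * δ * ‖x‖ := fun n ψ h x =>
    (((hQ n ψ).1 h).2.1 x).trans (mul_le_mul_of_nonneg_right (by
      have : 0 ≤ δ / 2 ^ n := by positivity
      linarith) (norm_nonneg x))
  have step : ∀ n ψ, Q n ψ → ∃ ψ', Q (n + 1) ψ' ∧ dist ψ ψ' ≤ 8 * δ / 2 / 2 ^ n := by
    intro n ψ h
    obtain ⟨q1, q2, q3⟩ := (hQ n ψ).1 h
    obtain ⟨k, k1, k2, k3⟩ := nw_step hA ha hs h0 hδ hm (ψ : A →ₗ[ℂ] A) (c := δ / 2 ^ n)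
      (by positivity) (div_le_self h0 (one_le_pow₀ one_le_two)) q1 (hb n ψ h) q3
    refine ⟨ψ - k.mkContinuous _ k2, (hQ _ _).2 ⟨fun x => ?_, fun x => ?_, fun x y => ?_⟩, ?_⟩
    · simp only [ContinuousLinearMap.sub_apply, LinearMap.mkContinuous_apply, q1, k1, star_sub]
    · simp only [ContinuousLinearMap.sub_apply, LinearMap.mkContinuous_apply]
      rw [sub_right_comm]
      refine (norm_sub_le _ _).trans ((add_le_add (q2 x) (k2 x)).trans (le_of_eq ?_))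
      rw [pow_succ]
      ring
    · refine (k3 x y).trans (le_of_eq ?_)
      rw [pow_succ]
      ring
    · rw [dist_eq_norm, sub_sub_cancel]
      exact (LinearMap.mkContinuous_norm_le _ (by positivity) k2).trans (le_of_eq (by ring))
  choose! F hF using step
  obtain ⟨f, f0, f1⟩ : ∃ f : ℕ → (A →L[ℂ] A), f 0 = ContinuousLinearMap.id ℂ A ∧
      ∀ n, f (n + 1) = F n (f n) :=
    ⟨fun n => Nat.rec (motive := fun _ => A →L[ℂ] A) (ContinuousLinearMap.id ℂ A) F n, rfl,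
      fun _ => rfl⟩
  have hf : ∀ n, Q n (f n) := fun n => by
    induction n with
    | zero =>
      rw [f0]
      exact (hQ _ _).2 ⟨fun _ => rfl, fun x => by simp, fun x y => by simpa using hm x y⟩
    | succ n ih =>
      rw [f1]
      exact (hF n _ ih).1
  obtain ⟨ψ, hψ⟩ := cauchySeq_tendsto_of_complete (cauchySeq_of_le_geometric_two
    (f := f) (C := 8 * δ) fun n => by rw [f1]; exact (hF n _ (hf n)).2)
  have t1 : ∀ x, Tendsto (fun n => f n x) atTop (𝓝 (ψ x)) := fun x =>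
    ((ContinuousLinearMap.apply ℂ A x).continuous.tendsto ψ).comp hψ
  have hm2 : ∀ x y, ‖m x y‖ ≤ 2 * ‖x‖ * ‖y‖ := fun x y => by
    have a1 := norm_le_norm_sub_add (m x y) (x * y)
    have a2 := mul_le_mul_of_nonneg_right hδ (mul_nonneg (norm_nonneg x) (norm_nonneg y))
    nlinarith [hm x y, norm_mul_le x y, mul_nonneg (norm_nonneg x) (norm_nonneg y)]
  refine ⟨ψ, fun x y => ?_, fun x => ?_, fun x => ?_⟩
  · have t2 : Tendsto (fun n => m (f n x) (f n y)) atTop (𝓝 (m (ψ x) (ψ y))) :=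
      ((m.mkContinuous₂ 2 hm2).continuous₂.tendsto (ψ x, ψ y)).comp ((t1 x).prodMk_nhds (t1 y))
    have t3 : Tendsto (fun n : ℕ => δ / 2 ^ n * (‖x‖ * ‖y‖)) atTop (𝓝 0) := by
      simpa using (tendsto_const_nhds (x := δ).div_atTop
        (tendsto_pow_atTop_atTop_of_one_lt one_lt_two)).mul_const (‖x‖ * ‖y‖)
    have := le_of_tendsto_of_tendsto' (t2.sub (t1 (x * y))).norm t3
      fun n => ((hQ _ _).1 (hf n)).2.2 x y
    exact (sub_eq_zero.1 (norm_le_zero_iff.1 this)).symm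
  · refine tendsto_nhds_unique (t1 (star x)) ?_
    simp only [((hQ _ _).1 (hf _)).1]
    exact (t1 x).star
  · exact le_of_tendsto' ((t1 x).sub_const x).norm fun n => hb n _ (hf n) x

end Abstract

/-- Stability of the product of a von Neumann algebra. -/
theorem stab (ε : ℝ) (hε : 0 < ε) : ∃ δ : ℝ, 0 < δ ∧ ∀ (K : Type u) [NormedAddCommGroup K]
    [InnerProductSpace ℂ K] [CompleteSpace K] (N : VonNeumannAlgebra K)
    (m : N.toStarSubalgebra →ₗ[ℂ] N.toStarSubalgebra →ₗ[ℂ] N.toStarSubalgebra),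
    (∀ x y z, m (m x y) z = m x (m y z)) → (∀ x y, star (m x y) = m (star y) (star x)) →
    (∀ x y, ‖m x y - x * y‖ ≤ δ * (‖x‖ * ‖y‖)) →
    ∃ ψ : N.toStarSubalgebra →ₗ[ℂ] N.toStarSubalgebra, (∀ x y, ψ (x * y) = m (ψ x) (ψ y)) ∧
      (∀ x, ψ (star x) = star (ψ x)) ∧ ∀ x, ‖ψ x - x‖ ≤ ε * ‖x‖ := by
  refine ⟨min (1 / 1000) (ε / 8), by positivity, fun K _ _ _ N m ha hs hm => ?_⟩
  haveI : IsClosed (N.toStarSubalgebra : Set (K →L[ℂ] K)) := vn_closed N
  have h : P082.Corner N 1 (N.toStarSubalgebra.subtype.toNonUnitalStarAlgHom) :=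
    ⟨Subtype.val_injective, rfl, fun b => b.2, fun x hx _ => ⟨⟨x, hx⟩, rfl⟩⟩
  obtain ⟨ψ, h1, h2, h3⟩ := nw_stab (A := N.toStarSubalgebra)
    (fun k C f hC hf hd => P082.loc_one h hC hf hd) ha hs (by positivity) (min_le_left _ _) hm
  refine ⟨ψ, h1, h2, fun x => (h3 x).trans (mul_le_mul_of_nonneg_right ?_ (norm_nonneg x))⟩
  linarith [min_le_right (1 / 1000 : ℝ) (ε / 8)]

end Vale.Agent.P096
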