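import Vale.Agent.P096.Mean
import Vale.Agent.P096.Polar
import Vale.Agent.P096.Dk

/-! Rigidity of approximate normalisers. -/

open scoped InnerProductSpace Topology
open Filter

namespace Vale.Agent.P096

open Vale.Agent.P104 Vale.Agent.P132

universe u v w

variable {Γ : Type w} [Group Γ] {K : Type u} [NormedAddCommGroup K] [InnerProductSpace ℂ K]
  [CompleteSpace K] {N : VonNeumannAlgebra K} {ξ : K} {l r : Γ →* (K →L[ℂ] K)}

theorem rig_norm {X : K →L[ℂ] K} (hX : IsSelfAdjoint X) {C : ℝ} (hC : 0 ≤ C)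
    (h1 : X ≤ C • (1 : K →L[ℂ] K)) (h2 : -X ≤ C • (1 : K →L[ℂ] K)) : ‖X‖ ≤ C := by
  rcases subsingleton_or_nontrivial (K →L[ℂ] K) with h | h
  · rwa [Subsingleton.elim X 0, norm_zero]
  rw [← Algebra.algebraMap_eq_smul_one] at h1 h2
  rcases CStarAlgebra.norm_or_neg_norm_mem_spectrum hX with h3 | h3
  · exact (le_algebraMap_iff_spectrum_le hX).1 h1 _ h3
  · refine (le_algebraMap_iff_spectrum_le hX.neg).1 h2 _ ?_
    rw [← spectrum.neg_eq]
    simpa using h3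

theorem rig_pos (Φ : (K →L[ℂ] K) →ₗ[ℂ] (K →L[ℂ] K)) (hp : ∀ S, 0 ≤ S → 0 ≤ Φ S) (h1 : Φ 1 ≤ 1)
    {S : K →L[ℂ] K} (hS : IsSelfAdjoint S) : IsSelfAdjoint (Φ S) ∧ ‖Φ S‖ ≤ ‖S‖ := by
  have a1 := hp _ (sub_nonneg.2 hS.le_algebraMap_norm_self)
  have a2 := hp _ (sub_nonneg.2 hS.neg.le_algebraMap_norm_self)
  have a3 := hp 1 zero_le_one
  rw [Algebra.algebraMap_eq_smul_one, map_sub, Φ.map_smul_of_tower] at a1 a2
  rw [norm_neg, map_neg] at a2
  have a4 : ‖S‖ • Φ 1 ≤ ‖S‖ • (1 : K →L[ℂ] K) := smul_le_smul_of_nonneg_left h1 (norm_nonneg S)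
  have a5 : IsSelfAdjoint (Φ S) := by
    have := (IsSelfAdjoint.of_nonneg (smul_nonneg (norm_nonneg S) a3)).sub (.of_nonneg a1)
    rwa [sub_sub_cancel] at this
  exact ⟨a5, rig_norm a5 (norm_nonneg S) ((sub_nonneg.1 a1).trans a4)
    ((sub_nonneg.1 a2).trans a4)⟩

theorem rig_pos2 (Φ : (K →L[ℂ] K) →ₗ[ℂ] (K →L[ℂ] K)) (hp : ∀ S, 0 ≤ S → 0 ≤ Φ S) (h1 : Φ 1 ≤ 1)
    (S : K →L[ℂ] K) : ‖Φ S‖ ≤ 2 * ‖S‖ := by
  have a1 := (rig_pos Φ hp h1 (realPart S).2).2.trans (realPart.norm_le S)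
  have a2 := (rig_pos Φ hp h1 (imaginaryPart S).2).2.trans (imaginaryPart.norm_le S)
  conv_lhs => rw [← realPart_add_I_smul_imaginaryPart S, map_add, map_smul]
  refine (norm_add_le _ _).trans ?_
  rw [norm_smul, Complex.norm_I]
  linarith

theorem rig_iter (Φ : (K →L[ℂ] K) →ₗ[ℂ] (K →L[ℂ] K)) (hp : ∀ S, 0 ≤ S → 0 ≤ Φ S) (h1 : Φ 1 ≤ 1)
    {T c : K →L[ℂ] K} (hT : IsSelfAdjoint T) (hc : IsSelfAdjoint c) (hcc : Φ c = c) {ε : ℝ}
    (h : ‖Φ T - T - c‖ ≤ ε) : ‖c‖ ≤ ε := by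
  have key : ∀ n : ℕ, ∃ S, IsSelfAdjoint S ∧ ‖S‖ ≤ ‖T‖ ∧ ‖S - T - (n : ℝ) • c‖ ≤ n * ε := by
    intro n
    induction n with
    | zero => exact ⟨T, hT, le_rfl, by simp⟩
    | succ n ih =>
      obtain ⟨S, s1, s2, s3⟩ := ih
      obtain ⟨b1, b2⟩ := rig_pos Φ hp h1 s1
      have b3 := (rig_pos Φ hp h1 ((s1.sub hT).sub ((IsSelfAdjoint.all (n : ℝ)).smul hc))).2
      refine ⟨Φ S, b1, b2.trans s2, ?_⟩
      have e : Φ S - T - ((n + 1 : ℕ) : ℝ) • c = Φ (S - T - (n : ℝ) • c) + (Φ T - T - c) := by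
        rw [map_sub, map_sub, Φ.map_smul_of_tower, hcc, Nat.cast_succ, add_smul, one_smul]
        abel
      rw [e, Nat.cast_succ]
      linarith [norm_add_le (Φ (S - T - (n : ℝ) • c)) (Φ T - T - c)]
  by_contra hlt
  push Not at hlt
  obtain ⟨n, hn⟩ := exists_nat_gt (2 * ‖T‖ / (‖c‖ - ε))
  obtain ⟨S, -, s2, s3⟩ := key n
  rw [div_lt_iff₀ (sub_pos.2 hlt)] at hn
  have e : (n : ℝ) • c = S - T - (S - T - (n : ℝ) • c) := by abel
  have a1 : ‖(n : ℝ) • c‖ = n * ‖c‖ := by rw [norm_smul, Real.norm_natCast]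
  have a2 := norm_sub_le (S - T) (S - T - (n : ℝ) • c)
  rw [← e] at a2
  linarith [norm_sub_le S T]

theorem rig_sa_near {X m : K →L[ℂ] K} (hX : IsSelfAdjoint X) (hm : m ∈ N) {ε : ℝ}
    (h : ‖X - m‖ ≤ ε) : ∃ m' ∈ N, IsSelfAdjoint m' ∧ ‖X - m'‖ ≤ ε := by
  refine ⟨realPart m, ?_, (realPart m).2, ?_⟩
  · rw [realPart_apply_coe]
    rw [← Complex.coe_smul]
    exact vn_smul _ (add_mem hm (star_mem hm))
  · have : ‖(realPart (X - m) : K →L[ℂ] K)‖ ≤ ε := (realPart.norm_le (X - m)).trans h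
    rwa [map_sub, AddSubgroup.coe_sub, hX.coe_realPart] at this

/-- the averaging as a linear map -/
noncomputable def rigE (D : DM.{u, w} Γ) (hl : URep l) : (K →L[ℂ] K) →ₗ[ℂ] (K →L[ℂ] K) where
  toFun := D.E l
  map_add' := D.E_add hl
  map_smul' := D.E_smul hl

theorem rig_E_fix (D : DM.{u, w} Γ) (hl : URep l) {c : K →L[ℂ] K} (hc : ∀ g, Commute c (l g)) :
    D.E l c = c :=
  sub_eq_zero.1 (norm_le_zero_iff.1 (D.E_sub_le hl fun g => by rw [(hc g).eq, sub_self, norm_zero]))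

theorem rig_comm {x y : K →L[ℂ] K} (hx : x ∈ N) (hy : y ∈ N.commutant) : Commute x y :=
  VonNeumannAlgebra.mem_commutant_iff.1 hy x hx

theorem rig_key (D : DM.{u, w} Γ) (h : StdE N ξ l r) {T : K →L[ℂ] K} (hT : IsSelfAdjoint T)
    {δ : ℝ} (hδ : 0 ≤ δ) (h1 : ∀ x ∈ N, ∀ y ∈ N.commutant,
      ‖(T * x - x * T) * y - y * (T * x - x * T)‖ ≤ δ * (‖x‖ * ‖y‖))
    (h2 : ∀ g, ‖T * l g - l g * T‖ ≤ δ) {a b : K →L[ℂ] K} (ha : a ∈ N) (hb : b ∈ N)
    (hab : D.E l (star a * a) + star b * b = 1) :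
    ‖D.E l (D.E l (star a * T * a) + star b * T * b) - T‖ ≤ 8 * dk.{u} ^ 2 * δ := by
  have hl := h.std.bim.ul
  have hk := one_le_dk.{u}
  let Φ : (K →L[ℂ] K) →ₗ[ℂ] (K →L[ℂ] K) :=
    (rigE D hl).comp (LinearMap.mulLeftRight ℂ (star a, a)) + LinearMap.mulLeftRight ℂ (star b, b)
  have hΦ : ∀ S, Φ S = D.E l (star a * S * a) + star b * S * b := fun S => rfl
  have hp : ∀ S, 0 ≤ S → 0 ≤ Φ S := fun S hS =>
    add_nonneg (D.E_nonneg hl (star_left_conjugate_nonneg hS a)) (star_left_conjugate_nonneg hS b)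
  have h11 : Φ 1 = 1 := by rw [hΦ, mul_one, mul_one, hab]
  have hy : ∀ y ∈ N.commutant, ∀ S, Φ (S * y) = Φ S * y ∧ Φ (y * S) = y * Φ S := fun y hy S => by
    have c1 := (rig_comm ha hy).eq
    have c2 := (rig_comm (star_mem ha) hy).eq
    have c3 := (rig_comm hb hy).eq
    have c4 := (rig_comm (star_mem hb) hy).eq
    have c5 : ∀ g, Commute y (l g) := fun g => (rig_comm (h.std.l_mem g) hy).symm
    have c6 := D.E_mul hl (fun g => Commute.one_left (l g)) c5 (star a * S * a)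
    have c7 := D.E_mul hl c5 (fun g => Commute.one_left (l g)) (star a * S * a)
    rw [one_mul, one_mul] at c6
    rw [mul_one, mul_one] at c7
    rw [hΦ, hΦ, hΦ, add_mul, mul_add, ← c6, ← c7]
    constructor <;> congr 1
    · congr 1
      rw [mul_assoc _ a y, c1, mul_assoc, mul_assoc, mul_assoc]
    · rw [mul_assoc _ b y, c3, mul_assoc, mul_assoc, mul_assoc]
    · congr 1
      rw [← mul_assoc (star a), c2, mul_assoc y, mul_assoc y]
    · rw [← mul_assoc (star b), c4, mul_assoc y, mul_assoc y]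
  have hfix : ∀ y ∈ N.commutant, Φ y = y := fun y hy' => by
    simpa only [one_mul, h11] using (hy y hy' 1).1
  obtain ⟨m, hm, hm'⟩ := dist_vn N (Φ T - T) (c := 3 * dk.{u} * δ) (by positivity) fun y hy' => by
    obtain ⟨s, s1, s2⟩ := dist_comm_vn N (T * y - y * T) (c := δ * ‖y‖) (by positivity)
      fun x hx => by
        have e : (T * y - y * T) * x - x * (T * y - y * T) =
            (T * x - x * T) * y - y * (T * x - x * T) := by
          have c1 := (rig_comm hx hy').eq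
          simp only [mul_sub, sub_mul, mul_assoc, c1]
          rw [← mul_assoc x y, c1, mul_assoc y x]
          abel
        rw [e]
        linarith [h1 x hx y hy']
    have e : (Φ T - T) * y - y * (Φ T - T) = Φ (T * y - y * T - s) - (T * y - y * T - s) := by
      rw [map_sub, map_sub, (hy y hy' T).1, (hy y hy' T).2, hfix s s1]
      noncomm_ring
    rw [e]
    linarith [norm_sub_le (Φ (T * y - y * T - s)) (T * y - y * T - s),
      rig_pos2 Φ hp h11.le (T * y - y * T - s)]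
  obtain ⟨n, n1, n2, n3⟩ := rig_sa_near ((rig_pos Φ hp h11.le hT).1.sub hT) hm hm'
  let Θ := (rigE D hl).comp Φ
  have hΘ : ∀ S, Θ S = D.E l (Φ S) := fun S => rfl
  have hc := h.E_central D n1
  have hE1 : D.E l 1 = 1 := rig_E_fix D hl fun g => Commute.one_left _
  have a1 : ‖Θ T - T - D.E l n‖ ≤ 4 * dk.{u} ^ 2 * δ := by
    have e : Θ T - T - D.E l n = rigE D hl (Φ T - T - n) + (D.E l T - T) := by
      rw [map_sub, map_sub]
      show D.E l (Φ T) - T - D.E l n = D.E l (Φ T) - D.E l T - D.E l n + (D.E l T - T)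
      abel
    have b1 : ‖rigE D hl (Φ T - T - n)‖ ≤ ‖Φ T - T - n‖ := D.E_norm_le hl _
    have b2 := D.E_sub_le hl h2
    have b3 : δ ≤ dk.{u} ^ 2 * δ := le_mul_of_one_le_left hδ (one_le_pow₀ hk)
    rw [e]
    linarith [norm_add_le (rigE D hl (Φ T - T - n)) (D.E l T - T)]
  have a2 := rig_iter Θ (fun S hS => D.E_nonneg hl (hp S hS)) (by rw [hΘ, h11, hE1]) hT
    (show star _ = _ by rw [← D.E_star hl, n2.star_eq])
    (by rw [hΘ, hfix _ hc, rig_E_fix D hl (h.std.E_comm D n1)]) a1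
  have e : D.E l (Φ T) - T = (Θ T - T - D.E l n) + D.E l n := by rw [hΘ, sub_add_cancel]
  rw [← hΦ, e]
  linarith [norm_add_le (Θ T - T - D.E l n) (D.E l n)]

theorem rig_sqrt {e : K →L[ℂ] K} (he : e ∈ N) (h0 : 0 ≤ e) : ∃ b ∈ N, star b * b = e := by
  refine ⟨CFC.sqrt e, ?_, ?_⟩
  · rw [CFC.sqrt_eq_real_sqrt e h0, cfcₙ_eq_cfc]
    exact cfc_mem_vn he _
  · rw [(IsSelfAdjoint.of_nonneg (CFC.sqrt_nonneg e)).star_eq, CFC.sqrt_mul_sqrt_self e h0]

theorem rig_part {m : K →L[ℂ] K} (hm : m ∈ N) (hm' : IsSelfAdjoint m) (h0 : ¬m ≤ 0) :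
    ∃ p ∈ N, p ≠ 0 ∧ 0 ≤ star p * m * p := by
  refine ⟨m⁺, ?_, fun h => h0 ((CFC.posPart_eq_zero_iff m hm').1 h), ?_⟩
  · rw [CFC.posPart_def, cfcₙ_eq_cfc]
    exact cfc_mem_vn hm _
  · have e : star m⁺ * m * m⁺ = star m⁺ * (m⁺ - m⁻) * m⁺ := by
      rw [CFC.posPart_sub_negPart m hm']
    rw [e, mul_sub, sub_mul, mul_assoc _ m⁻, CFC.negPart_mul_posPart, mul_zero, sub_zero]
    exact star_left_conjugate_nonneg (CFC.posPart_nonneg m) _

theorem rig_scale (D : DM.{u, w} Γ) (h : Std N ξ l r) {m : K →L[ℂ] K} (hm : m ∈ N)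
    (hm' : IsSelfAdjoint m) (h0 : ¬m ≤ 0) :
    ∃ a ∈ N, ‖D.E l (star a * a)‖ = 1 ∧ 0 ≤ star a * m * a := by
  obtain ⟨p, p1, p2, p3⟩ := rig_part hm hm' h0
  have e1 : 0 < ‖D.E l (star p * p)‖ := norm_pos_iff.2 fun h0 => p2 (h.sep p p1 (by
    have := h.E_inner D (mul_mem (star_mem p1) p1) h.fix h.fix
    rw [h0, mul_apply_eq_comp, ContinuousLinearMap.star_eq_adjoint,
      ContinuousLinearMap.adjoint_inner_right, zero_apply, inner_zero_right] at this
    exact inner_self_eq_zero.1 this.symm))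
  obtain ⟨t, ht, ht'⟩ : ∃ t : ℝ, 0 ≤ t ∧ t * t * ‖D.E l (star p * p)‖ = 1 :=
    ⟨√‖D.E l (star p * p)‖⁻¹, Real.sqrt_nonneg _, by
      rw [Real.mul_self_sqrt (by positivity), inv_mul_cancel₀ e1.ne']⟩
  have a2 : ∀ S, star (t • p) * S * (t • p) = (t * t) • (star p * S * p) := fun S => by
    rw [star_smul, star_trivial, smul_mul_assoc, smul_mul_smul_comm]
  refine ⟨t • p, ?_, ?_, ?_⟩
  · rw [← Complex.coe_smul]
    exact vn_smul _ p1
  · have : D.E l _ = (t * t) • D.E l _ :=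
      (rigE D h.bim.ul).map_smul_of_tower (t * t) (star p * p)
    rw [← mul_one (star (t • p)), a2, mul_one, this, norm_smul,
      Real.norm_of_nonneg (mul_nonneg ht ht), ht']
  · rw [a2]
    exact smul_nonneg (mul_nonneg ht ht) p3

theorem rig_upper (D : DM.{u, w} Γ) (h : StdE N ξ l r) {T : K →L[ℂ] K} (hT : IsSelfAdjoint T)
    {δ : ℝ} (hδ : 0 ≤ δ) (h1 : ∀ x ∈ N, ∀ y ∈ N.commutant,
      ‖(T * x - x * T) * y - y * (T * x - x * T)‖ ≤ δ * (‖x‖ * ‖y‖))
    (h2 : ∀ g, ‖T * l g - l g * T‖ ≤ δ) {x : K →L[ℂ] K} (hx : x ∈ N)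
    (hu : x ∈ unitary (K →L[ℂ] K)) {n : K →L[ℂ] K} (hn : n ∈ N) (hn' : IsSelfAdjoint n)
    {σ : ℝ} (hσ : |σ| = 1) (hd : ‖x * T * star x - T - σ • n‖ ≤ dk.{u} * δ) {C : ℝ}
    (hC : 17 * dk.{u} ^ 2 * δ < C) : n ≤ C • (1 : K →L[ℂ] K) := by
  have hl := h.std.bim.ul
  have hk := one_le_dk.{u}
  have hC0 : 0 ≤ C := le_trans (by positivity) hC.le
  have hm : IsSelfAdjoint (n - C • (1 : K →L[ℂ] K)) :=
    hn'.sub ((IsSelfAdjoint.all C).smul (.one _))
  have hmN : n - C • (1 : K →L[ℂ] K) ∈ N := by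
    rw [← Complex.coe_smul]
    exact sub_mem hn (vn_smul _ (one_mem N))
  rw [← sub_nonpos]
  by_contra hp
  obtain ⟨a, a1, a3, a2⟩ := rig_scale D h.std hmN hm hp
  have a4 : 0 ≤ D.E l (star a * a) := D.E_nonneg hl (star_mul_self_nonneg a)
  have a5 : D.E l (star a * a) ≤ 1 := (CStarAlgebra.norm_le_one_iff_of_nonneg _ a4).1 a3.le
  obtain ⟨b, b1, b2⟩ := rig_sqrt (sub_mem (one_mem N) (h.std.E_mem D (mul_mem (star_mem a1) a1)))
    (sub_nonneg.2 a5)
  rw [eq_sub_iff_add_eq'] at b2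
  have x1 : x * star x = 1 := Unitary.mul_star_self_of_mem hu
  have k1 := rig_key D h hT hδ h1 h2 a1 b1 b2
  have k2 := rig_key D h hT hδ h1 h2 (mul_mem (star_mem hx) a1) b1 (by
    rw [star_mul, star_star, mul_assoc, ← mul_assoc x, x1, one_mul, b2])
  let Ψ : (K →L[ℂ] K) →ₗ[ℂ] (K →L[ℂ] K) :=
    (rigE D hl).comp ((rigE D hl).comp (LinearMap.mulLeftRight ℂ (star a, a)))
  have hΨ : ∀ S, Ψ S = D.E l (D.E l (star a * S * a)) := fun S => rfl
  have hΨN : ∀ S ∈ N, Ψ S = D.E l (star a * S * a) := fun S hS =>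
    rig_E_fix D hl (h.std.E_comm D (mul_mem (mul_mem (star_mem a1) hS) a1))
  have hp' : ∀ S, 0 ≤ S → 0 ≤ Ψ S := fun S hS =>
    D.E_nonneg hl (D.E_nonneg hl (star_left_conjugate_nonneg hS a))
  have h11 : Ψ 1 = D.E l (star a * a) := by rw [hΨN 1 (one_mem N), mul_one]
  have k3 : ‖Ψ (x * T * star x - T)‖ ≤ 16 * dk.{u} ^ 2 * δ := by
    have e : Ψ (x * T * star x - T) =
        (D.E l (D.E l (star (star x * a) * T * (star x * a)) + star b * T * b) - T) -
          (D.E l (D.E l (star a * T * a) + star b * T * b) - T) := by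
      rw [map_sub, hΨ, hΨ, D.E_add hl, D.E_add hl, star_mul, star_star]
      simp only [mul_assoc]
      abel
    rw [e]
    linarith [norm_sub_le
      (D.E l (D.E l (star (star x * a) * T * (star x * a)) + star b * T * b) - T)
      (D.E l (D.E l (star a * T * a) + star b * T * b) - T)]
  have k4 := (rig_pos Ψ hp' (h11.trans_le a5) (((hT.conjugate x).sub hT).sub
    ((IsSelfAdjoint.all σ).smul hn'))).2.trans hd
  have k5 : ‖Ψ n‖ ≤ 17 * dk.{u} ^ 2 * δ := by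
    have e : σ • Ψ n = Ψ (x * T * star x - T) - Ψ (x * T * star x - T - σ • n) := by
      rw [map_sub Ψ _ (σ • n), Ψ.map_smul_of_tower, sub_sub_cancel]
    have b3 : dk.{u} * δ ≤ dk.{u} ^ 2 * δ :=
      mul_le_mul_of_nonneg_right (le_self_pow₀ hk two_ne_zero) hδ
    have b4 := norm_sub_le (Ψ (x * T * star x - T)) (Ψ (x * T * star x - T - σ • n))
    rw [← e, norm_smul, Real.norm_eq_abs, hσ, one_mul] at b4
    linarith
  have k6 : C • D.E l (star a * a) ≤ Ψ n := by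
    rw [← sub_nonneg, ← h11, ← Ψ.map_smul_of_tower, ← map_sub, hΨN _ hmN]
    exact D.E_nonneg hl a2
  have k7 := CStarAlgebra.norm_le_norm_of_nonneg_of_le (smul_nonneg hC0 a4) k6
  rw [norm_smul, a3, Real.norm_of_nonneg hC0] at k7
  linarith

/-- Linear rigidity for self adjoint operators. -/
theorem rig_sa (D : DM.{u, w} Γ) (h : StdE N ξ l r) {T : K →L[ℂ] K} (hT : IsSelfAdjoint T)
    {δ : ℝ} (hδ : 0 ≤ δ) (h1 : ∀ x ∈ N, ∀ y ∈ N.commutant,
      ‖(T * x - x * T) * y - y * (T * x - x * T)‖ ≤ δ * (‖x‖ * ‖y‖))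
    (h2 : ∀ g, ‖T * l g - l g * T‖ ≤ δ) {x : K →L[ℂ] K} (hx : x ∈ N)
    (hu : x ∈ unitary (K →L[ℂ] K)) : ‖T * x - x * T‖ ≤ 100 * dk.{u} ^ 2 * δ := by
  have hk := one_le_dk.{u}
  have x1 : star x * x = 1 := Unitary.star_mul_self_of_mem hu
  have x2 : x * star x = 1 := Unitary.mul_star_self_of_mem hu
  have x3 : ‖x‖ ≤ 1 := by
    simpa using (CStarRing.norm_mem_unitary_mul 1 hu).trans_le ContinuousLinearMap.norm_id_le
  obtain ⟨m, hm, hm'⟩ := dist_vn N (x * T * star x - T) hδ fun y hy => by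
    have e : (x * T * star x - T) * y - y * (x * T * star x - T) =
        -((T * x - x * T) * y - y * (T * x - x * T)) * star x := by
      have c1 := (rig_comm (star_mem hx) hy).eq
      simp only [mul_sub, sub_mul, neg_sub, mul_assoc, c1, x2, mul_one]
      rw [← c1, ← mul_assoc x (star x), x2, one_mul]
      abel
    rw [e, CStarRing.norm_mul_mem_unitary _ (Unitary.star_mem hu), norm_neg]
    refine (h1 x hx y hy).trans ?_
    gcongr
    exact mul_le_of_le_one_left (norm_nonneg _) x3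
  obtain ⟨n, n1, n2, n3⟩ := rig_sa_near ((hT.conjugate x).sub hT) hm hm'
  have n4 : ‖n‖ ≤ 17 * dk.{u} ^ 2 * δ := le_of_forall_gt_imp_ge_of_dense fun C hC =>
    rig_norm n2 (le_trans (by positivity) hC.le)
      (rig_upper D h hT hδ h1 h2 hx hu n1 n2 abs_one (by rwa [one_smul]) hC)
      (rig_upper D h hT hδ h1 h2 hx hu (neg_mem n1) n2.neg (σ := -1) (by simp)
        (by rwa [neg_smul_neg, one_smul]) hC)
  have e : T * x - x * T = -(x * T * star x - T) * x := by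
    rw [neg_sub, sub_mul, mul_assoc _ _ x, x1, mul_one]
  have b3 : dk.{u} * δ ≤ dk.{u} ^ 2 * δ :=
    mul_le_mul_of_nonneg_right (le_self_pow₀ hk two_ne_zero) hδ
  have b4 : 0 ≤ dk.{u} ^ 2 * δ := by positivity
  rw [e, CStarRing.norm_mul_mem_unitary _ hu, norm_neg]
  linarith [norm_le_norm_sub_add (x * T * star x - T) n]

theorem rig_lin (D : DM.{u, w} Γ) (h : StdE N ξ l r) {T : K →L[ℂ] K}
    {δ : ℝ} (hδ : 0 ≤ δ) (h1 : ∀ x ∈ N, ∀ y ∈ N.commutant,
      ‖(T * x - x * T) * y - y * (T * x - x * T)‖ ≤ δ * (‖x‖ * ‖y‖))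
    (h2 : ∀ g, ‖T * l g - l g * T‖ ≤ δ) {x : K →L[ℂ] K} (hx : x ∈ N) :
    ‖T * x - x * T‖ ≤ 400 * dk.{u} ^ 2 * δ * ‖x‖ := by
  have h1' : ∀ x ∈ N, ∀ y ∈ N.commutant, ‖(star T * x - x * star T) * y -
      y * (star T * x - x * star T)‖ ≤ δ * (‖x‖ * ‖y‖) := fun x hx y hy => by
    have := h1 _ (star_mem hx) _ (star_mem hy)
    rw [← norm_star, norm_star x, norm_star y] at this
    refine le_of_eq_of_le ?_ this
    congr 1
    simp only [star_sub, star_mul, star_star]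
    noncomm_ring
  have h2' : ∀ g, ‖star T * l g - l g * star T‖ ≤ δ := fun g => by
    have := h2 g⁻¹
    rwa [← norm_star, ← h.std.bim.ul g, star_sub, star_mul, star_mul, star_star,
      norm_sub_rev] at this
  have key : ∀ (α β : ℂ) (S : K →L[ℂ] K), ‖α‖ + ‖β‖ = 1 → S = α • T + β • star T →
      IsSelfAdjoint S → ∀ x ∈ N, x ∈ unitary (K →L[ℂ] K) →
      ‖S * x - x * S‖ ≤ 100 * dk.{u} ^ 2 * δ := fun α β S hαβ hS hS' x hx hu => by
    refine rig_sa D h hS' hδ (fun x hx y hy => ?_) (fun g => ?_) hx hu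
    · have e : (S * x - x * S) * y - y * (S * x - x * S) =
          α • ((T * x - x * T) * y - y * (T * x - x * T)) +
            β • ((star T * x - x * star T) * y - y * (star T * x - x * star T)) := by
        simp only [hS, add_mul, mul_add, sub_mul, mul_sub, smul_mul_assoc, mul_smul_comm, smul_sub]
        abel
      rw [e]
      refine (norm_add_le _ _).trans ?_
      rw [norm_smul, norm_smul, ← one_mul (δ * _), ← hαβ, add_mul]
      gcongr
      exacts [h1 x hx y hy, h1' x hx y hy]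
    · have e : S * l g - l g * S =
          α • (T * l g - l g * T) + β • (star T * l g - l g * star T) := by
        simp only [hS, add_mul, mul_add, smul_mul_assoc, mul_smul_comm, smul_sub]
        abel
      rw [e]
      refine (norm_add_le _ _).trans ?_
      rw [norm_smul, norm_smul, ← one_mul δ, ← hαβ, add_mul]
      gcongr
      exacts [h2 g, h2' g]
  have hun : ∀ x ∈ N, x ∈ unitary (K →L[ℂ] K) → ‖T * x - x * T‖ ≤ 200 * dk.{u} ^ 2 * δ :=
    fun x hx hu => by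
      have k1 := key 2⁻¹ 2⁻¹ _ (by norm_num) rfl (by
        simp [IsSelfAdjoint, star_add, star_smul, add_comm]) x hx hu
      have k2 := key (Complex.I / 2) (-Complex.I / 2) _ (by norm_num) rfl (by
        simp [IsSelfAdjoint, star_add, star_smul, add_comm]) x hx hu
      set S1 : K →L[ℂ] K := (2⁻¹ : ℂ) • T + (2⁻¹ : ℂ) • star T with hS1
      set S2 : K →L[ℂ] K := (Complex.I / 2) • T + (-Complex.I / 2) • star T with hS2
      have e1 : T = S1 - Complex.I • S2 := by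
        rw [hS1, hS2]
        match_scalars
        · linear_combination (1 / 2 : ℂ) * Complex.I_mul_I
        · linear_combination (-1 / 2 : ℂ) * Complex.I_mul_I
      have e2 : T * x - x * T = (S1 * x - x * S1) - Complex.I • (S2 * x - x * S2) := by
        conv_lhs => rw [e1]
        simp only [sub_mul, mul_sub, smul_mul_assoc, mul_smul_comm, smul_sub]
        abel
      rw [e2]
      refine (norm_sub_le _ _).trans ?_
      rw [norm_smul, Complex.norm_I]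
      linarith
  obtain ⟨c, g, hg, e⟩ := exists_four_vn hx
  have e' : T * x - x * T = ∑ i, c i • (T * g i - g i * T) := by
    conv_lhs => rw [e]
    simp only [Finset.mul_sum, Finset.sum_mul, smul_mul_assoc, mul_smul_comm, smul_sub,
      Finset.sum_sub_distrib]
  rw [e']
  refine (norm_sum_le _ _).trans ((Finset.sum_le_card_nsmul _ _
    (‖x‖ / 2 * (200 * dk.{u} ^ 2 * δ)) fun i _ => ?_).trans_eq (by simp; ring))
  rw [norm_smul]
  exact mul_le_mul (hg i).2.2 (hun _ (hg i).1 (hg i).2.1) (norm_nonneg _) (by positivity)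

theorem rig : ∃ C : ℝ, 1 ≤ C ∧ ∀ (Γ : Type w) [Group Γ] (K : Type u) [NormedAddCommGroup K]
    [InnerProductSpace ℂ K] [CompleteSpace K] (_ : DM.{u, w} Γ) (N : VonNeumannAlgebra K) (ξ : K)
    (l r : Γ →* (K →L[ℂ] K)) (c c' : K →L[ℂ] K) (δ : ℝ), StdE N ξ l r → 0 ≤ δ → c * c' = 1 →
    ‖c'‖ ≤ 4 → (∀ x ∈ N, ∀ y ∈ N.commutant,
      ‖c * x * c' * y - y * (c * x * c')‖ ≤ δ * (‖x‖ * ‖y‖)) →
    (∀ g, ‖c * l g - l g * c‖ ≤ δ) → (∀ g, ‖c * r g - r g * c‖ ≤ δ) →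
    (∀ z ∈ N, z ∈ N.commutant → ‖c (z ξ) - z ξ‖ ≤ δ * ‖z ξ‖) →
    ‖c - 1‖ ≤ C * (δ + ‖c - 1‖ ^ 2) := by
  have hk := one_le_dk.{u}
  have hk3 : 1 ≤ dk.{u} ^ 3 := one_le_pow₀ hk
  refine ⟨16 * (2403 * dk.{u} ^ 3), by linarith, ?_⟩
  intro Γ _ K _ _ _ D N ξ l r c c' δ h hδ hc hc' h1 h2 h3 h4
  obtain ⟨T, rfl⟩ : ∃ T, c = T + 1 := ⟨c - 1, (sub_add_cancel c 1).symm⟩
  rw [add_sub_cancel_right]
  set ε := δ + 16 * ‖T‖ ^ 2 with hε
  have hδε : δ ≤ ε := le_add_of_nonneg_right (by positivity)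
  have hε0 : 0 ≤ ε := hδ.trans hδε
  have hc1 : c' = 1 - T * c' := by rw [← hc]; noncomm_ring
  have a1 : ∀ x ∈ N, ‖T * x - x * T‖ ≤ 400 * dk.{u} ^ 2 * ε * ‖x‖ := fun x hx => by
    refine rig_lin D h hε0 (fun x hx y hy => ?_) (fun g => le_trans ?_ ((h2 g).trans hδε)) hx
    · have c1 := (rig_comm hx hy).eq
      have e1 : (T + 1) * x * c' = x + (T * x - x * T) - (T * x - x * T) * (T * c') := by
        have : (T + 1) * x * c' = x * ((T + 1) * c') + (T * x - x * T) * c' := by noncomm_ring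
        rw [this, hc]
        conv_lhs => rw [hc1]
        noncomm_ring
      have e2 : (T * x - x * T) * y - y * (T * x - x * T) =
          ((T + 1) * x * c' * y - y * ((T + 1) * x * c')) +
            ((T * x - x * T) * (T * c') * y - y * ((T * x - x * T) * (T * c'))) := by
        rw [e1, sub_mul (x + _), add_mul, c1]
        noncomm_ring
      have b1 : ‖T * x - x * T‖ ≤ 2 * (‖T‖ * ‖x‖) := by
        linarith [norm_sub_le (T * x) (x * T), norm_mul_le T x, norm_mul_le x T]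
      have b2 : ‖T * c'‖ ≤ ‖T‖ * 4 := (norm_mul_le _ _).trans (by gcongr)
      have b3 : ‖(T * x - x * T) * (T * c')‖ ≤ 2 * (‖T‖ * ‖x‖) * (‖T‖ * 4) :=
        (norm_mul_le _ _).trans (by gcongr)
      have b4 := (norm_mul_le ((T * x - x * T) * (T * c')) y).trans
        (mul_le_mul_of_nonneg_right b3 (norm_nonneg y))
      have b5 := (norm_mul_le y ((T * x - x * T) * (T * c'))).trans
        (mul_le_mul_of_nonneg_left b3 (norm_nonneg y))
      rw [e2]
      refine (norm_add_le _ _).trans ((add_le_add (h1 x hx y hy) (norm_sub_le _ _)).trans ?_)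
      rw [hε]
      linarith
    · exact le_of_eq (by congr 1; noncomm_ring)
  obtain ⟨s, s1, s2⟩ := dist_comm_vn N T (by positivity) a1
  have s3 : ‖T - s‖ ≤ 400 * (dk.{u} ^ 3 * ε) := s2.trans_eq (by ring)
  have hε3 : ε ≤ dk.{u} ^ 3 * ε := le_mul_of_one_le_left hε0 hk3
  have hr := h.std.bim.ur
  have s4 : ‖D.E r s - s‖ ≤ 801 * (dk.{u} ^ 3 * ε) := D.E_sub_le hr fun g => by
    have e : s * r g - r g * s =
        ((T + 1) * r g - r g * (T + 1)) - ((T - s) * r g - r g * (T - s)) := by noncomm_ring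
    have b1 := norm_sub_le ((T - s) * r g) (r g * (T - s))
    rw [CStarRing.norm_mul_mem_unitary _ (hr.unitary g),
      CStarRing.norm_mem_unitary_mul _ (hr.unitary g)] at b1
    rw [e]
    linarith [norm_sub_le ((T + 1) * r g - r g * (T + 1)) ((T - s) * r g - r g * (T - s)), h3 g]
  have z1 : D.E r s ∈ N.commutant := h.symm.std.E_mem D s1
  have z2 : D.E r s ∈ N := by
    have := h.symm.E_central D s1
    rwa [N.commutant_commutant] at this
  have z3 : ‖T - D.E r s‖ ≤ 1201 * (dk.{u} ^ 3 * ε) := by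
    rw [norm_sub_rev] at s4
    linarith [norm_sub_le_norm_sub_add_norm_sub T s (D.E r s)]
  have z4 : ‖D.E r s‖ ≤ 1202 * (dk.{u} ^ 3 * ε) := by
    refine norm_le_of_inv h.std.sep z2 (Z := {ζ | ∃ z ∈ N, z ∈ N.commutant ∧ ζ = z ξ})
      ⟨1, one_mem _, one_mem _, rfl⟩ ?_ ?_ (by positivity) ?_
    · rintro _ ⟨z, b1, b2, rfl⟩
      exact ⟨_, mul_mem z2 b1, mul_mem z1 b2, rfl⟩
    · rintro _ ⟨z, b1, b2, rfl⟩
      exact ⟨_, mul_mem (star_mem z2) b1, mul_mem (star_mem z1) b2, rfl⟩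
    · rintro _ ⟨z, b1, b2, rfl⟩
      have b3 := h4 z b1 b2
      have b4 := ((T - D.E r s).le_opNorm (z ξ)).trans
        (mul_le_mul_of_nonneg_right z3 (norm_nonneg _))
      have b5 := mul_le_mul_of_nonneg_right (hδε.trans hε3) (norm_nonneg (z ξ))
      have e : D.E r s (z ξ) = ((T + 1) (z ξ) - z ξ) - (T - D.E r s) (z ξ) := by simp
      rw [e]
      linarith [norm_sub_le ((T + 1) (z ξ) - z ξ) ((T - D.E r s) (z ξ))]
  have z5 : ε ≤ 16 * (δ + ‖T‖ ^ 2) := by rw [hε]; linarith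
  have z6 := mul_le_mul_of_nonneg_left z5 (show 0 ≤ dk.{u} ^ 3 by positivity)
  linarith [norm_le_norm_sub_add T (D.E r s)]

end Vale.Agent.P096
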