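import Vale.Agent.P096.Dk
import Vale.Agent.P096.DE
import Vale.Agent.P096.LemK
import Vale.Agent.P096.CoreC
import Vale.Agent.P096.Fin
import Vale.Agent.P096.Step6

/-! The centralizer, its unitary group, and the finite case. -/

open scoped InnerProductSpace Topology
open Filter

namespace Vale.Agent.P096

open Vale.Agent.P104 Vale.Agent.P132

universe u v w

variable {K : Type u} [NormedAddCommGroup K] [InnerProductSpace ℂ K] [CompleteSpace K]
  {N M : VonNeumannAlgebra K} {ξ : K}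

/-- The centralizer as a star subalgebra. -/
noncomputable def setP (N : VonNeumannAlgebra K) (ξ : K) : StarSubalgebra ℂ (K →L[ℂ] K) where
  carrier := Cen N ξ
  mul_mem' ha hb := ⟨mul_mem ha.1 hb.1, fun x hx => by
    rw [mul_assoc, ha.2 _ (mul_mem hb.1 hx), mul_assoc, hb.2 _ (mul_mem hx ha.1), mul_assoc]⟩
  add_mem' ha hb := ⟨add_mem ha.1 hb.1, fun x hx => by
    rw [add_mul, mul_add, add_apply, add_apply, inner_add_right, inner_add_right, ha.2 x hx,
      hb.2 x hx]⟩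
  algebraMap_mem' c := ⟨algebraMap_mem N.toStarSubalgebra c, fun x _ => by
    rw [Algebra.commutes]⟩
  star_mem' ha := ⟨star_mem ha.1, fun x hx => by
    have := congrArg (starRingEnd ℂ) (ha.2 _ (star_mem hx))
    rw [inner_conj_symm, inner_conj_symm, ← inner_star_right, ← inner_star_right, star_mul,
      star_mul, star_star] at this
    exact this.symm⟩

theorem setP_closed (N : VonNeumannAlgebra K) (ξ : K) :
    IsClosed (setP N ξ : Set (K →L[ℂ] K)) := by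
  have : (setP N ξ : Set (K →L[ℂ] K)) = (N : Set (K →L[ℂ] K)) ∩ ⋂ x ∈ N,
      {a : K →L[ℂ] K | ⟪ξ, (a * x) ξ⟫_ℂ = ⟪ξ, (x * a) ξ⟫_ℂ} := Set.ext fun a => by
    rw [Set.mem_inter_iff, Set.mem_iInter₂]
    rfl
  rw [this]
  exact (vn_closed N).inter (isClosed_biInter fun x _ => isClosed_eq (by fun_prop) (by fun_prop))

theorem set_norm {a y : K →L[ℂ] K} (ha : a ∈ setP N ξ) (hy : y ∈ N) :
    ‖y (a ξ)‖ ^ 2 = (⟪ξ, (star y * y * (a * star a)) ξ⟫_ℂ).re := by
  rw [← mul_apply_eq_comp, norm_sq_apply, star_mul, mul_assoc,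
    (star_mem ha : star a ∈ setP N ξ).2 _ (mul_mem (star_mem hy) (mul_mem hy ha.1))]
  simp only [mul_assoc]

theorem set_bound {a y : K →L[ℂ] K} (ha : a ∈ Cen N ξ) (hy : y ∈ N) :
    ‖y (a ξ)‖ ≤ ‖a‖ * ‖y ξ‖ := by
  have := setP_closed N ξ
  have ha' : a ∈ setP N ξ := ha
  have h0 : 0 ≤ algebraMap ℝ (K →L[ℂ] K) (‖a‖ ^ 2) - a * star a :=
    sub_nonneg.2 CStarAlgebra.mul_star_le_algebraMap_norm_sq
  have e0 : algebraMap ℝ (K →L[ℂ] K) (‖a‖ ^ 2) = ((‖a‖ ^ 2 : ℝ) : ℂ) • 1 := by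
    rw [Algebra.algebraMap_eq_smul_one, Complex.coe_smul]
  rw [e0] at h0
  have hm : ((‖a‖ ^ 2 : ℝ) : ℂ) • 1 - a * star a ∈ setP N ξ :=
    sub_mem (SMulMemClass.smul_mem _ (one_mem _)) (mul_mem ha' (star_mem ha'))
  have hb := set_norm (cfc_mem (𝕜' := ℂ) Real.sqrt hm) hy
  rw [(cfc_predicate _ _ : IsSelfAdjoint _).star_eq, ← cfc_mul _ _ _, cfc_congr
    (f := fun t => √t * √t) (g := id) fun t ht => Real.mul_self_sqrt (spectrum_nonneg_of_nonneg h0 ht),
    cfc_id ℝ _ h0.isSelfAdjoint, mul_sub, sub_apply, inner_sub_right, Complex.sub_re,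
    ← set_norm ha' hy, mul_smul_comm, mul_one, smul_apply, inner_smul_right,
    Complex.re_ofReal_mul, ← norm_sq_apply] at hb
  refine (pow_le_pow_iff_left₀ (norm_nonneg _) (by positivity) two_ne_zero).1 ?_
  rw [mul_pow]
  linarith [sq_nonneg ‖y (cfc Real.sqrt (((‖a‖ ^ 2 : ℝ) : ℂ) • 1 - a * star a) ξ)‖]

theorem exists_full (hc : Cyc N ξ) (hs : Sep N ξ) :
    ∃ (P : StarSubalgebra ℂ (K →L[ℂ] K)) (R : (K →L[ℂ] K) → (K →L[ℂ] K)) (Γ : Type u)
      (_ : Group Γ) (l r : Γ →* (K →L[ℂ] K)), (P : Set (K →L[ℂ] K)) = Cen N ξ ∧ Full P R l r ∧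
      Std N ξ l r ∧ (Erg N ξ → StdE N ξ l r) := by
  have h0 : ∀ a : K →L[ℂ] K, ∃ S : K →L[ℂ] K, a ∈ Cen N ξ →
      ‖S‖ ≤ ‖a‖ ∧ ∀ y ∈ N, S (y ξ) = y (a ξ) := fun a => by
    by_cases ha : a ∈ Cen N ξ
    · obtain ⟨S, h1, h2⟩ := exists_op hc (fun y => y (a ξ)) (fun _ _ _ _ => rfl)
        (fun _ _ _ => rfl) (norm_nonneg a) fun y hy => set_bound ha hy
      exact ⟨S, fun _ => ⟨h1, h2⟩⟩
    · exact ⟨0, fun h => absurd h ha⟩
  choose R hR using h0
  have ext : ∀ S T : K →L[ℂ] K, (∀ y ∈ N, S (y ξ) = T (y ξ)) → S = T := fun S T h =>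
    ContinuousLinearMap.ext (hc.ext S.continuous T.continuous h)
  have hR' : ∀ a ∈ Cen N ξ, R a ∈ N.commutant := fun a ha =>
    VonNeumannAlgebra.mem_commutant_iff.2 fun x hx => ext _ _ fun y hy => by
      rw [mul_apply_eq_comp, mul_apply_eq_comp, (hR a ha).2 y hy, ← mul_apply_eq_comp x y,
        ← mul_apply_eq_comp x y, (hR a ha).2 _ (mul_mem hx hy)]
  have rm : RM (setP N ξ) R :=
    { cl := setP_closed N ξ
      add := fun x hx y hy => ext _ _ fun z hz => by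
        rw [add_apply, (hR _ (add_mem hx hy : x + y ∈ setP N ξ)).2 z hz, (hR x hx).2 z hz,
          (hR y hy).2 z hz, add_apply, map_add]
      smul := fun c x hx => ext _ _ fun z hz => by
        rw [smul_apply, (hR _ (SMulMemClass.smul_mem c hx : c • x ∈ setP N ξ)).2 z hz,
          (hR x hx).2 z hz, smul_apply, map_smul]
      one := ext _ _ fun z hz => (hR _ (one_mem (setP N ξ))).2 z hz
      mul := fun x hx y hy => ext _ _ fun z hz => by
        rw [mul_apply_eq_comp, (hR _ (mul_mem hx hy : x * y ∈ setP N ξ)).2 z hz, (hR x hx).2 z hz,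
          ← mul_apply_eq_comp z x ξ, (hR y hy).2 _ (mul_mem hz hx.1)]
        rfl
      star := fun x hx => ext _ _ fun z hz => ext_inner_right ℂ (hc.ext (by fun_prop)
        (by fun_prop) fun w hw => by
          rw [inner_star_left, (hR _ (star_mem hx : star x ∈ setP N ξ)).2 z hz, (hR x hx).2 w hw,
            ← inner_star_right, inner_star_left, ← inner_star_right z]
          exact hx.2 _ (mul_mem (star_mem hz) hw))
      norm := fun x hx => (hR x hx).1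
      comm := fun x hx y hy => (commute_of_mem N (hR' y hy) hx.1).symm }
  let G : Subgroup (unitary (K →L[ℂ] K)) :=
    { carrier := {g | (g : K →L[ℂ] K) ∈ setP N ξ}
      mul_mem' := fun ha hb => (setP N ξ).mul_mem ha hb
      one_mem' := one_mem (setP N ξ)
      inv_mem' := fun {g} ha => (star_mem ha : star (g : K →L[ℂ] K) ∈ setP N ξ) }
  let l : G →* (K →L[ℂ] K) := (unitary _).subtype.comp G.subtype
  have hl : ∀ g, l g ∈ setP N ξ := fun g => g.2
  have ul : URep l := fun _ => rfl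
  let r : G →* (K →L[ℂ] K) :=
    { toFun := fun g => R (l g⁻¹)
      map_one' := by rw [inv_one, map_one, rm.one]
      map_mul' := fun g h => by rw [mul_inv_rev, map_mul, rm.mul _ (hl _) _ (hl _)] }
  have hr : ∀ g, ∀ y ∈ N, r g (y ξ) = y (l g⁻¹ ξ) := fun g => (hR _ (hl _)).2
  have bim : Bim l r := ⟨ul, fun g => (rm.star _ (hl _)).symm, fun g h => rm.comm _ (hl _) _ (hl _)⟩
  have std : Std N ξ l r := ⟨bim, fun g => (hl g).1, fun g => hR' _ (hl _), fun g => by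
    rw [show r g ξ = l g⁻¹ ξ from hr g 1 (one_mem _), rep_mul_apply, mul_inv_cancel, map_one]
    rfl, hc, hs⟩
  refine ⟨setP N ξ, R, G, inferInstance, l, r, rfl,
    ⟨rm, bim, hl, fun x hx hu => ⟨⟨⟨x, hu⟩, hx⟩, rfl⟩, fun _ => rfl⟩, std,
    fun he => ⟨std, fun ζ hζ ε hε => ?_, fun z hz hz' hu => ?_⟩⟩
  · let D : Submodule ℂ K :=
      { carrier := {η | ∃ z ∈ N, z ∈ N.commutant ∧ z ξ = η}
        add_mem' := by
          rintro _ _ ⟨y, hy, hy', rfl⟩ ⟨z, hz, hz', rfl⟩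
          exact ⟨y + z, add_mem hy hz, add_mem hy' hz', rfl⟩
        zero_mem' := ⟨0, zero_mem _, zero_mem _, rfl⟩
        smul_mem' := by
          rintro c _ ⟨y, hy, hy', rfl⟩
          exact ⟨c • y, vn_smul c hy, vn_smul c hy', rfl⟩ }
    obtain ⟨a, ha, v, hv, e⟩ := D.topologicalClosure.exists_add_mem_mem_orthogonal ζ
    have h1 : ∀ g, bim.diag g a = a := fun g =>
      closure_minimal (s := (D : Set K)) (t := {η | bim.diag g η = η}) (by
        rintro _ ⟨z, hz, hz', rfl⟩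
        exact std.fix_of_comm hz (fun g => commute_of_mem N hz' (std.l_mem g)) std.fix g)
        (isClosed_eq (by fun_prop) continuous_id) ha
    have h2 : ∀ g, bim.diag g v = v := fun g => by
      have : bim.diag g ζ = ζ := hζ g
      rwa [e, map_add, h1, add_right_inj] at this
    have h3 : v = 0 := he v (fun g hg hu x hx => by
      let γ : G := ⟨⟨g, hu⟩, hg⟩
      have : (g * x * star g) ξ = bim.diag γ (x ξ) := by
        rw [bim.diag_apply, hr γ x hx]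
        rfl
      rw [this, ← inner_star_left, bim.urep_diag, h2]) fun z hz hz' =>
        (Submodule.mem_orthogonal' _ _).1 hv _ (D.le_topologicalClosure ⟨z, hz, hz', rfl⟩)
    rw [h3, add_zero] at e
    obtain ⟨_, ⟨z, hz, hz', rfl⟩, h⟩ := Metric.mem_closure_iff.1
      (show a ∈ closure (D : Set K) from ha) ε hε
    exact ⟨z, hz, hz', by rw [e, ← dist_eq_norm]; exact h.le⟩
  · refine ⟨⟨⟨z, hu⟩, hz, fun x hx => by rw [(commute_of_mem N hz' hx).eq]⟩, rfl,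
      ext _ _ fun y hy => (hr _ y hy).trans ?_⟩
    exact (congrArg (fun T : K →L[ℂ] K => T ξ) (commute_of_mem N (star_mem hz') hy).eq).symm

theorem Tr.sep (ht : Tr N ξ) (hc : Cyc N ξ) : Sep N ξ := by
  intro x hx h0
  have h1 : star x ξ = 0 := by rw [← norm_eq_zero, ht x hx, h0, norm_zero]
  ext η
  refine hc.ext x.continuous continuous_const (fun y hy => ?_) η
  rw [zero_apply, ← norm_eq_zero, ← mul_apply_eq_comp, ← ht _ (mul_mem hx hy), star_mul, mul_apply_eq_comp, h1,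
    map_zero, norm_zero]

theorem Tr.cen (ht : Tr N ξ) : Cen N ξ = N := by
  have k : ∀ u ∈ N, ∀ w ∈ N, (⟪u ξ, w ξ⟫_ℂ).re = (⟪star w ξ, star u ξ⟫_ℂ).re := fun u hu w hw => by
    have h1 := norm_add_sq (𝕜 := ℂ) (u ξ) (w ξ)
    have h2 := norm_add_sq (𝕜 := ℂ) (star w ξ) (star u ξ)
    rw [← add_apply, ← star_add, ht _ (add_mem hw hu), ht u hu, ht w hw, add_apply, add_comm] at h2
    simp only [RCLike.re_to_complex] at h1 h2
    linarith
  refine Set.ext fun a => ⟨fun h => h.1, fun ha => ⟨ha, fun x hx => ?_⟩⟩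
  have k1 := k _ (star_mem ha) _ hx
  have k2 := k _ (star_mem ha) _ (vn_smul Complex.I hx)
  simp only [star_smul, smul_apply, inner_smul_left, inner_smul_right, star_star, inner_star_left,
    RCLike.star_def, Complex.conj_conj, Complex.I_mul_re, neg_inj] at k1 k2
  exact Complex.ext k1 k2

theorem Tr.erg (ht : Tr N ξ) (hc : Cyc N ξ) : Erg N ξ := by
  intro v h1 h2
  obtain ⟨P, R, Γ, _, l, r, hP, hF, hS, -⟩ := exists_full hc (ht.sep hc)
  obtain ⟨D⟩ := exists_dm.{u, u} Γ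
  have ul := hS.bim.ul
  refine inner_self_eq_zero.1 (hc.ext (f := fun ζ => ⟪v, ζ⟫_ℂ) (g := fun _ => 0) (by fun_prop)
    continuous_const (fun y hy => ?_) v)
  have k1 : D.E l y ∈ N.commutant := VonNeumannAlgebra.mem_commutant_iff.2 fun x hx => by
    obtain ⟨c, g, hg, rfl⟩ := exists_four_vn hx
    refine (Commute.sum_left _ _ _ fun i _ => Commute.smul_left ?_ _).eq
    obtain ⟨a, ha⟩ := hF.surj (g i) (by
      rw [← SetLike.mem_coe, hP, ht.cen]
      exact (hg i).1) (hg i).2.1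
    exact ha ▸ (hS.E_comm D hy a).symm
  have k2 := D.vm_inner_le ((mean_bd_conj ul y (fun s _ => s⁻¹) fun s _ => s).apply ξ) (η := v)
    (c := ⟪v, y ξ⟫_ℂ) (C := 0) fun s _ => by
      have := h1 (l s⁻¹) (by rw [ht.cen]; exact hS.l_mem _) (ul.unitary _) y hy
      rw [ul, inv_inv] at this
      rw [this, sub_self, norm_zero]
  rw [← D.om_apply (mean_bd_conj ul y (fun s _ => s⁻¹) fun s _ => s), norm_le_zero_iff,
    sub_eq_zero] at k2
  exact k2.symm.trans (h2 _ (hS.E_mem D hy) k1)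

theorem setup (ε : ℝ) (hε : 0 < ε) : ∃ δ : ℝ, 0 < δ ∧ ∀ (K : Type u) [NormedAddCommGroup K]
    [InnerProductSpace ℂ K] [CompleteSpace K] (N M : VonNeumannAlgebra K) (ξ : K),
    Cyc N ξ → Sep N ξ → Erg N ξ → M22 (Cen N ξ) → Close δ N M →
    ∃ (Γ : Type u) (_ : Group Γ) (l r κ κ' : Γ →* (K →L[ℂ] K)) (W : K →L[ℂ] K),
      StdE N ξ l r ∧ Itf ε M ξ l r κ κ' W ∧
      ∀ g ∈ Cen N ξ, g ∈ unitary (K →L[ℂ] K) → ∃ a, l a = g := by
  obtain ⟨δ₁, h1, H1⟩ := step6.{u, u} ε hε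
  obtain ⟨ε₀, h0, H0⟩ := core.{u, u}
  obtain ⟨γ, hγ, Hγ⟩ := finP.{u, u} ε₀ h0
  obtain ⟨δ₂, h2, H2⟩ := H0 γ hγ δ₁ h1
  obtain ⟨δ₃, h3, H3⟩ := lemK.{u, u} (min δ₁ δ₂) (lt_min h1 h2)
  have hk := one_le_dk.{u}
  have hm := lt_min h1 h3
  have hδ : 0 < min δ₁ δ₃ / (2 * dk.{u}) := by positivity
  refine ⟨_, hδ, fun K _ _ _ N M ξ hc hs he h22 hNM => ?_⟩
  have c1 : Close (min δ₁ δ₃) N M := hNM.mono (div_le_self hm.le (by linarith))
  have c2 : Close (min δ₁ δ₃) N.commutant M.commutant :=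
    (hNM.commutant hδ.le).mono (le_of_eq (by field_simp))
  obtain ⟨P, R, Γ, _, l, r, hP, hF, hS, hE⟩ := exists_full hc hs
  obtain ⟨D⟩ := exists_dm.{u, u} Γ
  obtain ⟨κ, Y, A, hK, hκ, hY⟩ := H3 Γ K D N M ξ l r hS (c1.mono (min_le_right _ _))
  obtain ⟨κ', Y', A', hK', hκ', hY'⟩ := H3 Γ K D _ _ ξ r l hS.symm (c2.mono (min_le_right _ _))
  have b := min_le_right δ₁ δ₂
  obtain ⟨W, hW, hI⟩ := H2 Γ K D l r κ κ' Y A Y' A' hS.bim
    ⟨hK.one, fun g => (hK.near g).trans b, hK.Y_near.trans b, hK.A_le.trans b, hK.eq⟩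
    ⟨hK'.one, fun g => (hK'.near g).trans b, hK'.Y_near.trans b, hK'.A_le.trans b, hK'.eq⟩
    (fun g h => (commute_of_mem M (hκ' h) (hκ g)).symm)
    (fun g => (commute_of_mem M (hκ' g) hY).symm) (fun g => commute_of_mem M hY' (hκ g))
    (Hγ Γ K P R l r hF (hP ▸ h22))
  obtain ⟨κ₁, κ₁', W₁, hI⟩ := H1 Γ K D N M ξ l r κ κ' W (hE he) (c1.mono (min_le_left _ _))
    (c2.mono (min_le_left _ _)) hκ hκ' (fun g => (hK.near g).trans (min_le_left _ _))
    (fun g => (hK'.near g).trans (min_le_left _ _)) hW hI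
  exact ⟨Γ, inferInstance, l, r, κ₁, κ₁', W₁, hE he, hI, fun g hg =>
    hF.surj g (by rwa [← SetLike.mem_coe, hP])⟩

theorem kk6 : KK.{u} P6 := by
  intro ε hε
  obtain ⟨δ, hδ, H⟩ := setup.{u} (ε / 2) (half_pos hε)
  refine ⟨δ, hδ, fun K _ _ _ N M ⟨ξ, hc, ht, h22⟩ hNM => ?_⟩
  obtain ⟨Γ, _, l, r, κ, κ', W, hE, hI, hs⟩ := H K N M ξ hc (ht.sep hc) (ht.erg hc)
    (ht.cen ▸ h22) hNM
  have h0 : ∀ x : K →L[ℂ] K, ∃ y : K →L[ℂ] K, x ∈ N →
      y ∈ M ∧ y (W ξ) = W (x ξ) ∧ ‖y - x‖ ≤ ε * ‖x‖ := fun x => by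
    by_cases hx : x ∈ N
    · obtain ⟨c, g, hg, e⟩ := exists_four_vn hx
      choose a ha using fun i => hs (g i) (by rw [ht.cen]; exact (hg i).1) (hg i).2.1
      refine ⟨∑ i, c i • κ (a i), fun _ => ⟨sum_mem fun i _ => vn_smul _ (hI.std.l_mem _), ?_, ?_⟩⟩
      · rw [e]
        simp only [sum_apply, smul_apply, map_sum, map_smul,
          hI.int _ _ hE.std.fix, ha]
      · conv_lhs => rw [e, ← Finset.sum_sub_distrib]
        refine (norm_sum_le_of_le _ (n := fun _ => ‖x‖ / 2 * (ε / 2)) fun i _ => ?_).trans_eq ?_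
        · rw [← smul_sub, norm_smul, ← ha]
          exact mul_le_mul (hg i).2.2 (hI.near _) (norm_nonneg _) (by positivity)
        · rw [Fin.sum_univ_four]
          ring
    · exact ⟨x, fun h => absurd h hx⟩
  choose θ hθ using h0
  refine ⟨θ, ⟨fun x hx y hy => ?_, fun c x hx => ?_⟩, fun x hx => ⟨(hθ x hx).1, (hθ x hx).2.2⟩⟩
  · refine hI.std.sep.ext (hθ _ (add_mem hx hy)).1 (add_mem (hθ x hx).1 (hθ y hy).1) ?_
    rw [add_apply, (hθ _ (add_mem hx hy)).2.1, (hθ x hx).2.1, (hθ y hy).2.1, add_apply, map_add]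
  · refine hI.std.sep.ext (hθ _ (vn_smul c hx)).1 (vn_smul c (hθ x hx).1) ?_
    rw [smul_apply, (hθ _ (vn_smul c hx)).2.1, (hθ x hx).2.1, smul_apply, map_smul]

end Vale.Agent.P096
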