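import Vale.Agent.P096.StripAux2

/-! Analytic families on the strip: interpolation of graph maps. -/

open scoped InnerProductSpace Topology
open Filter

namespace Vale.Agent.P096

open Vale.Agent.P104 Vale.Agent.P132

variable {K : Type*} [NormedAddCommGroup K] [InnerProductSpace ℂ K] [CompleteSpace K]

/-- Gaussian with an exponential factor. -/
noncomputable def sxG (δ : ℝ) (z : ℂ) (s : ℝ) : ℂ :=
  Complex.exp (z * (s : ℂ) / 2 - δ * (s : ℂ) ^ 2)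

theorem sxG_norm (δ : ℝ) (z : ℂ) (s : ℝ) : ‖sxG δ z s‖ = Real.exp (z.re * s / 2 - δ * s ^ 2) := by
  unfold sxG
  rw [Complex.norm_exp]
  refine congrArg Real.exp ?_
  simp [← Complex.ofReal_pow]

theorem sx_quad {δ : ℝ} (hδ : 0 < δ) (c s : ℝ) : c * s / 2 - δ * s ^ 2 ≤ c ^ 2 / (16 * δ) := by
  rw [le_div_iff₀ (by positivity)]
  nlinarith [sq_nonneg (c - 4 * δ * s)]

theorem sxG_cont (δ : ℝ) (z : ℂ) : Continuous (sxG δ z) := by
  unfold sxG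
  fun_prop

theorem sxG_bc {δ : ℝ} (hδ : 0 < δ) (z : ℂ) : BC (sxG δ z) :=
  ⟨sxG_cont δ z, Real.exp (z.re ^ 2 / (16 * δ)), fun s => by
    rw [sxG_norm]; exact Real.exp_le_exp.2 (sx_quad hδ _ _)⟩

theorem sxG_sub (δ : ℝ) (z w : ℂ) : sxG δ (z - w) = sxE (fun s => -(s / 2)) (sxG δ z) w := by
  funext s
  unfold sxE sxG
  rw [← Complex.exp_add]
  refine congrArg Complex.exp ?_
  push_cast
  ring

theorem sxG_sf (F : FC K) {δ : ℝ} (hδ : 0 < δ) (z : ℂ) : SF fun w => F.f (sxG δ (z - w)) := by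
  simp only [sxG_sub]
  refine sxE_sf F (by fun_prop) (sxG_cont δ z)
    (C := Real.exp (z.re ^ 2 / (16 * δ) + (z.re - 1) ^ 2 / (16 * δ))) (fun s => ?_) fun s => ?_
  · rw [sxG_norm]
    refine Real.exp_le_exp.2 ((sx_quad hδ _ _).trans (le_add_of_nonneg_right (by positivity)))
  · rw [sxG_norm, ← Real.exp_add]
    refine Real.exp_le_exp.2 ?_
    have h1 := sx_quad hδ (z.re - 1) s
    have h2 : 0 ≤ z.re ^ 2 / (16 * δ) := by positivity
    linarith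

theorem sx_Phi_G (F : FC K) {δ : ℝ} (hδ : 0 < δ) (z : ℂ) {w : ℂ} (hw : w ∈ cstrip) (ρ : K) :
    Phi F w (F.f (sxG δ (z - w)) ρ) = F.f (fun s => fa s * sxG δ z s) ρ := by
  rw [sx_Phi, F.f_f (sx_bc_ph hw) (sxG_bc hδ _)]
  refine congrArg (fun g => F.f g ρ) (funext fun s => ?_)
  unfold sxE sxG
  rw [mul_right_comm, ← Complex.exp_add, mul_comm]
  refine congrArg (fun x => fa s * Complex.exp x) ?_
  push_cast
  ring

theorem sx_G_tendsto (F : FC K) (ρ : K) :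
    Tendsto (fun n : ℕ => F.f (sxG (1 / ((n : ℝ) + 1)) 0) ρ) atTop (𝓝 ρ) := by
  have h := F.tendsto (l := atTop) (g := fun n : ℕ => sxG (1 / ((n : ℝ) + 1)) 0)
    (k := fun _ => 1) (C := 1) (Eventually.of_forall fun n => sxG_bc Nat.one_div_pos_of_nat 0)
    (BC.const 1) (Eventually.of_forall fun n s => ?_) (fun s => ?_) ρ
  · rwa [F.one] at h
  · rw [sxG_norm, Real.exp_le_one_iff]
    have : 0 ≤ 1 / ((n : ℝ) + 1) * s ^ 2 := by positivity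
    simp only [Complex.zero_re, zero_mul, zero_div]
    linarith
  · have h1 : Continuous fun δ : ℝ => sxG δ 0 s := by
      unfold sxG
      fun_prop
    have h2 := (h1.tendsto 0).comp (tendsto_one_div_add_atTop_nhds_zero_nat (𝕜 := ℝ))
    have h3 : sxG 0 0 s = 1 := by simp [sxG]
    rwa [h3] at h2

theorem sx_exists_T {F F' : FC K} {A B : K →L[ℂ] K} (h : GrMap F F' A B) :
    ∃ T : K →L[ℂ] K, ∀ ρ, A (F.f fa ρ) = F'.f fa (T ρ) ∧ B (F.f fb ρ) = F'.f fb (T ρ) := by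
  refine ⟨(2 : ℂ)⁻¹ • (F'.f fa * A * F.f fa + F'.f fb * B * F.f fb), fun ρ => ?_⟩
  obtain ⟨ρ', h1, h2⟩ := h ρ
  have h3 : ((2 : ℂ)⁻¹ • (F'.f fa * A * F.f fa + F'.f fb * B * F.f fb)) ρ = ρ' := by
    show (2 : ℂ)⁻¹ • (F'.f fa (A (F.f fa ρ)) + F'.f fb (B (F.f fb ρ))) = ρ'
    rw [h1, h2, F'.fa_fa_add₃, smul_smul, inv_mul_cancel₀ two_ne_zero, one_smul]
  rw [h3]
  exact ⟨h1, h2⟩

section

variable {F F' : FC K} {A B T : K →L[ℂ] K}
  (hT : ∀ ρ, A (F.f fa ρ) = F'.f fa (T ρ) ∧ B (F.f fb ρ) = F'.f fb (T ρ))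

include hT

theorem sx_T_left (t : ℝ) (ρ : K) : Phi F' (2 * t * Complex.I) (T ρ) =
    (F'.V t * A * F.V (-t)) (Phi F (2 * t * Complex.I) ρ) := by
  rw [sx_Phi_left, sx_Phi_left]
  show F'.V t (F'.f fa (T ρ)) = F'.V t (A (F.V (-t) (F.V t (F.f fa ρ))))
  rw [F.V_neg_V, (hT ρ).1]

theorem sx_T_right (t : ℝ) (ρ : K) : Phi F' (1 + 2 * t * Complex.I) (T ρ) =
    (F'.V t * B * F.V (-t)) (Phi F (1 + 2 * t * Complex.I) ρ) := by
  rw [sx_Phi_right, sx_Phi_right]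
  show F'.V t (F'.f fb (T ρ)) = F'.V t (B (F.V (-t) (F.V t (F.f fb ρ))))
  rw [F.V_neg_V, (hT ρ).2]

omit hT in
theorem sx_k_diff {δ : ℝ} (hδ : 0 < δ) (z : ℂ) (ρ : K) :
    DiffContOnCl ℂ (fun w => Phi F' w (T (F.f (sxG δ (z - w)) ρ))) ostrip :=
  sx_app (sx_sf_Phi F') (T.differentiable.comp_diffContOnCl ((sxG_sf F hδ z).1 ρ))

theorem sx_key {z : ℂ} (hz : z ∈ cstrip) (ρ : K) :
    ‖Phi F' z (T ρ)‖ ≤ max ‖A‖ ‖B‖ * ‖Phi F z ρ‖ := by
  have h1 : ∀ δ : ℝ, 0 < δ → ‖Phi F' z (T (F.f (sxG δ 0) ρ))‖ ≤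
      max ‖A‖ ‖B‖ * ‖Phi F z (F.f (sxG δ 0) ρ)‖ := by
    intro δ hδ
    obtain ⟨C, hC⟩ := (sx_sf_Phi F').2
    obtain ⟨D, hD⟩ := (sxG_sf F hδ z).2
    have hV : ∀ (t : ℝ) (X : K →L[ℂ] K) (v : K), ‖(F'.V t * X * F.V (-t)) v‖ ≤ ‖X‖ * ‖v‖ := by
      intro t X v
      show ‖F'.V t (X (F.V (-t) v))‖ ≤ _
      rw [F'.V_norm, ← F.V_norm (-t) v]
      exact X.le_opNorm _
    have h2 := sx_max (sx_k_diff (F := F) (F' := F') (T := T) hδ z ρ)
      (C := max ‖A‖ ‖B‖ * ‖F.f (fun s => fa s * sxG δ z s) ρ‖)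
      ⟨C * (‖T‖ * (D * ‖ρ‖)), fun w hw => ?_⟩ (fun w hw => ?_) (fun w hw => ?_) z hz
    · rw [← sx_Phi_G F hδ z hz, sub_self] at h2
      exact h2
    · have hC0 : 0 ≤ C := (norm_nonneg _).trans (hC w hw)
      refine ((Phi F' w).le_opNorm _).trans (mul_le_mul (hC w hw) ?_ (norm_nonneg _) hC0)
      refine (T.le_opNorm _).trans (mul_le_mul_of_nonneg_left ?_ (norm_nonneg _))
      exact (ContinuousLinearMap.le_opNorm _ _).trans
        (mul_le_mul_of_nonneg_right (hD w hw) (norm_nonneg _))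
    · rw [← sx_Phi_G F hδ z (w := w) (by simp [cstrip, hw])]
      generalize F.f (sxG δ (z - w)) ρ = v
      rw [sx_left hw, sx_T_left hT]
      exact (hV _ _ _).trans (mul_le_mul_of_nonneg_right (le_max_left _ _) (norm_nonneg _))
    · rw [← sx_Phi_G F hδ z (w := w) (by simp [cstrip, hw])]
      generalize F.f (sxG δ (z - w)) ρ = v
      rw [sx_right hw, sx_T_right hT]
      exact (hV _ _ _).trans (mul_le_mul_of_nonneg_right (le_max_right _ _) (norm_nonneg _))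
  have h3 := sx_G_tendsto F ρ
  refine le_of_tendsto_of_tendsto'
    (((Phi F' z).continuous.tendsto _).comp ((T.continuous.tendsto _).comp h3)).norm
    ((((Phi F z).continuous.tendsto _).comp h3).norm.const_mul _) fun n => ?_
  exact h1 _ Nat.one_div_pos_of_nat

theorem sx_exists_H (z : ℂ) : ∃ H : K →L[ℂ] K, z ∈ cstrip →
    ‖H‖ ≤ max ‖A‖ ‖B‖ ∧ ∀ ρ, H (Phi F z ρ) = Phi F' z (T ρ) := by
  refine ⟨LinearMap.extendOfNorm ((Phi F' z * T : K →L[ℂ] K) : K →ₗ[ℂ] K)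
    (Phi F z : K →ₗ[ℂ] K), fun hz => ⟨?_, fun ρ => ?_⟩⟩
  · exact LinearMap.opNorm_extendOfNorm_le (sx_dense_Phi F hz) (by positivity)
      fun ρ => sx_key hT hz ρ
  · exact LinearMap.extendOfNorm_eq (f := ((Phi F' z * T : K →L[ℂ] K) : K →ₗ[ℂ] K))
      (e := (Phi F z : K →ₗ[ℂ] K)) (sx_dense_Phi F hz) ⟨_, fun ρ => sx_key hT hz ρ⟩ ρ

end

theorem sx_interp {F F' : FC K} {A B : K →L[ℂ] K} (h : GrMap F F' A B) :
    ∃ H : ℂ → (K →L[ℂ] K), SF H ∧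
      (∀ t : ℝ, H (2 * t * Complex.I) = F'.V t * A * F.V (-t)) ∧
      (∀ t : ℝ, H (1 + 2 * t * Complex.I) = F'.V t * B * F.V (-t)) ∧
      ∀ z ∈ cstrip, ∀ ρ ρ', A (F.f fa ρ) = F'.f fa ρ' → H z (Phi F z ρ) = Phi F' z ρ' := by
  obtain ⟨T, hT⟩ := sx_exists_T h
  choose H hH using sx_exists_H hT
  have hext : ∀ z ∈ cstrip, ∀ X : K →L[ℂ] K, (∀ ρ, Phi F' z (T ρ) = X (Phi F z ρ)) → H z = X := by
    intro z hz X hX
    refine ContinuousLinearMap.ext (congrFun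
      ((sx_dense_Phi F hz).equalizer (H z).continuous X.continuous (funext fun ρ => ?_)))
    exact ((hH z hz).2 ρ).trans (hX ρ)
  refine ⟨H, ⟨fun η => sx_unif fun ε hε => ?_, max ‖A‖ ‖B‖, fun z hz => (hH z hz).1⟩,
    fun t => hext _ (sx_left_mem t) _ (sx_T_left hT t),
    fun t => hext _ (sx_right_mem t) _ (sx_T_right hT t), fun z hz ρ ρ' hρ => ?_⟩
  · have hd : DenseRange (F.f fun s => fa s * sxG 1 0 s) :=
      F.denseRange (bc_fa.mul (sxG_bc one_pos 0)) fun s =>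
        mul_ne_zero (fa_ne_zero s) (Complex.exp_ne_zero _)
    have hM : 0 < max ‖A‖ ‖B‖ + 1 := by positivity
    obtain ⟨ρ, hρ⟩ := hd.exists_dist_lt η (div_pos hε hM)
    refine ⟨_, sx_k_diff (F := F) (F' := F') (T := T) one_pos 0 ρ, fun z hz => ?_⟩
    rw [← (hH z hz).2, sx_Phi_G F one_pos 0 hz, ← map_sub]
    rw [dist_eq_norm, lt_div_iff₀ hM] at hρ
    refine ((H z).le_opNorm _).trans ?_
    have := (hH z hz).1
    nlinarith [norm_nonneg (η - F.f (fun s => fa s * sxG 1 0 s) ρ)]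
  · have h1 : F'.f fa (T ρ - ρ') = 0 := by rw [map_sub, ← (hT ρ).1, hρ, sub_self]
    rw [(hH z hz).2, sub_eq_zero.1 (F'.inj bc_fa fa_ne_zero h1)]

end Vale.Agent.P096
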