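import Vale.Agent.P096.Basic
import Vale.Agent.P132.FC3
import Vale.Agent.P096.StripAux3

/-! Analytic families on the strip. -/

open scoped InnerProductSpace Topology
open Filter

namespace Vale.Agent.P096

open Vale.Agent.P104 Vale.Agent.P132

universe u v w

variable {K : Type*} [NormedAddCommGroup K] [InnerProductSpace ℂ K] [CompleteSpace K]

/-- Maximum principle on the strip for bounded vector functions. -/
theorem strip_max {E : Type*} [NormedAddCommGroup E] [NormedSpace ℂ E] {f : ℂ → E}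
    (hf : DiffContOnCl ℂ f ostrip) (hb : ∃ B : ℝ, ∀ z ∈ cstrip, ‖f z‖ ≤ B) {C : ℝ}
    (h0 : ∀ z : ℂ, z.re = 0 → ‖f z‖ ≤ C) (h1 : ∀ z : ℂ, z.re = 1 → ‖f z‖ ≤ C) :
    ∀ z ∈ cstrip, ‖f z‖ ≤ C := by
  exact sx_max hf hb h0 h1

/-- A bounded function vanishing on the left boundary line vanishes. -/
theorem strip_zero {E : Type*} [NormedAddCommGroup E] [NormedSpace ℂ E] {f : ℂ → E}
    (hf : DiffContOnCl ℂ f ostrip) (hb : ∃ B : ℝ, ∀ z ∈ cstrip, ‖f z‖ ≤ B)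
    (h0 : ∀ z : ℂ, z.re = 0 → f z = 0) : ∀ z ∈ cstrip, f z = 0 := by
  exact sx_zero hf hb h0

theorem SF.const (x : K →L[ℂ] K) : SF fun _ => x := by
  exact ⟨fun _ => diffContOnCl_const, ‖x‖, fun _ _ => le_rfl⟩

theorem SF.sub {G H : ℂ → (K →L[ℂ] K)} (hG : SF G) (hH : SF H) : SF fun z => G z - H z := by
  obtain ⟨h1, C, hC⟩ := hG
  obtain ⟨h2, D, hD⟩ := hH
  exact ⟨fun η => (h1 η).sub (h2 η), C + D, fun z hz =>
    (norm_sub_le _ _).trans (add_le_add (hC z hz) (hD z hz))⟩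

theorem SF.app {G : ℂ → (K →L[ℂ] K)} (hG : SF G) {f : ℂ → K} (hf : DiffContOnCl ℂ f ostrip) :
    DiffContOnCl ℂ (fun z => G z (f z)) ostrip := by
  exact sx_app hG hf

theorem SF.mul {G H : ℂ → (K →L[ℂ] K)} (hG : SF G) (hH : SF H) : SF fun z => G z * H z := by
  obtain ⟨C, hC⟩ := hG.2
  obtain ⟨h2, D, hD⟩ := hH
  exact ⟨fun η => sx_app hG (h2 η), C * D, fun z hz => (norm_mul_le _ _).trans
    (mul_le_mul (hC z hz) (hD z hz) (norm_nonneg _) ((norm_nonneg _).trans (hC z hz)))⟩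

theorem SF.max {G : ℂ → (K →L[ℂ] K)} (hG : SF G) {C : ℝ} (h0 : ∀ z : ℂ, z.re = 0 → ‖G z‖ ≤ C)
    (h1 : ∀ z : ℂ, z.re = 1 → ‖G z‖ ≤ C) : ∀ z ∈ cstrip, ‖G z‖ ≤ C := by
  exact sx_sf_max hG h0 h1

theorem SF.continuousOn {G : ℂ → (K →L[ℂ] K)} (hG : SF G) : ContinuousOn G ostrip := by
  exact sx_sf_cont hG

/-- Bounds on the open strip pass to the closed strip. -/
theorem SF.le_closure {G : ℂ → (K →L[ℂ] K)} (hG : SF G) {C : ℝ} (h : ∀ z ∈ ostrip, ‖G z‖ ≤ C) :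
    ∀ z ∈ cstrip, ‖G z‖ ≤ C := by
  exact sx_sf_closure hG h

theorem sf_Phi (F : FC K) : SF (Phi F) := by
  exact sx_sf_Phi F

theorem Phi_left (F : FC K) (t : ℝ) : Phi F (2 * t * Complex.I) = F.V t * F.f fa := by
  exact sx_Phi_left F t

theorem Phi_right (F : FC K) (t : ℝ) : Phi F (1 + 2 * t * Complex.I) = F.V t * F.f fb := by
  exact sx_Phi_right F t

theorem denseRange_Phi (F : FC K) {z : ℂ} (hz : z ∈ cstrip) : DenseRange (Phi F z) := by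
  exact sx_dense_Phi F hz

/-- Analytic continuation of an orbit. -/
theorem an_cont (F : FC K) {Y : ℂ → K} (hY : DiffContOnCl ℂ Y ostrip)
    (hb : ∃ B : ℝ, ∀ z ∈ cstrip, ‖Y z‖ ≤ B) {ρ : K}
    (h : ∀ t : ℝ, Y (2 * t * Complex.I) = F.V t (F.f fa ρ)) : Y 1 = F.f fb ρ := by
  exact sx_an_cont F hY hb h

/-- Interpolation of a graph map. -/
theorem interp {F F' : FC K} {A B : K →L[ℂ] K} (h : GrMap F F' A B) :
    ∃ H : ℂ → (K →L[ℂ] K), SF H ∧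
      (∀ t : ℝ, H (2 * t * Complex.I) = F'.V t * A * F.V (-t)) ∧
      (∀ t : ℝ, H (1 + 2 * t * Complex.I) = F'.V t * B * F.V (-t)) ∧
      ∀ z ∈ cstrip, ∀ ρ ρ', A (F.f fa ρ) = F'.f fa ρ' → H z (Phi F z ρ) = Phi F' z ρ' := by
  exact sx_interp h

end Vale.Agent.P096
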