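import Vale.Agent.P096.GraphV
import Vale.Agent.P096.Strip
import Vale.Agent.P096.Mean
import Vale.Agent.P096.Dk

/-! Estimates on the strip for the comparison of modular groups. -/

open scoped InnerProductSpace Topology
open Filter

namespace Vale.Agent.P096

open Vale.Agent.P104 Vale.Agent.P132

universe u v w

section Gen

variable {K : Type*} [NormedAddCommGroup K] [InnerProductSpace ℂ K] [CompleteSpace K]
  {N M : VonNeumannAlgebra K} {ξ ξ' : K} {δ : ℝ} {J J' : K →L⋆[ℂ] K} {F F' : FC K}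
  {V₁ V₂ G₁ G₂ B C : K →L[ℂ] K} {H G : ℂ → (K →L[ℂ] K)}

/-- An analytic family with prescribed boundary values. -/
def S7 (F F' : FC K) (A B : K →L[ℂ] K) (H : ℂ → (K →L[ℂ] K)) : Prop :=
  SF H ∧ (∀ t : ℝ, H (2 * t * Complex.I) = F'.V t * A * F.V (-t)) ∧
    ∀ t : ℝ, H (1 + 2 * t * Complex.I) = F'.V t * B * F.V (-t)

theorem GrIso.s7_symm (h : GrIso δ J J' F F' V₁ V₂ G₁ G₂ B C) :
    GrIso δ J' J F' F G₁ G₂ V₁ V₂ C B :=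
  ⟨h.n₃, h.n₄, h.n₁, h.n₂, h.C_eq, h.B_eq, h.gv, h.vg, h.cb, h.bc, h.map', h.map⟩

theorem GrIso.s7_mono (h : GrIso δ J J' F F' V₁ V₂ G₁ G₂ B C) {δ' : ℝ} (e : δ ≤ δ') :
    GrIso δ' J J' F F' V₁ V₂ G₁ G₂ B C :=
  ⟨h.n₁.trans e, h.n₂.trans e, h.n₃.trans e, h.n₄.trans e, h.B_eq, h.C_eq, h.vg, h.gv, h.bc, h.cb,
    h.map, h.map'⟩

theorem s7_inv (hg : GrIso δ J J' F F' V₁ V₂ G₁ G₂ B C)
    (hH : ∀ z ∈ cstrip, ∀ ρ ρ', V₁ (F.f fa ρ) = F'.f fa ρ' → H z (Phi F z ρ) = Phi F' z ρ')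
    (hG : ∀ z ∈ cstrip, ∀ ρ ρ', G₁ (F'.f fa ρ) = F.f fa ρ' → G z (Phi F' z ρ) = Phi F z ρ') :
    ∀ z ∈ cstrip, G z * H z = 1 := fun z hz => by
  ext η
  refine (denseRange_Phi F hz).induction_on (p := fun η => (G z * H z) η = (1 : K →L[ℂ] K) η) η
    (isClosed_eq (G z * H z).continuous (1 : K →L[ℂ] K).continuous) fun ρ => ?_
  obtain ⟨ρ', h1, -⟩ := hg.map ρ
  have h2 : G₁ (F'.f fa ρ') = F.f fa ρ := by
    rw [← h1]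
    exact congrArg (fun T : K →L[ℂ] K => T (F.f fa ρ)) hg.gv
  show G z (H z _) = _
  rw [hH z hz ρ ρ' h1, hG z hz ρ' ρ h2]
  rfl

theorem s7_exists (hg : GrIso δ J J' F F' V₁ V₂ G₁ G₂ B C) : ∃ H G, S7 F F' V₁ B H ∧
    S7 F' F G₁ C G ∧ (∀ z ∈ cstrip, G z * H z = 1) ∧ ∀ z ∈ cstrip, H z * G z = 1 := by
  obtain ⟨H, a1, a2, a3, a4⟩ := interp hg.map
  obtain ⟨G, b1, b2, b3, b4⟩ := interp hg.map'
  exact ⟨H, G, ⟨a1, a2, a3⟩, ⟨b1, b2, b3⟩, s7_inv hg a4 b4, s7_inv hg.s7_symm b4 a4⟩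

theorem s7_line0 {z : ℂ} (h : z.re = 0) : ∃ t : ℝ, z = 2 * t * Complex.I :=
  ⟨z.im / 2, Complex.ext (by simp [h]) (by simp; ring)⟩

theorem s7_line1 {z : ℂ} (h : z.re = 1) : ∃ t : ℝ, z = 1 + 2 * t * Complex.I :=
  ⟨z.im / 2, Complex.ext (by simp [h]) (by simp; ring)⟩

theorem s7_max {P : ℂ → (K →L[ℂ] K)} (hP : SF P) {c : ℝ}
    (h0 : ∀ t : ℝ, ‖P (2 * t * Complex.I)‖ ≤ c) (h1 : ∀ t : ℝ, ‖P (1 + 2 * t * Complex.I)‖ ≤ c) :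
    ∀ z ∈ cstrip, ‖P z‖ ≤ c :=
  hP.max (fun _ hz => by obtain ⟨t, rfl⟩ := s7_line0 hz; exact h0 t)
    fun _ hz => by obtain ⟨t, rfl⟩ := s7_line1 hz; exact h1 t

theorem s7_VV (F F' : FC K) (t t' : ℝ) (X : K →L[ℂ] K) : ‖F.V t * X * F'.V t'‖ ≤ ‖X‖ := by
  refine ContinuousLinearMap.opNorm_le_bound _ (norm_nonneg _) fun η => ?_
  show ‖F.V t (X (F'.V t' η))‖ ≤ _
  rw [F.V_norm, ← F'.V_norm t' η]
  exact X.le_opNorm _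

omit [CompleteSpace K] in
theorem s7_JJ (h : IsConj J) (h' : IsConj J') {X Y : K →L[ℂ] K} (e : ∀ η, X η = J (Y (J' η))) :
    ‖X‖ ≤ ‖Y‖ := by
  refine ContinuousLinearMap.opNorm_le_bound _ (norm_nonneg _) fun η => ?_
  rw [e, h.norm, ← h'.norm η]
  exact Y.le_opNorm _

omit [CompleteSpace K] in
theorem s7_le {A : K →L[ℂ] K} (h : ‖A - 1‖ ≤ δ) : ‖A‖ ≤ 1 + δ := by
  have h1 : ‖A‖ ≤ ‖A - 1‖ + ‖(1 : K →L[ℂ] K)‖ := norm_le_norm_sub_add _ _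
  have h2 : ‖(1 : K →L[ℂ] K)‖ ≤ 1 := ContinuousLinearMap.norm_id_le
  linarith

theorem s7_norm (h : IsConj J) (h' : IsConj J') (hG : S7 F' F G₁ C G) (n₁ : ‖G₁ - 1‖ ≤ δ)
    (n₂ : ‖G₂ - 1‖ ≤ δ) (e : ∀ η, C η = J (G₂ (J' η))) (hδ : δ ≤ 1) : ∀ z ∈ cstrip, ‖G z‖ ≤ 2 := by
  refine s7_max hG.1 (fun t => ?_) fun t => ?_
  · rw [hG.2.1]
    exact (s7_VV _ _ _ _ _).trans (by linarith [s7_le n₁])
  · rw [hG.2.2]
    exact (s7_VV _ _ _ _ _).trans (by linarith [s7_le n₂, s7_JJ h h' e])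

omit [CompleteSpace K] in
theorem s7_cm (T x : K →L[ℂ] K) : ‖T * x - x * T‖ ≤ 2 * (‖T‖ * ‖x‖) := by
  have h1 := norm_mul_le T x
  have h2 := norm_mul_le x T
  have h3 := norm_sub_le (T * x) (x * T)
  linarith [mul_comm ‖x‖ ‖T‖]

omit [CompleteSpace K] in
theorem s7_alg {A A' y n x : K →L[ℂ] K} (hA : ‖A - 1‖ ≤ δ) (hA' : ‖A' - 1‖ ≤ δ) (hδ : δ ≤ 1)
    (hn : ‖y - n‖ ≤ δ * ‖y‖) (hc : n * x = x * n) :
    ‖A * y * A' * x - x * (A * y * A')‖ ≤ 8 * δ * (‖y‖ * ‖x‖) := by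
  have h0 : 0 ≤ δ := (norm_nonneg _).trans hA
  have e : A * y * A' * x - x * (A * y * A') = (A * y * A' - n) * x - x * (A * y * A' - n) := by
    rw [sub_mul, mul_sub, hc]
    abel
  have e' : A * y * A' - n = (A - 1) * y * A' + y * (A' - 1) + (y - n) := by noncomm_ring
  have h1 : ‖(A - 1) * y * A'‖ ≤ δ * ‖y‖ * 2 :=
    (norm_mul_le _ _).trans (mul_le_mul ((norm_mul_le _ _).trans
      (mul_le_mul_of_nonneg_right hA (norm_nonneg _))) (by linarith [s7_le hA']) (norm_nonneg _)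
      (by positivity))
  have h2 : ‖y * (A' - 1)‖ ≤ ‖y‖ * δ :=
    (norm_mul_le _ _).trans (mul_le_mul_of_nonneg_left hA' (norm_nonneg _))
  have h3 : ‖A * y * A' - n‖ ≤ 4 * δ * ‖y‖ := by
    rw [e']
    refine (norm_add₃_le).trans ?_
    linarith
  rw [e]
  refine (s7_cm _ _).trans ?_
  have := mul_le_mul_of_nonneg_right h3 (norm_nonneg x)
  linarith

theorem s7_conj (F F' : FC K) (t : ℝ) (A A' y x : K →L[ℂ] K) :
    F.V t * A * F'.V (-t) * y * (F'.V t * A' * F.V (-t)) * x -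
      x * (F.V t * A * F'.V (-t) * y * (F'.V t * A' * F.V (-t))) =
    F.V t * (A * F'.σ (-t) y * A' * F.σ (-t) x - F.σ (-t) x * (A * F'.σ (-t) y * A')) *
      F.V (-t) := by
  ext η
  simp only [FC.σ, neg_neg, sub_apply, mul_apply_eq_comp, map_sub, F.V_V_neg]

theorem s7_comm (h : Mod N J ξ F) (h' : Mod M J' ξ' F') (hg : GrIso δ J J' F F' V₁ V₂ G₁ G₂ B C)
    (hH : S7 F F' V₁ B H) (hG : S7 F' F G₁ C G) (hδ : δ ≤ 1)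
    (h1 : Near δ (M : Set (K →L[ℂ] K)) N)
    (h2 : Near δ (M.commutant : Set (K →L[ℂ] K)) N.commutant) :
    ∀ y ∈ M, ∀ x ∈ N.commutant, ∀ z ∈ cstrip,
      ‖G z * y * H z * x - x * (G z * y * H z)‖ ≤ 8 * δ * (‖y‖ * ‖x‖) := fun y hy x hx => by
  have hP : SF fun z => G z * y * H z := (hG.1.mul (SF.const y)).mul hH.1
  refine s7_max ((hP.mul (SF.const x)).sub ((SF.const x).mul hP)) (fun t => ?_) fun t => ?_
  · rw [hG.2.1, hH.2.1, s7_conj]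
    refine (s7_VV _ _ _ _ _).trans ?_
    obtain ⟨n, hn, e⟩ := h1 _ (h'.sigma_mem (-t) y hy)
    rw [← F'.σ_norm (-t) y, ← F.σ_norm (-t) x]
    exact s7_alg hg.n₃ hg.n₁ hδ e
      (VonNeumannAlgebra.mem_commutant_iff.1 (sigma_mem_comm h (-t) hx) n hn)
  · rw [hG.2.2, hH.2.2, s7_conj]
    refine (s7_VV _ _ _ _ _).trans ?_
    have hy1 := h'.bi.rt_mem _ (star_mem (h'.sigma_mem (-t) y hy))
    have hx1 := h.bi.rt_mem' (star_mem (sigma_mem_comm h (-t) hx))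
    obtain ⟨n, hn, e⟩ := h2 _ hy1
    have := s7_alg hg.n₄ hg.n₂ hδ e (VonNeumannAlgebra.mem_commutant_iff.1 hn _ hx1).symm
    rw [h'.cj.norm_rt, h.cj.norm_rt, norm_star, norm_star, F'.σ_norm, F.σ_norm] at this
    refine (s7_JJ h.cj h.cj fun η => ?_).trans this
    simp only [sub_apply, mul_apply_eq_comp, map_sub, hg.B_eq, hg.C_eq, rt_apply, star_star,
      h.cj.inv]

omit [CompleteSpace K] in
theorem s7_alg2 {A a b : K →L[ℂ] K} (hA : ‖A - 1‖ ≤ δ) (ha : ‖a‖ ≤ 1) (hb : ‖b‖ ≤ 1)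
    (h : ‖b - a‖ ≤ δ) : ‖a * A - A * b‖ ≤ 3 * δ := by
  have h0 : 0 ≤ δ := (norm_nonneg _).trans hA
  have e : a * A - A * b = a * (A - 1) + -(b - a) + -((A - 1) * b) := by noncomm_ring
  have h1 : ‖a * (A - 1)‖ ≤ 1 * δ :=
    (norm_mul_le _ _).trans (mul_le_mul ha hA (norm_nonneg _) zero_le_one)
  have h2 : ‖(A - 1) * b‖ ≤ δ * 1 :=
    (norm_mul_le _ _).trans (mul_le_mul hA hb (norm_nonneg _) h0)
  rw [e]
  refine (norm_add₃_le).trans ?_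
  rw [norm_neg, norm_neg]
  linarith

theorem s7_int (h : IsConj J) (h' : IsConj J') (hG : S7 F' F G₁ C G) (n₁ : ‖G₁ - 1‖ ≤ δ)
    (n₂ : ‖G₂ - 1‖ ≤ δ) (e : ∀ η, C η = J (G₂ (J' η))) {a a' b b' : K →L[ℂ] K}
    (ha : ∀ t, a * F.V t = F.V t * a) (hb : ∀ t, b * F'.V t = F'.V t * b)
    (ja : ∀ η, J (a' η) = a (J η)) (jb : ∀ η, J' (b η) = b' (J' η)) (na : ‖a‖ ≤ 1)
    (na' : ‖a'‖ ≤ 1) (nb : ‖b‖ ≤ 1) (nb' : ‖b'‖ ≤ 1) (d : ‖b - a‖ ≤ δ) (d' : ‖b' - a'‖ ≤ δ) :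
    ∀ z ∈ cstrip, ‖a * G z - G z * b‖ ≤ 3 * δ := by
  have key : ∀ (t : ℝ) (X : K →L[ℂ] K), a * (F.V t * X * F'.V (-t)) - F.V t * X * F'.V (-t) * b =
      F.V t * (a * X - X * b) * F'.V (-t) := fun t X => by
    rw [mul_assoc _ _ b, ← hb, ← mul_assoc a, ← mul_assoc a, ha]
    noncomm_ring
  refine s7_max (((SF.const a).mul hG.1).sub (hG.1.mul (SF.const b))) (fun t => ?_) fun t => ?_
  · rw [hG.2.1, key]
    exact (s7_VV _ _ _ _ _).trans (s7_alg2 n₁ na nb d)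
  · rw [hG.2.2, key]
    refine (s7_VV _ _ _ _ _).trans ((s7_JJ h h' fun η => ?_).trans (s7_alg2 n₂ na' nb' d'))
    simp only [sub_apply, mul_apply_eq_comp, map_sub, e, ja, jb]

omit [CompleteSpace K] in
theorem s7_int2 {G G₀ H₀ a b : K →L[ℂ] K} (nG : ‖G‖ ≤ 2) (nH : ‖H₀‖ ≤ 2) (e1 : H₀ * G₀ = 1)
    (e2 : G₀ * H₀ = 1) (h1 : ‖a * G - G * b‖ ≤ 3 * δ) (h2 : ‖a * G₀ - G₀ * b‖ ≤ 3 * δ) :
    ‖G * H₀ * a - a * (G * H₀)‖ ≤ 30 * δ := by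
  have h0 : 0 ≤ 3 * δ := (norm_nonneg _).trans h1
  have e : G * H₀ * a - a * (G * H₀) = G * H₀ * (a * G₀ - G₀ * b) * H₀ - (a * G - G * b) * H₀ := by
    have : G * H₀ * (a * G₀ - G₀ * b) * H₀ =
        G * H₀ * a * (G₀ * H₀) - G * (H₀ * G₀) * b * H₀ := by noncomm_ring
    rw [this, e1, e2]
    noncomm_ring
  have h3 : ‖G * H₀‖ ≤ 2 * 2 := (norm_mul_le _ _).trans (mul_le_mul nG nH (norm_nonneg _) zero_le_two)
  have h4 : ‖G * H₀ * (a * G₀ - G₀ * b) * H₀‖ ≤ 2 * 2 * (3 * δ) * 2 :=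
    (norm_mul_le _ _).trans (mul_le_mul ((norm_mul_le _ _).trans
      (mul_le_mul h3 h2 (norm_nonneg _) (by norm_num))) nH (norm_nonneg _) (by positivity))
  have h5 : ‖(a * G - G * b) * H₀‖ ≤ 3 * δ * 2 :=
    (norm_mul_le _ _).trans (mul_le_mul h1 nH (norm_nonneg _) h0)
  rw [e]
  refine (norm_sub_le _ _).trans ?_
  linarith

omit [CompleteSpace K] in
theorem s7_vec {A W : K →L[ℂ] K} (hA : ‖A - 1‖ ≤ δ) (hW : ‖W - 1‖ ≤ δ) (hδ : δ ≤ 1) (v : K) :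
    ‖A (W v) - v‖ ≤ 3 * δ * ‖v‖ := by
  have h0 : 0 ≤ δ := (norm_nonneg _).trans hA
  have h1 : ‖W v - v‖ ≤ δ * ‖v‖ :=
    ((W - 1).le_opNorm v).trans (mul_le_mul_of_nonneg_right hW (norm_nonneg _))
  have h2 : ‖W v‖ ≤ 2 * ‖v‖ :=
    (W.le_opNorm v).trans (mul_le_mul_of_nonneg_right (by linarith [s7_le hW]) (norm_nonneg _))
  have h3 : ‖A (W v) - W v‖ ≤ δ * (2 * ‖v‖) :=
    ((A - 1).le_opNorm (W v)).trans (mul_le_mul hA h2 (norm_nonneg _) h0)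
  have h4 := norm_sub_le_norm_sub_add_norm_sub (A (W v)) (W v) v
  linarith

theorem s7_cen (h : Mod N J ξ F) {W : K →L[ℂ] K} (h' : Mod M J' (W ξ) F') (hG : S7 F' F G₁ C G)
    (n₁ : ‖G₁ - 1‖ ≤ δ) (n₂ : ‖G₂ - 1‖ ≤ δ) (e : ∀ η, C η = J (G₂ (J' η))) (hW : ‖W - 1‖ ≤ δ)
    (hδ : δ ≤ 1) {x y : K →L[ℂ] K} (hx : x ∈ N) (hx' : x ∈ N.commutant) (hy : y ∈ M)
    (hy' : y ∈ M.commutant) (e1 : y (W ξ) = W (x ξ)) (e2 : star y (W ξ) = W (star x ξ)) :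
    ∀ z ∈ cstrip, ‖G z (W (x ξ)) - x ξ‖ ≤ 3 * δ * ‖x ξ‖ := by
  have key : ∀ (t : ℝ) (X : K →L[ℂ] K),
      ‖(F.V t * X * F'.V (-t)) (W (x ξ)) - x ξ‖ = ‖X (W (x ξ)) - x ξ‖ := fun t X => by
    rw [← F.V_norm t (X (W (x ξ)) - x ξ), map_sub, (central_V h hx hx' t).1, mul_apply_eq_comp,
      mul_apply_eq_comp, ← e1, (central_V h' hy hy' (-t)).1]
  obtain ⟨c, hc⟩ := hG.1.2
  refine strip_max ((hG.1.1 _).sub_const _) ⟨c * ‖W (x ξ)‖ + ‖x ξ‖, fun z hz => ?_⟩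
    (fun z hz => ?_) fun z hz => ?_
  · have := ((G z).le_opNorm (W (x ξ))).trans
      (mul_le_mul_of_nonneg_right (hc z hz) (norm_nonneg _))
    exact (norm_sub_le _ _).trans (by linarith)
  · obtain ⟨t, rfl⟩ := s7_line0 hz
    rw [hG.2.1, key]
    exact s7_vec n₁ hW hδ _
  · obtain ⟨t, rfl⟩ := s7_line1 hz
    have j1 := (central_V h hx hx' 0).2
    rw [hG.2.2, key, e, ← e1, (central_V h' hy hy' 0).2, e2, ← h.cj.norm, map_sub, h.cj.inv,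
      ← h.cj.norm (x ξ), j1]
    exact s7_vec n₂ hW hδ _

omit [CompleteSpace K] in
theorem s7_cen2 {G G₀ H₀ : K →L[ℂ] K} (nG : ‖G‖ ≤ 2) (nH : ‖H₀‖ ≤ 2) (e1 : H₀ * G₀ = 1) {v w : K}
    (h1 : ‖G w - v‖ ≤ 3 * δ * ‖v‖) (h2 : ‖G₀ w - v‖ ≤ 3 * δ * ‖v‖) :
    ‖(G * H₀) v - v‖ ≤ 15 * δ * ‖v‖ := by
  have e0 : H₀ (G₀ w) = w := congrArg (fun T : K →L[ℂ] K => T w) e1
  have e : (G * H₀) v - v = (G w - v) - (G * H₀) (G₀ w - v) := by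
    rw [map_sub, mul_apply_eq_comp G H₀ (G₀ w), e0]
    abel
  have h3 : ‖G * H₀‖ ≤ 2 * 2 := (norm_mul_le _ _).trans (mul_le_mul nG nH (norm_nonneg _) zero_le_two)
  have h4 := ((G * H₀).le_opNorm (G₀ w - v)).trans (mul_le_mul h3 h2 (norm_nonneg _) (by norm_num))
  rw [e]
  refine (norm_sub_le _ _).trans ?_
  linarith

theorem s7_ivt {φ : ℂ → ℝ} (hφ : ContinuousOn φ ostrip) {z₀ : ℂ} (h0 : z₀ ∈ ostrip)
    (e : φ z₀ = 0) {a : ℝ} (ha : 0 < a) (h : ∀ z ∈ ostrip, φ z ≠ a) : ∀ z ∈ ostrip, φ z ≤ a := by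
  intro z hz
  by_contra hlt
  have hc : IsPreconnected ostrip :=
    ((convex_Ioo (0 : ℝ) 1).linear_preimage Complex.reLm).isPreconnected
  obtain ⟨w, hw, e'⟩ := hc.intermediate_value h0 hz hφ ⟨e ▸ ha.le, (not_le.1 hlt).le⟩
  exact h w hw e'

theorem s7_fin (F F' : FC K) (t : ℝ) {G₀ H₀ : K →L[ℂ] K} {a : ℝ} (nG : ‖G₀‖ ≤ 2)
    (e : H₀ * G₀ = 1) (n₁ : ‖G₁ - 1‖ ≤ δ) (h1 : ‖F.V t * G₁ * F'.V (-t) * H₀ - 1‖ ≤ a)
    (h2 : ‖G₁ * H₀ - 1‖ ≤ a) : ‖F.V t - F'.V t‖ ≤ 4 * a + 2 * δ := by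
  have h0 : 0 ≤ a := (norm_nonneg _).trans h1
  have e1 : F.V t * G₁ * F'.V (-t) - G₁ =
      ((F.V t * G₁ * F'.V (-t) * H₀ - 1) - (G₁ * H₀ - 1)) * G₀ := by
    rw [sub_sub_sub_cancel_right, sub_mul, mul_assoc _ H₀, mul_assoc _ H₀, e, mul_one, mul_one]
  have h3 : ‖F.V t * G₁ * F'.V (-t) - G₁‖ ≤ (a + a) * 2 := by
    rw [e1]
    exact (norm_mul_le _ _).trans (mul_le_mul ((norm_sub_le _ _).trans (add_le_add h1 h2)) nG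
      (norm_nonneg _) (by positivity))
  have h4 := (s7_VV F F' t (-t) (G₁ - 1)).trans n₁
  have e2 : F.V t - F'.V t = F.V 0 * ((F.V t * G₁ * F'.V (-t) - G₁) +
      -(F.V t * (G₁ - 1) * F'.V (-t)) + (G₁ - 1)) * F'.V t := by
    have : (F.V t * G₁ * F'.V (-t) - G₁) + -(F.V t * (G₁ - 1) * F'.V (-t)) + (G₁ - 1) =
        F.V t * F'.V (-t) - 1 := by noncomm_ring
    rw [this, F.V_zero, one_mul, sub_mul, mul_assoc, F'.V_neg_mul₃, mul_one, one_mul]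
  rw [e2]
  refine (s7_VV _ _ _ _ _).trans (norm_add₃_le.trans ?_)
  rw [norm_neg]
  linarith

end Gen

theorem Itf.s7_mono {Γ : Type w} [Group Γ] {K : Type v} [NormedAddCommGroup K]
    [InnerProductSpace ℂ K] [CompleteSpace K] {M : VonNeumannAlgebra K} {ξ : K}
    {l r κ κ' : Γ →* (K →L[ℂ] K)} {W : K →L[ℂ] K} {δ δ' : ℝ} (h : Itf δ M ξ l r κ κ' W)
    (e : δ ≤ δ') : Itf δ' M ξ l r κ κ' W :=
  ⟨h.std, h.W_near.trans e, fun g => (h.near g).trans e, fun g => (h.near' g).trans e, h.int,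
    h.int'⟩

variable {K : Type u} [NormedAddCommGroup K] [InnerProductSpace ℂ K] [CompleteSpace K]

theorem s7_norm_comm {M : VonNeumannAlgebra K} {G H G₀ H₀ x y : K →L[ℂ] K} {δ : ℝ} (nG : ‖G‖ ≤ 2)
    (nH : ‖H‖ ≤ 2) (nG₀ : ‖G₀‖ ≤ 2) (nH₀ : ‖H₀‖ ≤ 2) (h0 : 0 ≤ δ) (hδ : 8 * (dk.{u} * δ) ≤ 1)
    (h1 : ∀ y ∈ M.commutant, ‖H₀ * x * G₀ * y - y * (H₀ * x * G₀)‖ ≤ 8 * δ * (‖x‖ * ‖y‖))
    (h2 : ∀ s ∈ M, ‖G * s * H * y - y * (G * s * H)‖ ≤ 8 * δ * (‖s‖ * ‖y‖)) :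
    ‖G * H₀ * x * (G₀ * H) * y - y * (G * H₀ * x * (G₀ * H))‖ ≤
      104 * dk.{u} * δ * (‖x‖ * ‖y‖) := by
  obtain ⟨S, hS, d⟩ := dist_vn M (H₀ * x * G₀) (c := 8 * δ * ‖x‖) (by positivity)
    fun y hy => (h1 y hy).trans_eq (by ring)
  have hk := one_le_dk.{u}
  have hx := norm_nonneg x
  have hy := norm_nonneg y
  have nT : ‖H₀ * x * G₀‖ ≤ 2 * ‖x‖ * 2 :=
    (norm_mul_le _ _).trans (mul_le_mul ((norm_mul_le _ _).trans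
      (mul_le_mul_of_nonneg_right nH₀ hx)) nG₀ (norm_nonneg _) (by positivity))
  have d1 : dk.{u} * (8 * δ * ‖x‖) ≤ ‖x‖ := by nlinarith
  have nS : ‖S‖ ≤ 5 * ‖x‖ := by
    have := norm_sub_norm_le S (H₀ * x * G₀)
    rw [norm_sub_rev] at this
    linarith
  have h3 := (h2 S hS).trans (mul_le_mul_of_nonneg_left (mul_le_mul_of_nonneg_right nS hy)
    (by positivity))
  have h4 : ‖G * (H₀ * x * G₀ - S) * H‖ ≤ 2 * (dk.{u} * (8 * δ * ‖x‖)) * 2 :=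
    (norm_mul_le _ _).trans (mul_le_mul ((norm_mul_le _ _).trans
      (mul_le_mul nG d (norm_nonneg _) zero_le_two)) nH (norm_nonneg _) (by positivity))
  have h5 := s7_cm (G * (H₀ * x * G₀ - S) * H) y
  have h6 := mul_le_mul_of_nonneg_right h4 hy
  have e : G * H₀ * x * (G₀ * H) * y - y * (G * H₀ * x * (G₀ * H)) =
      (G * S * H * y - y * (G * S * H)) +
      (G * (H₀ * x * G₀ - S) * H * y - y * (G * (H₀ * x * G₀ - S) * H)) := by noncomm_ring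
  have h7 : δ * (‖x‖ * ‖y‖) ≤ dk.{u} * (δ * (‖x‖ * ‖y‖)) :=
    le_mul_of_one_le_left (by positivity) hk
  rw [e]
  refine (norm_add_le _ _).trans ?_
  linarith

theorem s7_unit (D : DM.{u, 0} (Multiplicative ℝ)) (F F' : FC K) {e : ℝ} (he : e ≤ 1 / 8)
    (h : ∀ t, ‖F.V t - F'.V t‖ ≤ e) : ∃ u ∈ unitary (K →L[ℂ] K), ‖u - 1‖ ≤ 8 * e ∧
      ∀ t, F.V t * u = u * F'.V t := by
  let f : Multiplicative ℝ → (K →L[ℂ] K) := fun g => F.V g.toAdd * F'.V (-g.toAdd)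
  have f1 : ∀ g, ‖f g - 1‖ ≤ e := fun g => by
    have : f g - 1 = F.V 0 * (F.V g.toAdd - F'.V g.toAdd) * F'.V (-g.toAdd) := by
      rw [F.V_zero, one_mul, sub_mul, F'.V_mul_neg₃]
    rw [this]
    exact (s7_VV _ _ _ _ _).trans (h _)
  have f2 : ∀ g, ‖f g‖ ≤ 1 + e := fun g => s7_le (f1 g)
  have key : ∀ t, F.V t * D.om (fun s t => f (s * t)) = D.om (fun s t => f (s * t)) * F'.V t := by
    intro a
    rw [← D.om_mul_left _ (Bd2.of_le fun _ _ => f2 _)]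
    conv_rhs => rw [← D.om_invariant f2 (Multiplicative.ofAdd a),
      ← D.om_mul_right _ (Bd2.of_le fun _ _ => f2 _)]
    congr 1
    funext s t
    show F.V a * (F.V _ * F'.V _) = F.V _ * F'.V _ * F'.V a
    rw [← mul_assoc, ← F.V_add, mul_assoc, ← F'.V_add]
    simp
  obtain ⟨u, hu, n, hi⟩ := exists_polar (D.om_sub_const_le fun s t => f1 (s * t)) he
  exact ⟨u, hu, n, fun t => hi _ _ (key t) (by rw [F.V_star, F'.V_star, key])⟩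

end Vale.Agent.P096
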