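import Vale.Agent.P096.GraphV
import Vale.Agent.P096.Strip
import Vale.Agent.P096.Rig
import Vale.Agent.P096.Setup
import Vale.Agent.P096.Step7Aux

/-! The modular groups are uniformly close. -/

open scoped InnerProductSpace Topology
open Filter

namespace Vale.Agent.P096

open Vale.Agent.P104 Vale.Agent.P132

universe u v w

theorem mod_close (ε : ℝ) (hε : 0 < ε) : ∃ δ : ℝ, 0 < δ ∧ ∀ (Γ : Type w) [Group Γ] (K : Type u)
    [NormedAddCommGroup K] [InnerProductSpace ℂ K] [CompleteSpace K] (_ : DM.{u, w} Γ)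
    (N M : VonNeumannAlgebra K) (ξ : K) (l r κ κ' : Γ →* (K →L[ℂ] K)) (W : K →L[ℂ] K)
    (J J' : K →L⋆[ℂ] K) (F F' : FC K) (V₁ V₂ G₁ G₂ B C : K →L[ℂ] K),
    StdE N ξ l r → Itf δ M ξ l r κ κ' W → Close δ N M → Close δ N.commutant M.commutant →
    Mod N J ξ F → Mod M J' (W ξ) F' → GrIso δ J J' F F' V₁ V₂ G₁ G₂ B C →
    ∀ t, ‖F.V t - F'.V t‖ ≤ ε := by
  obtain ⟨C₀, hC, hr⟩ := rig.{u, w}
  have hk := one_le_dk.{u}
  have hC0 : 0 < C₀ := by linarith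
  obtain ⟨a, ha0, ha1, ha2⟩ : ∃ a : ℝ, 0 < a ∧ a ≤ ε / 8 ∧ C₀ * a ≤ 1 / 2 :=
    ⟨min (ε / 8) (1 / (2 * C₀)), by positivity, min_le_left _ _, by
      refine (mul_le_mul_of_nonneg_left (min_le_right _ _) hC0.le).trans_eq ?_
      field_simp⟩
  obtain ⟨δ, hδ0, hδ1⟩ : ∃ δ : ℝ, 0 < δ ∧ C₀ * (104 * dk.{u} * δ) = a / 4 :=
    ⟨a / (4 * (C₀ * (104 * dk.{u}))), by positivity, by field_simp⟩
  have hd0 : 0 ≤ 104 * dk.{u} * δ := by positivity
  have hd1 : 104 * dk.{u} * δ ≤ a / 4 := by nlinarith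
  have ha3 : a ≤ 1 / 2 := by nlinarith
  have hδ2 : δ ≤ dk.{u} * δ := by nlinarith
  refine ⟨δ, hδ0, fun Γ _ K _ _ _ D N M ξ l r κ κ' W J J' F F' V₁ V₂ G₁ G₂ B C hE hI hc hc' h h'
    hg t => ?_⟩
  obtain ⟨H, G, hH, hG, hGH, hHG⟩ := s7_exists hg
  have hδ4 : δ ≤ 1 / 4 := by linarith
  have nG := s7_norm h.cj h'.cj hG hg.n₃ hg.n₄ hg.C_eq (by linarith)
  have nH := s7_norm h'.cj h.cj hH hg.n₁ hg.n₂ hg.B_eq (by linarith)
  have z0 : (1 / 2 : ℂ) ∈ ostrip := by norm_num [ostrip]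
  have sub : ∀ z ∈ ostrip, z ∈ cstrip := fun z hz => Set.Ioo_subset_Icc_self hz
  have z0' := sub _ z0
  have A1 := s7_comm h h' hg hH hG (by linarith) hc.2 hc'.2
  have A2 := s7_comm h' h hg.s7_symm hG hH (by linarith) hc.1 hc'.1
  have hs := hE.std
  have hs' := hI.std
  have A3 : ∀ g, ∀ z ∈ cstrip, ‖l g * G z - G z * κ g‖ ≤ 3 * δ := fun g =>
    s7_int h.cj h'.cj hG hg.n₃ hg.n₄ hg.C_eq (fun t => hs.l_f h g (bc_ex t))
      (fun t => hs'.l_f h' g (bc_ex t)) (hs.J_r h g) (hs'.J_l h' g) (hs.bim.ul.norm_le g)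
      (hs.bim.ur.norm_le g) (hs'.bim.ul.norm_le g) (hs'.bim.ur.norm_le g) (hI.near g) (hI.near' g)
  have A4 : ∀ g, ∀ z ∈ cstrip, ‖r g * G z - G z * κ' g‖ ≤ 3 * δ := fun g =>
    s7_int h.cj h'.cj hG hg.n₃ hg.n₄ hg.C_eq (fun t => hs.r_f h g (bc_ex t))
      (fun t => hs'.r_f h' g (bc_ex t)) (hs.J_l h g) (hs'.J_r h' g) (hs.bim.ur.norm_le g)
      (hs.bim.ul.norm_le g) (hs'.bim.ur.norm_le g) (hs'.bim.ul.norm_le g) (hI.near' g) (hI.near g)
  have key : ∀ z ∈ ostrip, ‖G z * H (1 / 2) - 1‖ ≤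
      C₀ * (104 * dk.{u} * δ + ‖G z * H (1 / 2) - 1‖ ^ 2) := fun z hz => by
    have hz' := sub z hz
    refine hr Γ K D N ξ l r _ (G (1 / 2) * H z) _ hE hd0 ?_ ?_ (fun x hx y hy => ?_)
      (fun g => ?_) (fun g => ?_) fun x hx hx' => ?_
    · rw [mul_assoc, ← mul_assoc (H _), hHG _ z0', one_mul, hGH _ hz']
    · exact (norm_mul_le _ _).trans (by nlinarith [nG _ z0', nH _ hz', norm_nonneg (H z)])
    · exact s7_norm_comm (nG _ hz') (nH _ hz') (nG _ z0') (nH _ z0') hδ0.le (by linarith)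
        (fun y hy => A2 x hx y hy _ z0') (fun s hs => A1 s hs y hy _ hz')
    · exact (s7_int2 (nG _ hz') (nH _ z0') (hHG _ z0') (hGH _ z0') (A3 g _ hz')
        (A3 g _ z0')).trans (by linarith)
    · exact (s7_int2 (nG _ hz') (nH _ z0') (hHG _ z0') (hGH _ z0') (A4 g _ hz')
        (A4 g _ z0')).trans (by linarith)
    · obtain ⟨x₁, b1, b2, b3, b4⟩ := hI.cen_map hE hδ4 hx hx'
      have A5 := s7_cen h h' hG hg.n₃ hg.n₄ hg.C_eq hI.W_near (by linarith) hx hx' b1 b2 b3 b4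
      exact (s7_cen2 (nG _ hz') (nH _ z0') (hHG _ z0') (A5 _ hz') (A5 _ z0')).trans
        (mul_le_mul_of_nonneg_right (by linarith) (norm_nonneg _))
  have hsf : SF fun z => G z * H (1 / 2) - 1 := (hG.1.mul (SF.const _)).sub (SF.const _)
  have small : ∀ z ∈ ostrip, ‖G z * H (1 / 2) - 1‖ ≤ a :=
    s7_ivt hsf.continuousOn.norm z0 (by rw [hGH _ z0', sub_self, norm_zero]) ha0 fun z hz e => by
      have := key z hz
      rw [e] at this
      nlinarith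
  have small' := hsf.le_closure small
  have line : ∀ t : ℝ, (2 * t * Complex.I : ℂ) ∈ cstrip := fun t => by simp [cstrip]
  have e1 := small' _ (line t)
  have e2 := small' _ (line 0)
  rw [hG.2.1] at e1 e2
  rw [neg_zero, F.V_zero, F'.V_zero, one_mul, mul_one] at e2
  exact (s7_fin F F' t (nG _ z0') (hHG _ z0') hg.n₃ e1 e2).trans (by linarith)

theorem kk3_of_kk4 (h : KK.{u} P4) : KK.{u} P3 := by
  intro ε hε
  have hk := one_le_dk.{u}
  obtain ⟨δ₄, h4, H4⟩ := h (min (ε / 2) 1) (by positivity)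
  obtain ⟨e, he0, he1, he2, he3⟩ : ∃ e : ℝ, 0 < e ∧ e ≤ 1 / 8 ∧ 64 * e ≤ ε ∧ 64 * e ≤ δ₄ :=
    ⟨min (1 / 8) (min (ε / 64) (δ₄ / 64)), by positivity, min_le_left _ _, by
      linarith [min_le_right (1 / 8) (min (ε / 64) (δ₄ / 64)), min_le_left (ε / 64) (δ₄ / 64)], by
      linarith [min_le_right (1 / 8) (min (ε / 64) (δ₄ / 64)), min_le_right (ε / 64) (δ₄ / 64)]⟩
  obtain ⟨δ₁, h1, H1⟩ := mod_close.{u, u} e he0
  obtain ⟨δ₂, h2, H2⟩ := gr_ineq.{u, u} (min (δ₁ / 2) (1 / 10)) (by positivity)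
  obtain ⟨δ₃, h3, H3⟩ := setup.{u} (min δ₁ δ₂) (by positivity)
  obtain ⟨δ, hδ, a1, a2, a3, a4, a5⟩ : ∃ δ : ℝ, 0 < δ ∧ 2 * dk.{u} * δ ≤ min δ₁ δ₂ ∧
      δ ≤ min δ₁ δ₂ ∧ δ ≤ δ₃ ∧ δ ≤ δ₄ / 2 ∧ δ ≤ 1 := by
    have p1 : 0 < min δ₁ δ₂ := by positivity
    set m := min (min δ₁ δ₂) (min δ₃ (min (δ₄ / 2) 1)) with hm
    have m0 : 0 < m := by positivity
    have m1 : m ≤ min δ₁ δ₂ := min_le_left _ _
    have m2 : m ≤ δ₃ := (min_le_right _ _).trans (min_le_left _ _)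
    have m3 : m ≤ δ₄ / 2 := (min_le_right _ _).trans ((min_le_right _ _).trans (min_le_left _ _))
    have m4 : m ≤ 1 := (min_le_right _ _).trans ((min_le_right _ _).trans (min_le_right _ _))
    have m5 : 2 * dk.{u} * (m / (2 * dk.{u})) = m := by field_simp
    have m6 : m / (2 * dk.{u}) ≤ m := div_le_self m0.le (by linarith)
    exact ⟨m / (2 * dk.{u}), by positivity, by linarith, by linarith, by linarith, by linarith,
      by linarith⟩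
  refine ⟨δ, hδ, fun K _ _ _ N M ⟨ξ, hc, hs, herg, h22⟩ hcl => ?_⟩
  obtain ⟨Γ, _, l, r, κ, κ', W, hE, hI, -⟩ := H3 K N M ξ hc hs herg h22 (hcl.mono a3)
  obtain ⟨D⟩ := exists_dm.{u, u} Γ
  obtain ⟨J, F, hm⟩ := exists_mod hc hs
  obtain ⟨J', F', hm'⟩ := exists_mod hI.std.cyc hI.std.sep
  have c1 := hcl.mono a2
  have c2 := (hcl.commutant hδ.le).mono a1
  have g1 := H2 Γ K D N M ξ l r κ κ' W hE (hI.s7_mono (min_le_right _ _))
    (c1.mono (min_le_right _ _))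
  have g2 := H2 Γ K D _ _ ξ r l κ' κ W hE.symm
    ((hI.s7_mono (min_le_right _ _)).symm hE.std.bim) (c2.mono (min_le_right _ _))
  obtain ⟨V₁, V₂, G₁, G₂, B, C, hg⟩ := exists_grIso hm hm' g1 g2 (by positivity) (min_le_right _ _)
  have hV := H1 Γ K D N M ξ l r κ κ' W J J' F F' V₁ V₂ G₁ G₂ B C hE (hI.s7_mono (min_le_left _ _))
    (c1.mono (min_le_left _ _)) (c2.mono (min_le_left _ _)) hm hm'
    (hg.s7_mono (by linarith [min_le_left (δ₁ / 2) (1 / 10)]))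
  obtain ⟨D'⟩ := exists_dm.{u, 0} (Multiplicative ℝ)
  obtain ⟨u, hu, n1, hi⟩ := s7_unit D' F F' he1 hV
  have hl := H4 K N (cj u M) ⟨J, ξ, F, hm, h22, fun t y hy => ?_⟩
    ((hcl.cj hu n1 a5).mono (by linarith))
  · exact LiftTo.mono (hl.of_cj hu n1 (min_le_right _ _))
      (by linarith [min_le_left (ε / 2) 1])
  · rw [mem_cj hu] at hy ⊢
    have e1 : star u * F.V t = F'.V t * star u := by
      rw [← star_star (F.V t), ← star_mul, F.V_star, hi, star_mul, F'.V_star, neg_neg]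
    have e2 : star u * F.σ t y * u = F'.σ t (star u * y * u) := by
      simp only [FC.σ, ← mul_assoc, e1]
      rw [mul_assoc _ (F.V (-t)), hi, ← mul_assoc]
    rw [e2]
    exact hm'.sigma_mem t _ hy

end Vale.Agent.P096
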