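import Vale.Agent.P096.Amp
import Vale.Agent.P096.Polar
import Vale.Agent.P096.Strip
import Vale.Agent.P096.ModAux

/-! A finite corner of the continuous core. -/

open scoped InnerProductSpace Topology
open Filter

namespace Vale.Agent.P096

open Vale.Agent.P104 Vale.Agent.P132

universe u v w

variable {K L : Type u} [NormedAddCommGroup K] [InnerProductSpace ℂ K] [CompleteSpace K]
  [NormedAddCommGroup L] [InnerProductSpace ℂ L] [CompleteSpace L]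

/-- A logarithm of the bilateral shift. -/
structure Shift (A : Amp ℤ K L) (Θ : L →L[ℂ] L) : Prop where
  sa : IsSelfAdjoint Θ
  comm : ∀ x, Commute (A.d x) Θ
  shift : ∀ n η, NormedSpace.exp (Complex.I • Θ) (A.J n η) = A.J (n + 1) η

theorem exists_shift (A : Amp ℤ K L) : ∃ Θ, Shift A Θ := by
  obtain ⟨S, hS, h1, h2⟩ := A.exists_perm (Equiv.addRight (1 : ℤ))
  obtain ⟨Θ, a1, a2, a3⟩ := exists_log hS
  refine ⟨Θ, a1, fun x => a3 _ (h2 x) ?_, fun n η => ?_⟩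
  · rw [← map_star]
    exact h2 _
  · rw [a2, h1]
    rfl

/-- The exponential group of an operator. -/
noncomputable def s8E (Θ : L →L[ℂ] L) (z : ℂ) : L →L[ℂ] L := NormedSpace.exp (z • Θ)

theorem s8E_add (Θ : L →L[ℂ] L) (z w : ℂ) : s8E Θ (z + w) = s8E Θ z * s8E Θ w := by
  let _ : NormedAlgebra ℚ (L →L[ℂ] L) := NormedAlgebra.restrictScalars ℚ ℂ _
  rw [s8E, add_smul]
  exact NormedSpace.exp_add_of_commute (((Commute.refl Θ).smul_left z).smul_right w)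

theorem s8E_zero (Θ : L →L[ℂ] L) : s8E Θ 0 = 1 := by
  rw [s8E, zero_smul, NormedSpace.exp_zero]

theorem s8E_neg_mul (Θ : L →L[ℂ] L) (z : ℂ) : s8E Θ (-z) * s8E Θ z = 1 := by
  rw [← s8E_add, neg_add_cancel, s8E_zero]

theorem s8E_mul_neg (Θ : L →L[ℂ] L) (z : ℂ) : s8E Θ z * s8E Θ (-z) = 1 := by
  rw [← s8E_add, add_neg_cancel, s8E_zero]

theorem s8E_star {Θ : L →L[ℂ] L} (h : IsSelfAdjoint Θ) (z : ℂ) :
    star (s8E Θ z) = s8E Θ (star z) := by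
  rw [s8E, NormedSpace.star_exp, star_smul, h.star_eq, s8E]

theorem s8E_comm {Θ x : L →L[ℂ] L} (h : Commute x Θ) (z : ℂ) : Commute x (s8E Θ z) :=
  (h.smul_right z).exp_right

theorem s8E_diff (Θ : L →L[ℂ] L) : Differentiable ℂ (s8E Θ) :=
  differentiable_exp_smul_const ℂ Θ

theorem s8E_unitary {Θ : L →L[ℂ] L} (h : IsSelfAdjoint Θ) (y : ℝ) :
    s8E Θ (y * Complex.I) ∈ unitary (L →L[ℂ] L) := by
  have e : star ((y : ℂ) * Complex.I) = -(y * Complex.I) := by simp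
  rw [Unitary.mem_iff, s8E_star h, e]
  exact ⟨s8E_neg_mul _ _, s8E_mul_neg _ _⟩

theorem s8E_bd {Θ : L →L[ℂ] L} (h : IsSelfAdjoint Θ) (c : ℝ) :
    ∃ B : ℝ, 0 ≤ B ∧ ∀ z ∈ cstrip, ‖s8E Θ (c * z)‖ ≤ B := by
  obtain ⟨B, hB⟩ := (isCompact_Icc (a := (0 : ℝ)) (b := 1)).exists_bound_of_continuousOn
    (f := fun x : ℝ => s8E Θ (c * x))
    ((s8E_diff Θ).continuous.comp (by fun_prop)).continuousOn
  refine ⟨B, (norm_nonneg _).trans (hB 0 ⟨le_rfl, zero_le_one⟩), fun z hz => ?_⟩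
  have e : (c : ℂ) * z = c * z.re + ((c * z.im : ℝ) : ℂ) * Complex.I := by
    conv_lhs => rw [← Complex.re_add_im z]
    push_cast
    ring
  rw [e, s8E_add, CStarRing.norm_mul_mem_unitary _ (s8E_unitary h _)]
  exact hB _ hz

/-- The perturbed modular group. -/
noncomputable def pU (A : Amp ℤ K L) (Θ : L →L[ℂ] L) (F : FC K) (τ t : ℝ) : L →L[ℂ] L :=
  NormedSpace.exp (((t / τ : ℝ) : ℂ) • Complex.I • Θ) * A.d (F.V t)

/-- The fixed point algebra. -/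
noncomputable def pR (A : Amp ℤ K L) (Θ : L →L[ℂ] L) (F : FC K) (τ : ℝ)
    (N : VonNeumannAlgebra K) : VonNeumannAlgebra L :=
  vnc (A.d '' (N.commutant : Set (K →L[ℂ] K)) ∪ Set.range (pU A Θ F τ))

variable {A : Amp ℤ K L} {Θ : L →L[ℂ] L} {F : FC K} {τ : ℝ} {N : VonNeumannAlgebra K}
  {J : K →L⋆[ℂ] K} {ξ : K}

theorem s8_pU (t : ℝ) :
    pU A Θ F τ t = s8E Θ (((t / τ : ℝ) : ℂ) * Complex.I) * A.d (F.V t) := by
  rw [pU, s8E, smul_smul]

theorem Shift.s8_comm (h : Shift A Θ) (x : K →L[ℂ] K) (z : ℂ) :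
    A.d x * s8E Θ z = s8E Θ z * A.d x := s8E_comm (h.comm x) z

theorem Shift.pU_add (h : Shift A Θ) (s t : ℝ) :
    pU A Θ F τ (s + t) = pU A Θ F τ s * pU A Θ F τ t := by
  rw [s8_pU, s8_pU, s8_pU, add_div, Complex.ofReal_add, add_mul, s8E_add, F.V_add, map_mul]
  simp only [mul_assoc]
  rw [← mul_assoc (A.d (F.V s)), h.s8_comm, mul_assoc]

theorem s8_pU_zero : pU A Θ F τ 0 = 1 := by
  rw [s8_pU, F.V_zero, map_one, mul_one, zero_div, Complex.ofReal_zero, zero_mul, s8E_zero]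

theorem Shift.pU_star (h : Shift A Θ) (t : ℝ) : star (pU A Θ F τ t) = pU A Θ F τ (-t) := by
  rw [s8_pU, s8_pU, star_mul, ← map_star, F.V_star, s8E_star h.sa, h.s8_comm]
  congr 2
  simp [neg_div]

theorem Shift.pU_unitary (h : Shift A Θ) (t : ℝ) : pU A Θ F τ t ∈ unitary (L →L[ℂ] L) := by
  rw [Unitary.mem_iff, h.pU_star, ← h.pU_add, ← h.pU_add, neg_add_cancel, add_neg_cancel]
  exact ⟨s8_pU_zero, s8_pU_zero⟩

theorem Shift.s8_J (h : Shift A Θ) (m n : ℤ) (η : K) :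
    s8E Θ (m * Complex.I) (A.J n η) = A.J (n + m) η := by
  have h1 : ∀ n, s8E Θ Complex.I (A.J n η) = A.J (n + 1) η := fun n => h.shift n η
  have h2 : ∀ n, s8E Θ (-Complex.I) (A.J n η) = A.J (n - 1) η := fun n => by
    have := congrArg (s8E Θ (-Complex.I)) (h1 (n - 1))
    rw [← mul_apply_eq_comp, s8E_neg_mul, sub_add_cancel] at this
    exact this.symm
  induction m using Int.induction_on with
  | zero => simp [s8E_zero]
  | succ m ih =>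
    rw [show (((m : ℤ) + 1 : ℤ) : ℂ) * Complex.I = Complex.I + ((m : ℤ) : ℂ) * Complex.I by
      push_cast; ring, s8E_add, mul_apply_eq_comp, ih, h1, add_assoc]
  | pred m ih =>
    rw [show ((-(m : ℤ) - 1 : ℤ) : ℂ) * Complex.I = -Complex.I + ((-(m : ℤ) : ℤ) : ℂ) * Complex.I by
      push_cast; ring, s8E_add, mul_apply_eq_comp, ih, h2, add_sub_assoc]

theorem Shift.pU_J (h : Shift A Θ) (hτ : 0 < τ) (m n : ℤ) (η : K) :
    pU A Θ F τ (m * τ) (A.J n η) = A.J (n + m) (F.V (m * τ) η) := by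
  rw [s8_pU, mul_apply_eq_comp, A.dJ, mul_div_cancel_right₀ _ hτ.ne',
    Complex.ofReal_intCast, h.s8_J]

theorem Shift.mem_pR (h : Shift A Θ) {X : L →L[ℂ] L} :
    X ∈ pR A Θ F τ N ↔ X ∈ A.mat N ∧ ∀ t, pU A Θ F τ t * X = X * pU A Θ F τ t := by
  rw [pR, mem_vnc', A.mem_mat']
  · constructor
    · exact fun hX => ⟨fun y hy => hX _ (Or.inl ⟨y, hy, rfl⟩), fun t => hX _ (Or.inr ⟨t, rfl⟩)⟩
    · rintro ⟨h1, h2⟩ _ (⟨y, hy, rfl⟩ | ⟨t, rfl⟩)
      · exact h1 y hy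
      · exact h2 t
  · rintro _ (⟨y, hy, rfl⟩ | ⟨t, rfl⟩)
    · exact Or.inl ⟨star y, star_mem hy, map_star _ _⟩
    · exact Or.inr ⟨-t, (h.pU_star t).symm⟩

theorem Shift.conj_mem (h : Shift A Θ) (hN : ∀ t, ∀ y ∈ N, F.σ t y ∈ N) (t : ℝ) {X : L →L[ℂ] L}
    (hX : X ∈ A.mat N) : pU A Θ F τ t * X * star (pU A Θ F τ t) ∈ A.mat N := by
  rw [A.mem_mat'] at hX ⊢
  intro y hy
  have e : ∀ (s : ℝ) (x : K →L[ℂ] K),
      A.d x * pU A Θ F τ s = pU A Θ F τ s * A.d (F.σ (-s) x) := fun s x => by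
    rw [s8_pU, ← mul_assoc, h.s8_comm, mul_assoc, mul_assoc, ← map_mul, ← map_mul, FC.σ, neg_neg,
      ← mul_assoc, ← mul_assoc, F.V_mul_neg₃, one_mul]
  rw [h.pU_star, ← mul_assoc, ← mul_assoc, e, mul_assoc _ _ X, hX _ (sigma_comm hN _ hy),
    ← mul_assoc, mul_assoc _ (A.d _), e, F.σ_σ, neg_neg, add_neg_cancel, F.σ_zero, ← mul_assoc]

theorem Shift.s8_E_pU (h : Shift A Θ) (z : ℂ) (t : ℝ) :
    pU A Θ F τ t * s8E Θ z = s8E Θ z * pU A Θ F τ t := by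
  rw [s8_pU, mul_assoc, h.s8_comm, ← mul_assoc, ← mul_assoc, ← s8E_add, ← s8E_add, add_comm]

theorem Shift.s8_mem (h : Shift A Θ) (z : ℂ) : s8E Θ z ∈ A.mat N :=
  A.mem_mat'.2 fun y _ => h.s8_comm y z

theorem Shift.s8_P (h : Shift A Θ) (hτ : 0 < τ) (m : ℤ) (ζ : L) :
    ‖A.P 0 (pU A Θ F τ (m * τ) ζ)‖ = ‖A.P (-m) ζ‖ := by
  rw [← F.V_norm (m * τ) (A.P (-m) ζ)]
  congr 1
  refine ext_inner_left ℂ fun η => ?_
  have e := h.pU_J (F := F) hτ (-m) 0 η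
  rw [Int.cast_neg, neg_mul, zero_add] at e
  rw [← A.adj, ← ContinuousLinearMap.adjoint_inner_left, ← ContinuousLinearMap.star_eq_adjoint,
    h.pU_star, e, A.adj, ← F.V_inner (m * τ), F.V_V_neg]

theorem Shift.s8_tr (h : Shift A Θ) (hτ : 0 < τ) (hM : Mod N J ξ F) {X : L →L[ℂ] L}
    (hX : X ∈ pR A Θ F τ N) (n : ℤ) :
    ‖A.P n (X (s8E Θ ((1 / (2 * τ) : ℝ) : ℂ) (A.J 0 ξ)))‖ =
      ‖A.P (-n) (star X (s8E Θ ((1 / (2 * τ) : ℝ) : ℂ) (A.J 0 ξ)))‖ := by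
  set c : ℝ := 1 / (2 * τ) with hc
  obtain ⟨hX1, hX2⟩ := h.mem_pR.1 hX
  have hx : A.ent (s8E Θ c * X) n 0 ∈ N := A.mem_mat.1 (mul_mem (h.s8_mem _) hX1) n 0
  obtain ⟨ρ, e1, e2⟩ := hM.pre.exists_rho hx
  obtain ⟨B1, hB1, b1⟩ := s8E_bd h.sa (-c)
  obtain ⟨B2, hB2, b2⟩ := s8E_bd h.sa c
  have d1 : Differentiable ℂ fun z : ℂ => s8E Θ ((-c : ℝ) * z) :=
    (s8E_diff Θ).comp (differentiable_id.const_mul _)
  have d2 : Differentiable ℂ fun z : ℂ => s8E Θ (c * z) :=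
    (s8E_diff Θ).comp (differentiable_id.const_mul _)
  have hY := an_cont F (ρ := ρ)
    (Y := fun z => A.P n ((s8E Θ c * s8E Θ ((-c : ℝ) * z) * X * s8E Θ (c * z)) (A.J 0 ξ)))
    ((A.P n).differentiable.comp (((((differentiable_const _).mul d1).mul
      (differentiable_const _)).mul d2).clm_apply (differentiable_const _))).diffContOnCl
    ⟨‖s8E Θ c‖ * B1 * ‖X‖ * B2 * ‖A.J 0 ξ‖, fun z hz => by
      refine (A.norm_P_le _ _).trans ((ContinuousLinearMap.le_opNorm _ _).trans ?_)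
      refine mul_le_mul_of_nonneg_right ((norm_mul_le _ _).trans (mul_le_mul
        ((norm_mul_le _ _).trans (mul_le_mul_of_nonneg_right ((norm_mul_le _ _).trans
          (mul_le_mul_of_nonneg_left (b1 z hz) (norm_nonneg _))) (norm_nonneg _)))
        (b2 z hz) (norm_nonneg _) (by positivity))) (norm_nonneg _)⟩
    fun t => by
      have a1 : (c : ℂ) * (2 * t * Complex.I) = ((t / τ : ℝ) : ℂ) * Complex.I := by
        have : (τ : ℂ) ≠ 0 := by exact_mod_cast hτ.ne'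
        rw [hc]
        push_cast
        field_simp
      have a2 : ((-c : ℝ) : ℂ) * (2 * t * Complex.I) = -(((t / τ : ℝ) : ℂ) * Complex.I) := by
        rw [← a1]
        push_cast
        ring
      have a3 : s8E Θ (((t / τ : ℝ) : ℂ) * Complex.I) (A.J 0 ξ) = pU A Θ F τ t (A.J 0 ξ) := by
        rw [s8_pU, mul_apply_eq_comp, A.dJ, hM.V_xi]
      have a4 : s8E Θ c * s8E Θ (-(((t / τ : ℝ) : ℂ) * Complex.I)) * X * pU A Θ F τ t =
          A.d (F.V t) * (s8E Θ c * X) := by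
        rw [mul_assoc _ X, ← hX2, s8_pU, ← mul_assoc, ← mul_assoc, mul_assoc (s8E Θ c),
          s8E_neg_mul, mul_one, ← h.s8_comm, mul_assoc]
      show A.P n _ = _
      rw [a1, a2, mul_apply_eq_comp, a3, ← mul_apply_eq_comp, a4,
        mul_apply_eq_comp, A.P_d, ← e1, A.ent_apply]
  simp only [mul_one, Complex.ofReal_neg, s8E_mul_neg, one_mul,
    mul_apply_eq_comp] at hY
  have e3 : A.J n ξ = pU A Θ F τ (n * τ) (A.J 0 ξ) := by rw [h.pU_J hτ, hM.V_xi, zero_add]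
  have e4 : star X * s8E Θ c * pU A Θ F τ (n * τ) = pU A Θ F τ (n * τ) * (star X * s8E Θ c) := by
    rw [mul_assoc, ← h.s8_E_pU, ← mul_assoc, ← (h.mem_pR.1 (star_mem hX)).2, mul_assoc]
  rw [hY, ← e2, hM.bi.cj.norm, A.star_ent, A.ent_apply, star_mul, s8E_star h.sa, e3,
    Complex.star_def, Complex.conj_ofReal, ← mul_apply_eq_comp, e4,
    mul_apply_eq_comp, h.s8_P hτ, mul_apply_eq_comp]

theorem s8_mu {e : Fin 2 → Fin 2 → (K →L[ℂ] K)} (he : IsMU 1 e) :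
    IsMU 1 fun i j => A.d (e i j) := by
  refine ⟨fun s t s' t' => ?_, fun s t => ?_, ?_⟩
  · rw [← map_mul, he.mul]
    split_ifs
    · rfl
    · exact map_zero _
  · rw [← map_star, he.star]
  · rw [← map_sum, he.sum, map_one]

theorem Shift.p5 (h : Shift A Θ) (hτ : 0 < τ) (hM : Mod N J ξ F) (h22 : M22 (Cen N ξ)) :
    ∃ Ξ, Sep (pR A Θ F τ N) Ξ ∧ Tr (pR A Θ F τ N) Ξ ∧
      M22 (pR A Θ F τ N : Set (L →L[ℂ] L)) := by
  refine ⟨s8E Θ ((1 / (2 * τ) : ℝ) : ℂ) (A.J 0 ξ), fun X hX h0 => ?_, fun X hX => ?_, ?_⟩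
  · set c : ℂ := ((1 / (2 * τ) : ℝ) : ℂ)
    obtain ⟨hX1, hX2⟩ := h.mem_pR.1 hX
    have a1 : ∀ η, (X * s8E Θ c) (A.J 0 η) = 0 := fun η => A.ext_vec fun n => by
      have := hM.sep _ (A.mem_mat.1 (mul_mem hX1 (h.s8_mem c)) n 0) (by
        rw [A.ent_apply, mul_apply_eq_comp, h0, map_zero])
      rw [← A.ent_apply, this, map_zero, zero_apply]
    have a2 : X * s8E Θ c = 0 := A.ext_J fun m η => by
      have e := h.pU_J (F := F) hτ m 0 (F.V (-(m * τ)) η)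
      rw [F.V_V_neg, zero_add] at e
      rw [← e, ← mul_apply_eq_comp, mul_assoc, ← h.s8_E_pU, ← mul_assoc, ← hX2,
        mul_assoc, mul_apply_eq_comp, a1, map_zero, zero_apply]
    rw [← mul_one X, ← s8E_mul_neg Θ c, ← mul_assoc, a2, zero_mul]
  · have a1 := A.sum (X (s8E Θ ((1 / (2 * τ) : ℝ) : ℂ) (A.J 0 ξ)))
    have a2 := (Equiv.neg ℤ).hasSum_iff.2
      (A.sum (star X (s8E Θ ((1 / (2 * τ) : ℝ) : ℂ) (A.J 0 ξ))))
    simp only [h.s8_tr hτ hM hX] at a1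
    exact (sq_eq_sq₀ (norm_nonneg _) (norm_nonneg _)).1 (a2.unique a1)
  · obtain ⟨e, f, he, hf, hc, hm⟩ := h22
    have a : ∀ x ∈ Cen N ξ, A.d x ∈ pR A Θ F τ N := fun x hx =>
      h.mem_pR.2 ⟨A.d_mem_mat hx.1, fun t => by
        rw [s8_pU, mul_assoc, ← map_mul, FC.V, ← hM.comm_of_cen hx.1 (cen_of_mem hM hx) (bc_ex t),
          map_mul, ← mul_assoc, ← h.s8_comm, mul_assoc]⟩
    exact ⟨_, _, s8_mu he, s8_mu hf, fun i j k l => (hc i j k l).map A.d,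
      fun i j => ⟨a _ (hm i j).1, a _ (hm i j).2⟩⟩

end Vale.Agent.P096
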