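import Vale.Agent.P096.Defs
import Vale.Agent.P132.FC3

/-! Analytic families on the strip: general lemmas. -/

open scoped InnerProductSpace Topology
open Filter

namespace Vale.Agent.P096

open Vale.Agent.P104 Vale.Agent.P132

variable {K : Type*} [NormedAddCommGroup K] [InnerProductSpace ℂ K] [CompleteSpace K]

theorem sx_closure : closure ostrip = cstrip := by
  unfold ostrip cstrip
  rw [Complex.closure_preimage_re, closure_Ioo zero_ne_one]

theorem sx_open : IsOpen ostrip := isOpen_Ioo.preimage Complex.continuous_re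

theorem sx_sub : ostrip ⊆ cstrip := fun _ hz => Set.Ioo_subset_Icc_self hz

theorem sx_three {E : Type*} [NormedAddCommGroup E] [NormedSpace ℂ E] {f : ℂ → E}
    (hf : DiffContOnCl ℂ f ostrip) (hb : ∃ B : ℝ, ∀ z ∈ cstrip, ‖f z‖ ≤ B) {a b : ℝ}
    (h0 : ∀ z : ℂ, z.re = 0 → ‖f z‖ ≤ a) (h1 : ∀ z : ℂ, z.re = 1 → ‖f z‖ ≤ b) {z : ℂ}
    (hz : z ∈ cstrip) : ‖f z‖ ≤ a ^ (1 - z.re) * b ^ z.re := by
  obtain ⟨B, hB⟩ := hb
  refine Complex.HadamardThreeLines.norm_le_interp_of_mem_verticalClosedStrip₀₁' f hz hf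
    ⟨B, ?_⟩ (fun z hz => h0 z hz) (fun z hz => h1 z hz)
  rintro _ ⟨w, hw, rfl⟩
  exact hB w hw

theorem sx_max {E : Type*} [NormedAddCommGroup E] [NormedSpace ℂ E] {f : ℂ → E}
    (hf : DiffContOnCl ℂ f ostrip) (hb : ∃ B : ℝ, ∀ z ∈ cstrip, ‖f z‖ ≤ B) {C : ℝ}
    (h0 : ∀ z : ℂ, z.re = 0 → ‖f z‖ ≤ C) (h1 : ∀ z : ℂ, z.re = 1 → ‖f z‖ ≤ C) :
    ∀ z ∈ cstrip, ‖f z‖ ≤ C := by
  intro z hz
  have hC : 0 ≤ C := (norm_nonneg _).trans (h0 0 rfl)
  have := sx_three hf hb h0 h1 hz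
  rwa [← Real.rpow_add' hC (by simp), sub_add_cancel, Real.rpow_one] at this

theorem sx_le_closure {E : Type*} [NormedAddCommGroup E] {f : ℂ → E}
    (hf : ContinuousOn f cstrip) {C : ℝ} (h : ∀ z ∈ ostrip, ‖f z‖ ≤ C) :
    ∀ z ∈ cstrip, ‖f z‖ ≤ C := by
  intro z hz
  have h1 : ContinuousWithinAt (fun w => ‖f w‖) ostrip z := ((hf z hz).mono sx_sub).norm
  exact h1.closure_le (sx_closure ▸ hz) continuousWithinAt_const h

theorem sx_zero {E : Type*} [NormedAddCommGroup E] [NormedSpace ℂ E] {f : ℂ → E}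
    (hf : DiffContOnCl ℂ f ostrip) (hb : ∃ B : ℝ, ∀ z ∈ cstrip, ‖f z‖ ≤ B)
    (h0 : ∀ z : ℂ, z.re = 0 → f z = 0) : ∀ z ∈ cstrip, f z = 0 := by
  obtain ⟨B, hB⟩ := hb
  have h1 : ∀ z ∈ ostrip, ‖f z‖ ≤ 0 := by
    intro z hz
    have := sx_three hf ⟨B, hB⟩ (a := 0) (b := B) (fun z hz => by rw [h0 z hz, norm_zero])
      (fun z hz => hB z (by simp [cstrip, hz])) (sx_sub hz)
    rwa [Real.zero_rpow (sub_pos.2 hz.2).ne', zero_mul] at this
  intro z hz
  exact norm_le_zero_iff.1 (sx_le_closure (sx_closure ▸ hf.2) h1 z hz)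

omit [CompleteSpace K] in
theorem sx_app {G : ℂ → (K →L[ℂ] K)} (hG : SF G) {f : ℂ → K} (hf : DiffContOnCl ℂ f ostrip) :
    DiffContOnCl ℂ (fun z => G z (f z)) ostrip := by
  obtain ⟨hd, C, hC⟩ := hG
  refine ⟨fun z₀ hz₀ => ?_, fun z₀ hz₀ => ?_⟩
  · have hn : ostrip ∈ 𝓝 z₀ := sx_open.mem_nhds hz₀
    have h1 := (hf.differentiableAt' hn).hasDerivAt
    set f' := deriv f z₀
    have h2 : DifferentiableAt ℂ (fun z => G z (f z₀)) z₀ := (hd _).differentiableAt' hn
    have h3 : DifferentiableAt ℂ (fun z => (z - z₀) • G z f') z₀ :=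
      (differentiableAt_id.sub_const _).smul ((hd _).differentiableAt' hn)
    have h4 : HasDerivAt (fun z => G z (f z - f z₀ - (z - z₀) • f')) 0 z₀ := by
      rw [hasDerivAt_iff_isLittleO] at h1 ⊢
      simp only [sub_self, zero_smul, map_zero, sub_zero, smul_zero]
      refine Asymptotics.IsBigO.trans_isLittleO ?_ h1
      refine Asymptotics.IsBigO.of_bound C ?_
      filter_upwards [hn] with z hz
      exact ((G z).le_opNorm _).trans
        (mul_le_mul_of_nonneg_right (hC z (sx_sub hz)) (norm_nonneg _))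
    have h5 : (fun z => G z (f z)) = fun z => G z (f z₀) + (z - z₀) • G z f' +
        G z (f z - f z₀ - (z - z₀) • f') := by
      funext z
      simp only [map_sub, map_smul]
      abel
    rw [h5]
    exact ((h2.add h3).add h4.differentiableAt).differentiableWithinAt
  · have h1 : ContinuousWithinAt (fun z => G z (f z₀)) (closure ostrip) z₀ := (hd _).2 z₀ hz₀
    have h2 : Tendsto (fun z => G z (f z - f z₀)) (𝓝[closure ostrip] z₀) (𝓝 0) := by
      have h3 : Tendsto (fun z => C * ‖f z - f z₀‖) (𝓝[closure ostrip] z₀) (𝓝 0) := by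
        have := (tendsto_iff_norm_sub_tendsto_zero.1 (hf.2 z₀ hz₀)).const_mul C
        rwa [mul_zero] at this
      refine squeeze_zero_norm' ?_ h3
      filter_upwards [self_mem_nhdsWithin] with z hz
      exact ((G z).le_opNorm _).trans
        (mul_le_mul_of_nonneg_right (hC z (sx_closure ▸ hz)) (norm_nonneg _))
    have h4 := h1.tendsto.add h2
    rw [add_zero] at h4
    refine h4.congr fun z => ?_
    simp

omit [CompleteSpace K] in
theorem sx_sf_max {G : ℂ → (K →L[ℂ] K)} (hG : SF G) {C : ℝ} (h0 : ∀ z : ℂ, z.re = 0 → ‖G z‖ ≤ C)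
    (h1 : ∀ z : ℂ, z.re = 1 → ‖G z‖ ≤ C) : ∀ z ∈ cstrip, ‖G z‖ ≤ C := by
  obtain ⟨hd, B, hB⟩ := hG
  intro z hz
  have hC : 0 ≤ C := (norm_nonneg _).trans (h0 0 rfl)
  refine ContinuousLinearMap.opNorm_le_bound _ hC fun η => ?_
  refine sx_max (hd η) ⟨B * ‖η‖, fun w hw => ?_⟩ (fun w hw => ?_) (fun w hw => ?_) z hz
  · exact ((G w).le_opNorm _).trans (mul_le_mul_of_nonneg_right (hB w hw) (norm_nonneg _))
  · exact ((G w).le_opNorm _).trans (mul_le_mul_of_nonneg_right (h0 w hw) (norm_nonneg _))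
  · exact ((G w).le_opNorm _).trans (mul_le_mul_of_nonneg_right (h1 w hw) (norm_nonneg _))

omit [CompleteSpace K] in
theorem sx_sf_cont {G : ℂ → (K →L[ℂ] K)} (hG : SF G) : ContinuousOn G ostrip := by
  obtain ⟨hd, B, hB⟩ := hG
  intro z₀ hz₀
  obtain ⟨R, hR, hball⟩ := Metric.isOpen_iff.1 sx_open z₀ hz₀
  have hB0 : 0 ≤ B := (norm_nonneg _).trans (hB z₀ (sx_sub hz₀))
  have h1 : ∀ z ∈ Metric.ball z₀ R, ‖G z - G z₀‖ ≤ 2 * B / R * dist z z₀ := by
    intro z hz
    refine ContinuousLinearMap.opNorm_le_bound _ (by positivity) fun η => ?_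
    have h2 := Complex.dist_le_div_mul_dist_of_mapsTo_ball (f := fun w => G w η)
      (R₂ := 2 * B * ‖η‖) ((hd η).1.mono hball) (fun w hw => ?_) hz
    · rw [dist_eq_norm] at h2
      rw [sub_apply]
      refine h2.trans_eq ?_
      ring
    · rw [Metric.mem_closedBall, dist_eq_norm]
      refine (norm_sub_le _ _).trans ?_
      have a1 := ((G w).le_opNorm η).trans
        (mul_le_mul_of_nonneg_right (hB w (sx_sub (hball hw))) (norm_nonneg _))
      have a2 := ((G z₀).le_opNorm η).trans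
        (mul_le_mul_of_nonneg_right (hB z₀ (sx_sub hz₀)) (norm_nonneg _))
      linarith
  refine ContinuousAt.continuousWithinAt ?_
  rw [ContinuousAt, tendsto_iff_norm_sub_tendsto_zero]
  have h3 : Tendsto (fun z => 2 * B / R * dist z z₀) (𝓝 z₀) (𝓝 0) := by
    have : Tendsto (fun z => dist z z₀) (𝓝 z₀) (𝓝 0) := by
      simpa using (tendsto_id (x := 𝓝 z₀)).dist (tendsto_const_nhds (x := z₀))
    simpa using this.const_mul (2 * B / R)
  refine squeeze_zero' (Eventually.of_forall fun _ => norm_nonneg _) ?_ h3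
  filter_upwards [Metric.ball_mem_nhds z₀ hR] with z hz using h1 z hz

omit [CompleteSpace K] in
theorem sx_sf_closure {G : ℂ → (K →L[ℂ] K)} (hG : SF G) {C : ℝ} (h : ∀ z ∈ ostrip, ‖G z‖ ≤ C) :
    ∀ z ∈ cstrip, ‖G z‖ ≤ C := by
  intro z hz
  have hC : 0 ≤ C := (norm_nonneg _).trans (h (1 / 2) (by
    simp only [ostrip, Set.mem_preimage, Set.mem_Ioo]; norm_num))
  refine ContinuousLinearMap.opNorm_le_bound _ hC fun η => ?_
  refine sx_le_closure (f := fun w => G w η) (sx_closure ▸ (hG.1 η).2) (fun w hw => ?_) z hz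
  exact ((G w).le_opNorm _).trans (mul_le_mul_of_nonneg_right (h w hw) (norm_nonneg _))

/-- Uniform limits of analytic functions on the strip. -/
theorem sx_unif {E : Type*} [NormedAddCommGroup E] [NormedSpace ℂ E] [CompleteSpace E]
    {f : ℂ → E} (h : ∀ ε : ℝ, 0 < ε → ∃ g : ℂ → E, DiffContOnCl ℂ g ostrip ∧
      ∀ z ∈ cstrip, ‖f z - g z‖ ≤ ε) : DiffContOnCl ℂ f ostrip := by
  choose g hg hfg using fun n : ℕ => h (1 / ((n : ℝ) + 1)) Nat.one_div_pos_of_nat
  have hu : TendstoUniformlyOn g f atTop cstrip := by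
    rw [Metric.tendstoUniformlyOn_iff]
    intro ε hε
    filter_upwards [(tendsto_one_div_add_atTop_nhds_zero_nat (𝕜 := ℝ)).eventually
      (gt_mem_nhds hε)] with n hn z hz
    rw [dist_eq_norm]
    exact (hfg n z hz).trans_lt hn
  refine ⟨?_, ?_⟩
  · exact (hu.mono sx_sub).tendstoLocallyUniformlyOn.differentiableOn
      (Eventually.of_forall fun n => (hg n).1) sx_open
  · rw [sx_closure]
    exact hu.continuousOn (Eventually.of_forall fun n => sx_closure ▸ (hg n).2).frequently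

end Vale.Agent.P096
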