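import Vale.Agent.P096.StripAux1

/-! Analytic families on the strip: exponential families in the functional calculus. -/

open scoped InnerProductSpace Topology
open Filter

namespace Vale.Agent.P096

open Vale.Agent.P104 Vale.Agent.P132

variable {K : Type*} [NormedAddCommGroup K] [InnerProductSpace ℂ K] [CompleteSpace K]

/-- Exponential family of scalar functions. -/
noncomputable def sxE (a : ℝ → ℝ) (φ : ℝ → ℂ) (w : ℂ) (s : ℝ) : ℂ :=
  Complex.exp (w * (a s : ℂ)) * φ s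

theorem sxE_norm (a : ℝ → ℝ) (φ : ℝ → ℂ) (w : ℂ) (s : ℝ) :
    ‖sxE a φ w s‖ = Real.exp (w.re * a s) * ‖φ s‖ := by
  unfold sxE
  rw [norm_mul, Complex.norm_exp]
  simp

theorem sxE_le {a : ℝ → ℝ} {φ : ℝ → ℂ} {C : ℝ} (h0 : ∀ s, ‖φ s‖ ≤ C)
    (h1 : ∀ s, Real.exp (a s) * ‖φ s‖ ≤ C) {w : ℂ} (hw : w ∈ cstrip) (s : ℝ) :
    ‖sxE a φ w s‖ ≤ C := by
  rw [sxE_norm]
  have hw0 : 0 ≤ w.re := hw.1
  have hw1 : w.re ≤ 1 := hw.2
  rcases le_total 0 (a s) with h | h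
  · refine le_trans (mul_le_mul_of_nonneg_right (Real.exp_le_exp.2 ?_) (norm_nonneg _)) (h1 s)
    nlinarith
  · refine le_trans (mul_le_of_le_one_left (norm_nonneg _) (Real.exp_le_one_iff.2 ?_)) (h0 s)
    nlinarith

theorem sxE_cont {a : ℝ → ℝ} {φ : ℝ → ℂ} (ha : Continuous a) (hφ : Continuous φ) (w : ℂ) :
    Continuous (sxE a φ w) := by
  unfold sxE
  fun_prop

theorem sxE_bc {a : ℝ → ℝ} {φ : ℝ → ℂ} (ha : Continuous a) (hφ : Continuous φ) {C : ℝ}
    (h0 : ∀ s, ‖φ s‖ ≤ C) (h1 : ∀ s, Real.exp (a s) * ‖φ s‖ ≤ C) {w : ℂ} (hw : w ∈ cstrip) :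
    BC (sxE a φ w) := ⟨sxE_cont ha hφ w, C, sxE_le h0 h1 hw⟩

theorem sxE_deriv (a : ℝ → ℝ) (φ : ℝ → ℂ) (w : ℂ) (s : ℝ) :
    HasDerivAt (fun w => sxE a φ w s) (a s * sxE a φ w s) w := by
  unfold sxE
  have h := (((hasDerivAt_id w).mul_const (a s : ℂ)).cexp).mul_const (φ s)
  refine h.congr_deriv ?_
  simp only [id]
  ring

theorem sxE_sf (F : FC K) {a : ℝ → ℝ} {φ : ℝ → ℂ} (ha : Continuous a) (hφ : Continuous φ) {C : ℝ}
    (h0 : ∀ s, ‖φ s‖ ≤ C) (h1 : ∀ s, Real.exp (a s) * ‖φ s‖ ≤ C) :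
    SF fun w => F.f (sxE a φ w) := by
  have hC : 0 ≤ C := (norm_nonneg _).trans (h0 0)
  have hbc : ∀ w ∈ cstrip, BC (sxE a φ w) := fun w hw => sxE_bc ha hφ h0 h1 hw
  refine ⟨fun η => ⟨fun w₀ hw₀ => ?_, fun w₀ hw₀ => ?_⟩, C, fun w hw => ?_⟩
  · obtain ⟨R, hR, hball⟩ := Metric.isOpen_iff.1 sx_open w₀ hw₀
    have hmaps : ∀ s, Set.MapsTo (fun w => sxE a φ w s) (Metric.ball w₀ R)
        (Metric.closedBall (sxE a φ w₀ s) (2 * C)) := by
      intro s w hw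
      rw [Metric.mem_closedBall, dist_eq_norm]
      refine (norm_sub_le _ _).trans ?_
      have a1 := sxE_le h0 h1 (sx_sub (hball hw)) s
      have a2 := sxE_le h0 h1 (sx_sub hw₀) s
      linarith
    have hdiff : ∀ s, DifferentiableOn ℂ (fun w => sxE a φ w s) (Metric.ball w₀ R) :=
      fun s w _ => (sxE_deriv a φ w s).differentiableAt.differentiableWithinAt
    have hk : BC fun s => a s * sxE a φ w₀ s := by
      refine ⟨(Complex.continuous_ofReal.comp ha).mul (sxE_cont ha hφ w₀), 2 * C / R, fun s => ?_⟩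
      have := Complex.norm_deriv_le_div_of_mapsTo_ball (hdiff s) (hmaps s) hR
      rwa [(sxE_deriv a φ w₀ s).deriv] at this
    have hev : ∀ᶠ w in 𝓝[≠] w₀, w ∈ Metric.ball w₀ R ∧ w ≠ w₀ :=
      Eventually.and (mem_nhdsWithin_of_mem_nhds (Metric.ball_mem_nhds w₀ hR))
        self_mem_nhdsWithin
    have ht := F.tendsto (l := 𝓝[≠] w₀)
      (g := fun w s => (w - w₀)⁻¹ * (sxE a φ w s - sxE a φ w₀ s)) (C := 2 * C / R)
      (hev.mono fun w hw =>
        ((hbc w (sx_sub (hball hw.1))).sub (hbc w₀ (sx_sub hw₀))).const_mul _) hk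
      (hev.mono fun w hw s => ?_) (fun s => ?_) η
    · refine (HasDerivAt.differentiableAt (f' := F.f (fun s => a s * sxE a φ w₀ s) η)
        ?_).differentiableWithinAt
      rw [hasDerivAt_iff_tendsto_slope]
      refine ht.congr' (hev.mono fun w hw => ?_)
      have b1 := hbc w (sx_sub (hball hw.1))
      have b2 := hbc w₀ (sx_sub hw₀)
      simp only
      rw [F.f_const_mul _ (b1.sub b2), F.f_sub b1 b2, slope_def_module]
      rfl
    · have := Complex.dist_le_div_mul_dist_of_mapsTo_ball (hdiff s) (hmaps s) hw.1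
      rw [dist_eq_norm, dist_eq_norm] at this
      have hp : 0 < ‖w - w₀‖ := norm_pos_iff.2 (sub_ne_zero.2 hw.2)
      rw [norm_mul, norm_inv, inv_mul_le_iff₀ hp, mul_comm]
      exact this
    · have := hasDerivAt_iff_tendsto_slope.1 (sxE_deriv a φ w₀ s)
      refine this.congr fun w => ?_
      rw [slope_def_module, smul_eq_mul]
  · rw [sx_closure] at hw₀ ⊢
    refine F.tendsto (l := 𝓝[cstrip] w₀) (C := C) ?_ (hbc w₀ hw₀) ?_ (fun s => ?_) η
    · filter_upwards [self_mem_nhdsWithin] with w hw using hbc w hw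
    · filter_upwards [self_mem_nhdsWithin] with w hw using sxE_le h0 h1 hw
    · exact (sxE_deriv a φ w₀ s).continuousAt.continuousWithinAt
  · exact ContinuousLinearMap.opNorm_le_bound _ hC fun η =>
      F.norm_le (hbc w hw) (F.supp_univ η) hC fun s _ => sxE_le h0 h1 hw s

theorem sx_norm_fb (s : ℝ) : ‖fb s‖ = Real.exp (s / 2) * ‖fa s‖ := by
  rw [fb_eq, norm_mul, Complex.norm_real, Real.norm_of_nonneg (Real.exp_pos _).le]

theorem sx_fa_le : ∃ C : ℝ, (∀ s, ‖fa s‖ ≤ C) ∧ ∀ s, Real.exp (s / 2) * ‖fa s‖ ≤ C := by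
  obtain ⟨C, hC⟩ := bc_fa.2
  obtain ⟨D, hD⟩ := bc_fb.2
  exact ⟨max C D, fun s => (hC s).trans (le_max_left _ _), fun s => by
    rw [← sx_norm_fb]; exact (hD s).trans (le_max_right _ _)⟩

theorem sx_ph (z : ℂ) :
    (fun s : ℝ => Complex.exp (z * (s : ℂ) / 2) * fa s) = sxE (fun s => s / 2) fa z := by
  funext s
  unfold sxE
  push_cast
  rw [mul_div_assoc]

theorem sx_Phi (F : FC K) (z : ℂ) : Phi F z = F.f (sxE (fun s => s / 2) fa z) := by
  unfold Phi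
  rw [sx_ph]

theorem sx_bc_ph {z : ℂ} (hz : z ∈ cstrip) : BC (sxE (fun s => s / 2) fa z) := by
  obtain ⟨C, h0, h1⟩ := sx_fa_le
  exact sxE_bc (by fun_prop) bc_fa.1 h0 h1 hz

theorem sx_sf_Phi (F : FC K) : SF (Phi F) := by
  obtain ⟨C, h0, h1⟩ := sx_fa_le
  have : Phi F = fun w => F.f (sxE (fun s => s / 2) fa w) := funext (sx_Phi F)
  rw [this]
  exact sxE_sf F (by fun_prop) bc_fa.1 h0 h1

theorem sx_Phi_left (F : FC K) (t : ℝ) : Phi F (2 * t * Complex.I) = F.V t * F.f fa := by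
  unfold Phi FC.V
  rw [← F.mul _ _ (bc_ex t) bc_fa]
  refine congrArg F.f (funext fun s => ?_)
  unfold ex
  refine congrArg (fun x => Complex.exp x * fa s) ?_
  ring

theorem sx_Phi_right (F : FC K) (t : ℝ) : Phi F (1 + 2 * t * Complex.I) = F.V t * F.f fb := by
  unfold Phi FC.V
  rw [← F.mul _ _ (bc_ex t) bc_fb]
  refine congrArg F.f (funext fun s => ?_)
  unfold ex
  rw [fb_eq, ← mul_assoc, Complex.ofReal_exp, ← Complex.exp_add]
  refine congrArg (fun x => Complex.exp x * fa s) ?_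
  push_cast
  ring

theorem sx_dense_Phi (F : FC K) {z : ℂ} (hz : z ∈ cstrip) : DenseRange (Phi F z) := by
  rw [sx_Phi]
  exact F.denseRange (sx_bc_ph hz) fun s => mul_ne_zero (Complex.exp_ne_zero _) (fa_ne_zero s)

theorem sx_left {z : ℂ} (hz : z.re = 0) : z = 2 * ((z.im / 2 : ℝ) : ℂ) * Complex.I := by
  apply Complex.ext <;> simp [hz]
  ring

theorem sx_right {z : ℂ} (hz : z.re = 1) : z = 1 + 2 * ((z.im / 2 : ℝ) : ℂ) * Complex.I := by
  apply Complex.ext <;> simp [hz]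
  ring

theorem sx_left_mem (t : ℝ) : 2 * (t : ℂ) * Complex.I ∈ cstrip := by
  simp [cstrip]

theorem sx_right_mem (t : ℝ) : 1 + 2 * (t : ℂ) * Complex.I ∈ cstrip := by
  simp [cstrip]

theorem sx_an_cont (F : FC K) {Y : ℂ → K} (hY : DiffContOnCl ℂ Y ostrip)
    (hb : ∃ B : ℝ, ∀ z ∈ cstrip, ‖Y z‖ ≤ B) {ρ : K}
    (h : ∀ t : ℝ, Y (2 * t * Complex.I) = F.V t (F.f fa ρ)) : Y 1 = F.f fb ρ := by
  obtain ⟨hd, C, hC⟩ := sx_sf_Phi F
  obtain ⟨B, hB⟩ := hb
  have h1 := sx_zero (f := fun z => Y z - Phi F z ρ) (hY.sub (hd ρ))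
    ⟨B + C * ‖ρ‖, fun z hz => (norm_sub_le _ _).trans (add_le_add (hB z hz)
      (((Phi F z).le_opNorm ρ).trans (mul_le_mul_of_nonneg_right (hC z hz) (norm_nonneg _))))⟩
    (fun z hz => by
      rw [sx_left hz, h, sx_Phi_left]
      exact sub_self _) 1 (by simp [cstrip])
  have h2 := sx_Phi_right F 0
  rw [F.V_zero, one_mul] at h2
  simp only [Complex.ofReal_zero, mul_zero, zero_mul, add_zero] at h2
  rw [← h2]
  exact sub_eq_zero.1 h1

end Vale.Agent.P096
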