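import Vale.Agent.P096.TDefs
import Vale.Agent.P096.ModAux
import Vale.Agent.P132.Join

/-! The centre: covers and corners. -/

open scoped InnerProductSpace Topology
open Filter

namespace Vale.Agent.P096

open Vale.Agent.P104 Vale.Agent.P132

variable {H : Type*} [NormedAddCommGroup H] [InnerProductSpace ℂ H] [CompleteSpace H]
  {M : VonNeumannAlgebra H} {J : H →L⋆[ℂ] H} {ξ : H} {F : FC H}

theorem Zc.zero : Zc M 0 := ⟨zero_mem _, zero_mem _⟩

theorem Zc.one : Zc M 1 := ⟨one_mem _, one_mem _⟩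

theorem Zc.add {a b : H →L[ℂ] H} (ha : Zc M a) (hb : Zc M b) : Zc M (a + b) :=
  ⟨add_mem ha.1 hb.1, add_mem ha.2 hb.2⟩

theorem Zc.sub {a b : H →L[ℂ] H} (ha : Zc M a) (hb : Zc M b) : Zc M (a - b) :=
  ⟨sub_mem ha.1 hb.1, sub_mem ha.2 hb.2⟩

theorem Zc.mul {a b : H →L[ℂ] H} (ha : Zc M a) (hb : Zc M b) : Zc M (a * b) :=
  ⟨mul_mem ha.1 hb.1, mul_mem ha.2 hb.2⟩

theorem Zc.smul (c : ℂ) {a : H →L[ℂ] H} (ha : Zc M a) : Zc M (c • a) :=
  ⟨vn_smul c ha.1, vn_smul c ha.2⟩

theorem Zc.star {a : H →L[ℂ] H} (ha : Zc M a) : Zc M (star a) :=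
  ⟨star_mem ha.1, star_mem ha.2⟩

theorem Zc.comm {z x : H →L[ℂ] H} (hz : Zc M z) (hx : x ∈ M) : z * x = x * z :=
  (commute_of_mem M hz.2 hx).eq

theorem Zc.comm_apply {z x : H →L[ℂ] H} (hz : Zc M z) (hx : x ∈ M) (η : H) : z (x η) = x (z η) :=
  congrArg (fun T : H →L[ℂ] H => T η) (hz.comm hx)

theorem Zc.rt_eq {z : H →L[ℂ] H} (hz : Zc M z) (h : Mod M J ξ F) : rt J z = z :=
  (cen_of_pair h hz.1 hz.2 rfl rfl).2

theorem Zc.sigma {z : H →L[ℂ] H} (hz : Zc M z) (h : Mod M J ξ F) (t : ℝ) : F.σ t z = z :=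
  h.σ_of_cen hz.1 (cen_of_pair h hz.1 hz.2 rfl rfl).1 t

theorem Sub.refl {e : H →L[ℂ] H} (heM : e ∈ M) (he : IsStarProjection e) : Sub M e e :=
  ⟨heM, he, he.isIdempotentElem.eq, fun _ _ _ h => h⟩

theorem Sub.trans {e f g : H →L[ℂ] H} (h : Sub M g f) (k : Sub M f e) : Sub M g e :=
  ⟨h.mem, h.proj, by rw [← h.le, ← mul_assoc, k.le],
    fun z hz hp h0 => k.full z hz hp (h.full z hz hp h0)⟩

/-- The central cover of a projection. -/
theorem exists_zcover (M : VonNeumannAlgebra H) {p : H →L[ℂ] H} (hpM : p ∈ M)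
    (hp : IsStarProjection p) : ∃ z, Zc M z ∧ IsStarProjection z ∧ z * p = p ∧
      ∀ q : H →L[ℂ] H, (∀ x ∈ M, q * x * p = 0) → q * z = 0 := by
  let S : Submodule ℂ H := Submodule.span ℂ {ζ | ∃ x ∈ M, ∃ η, x (p η) = ζ}
  let K := S.topologicalClosure
  have hz : IsStarProjection K.starProjection := isStarProjection_starProjection
  have h1 : ∀ x ∈ M, K.starProjection * x * p = x * p := fun x hx => by
    ext η
    exact Submodule.starProjection_eq_self_iff.2
      (Submodule.le_topologicalClosure _ (Submodule.subset_span ⟨x, hx, η, rfl⟩))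
  have h2 : ∀ q : H →L[ℂ] H, (∀ x ∈ M, q * x * p = 0) → q * K.starProjection = 0 := by
    intro q hq
    have hK : K ≤ LinearMap.ker (q : H →ₗ[ℂ] H) := by
      refine Submodule.topologicalClosure_minimal _ (Submodule.span_le.2 ?_) q.isClosed_ker
      rintro _ ⟨x, hx, η, rfl⟩
      exact congrArg (fun T : H →L[ℂ] H => T η) (hq x hx)
    ext η
    exact hK (K.starProjection_apply_mem η)
  set z := K.starProjection
  have cm : ∀ y : H →L[ℂ] H, (1 - z) * y * z = 0 → (1 - z) * star y * z = 0 → y * z = z * y := by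
    intro y a1 a2
    have a3 := congrArg star a2
    simp only [star_mul, star_sub, star_one, star_star, hz.isSelfAdjoint.star_eq, star_zero] at a3
    have : y * z - z * y = (1 - z) * y * z - z * (y * (1 - z)) := by noncomm_ring
    rw [a1, a3, sub_zero] at this
    exact sub_eq_zero.1 this
  have h0 : ∀ x ∈ M, (1 - z) * x * p = 0 := fun x hx => by
    rw [sub_mul, sub_mul, one_mul, h1 x hx, sub_self]
  have a1 : ∀ y ∈ M, (1 - z) * y * z = 0 := fun y hy => h2 _ fun x hx => by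
    rw [mul_assoc (1 - z), h0 _ (mul_mem hy hx)]
  have a2 : ∀ y ∈ M.commutant, (1 - z) * y * z = 0 := fun y hy => h2 _ fun x hx => by
    rw [mul_assoc, mul_assoc, (commute_of_mem M hy (mul_mem hx hpM)).eq, ← mul_assoc, ← mul_assoc,
      h0 x hx, zero_mul]
  refine ⟨z, ⟨mem_of_commute M fun y hy => cm y (a2 y hy) (a2 _ (star_mem hy)),
    VonNeumannAlgebra.mem_commutant_iff.2 fun y hy => cm y (a1 y hy) (a1 _ (star_mem hy))⟩,
    hz, by simpa using h1 1 (one_mem M), h2⟩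

/-- A finite family of partial isometries carrying most of `e` under `f`. -/
theorem exists_fcover (M : VonNeumannAlgebra H) {e f : H →L[ℂ] H} (heM : e ∈ M)
    (he : IsStarProjection e) (hfM : f ∈ M) (hf : IsStarProjection f) (ζ : H) {γ γ' : ℝ}
    (hγ : γ < γ') (h : ∀ z, Zc M z → IsStarProjection z → z * f = 0 → ‖z (e ζ)‖ ≤ γ) :
    ∃ (n : ℕ) (v : Fin n → (H →L[ℂ] H)), (∀ i, v i ∈ M ∧ f * v i = v i ∧ v i * e = v i) ∧
      GCol 1 v ∧ ‖(e - ∑ i, star (v i) * v i) ζ‖ ≤ γ' := by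
  classical
  obtain ⟨z, hz, hzp, hzf, hzq⟩ := exists_zcover M hfM hf
  obtain ⟨G, g1, g2, g3⟩ := exists_maximal_family
    (fun v : H →L[ℂ] H => v ∈ M ∧ IsPI v ∧ f * v = v ∧ v * e = v) (fun v w => v * star w = 0)
    fun v w h => by simpa using congrArg star h
  have gp : Pairwise fun v w : G => v.1 * star w.1 = 0 := fun v w hvw =>
    g2 v.2 w.2 fun h => hvw (Subtype.ext h)
  have pp : ∀ v : G, IsStarProjection (star v.1 * v.1) := fun v => (g1 _ v.2).2.1.init
  have po : Pairwise fun v w : G => star v.1 * v.1 * (star w.1 * w.1) = 0 := fun v w hvw => by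
    show star v.1 * v.1 * (star w.1 * w.1) = 0
    rw [mul_assoc, ← mul_assoc v.1, gp hvw, zero_mul, mul_zero]
  obtain ⟨V, hV, hpi, s1, -, -, -, s5, -, s7, -⟩ := exists_sum M (fun v : G => star v.1 * v.1)
    (fun v => mul_mem (star_mem (g1 _ v.2).1) (g1 _ v.2).1) (fun v => isPI_of_proj (pp v))
    (fun v w hvw => by simp only [(pp v).isSelfAdjoint.star_eq]; exact po hvw)
    (fun v w hvw => by simp only [(pp w).isSelfAdjoint.star_eq]; exact po hvw)
  have hVV : star V * V = V := by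
    ext η
    refine (s5 η).unique ?_
    simpa only [(pp _).isSelfAdjoint.star_eq, (pp _).isIdempotentElem.eq] using s1 η
  have hVp : IsStarProjection V := hVV ▸ hpi.init
  have hze : IsStarProjection (z * e) := hzp.mul he (hz.comm heM)
  have hp1 : ∀ v : G, z * e * (star v.1 * v.1) = star v.1 * v.1 := fun v => by
    obtain ⟨m, -, a1, a2⟩ := g1 _ v.2
    have a3 : z * v.1 = v.1 := by rw [← a1, ← mul_assoc, hzf]
    rw [mul_assoc, ← mul_assoc e, star_right he a2, ← mul_assoc, hz.comm (star_mem m), mul_assoc,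
      a3]
  have hzV : z * e * V = V := sum_mul_left s1 hp1
  have hq : IsStarProjection (z * e - V) := hVp.sub_of_mul_eq_right hze hzV
  have hqM : z * e - V ∈ M := sub_mem (mul_mem hz.1 heM) hV
  have hq0 : z * e - V = 0 := by
    by_contra hne
    have a1 : z * V = V := by
      rw [← hzV, ← mul_assoc, ← mul_assoc, hzp.isIdempotentElem.eq]
    have a2 : (z * e - V) * z = z * e - V := by
      rw [← hz.comm hqM, mul_sub, ← mul_assoc, hzp.isIdempotentElem.eq, a1]
    obtain ⟨x, hx, hx0⟩ : ∃ x ∈ M, (z * e - V) * x * f ≠ 0 := by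
      by_contra hc
      push Not at hc
      exact hne (a2 ▸ hzq _ hc)
    obtain ⟨v, vM, vpi, v0, v1, v2⟩ := exists_pi_of_ne_zero M
      (star_mem (mul_mem (mul_mem hqM hx) hfM)) (star_ne_zero.2 hx0)
    have b1 : f * v = v := v1 _ (star_right hf (by rw [mul_assoc, hf.isIdempotentElem.eq]))
    have b2 : v * (z * e - V) = v := v2 _ hq
      (star_left hq (by rw [← mul_assoc, ← mul_assoc, hq.isIdempotentElem.eq]))
    have b3 : (z * e - V) * e = z * e - V := by
      have : V * e = V := by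
        rw [← proj_flip hze hVp hzV, mul_assoc, mul_assoc, he.isIdempotentElem.eq]
      rw [sub_mul, mul_assoc, he.isIdempotentElem.eq, this]
    have b4 : ∀ w ∈ G, v * star w = 0 := fun w hw => by
      have c1 : V * (star w * w) = star w * w := by
        have := s7 ⟨w, hw⟩
        rw [hVV] at this
        simpa [hVp.isSelfAdjoint.star_eq] using congrArg star this
      rw [← b2, ← (g1 w hw).2.1.init_mul, mul_assoc, ← mul_assoc _ (star w * w), sub_mul,
        hp1 ⟨w, hw⟩, c1, sub_self, zero_mul, mul_zero]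
    have hvG := g3 v ⟨vM, vpi, b1, by rw [← b2, mul_assoc, b3]⟩ b4
    exact v0 ((CStarRing.mul_star_self_eq_zero_iff v).1 (b4 v hvG))
  have hVe : V = z * e := (sub_eq_zero.1 hq0).symm
  have n1 : ‖e ζ - V ζ‖ ≤ γ := by
    have := h (1 - z) (Zc.one.sub hz) hzp.one_sub (by rw [sub_mul, one_mul, hzf, sub_self])
    rwa [hVe]
  obtain ⟨t, ht⟩ := (Metric.tendsto_atTop.1 (s1 ζ)) (γ' - γ) (by linarith)
  have ht' := ht t le_rfl
  rw [dist_eq_norm] at ht'
  refine ⟨t.card, fun i => (t.equivFin.symm i).1.1, fun i => ?_, fun θ => ?_, ?_⟩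
  · obtain ⟨m, -, a1, a2⟩ := g1 _ (t.equivFin.symm i).1.2
    exact ⟨m, a1, a2⟩
  · rw [one_pow, one_mul]
    exact bessel_pi _ (fun i => (g1 _ (t.equivFin.symm i).1.2).2.1)
      (fun i j hij => gp fun hh => hij (t.equivFin.symm.injective (Subtype.ext hh))) θ _
  · have e1 : (∑ i, star (t.equivFin.symm i).1.1 * (t.equivFin.symm i).1.1 : H →L[ℂ] H) ζ =
        ∑ v ∈ t, (star v.1 * v.1) ζ := by
      rw [sum_apply, Equiv.sum_comp t.equivFin.symm fun v : t => (star v.1.1 * v.1.1) ζ,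
        Finset.sum_coe_sort t fun v => (star v.1 * v.1) ζ]
    rw [sub_apply, e1]
    have := norm_sub_le_norm_sub_add_norm_sub (e ζ) (V ζ) (∑ v ∈ t, (star v.1 * v.1) ζ)
    rw [norm_sub_rev (V ζ)] at this
    linarith

/-- One bisection step. -/
theorem exists_halve (M : VonNeumannAlgebra H) {k e : H →L[ℂ] H} (hM : k ∈ M)
    (hsa : IsSelfAdjoint k) (heM : e ∈ M) (he : IsStarProjection e) {R : ℝ}
    (hR : ‖e * k * e‖ ≤ R) : ∃ f, Sub M f e ∧ ∃ c, Zc M c ∧ IsSelfAdjoint c ∧ ‖c‖ ≤ R / 2 ∧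
      ‖f * (k - c) * f‖ ≤ R / 2 := by
  have hR0 : 0 ≤ R := (norm_nonneg _).trans hR
  have hsa' : IsSelfAdjoint (e * k * e) := by
    rw [IsSelfAdjoint, star_mul, star_mul, he.isSelfAdjoint.star_eq, hsa.star_eq, mul_assoc]
  have hk'M : e * k * e ∈ M := mul_mem (mul_mem heM hM) heM
  obtain ⟨E, E1, E2, E3, E4⟩ := exists_cut (e * k * e) 0
  have hEM := join_comm M hk'M E2
  have hc : Commute e E :=
    E2 e (join_ehe he) (by rw [he.isSelfAdjoint.star_eq]; exact join_ehe he)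
  set a := cfc (fun s : ℝ => max (s - 0) 0) (e * k * e) with ha
  set b := cfc (fun s : ℝ => max (0 - s) 0) (e * k * e) with hb
  have hab : a - b = e * k * e := by
    rw [ha, hb, ← cfc_sub _ _ (e * k * e)]
    conv_rhs => rw [← cfc_id' ℝ (e * k * e)]
    refine cfc_congr fun s _ => ?_
    rcases le_total s 0 with hs | hs
    · simp [hs]
    · simp [hs]
  have hn : ‖a + b - ((R / 2 : ℝ) : ℂ) • (1 : H →L[ℂ] H)‖ ≤ R / 2 := by
    have e1 : a + b - ((R / 2 : ℝ) : ℂ) • (1 : H →L[ℂ] H) =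
        cfc (fun s : ℝ => max (s - 0) 0 + max (0 - s) 0 - R / 2) (e * k * e) := by
      rw [cfc_sub _ _ (e * k * e), cfc_add (e * k * e) _ _, cfc_const (R / 2) (e * k * e),
        Algebra.algebraMap_eq_smul_one, Complex.coe_smul]
    rw [e1]
    refine norm_cfc_le (by linarith) fun s hs => ?_
    have h2 : |s| ≤ R := by
      rcases subsingleton_or_nontrivial (H →L[ℂ] H) with h | h
      · simp [spectrum.of_subsingleton] at hs
      · exact (spectrum.norm_le_norm_of_mem hs).trans hR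
    rw [abs_le] at h2
    rw [Real.norm_eq_abs, abs_le]
    rcases le_total s 0 with h0 | h0
    · rw [max_eq_right (by linarith), max_eq_left (by linarith)]
      constructor <;> linarith
    · rw [max_eq_left (by linarith), max_eq_right (by linarith)]
      constructor <;> linarith
  have hg : IsStarProjection (e * E) := he.mul E1 hc
  have hgM : e * E ∈ M := mul_mem heM hEM
  obtain ⟨z, hz, hzp, hzg, hzq⟩ := exists_zcover M hgM hg
  have hz' : Zc M (1 - z) := Zc.one.sub hz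
  have hh : IsStarProjection ((1 - z) * e) := hzp.one_sub.mul he (hz'.comm heM)
  have z0 : (1 - z) * (e * E) = 0 := by rw [sub_mul, one_mul, hzg, sub_self]
  have eg : e * (e * E) = e * E := by rw [← mul_assoc, he.isIdempotentElem.eq]
  have hg0 : (1 - z) * e * (e * E) = 0 := by rw [mul_assoc, eg, z0]
  have gh0 : e * E * ((1 - z) * e) = 0 := by
    rw [← mul_assoc, ← hz'.comm hgM, z0, zero_mul]
  have eh : e * ((1 - z) * e) = (1 - z) * e := by
    rw [← mul_assoc, ← hz'.comm heM, mul_assoc, he.isIdempotentElem.eq]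
  have hf : IsStarProjection (e * E + (1 - z) * e) := hg.add hh gh0
  have ef : e * (e * E + (1 - z) * e) = e * E + (1 - z) * e := by rw [mul_add, eg, eh]
  have hs : Zc M (z + z - 1) := (hz.add hz).sub Zc.one
  have ssa : IsSelfAdjoint (z + z - 1) := (hzp.isSelfAdjoint.add hzp.isSelfAdjoint).sub (.one _)
  have ns : ‖z + z - 1‖ ≤ 1 := by
    have e1 : star (z + z - 1) * (z + z - 1) = 1 := by
      rw [ssa.star_eq]
      simp only [mul_sub, sub_mul, mul_add, add_mul, hzp.isIdempotentElem.eq, mul_one, one_mul]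
      abel
    have e2 := CStarRing.norm_star_mul_self (x := z + z - 1)
    rw [e1] at e2
    have e3 : ‖(1 : H →L[ℂ] H)‖ ≤ 1 := ContinuousLinearMap.norm_id_le
    nlinarith [norm_nonneg (z + z - 1)]
  refine ⟨_, ⟨add_mem hgM (mul_mem hz'.1 heM), hf, ef, fun w hw _ w0 => ?_⟩,
    ((R / 2 : ℝ) : ℂ) • (z + z - 1), hs.smul _, ?_, ?_, ?_⟩
  · have w1 : w * (e * E) = 0 := by
      have := congrArg (· * (e * E)) w0
      simpa only [mul_assoc w, add_mul, hg.isIdempotentElem.eq, hg0, add_zero, zero_mul] using this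
    have w2 : w * z = 0 := hzq w fun x hx => by rw [hw.comm hx, mul_assoc, w1, mul_zero]
    rwa [mul_add, w1, zero_add, ← mul_assoc, mul_sub, mul_one, w2, sub_zero] at w0
  · exact IsSelfAdjoint.smul (Complex.conj_ofReal _) ssa
  · rw [norm_smul, Complex.norm_real, Real.norm_of_nonneg (by linarith)]
    exact mul_le_of_le_one_right (by linarith) ns
  · have b1 : b * (e * E) = 0 := by rw [hc.eq, ← mul_assoc, E3, zero_mul]
    have b2 : a * ((1 - z) * e) = 0 := by
      have : (1 - z) * e = (1 - E) * ((1 - z) * e) := by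
        rw [sub_mul 1 E, one_mul, ← mul_assoc, ← hz'.comm hEM, mul_assoc, ← hc.eq, z0, sub_zero]
      rw [this, ← mul_assoc, E4, zero_mul]
    have s1 : (z + z - 1) * (e * E) = e * E := by
      rw [sub_mul, add_mul, hzg, one_mul, add_sub_cancel_right]
    have s2 : (z + z - 1) * ((1 - z) * e) = -((1 - z) * e) := by
      rw [sub_mul, add_mul, ← mul_assoc, mul_sub, mul_one, hzp.isIdempotentElem.eq, sub_self,
        zero_mul, one_mul, add_zero, zero_sub]
    generalize e * E = g at *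
    generalize (1 - z) * e = h at *
    have fe := proj_flip he hf ef
    have e1 : (g + h) * (k - ((R / 2 : ℝ) : ℂ) • (z + z - 1)) * (g + h) =
        (g + h) * ((a + b - ((R / 2 : ℝ) : ℂ) • (1 : H →L[ℂ] H)) * ((z + z - 1) * (g + h))) := by
      have e2 : (g + h) * k * (g + h) = (g + h) * ((a - b) * (g + h)) := by
        rw [hab, mul_assoc (e * k), ef, ← mul_assoc, ← mul_assoc, fe]
      have e3 : (a - b) * (g + h) = (a + b) * ((z + z - 1) * (g + h)) := by
        rw [mul_add (z + z - 1), s1, s2]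
        simp only [mul_add, add_mul, sub_mul, mul_neg, b1, b2]
        abel
      rw [mul_sub, sub_mul, e2, e3, sub_mul (a + b), mul_sub, smul_mul_assoc, one_mul,
        mul_assoc, smul_mul_assoc]
    rw [e1]
    refine (norm_mul_le _ _).trans ((mul_le_of_le_one_left (norm_nonneg _) hf.norm_le).trans ?_)
    refine (norm_mul_le _ _).trans ((mul_le_of_le_one_right (norm_nonneg _) ?_).trans hn)
    exact (norm_mul_le _ _).trans (mul_le_one₀ ns (norm_nonneg _) hf.norm_le)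

theorem exists_sa_corner (M : VonNeumannAlgebra H) {k e : H →L[ℂ] H} (hM : k ∈ M)
    (hsa : IsSelfAdjoint k) (heM : e ∈ M) (he : IsStarProjection e) {γ : ℝ} (hγ : 0 < γ) :
    ∃ f, Sub M f e ∧ ∃ c, Zc M c ∧ ‖c‖ ≤ ‖k‖ ∧ ‖f * (k - c) * f‖ ≤ γ := by
  have key : ∀ n : ℕ, ∃ f, Sub M f e ∧ ∃ c, Zc M c ∧ IsSelfAdjoint c ∧
      ‖c‖ ≤ ‖k‖ - ‖k‖ * (1 / 2) ^ n ∧ ‖f * (k - c) * f‖ ≤ ‖k‖ * (1 / 2) ^ n := by
    intro n
    induction n with
    | zero =>
      refine ⟨e, Sub.refl heM he, 0, Zc.zero, .zero _, by simp, ?_⟩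
      rw [sub_zero, pow_zero, mul_one]
      exact (norm_mul_le _ _).trans ((mul_le_of_le_one_right (norm_nonneg _) he.norm_le).trans
        ((norm_mul_le _ _).trans (mul_le_of_le_one_left (norm_nonneg _) he.norm_le)))
    | succ n ih =>
      obtain ⟨f, hf, c, hc, cs, c1, c2⟩ := ih
      obtain ⟨g, hg, c', hc', cs', d1, d2⟩ :=
        exists_halve M (sub_mem hM hc.1) (hsa.sub cs) hf.mem hf.proj c2
      refine ⟨g, hg.trans hf, c + c', hc.add hc', cs.add cs', ?_, ?_⟩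
      · refine (norm_add_le_of_le c1 d1).trans (le_of_eq ?_)
        ring
      · rw [← sub_sub]
        refine d2.trans (le_of_eq ?_)
        ring
  have ht : Tendsto (fun n : ℕ => ‖k‖ * (1 / 2 : ℝ) ^ n) atTop (𝓝 (‖k‖ * 0)) :=
    (tendsto_pow_atTop_nhds_zero_of_lt_one (by norm_num) (by norm_num)).const_mul _
  rw [mul_zero] at ht
  obtain ⟨n, hn⟩ := (ht.eventually (ge_mem_nhds hγ)).exists
  obtain ⟨f, hf, c, hc, -, c1, c2⟩ := key n
  exact ⟨f, hf, c, hc, c1.trans (sub_le_self _ (by positivity)), c2.trans hn⟩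

theorem Sub.shrink {f g T : H →L[ℂ] H} (h : Sub M g f) (hf : IsStarProjection f) :
    ‖g * T * g‖ ≤ ‖f * T * f‖ := by
  have e : g * T * g = g * (f * T * f) * g := by
    rw [← mul_assoc, ← mul_assoc, proj_flip hf h.proj h.le, mul_assoc _ f, h.le]
  rw [e]
  exact (norm_mul_le _ _).trans ((mul_le_of_le_one_right (norm_nonneg _) h.proj.norm_le).trans
    ((norm_mul_le _ _).trans (mul_le_of_le_one_left (norm_nonneg _) h.proj.norm_le)))

/-- A full corner on which finitely many operators are almost central. -/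
theorem exists_central_corner (M : VonNeumannAlgebra H) {ι : Type*} (t : Finset ι)
    {b : ι → (H →L[ℂ] H)} (hb : ∀ i ∈ t, b i ∈ M) {e : H →L[ℂ] H} (heM : e ∈ M)
    (he : IsStarProjection e) {γ : ℝ} (hγ : 0 < γ) :
    ∃ f, Sub M f e ∧ ∀ i ∈ t, ∃ c, Zc M c ∧ ‖c‖ ≤ 2 * ‖b i‖ ∧ ‖f * (b i - c) * f‖ ≤ γ := by
  classical
  induction t using Finset.induction_on with
  | empty => exact ⟨e, Sub.refl heM he, by simp⟩
  | insert a t ha ih =>
    obtain ⟨f, hf, hc⟩ := ih fun i hi => hb i (Finset.mem_insert_of_mem hi)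
    have hbM := hb a (Finset.mem_insert_self _ _)
    have m1 : (realPart (b a) : H →L[ℂ] H) ∈ M := by
      rw [realPart_apply_coe, ← Complex.coe_smul]
      exact vn_smul _ (add_mem hbM (star_mem hbM))
    have m2 : (imaginaryPart (b a) : H →L[ℂ] H) ∈ M := by
      rw [imaginaryPart_apply_coe, ← Complex.coe_smul]
      exact vn_smul _ (vn_smul _ (sub_mem hbM (star_mem hbM)))
    obtain ⟨f₁, s₁, c₁, z₁, n₁, k₁⟩ := exists_sa_corner M m1 (realPart (b a)).2 hf.mem hf.proj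
      (half_pos hγ)
    obtain ⟨f₂, s₂, c₂, z₂, n₂, k₂⟩ := exists_sa_corner M m2 (imaginaryPart (b a)).2 s₁.mem s₁.proj
      (half_pos hγ)
    refine ⟨f₂, (s₂.trans s₁).trans hf, fun i hi => ?_⟩
    rcases Finset.mem_insert.1 hi with rfl | hi
    · refine ⟨c₁ + Complex.I • c₂, z₁.add (z₂.smul _), ?_, ?_⟩
      · refine (norm_add_le _ _).trans ?_
        rw [norm_smul, Complex.norm_I, one_mul]
        have r1 : ‖(realPart (b i) : H →L[ℂ] H)‖ ≤ ‖b i‖ := realPart.norm_le (b i)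
        have r2 : ‖(imaginaryPart (b i) : H →L[ℂ] H)‖ ≤ ‖b i‖ := imaginaryPart.norm_le (b i)
        linarith
      · have e1 : f₂ * (b i - (c₁ + Complex.I • c₂)) * f₂ =
            f₂ * (realPart (b i) - c₁) * f₂ + Complex.I • (f₂ * (imaginaryPart (b i) - c₂) * f₂) := by
          conv_lhs => rw [← realPart_add_I_smul_imaginaryPart (b i)]
          simp only [mul_sub, sub_mul, mul_add, add_mul, mul_smul_comm, smul_mul_assoc, smul_sub]
          abel
        rw [e1]
        refine (norm_add_le _ _).trans ?_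
        rw [norm_smul, Complex.norm_I, one_mul]
        linarith [(s₂.shrink (T := (realPart (b i) : H →L[ℂ] H) - c₁) s₁.proj).trans k₁]
    · obtain ⟨c, z, n, hc⟩ := hc i hi
      exact ⟨c, z, n, ((s₂.trans s₁).shrink hf.proj).trans hc⟩

/-- A large corner on which a positive operator is small. -/
theorem exists_large_corner (M : VonNeumannAlgebra H) {k e : H →L[ℂ] H} (hM : k ∈ M)
    (hsa : IsSelfAdjoint k) (hpos : ∀ ζ, 0 ≤ (⟪ζ, k ζ⟫_ℂ).re) (heM : e ∈ M)
    (he : IsStarProjection e) (γ : ℝ) :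
    ∃ f ∈ M, IsStarProjection f ∧ e * f = f ∧
      (∀ ζ, f ζ = ζ → (⟪ζ, k ζ⟫_ℂ).re ≤ γ * ‖ζ‖ ^ 2) ∧
      ∀ η, e η = η → γ * ‖η - f η‖ ^ 2 ≤ (⟪η, k η⟫_ℂ).re := by
  have hsa' : IsSelfAdjoint (e * k * e) := by
    rw [IsSelfAdjoint, star_mul, star_mul, he.isSelfAdjoint.star_eq, hsa.star_eq, mul_assoc]
  obtain ⟨E, E1, E2, E3, E4⟩ := exists_cut (e * k * e) γ
  have hc : Commute e E :=
    E2 e (join_ehe he) (by rw [he.isSelfAdjoint.star_eq]; exact join_ehe he)
  have hc' : Commute e (1 - E) := (Commute.one_right e).sub_right hc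
  have hk : Commute (e * k * e) E := E2 _ (Commute.refl _) (by rw [hsa'.star_eq])
  set a := cfc (fun s : ℝ => max (s - γ) 0) (e * k * e) with ha
  set b := cfc (fun s : ℝ => max (γ - s) 0) (e * k * e) with hb
  have hab : a - b = e * k * e - algebraMap ℝ _ γ := by
    have : cfc (fun s : ℝ => s - γ) (e * k * e) = e * k * e - algebraMap ℝ _ γ := by
      rw [cfc_sub _ _ (e * k * e), cfc_id' ℝ (e * k * e), cfc_const γ (e * k * e)]
    rw [ha, hb, ← cfc_sub _ _ (e * k * e), ← this]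
    refine cfc_congr fun s _ => ?_
    rcases le_total s γ with hs | hs
    · simp [max_eq_right (sub_nonpos.2 hs), max_eq_left (sub_nonneg.2 hs)]
    · simp [max_eq_right (sub_nonpos.2 hs), max_eq_left (sub_nonneg.2 hs)]
  have pos : ∀ φ : ℝ → ℝ, ∀ ζ : H,
      0 ≤ (⟪ζ, cfc (fun s : ℝ => max (φ s) 0) (e * k * e) ζ⟫_ℂ).re := fun φ ζ =>
    ((ContinuousLinearMap.nonneg_iff_isPositive (cfc (fun s : ℝ => max (φ s) 0) (e * k * e))).1
      (cfc_nonneg fun s _ => le_max_right _ _)).re_inner_nonneg_right ζ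
  have e1 : ∀ ζ ζ', e ζ = ζ → e ζ' = ζ' → ⟪ζ, (e * k * e) ζ'⟫_ℂ = ⟪ζ, k ζ'⟫_ℂ := fun ζ ζ' h1 h2 => by
    rw [mul_apply_eq_comp, mul_apply_eq_comp, h2, ← inner_star_left, he.isSelfAdjoint.star_eq, h1]
  have key : ∀ ζ, e ζ = ζ → (⟪ζ, k ζ⟫_ℂ).re - γ * ‖ζ‖ ^ 2 = (⟪ζ, a ζ⟫_ℂ).re - (⟪ζ, b ζ⟫_ℂ).re := by
    intro ζ hζ
    rw [← Complex.sub_re, ← inner_sub_right, ← sub_apply, hab, sub_apply, inner_sub_right,
      e1 _ _ hζ hζ, Complex.sub_re, Algebra.algebraMap_eq_smul_one, smul_apply, one_apply_eq_self,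
      ← Complex.coe_smul, inner_smul_right, Complex.re_ofReal_mul,
      ← inner_self_eq_norm_sq (𝕜 := ℂ)]
    rfl
  refine ⟨e * (1 - E), mul_mem heM (sub_mem (one_mem M)
    (join_comm M (mul_mem (mul_mem heM hM) heM) E2)), he.mul E1.one_sub hc',
    by rw [← mul_assoc, he.isIdempotentElem.eq], fun ζ hζ => ?_, fun η hη => ?_⟩
  · have h1 : e ζ = ζ := by
      rw [← hζ, ← mul_apply_eq_comp, ← mul_assoc, he.isIdempotentElem.eq]
    have h2 : a ζ = 0 := by
      rw [← hζ, hc'.eq, ← mul_apply_eq_comp, ← mul_assoc, E4, zero_mul, zero_apply]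
    have := key ζ h1
    rw [h2, inner_zero_right, Complex.zero_re] at this
    linarith [pos (fun s => γ - s) ζ]
  · have h0 : η - (e * (1 - E)) η = E η := by
      rw [hc'.eq, mul_apply_eq_comp, hη, sub_apply, one_apply_eq_self, sub_sub_cancel]
    have h1 : e (E η) = E η := by rw [← mul_apply_eq_comp, hc.eq, mul_apply_eq_comp, hη]
    have h2 : b (E η) = 0 := by rw [← mul_apply_eq_comp, E3, zero_apply]
    have h3 := key _ h1
    rw [h2, inner_zero_right, Complex.zero_re] at h3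
    have h4 : e (η - E η) = η - E η := by rw [map_sub, hη, h1]
    have h5 : E (η - E η) = 0 := by
      rw [map_sub, ← mul_apply_eq_comp E E, E1.isIdempotentElem.eq, sub_self]
    have h6 : ⟪E η, k (η - E η)⟫_ℂ = 0 := by
      rw [← e1 _ _ h1 h4, ← E1.isSelfAdjoint.star_eq, inner_star_left, E1.isSelfAdjoint.star_eq,
        ← mul_apply_eq_comp, ← hk.eq, mul_apply_eq_comp, h5, map_zero, inner_zero_right]
    have h7 : ⟪η - E η, k (E η)⟫_ℂ = 0 := by
      rw [← inner_star_left, hsa.star_eq, ← inner_conj_symm, h6, map_zero]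
    have h8 : ⟪η, k η⟫_ℂ = ⟪E η, k (E η)⟫_ℂ + ⟪η - E η, k (η - E η)⟫_ℂ := by
      conv_lhs => rw [← add_sub_cancel (E η) η]
      rw [map_add, inner_add_left, inner_add_right, inner_add_right, h6, h7, add_zero, zero_add]
    rw [h0, h8, Complex.add_re]
    linarith [pos (fun s => s - γ) (E η), hpos (η - E η)]

/-- An operator whose vector is a limit of central vectors is central. -/
theorem zc_of_approx (h : Mod M J ξ F) {a : H →L[ℂ] H} (ha : a ∈ M)
    (hz : ∀ γ : ℝ, 0 < γ → ∃ z, Zc M z ∧ ‖a ξ - z ξ‖ ≤ γ) : Zc M a := by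
  have hJ := h.cj
  have hc := h.sep.cyc_comm
  have ext : ∀ u v : H, (∀ y ∈ M.commutant, ⟪y ξ, u⟫_ℂ = ⟪y ξ, v⟫_ℂ) → u = v := fun u v e =>
    ext_inner_left ℂ (hc.ext (f := fun η => ⟪η, u⟫_ℂ) (g := fun η => ⟪η, v⟫_ℂ) (by fun_prop)
      (by fun_prop) e)
  have st : ∀ x ∈ M, ∀ y ∈ M.commutant, ⟪y ξ, star x ξ⟫_ℂ = ⟪x ξ, star y ξ⟫_ℂ := fun x hx y hy => by
    rw [inner_star_right, inner_star_right, ← mul_apply_eq_comp, ← mul_apply_eq_comp,
      (commute_of_mem M hy hx).eq]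
  have e1 : star a ξ = J (a ξ) := ext _ _ fun y hy => by
    rw [st a ha y hy, ← hJ.inner (J (a ξ)) (y ξ), hJ.inv (a ξ)]
    refine ma_approx fun γ hγ => ?_
    obtain ⟨z, hz, hd⟩ := hz γ hγ
    refine ⟨z ξ, z ξ, hd, hd, ?_⟩
    rw [← st z hz.1 y hy, ← (central_V h hz.1 hz.2 0).2, ← hJ.inner (J (z ξ)) (y ξ), hJ.inv]
  have st2 : ∀ b ∈ M, ∀ y ∈ M.commutant, ∀ η, ⟪y ξ, b η⟫_ℂ = ⟪star b ξ, star y η⟫_ℂ :=
    fun b hb y hy η => by
      rw [inner_star_right, ← mul_apply_eq_comp, (commute_of_mem M hy (star_mem hb)).eq,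
        mul_apply_eq_comp, inner_star_left]
  refine ⟨ha, VonNeumannAlgebra.mem_commutant_iff.2 fun x hx =>
    h.sep.ext (mul_mem hx ha) (mul_mem ha hx) (ext _ _ fun y hy => ?_)⟩
  rw [mul_apply_eq_comp, mul_apply_eq_comp, st2 a ha y hy, e1, ← inner_star_left, ← hJ.inner]
  refine ma_approx fun γ hγ => ?_
  obtain ⟨z, hz, hd⟩ := hz γ hγ
  have hd' : ‖J (a ξ) - J (z ξ)‖ ≤ γ := by rwa [← map_sub, hJ.norm]
  refine ⟨J (z ξ), J (z ξ), hd', hd', ?_⟩
  rw [hJ.inner, inner_star_left, (central_V h hz.1 hz.2 0).2, ← st2 z hz.1 y hy,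
    hz.comm_apply hx]

end Vale.Agent.P096
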