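import Vale.Agent.P096.TCen
import Vale.Agent.P132.Final
import Vale.Agent.P132.Good

/-! Tail sequences, compensation, exhaustion in a corner. -/

open scoped InnerProductSpace Topology
open Filter

namespace Vale.Agent.P096

open Vale.Agent.P104 Vale.Agent.P132

variable {H : Type*} [NormedAddCommGroup H] [InnerProductSpace ℂ H] [CompleteSpace H]
  {M : VonNeumannAlgebra H} {J : H →L⋆[ℂ] H} {ξ : H} {F : FC H}

theorem eig_of_pair (h : Mod M J ξ F) {x y : H →L[ℂ] H} (hx : x ∈ M) (hy : y ∈ M.commutant)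
    {c : ℝ} (hc : 0 < c) (e : x ξ = y ξ) (e' : star x ξ = ((c ^ 2 : ℝ) : ℂ) • star y ξ) :
    df J c x ξ ξ = 0 := by
  obtain ⟨ρ, h1, h2⟩ := h.pre.exists_rho hx
  obtain ⟨ρ', h3, h4⟩ := rho_comm h hy
  have e1 : F.f fa ρ = F.f fb ρ' := by rw [← h1, ← h3, e]
  have e2 : F.f fb ρ = ((c : ℂ) * c) • F.f fa ρ' := by
    rw [← h2, ← h4, e', map_smulₛₗ, Complex.conj_ofReal, sq, Complex.ofReal_mul]
  refine F.inj (bc_fb.add (bc_fa.const_mul c)) (fun s => ?_) ?_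
  · rw [fb_eq, ← add_mul, ← Complex.ofReal_add]
    exact mul_ne_zero (Complex.ofReal_ne_zero.2 (by positivity)) (fa_ne_zero s)
  · have e3 : F.f fb (F.f fb ρ) = ((c : ℂ) * c) • F.f fa (F.f fa ρ) := by
      rw [e1, F.fa_fb_comm₃, ← map_smul, ← e2]
    rw [F.f_add bc_fb (bc_fa.const_mul c), F.f_const_mul _ bc_fa, df, h.rt_xi, h1, h2, add_apply,
      smul_apply, map_sub, map_sub, map_smul, map_smul, e3, F.fa_fb_comm₃, smul_sub, smul_smul]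
    abel

theorem Tail.tailJ (hT : Tail M ξ) (h : Mod M J ξ F) : TailJ M J ξ := by
  intro c hc
  obtain ⟨Y, Y', hY, hY', e, e', t, t', n1, n2⟩ := hT c hc
  have cm : ∀ y ∈ M.commutant, ∀ b ∈ M, b (y ξ) = y (b ξ) := fun y hy b hb =>
    congrArg (fun T : H →L[ℂ] H => T ξ) (commute_of_mem M hy hb).eq.symm
  refine ⟨Y, hY.1, fun n => eig_of_pair h (hY.1 n) (hY' n) hc (e n) (e' n), fun b hb η => ?_,
    fun b hb η => ?_, n1, fun η => ?_⟩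
  · refine tendsto_zero_iff_norm_tendsto_zero.1 (h.sep.tendsto_zero
      ((hY.mul (Bd.const hb)).sub ((Bd.const hb).mul hY)) ((t (b ξ)).congr fun n => ?_) η)
    rw [sub_apply, mul_apply_eq_comp, mul_apply_eq_comp, e, cm _ (hY' n) b hb]
  · simp only [h.cj.norm_rt_apply]
    refine tendsto_zero_iff_norm_tendsto_zero.1 (h.sep.tendsto_zero
      ((hY.mul (Bd.const hb)).sub ((Bd.const hb).mul hY)).star ?_ (J η))
    have := (t' (star b ξ)).neg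
    rw [neg_zero] at this
    refine this.congr fun n => ?_
    rw [star_sub, star_mul, star_mul, sub_apply, mul_apply_eq_comp, mul_apply_eq_comp, e',
      map_smul, cm _ (star_mem (hY' n)) _ (star_mem hb), neg_sub]
  · simp only [h.cj.norm_rt_apply]
    rw [← h.cj.norm η]
    exact n2 (J η)

theorem TailJ.comp (hY : TailJ M J ξ) (hB : Bi M J) {f₁ f₂ : H →L[ℂ] H} (m₁ : f₁ ∈ M)
    (p₁ : IsStarProjection f₁) {x b : H →L[ℂ] H} (hx : x ∈ M) (h₂ : f₂ * x = x)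
    (h₁ : x * f₁ = x) (hb : b ∈ M) {ρ : H} (hρ : f₁ ρ = ρ) (z₂ : H) {e δ c κ : ℝ} (he : 0 < e)
    (hδ : 0 ≤ δ) (hc : 0 ≤ c) (hκ : 0 ≤ κ) (hk : κ * δ ^ 2 ≤ c ^ 2 / 2)
    (hd : ‖df J e x (cmp J f₁ ξ) z₂‖ ≤ δ * e * ‖x (cmp J f₁ ξ)‖)
    (hR : c * ‖x (cmp J f₁ ξ)‖ < ‖x ρ - b (x (cmp J f₁ ξ))‖) :
    ∃ z ∈ M, f₂ * z = z ∧ z * f₁ = z ∧
      c ^ 2 / 2 * ‖z (cmp J f₁ ξ)‖ ^ 2 + κ * ‖df J 1 z (cmp J f₁ ξ) z₂‖ ^ 2 <
        ‖z ρ - b (z (cmp J f₁ ξ))‖ ^ 2 := by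
  obtain ⟨z₁, hz₁⟩ : ∃ z₁, z₁ = cmp J f₁ ξ := ⟨_, rfl⟩
  have hee : e * e⁻¹ = 1 := mul_inv_cancel₀ he.ne'
  rw [← hz₁] at hd hR ⊢
  have hR2 : c ^ 2 * ‖x z₁‖ ^ 2 < ‖x ρ - b (x z₁)‖ ^ 2 := by
    rw [← mul_pow]
    exact pow_lt_pow_left₀ hR (by positivity) two_ne_zero
  obtain ⟨τ, u, hτ, hu, hq⟩ := cmp_choose (n := ‖x‖) hR2 hk hκ
  obtain ⟨Y, hYM, h0, t1, t2, t3, t4⟩ := hY e⁻¹ (inv_pos.2 he)
  have cl : ∀ b ∈ M, ∀ η, Tendsto (fun n => ‖(Y n * b - b * Y n) η‖ ^ 2) atTop (𝓝 0) :=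
    fun b hb η => by simpa only [zero_pow two_ne_zero] using (t1 b hb η).pow 2
  have cr : ∀ b ∈ M, ∀ η, Tendsto (fun n => ‖rt J (Y n * b - b * Y n) η‖ ^ 2) atTop (𝓝 0) :=
    fun b hb η => by simpa only [zero_pow two_ne_zero] using (t2 b hb η).pow 2
  have nl : ∀ η, Tendsto (fun n => ‖Y n η‖ ^ 2) atTop (𝓝 (1 ^ 2 * ‖η‖ ^ 2)) :=
    fun η => by simpa only [one_pow, one_mul] using (t3 η).pow 2
  have hlim : (e⁻¹ * ‖df J e x z₁ z₂‖) ^ 2 ≤ ((1 + u) * δ * ‖x z₁‖) ^ 2 := by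
    refine pow_le_pow_left₀ (by positivity) ?_ 2
    calc e⁻¹ * ‖df J e x z₁ z₂‖ ≤ e⁻¹ * (δ * e * ‖x z₁‖) :=
          mul_le_mul_of_nonneg_left hd (by positivity)
      _ = 1 * δ * ‖x z₁‖ := by field_simp
      _ ≤ (1 + u) * δ * ‖x z₁‖ := by gcongr; linarith
  have hML := ((nl (x ρ - b (x z₁))).sub ((((cl x hx ρ).add
    (cl _ (mul_mem hb hx) z₁)).const_mul 2).const_mul (1 + τ⁻¹))).sub
    (((((((nl (x z₁)).const_mul (1 + τ)).add
      ((cl x hx z₁).const_mul (1 + τ⁻¹))).const_mul (c ^ 2 / 2)).add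
        (((((t4 (df J e x z₁ z₂)).pow 2).const_mul (1 + τ)).add
        ((((((cl _ m₁ (rt J f₁ ξ)).const_mul (‖x‖ ^ 2)).add
          (tendsto_const_nhds (x := (‖x‖ * u) ^ 2))).add
          ((cr _ m₁ ξ).const_mul ((e * ‖x‖) ^ 2))).const_mul 3).const_mul
            (1 + τ⁻¹))).const_mul κ))).const_mul (1 + τ))
  rw [mul_zero ((e * ‖x‖) ^ 2)] at hML
  obtain ⟨n, hn⟩ := (hML.eventually (lt_mem_nhds (hq _ hlim))).exists
  refine ⟨x * Y n * f₁, mul_mem (mul_mem hx (hYM n)) m₁, by rw [← mul_assoc, ← mul_assoc, h₂],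
    by rw [mul_assoc, p₁.isIdempotentElem.eq], ?_⟩
  exact cmp_point hB m₁ p₁ hx h₁ (hYM n) hee he z₂ hρ hτ hκ
    (by rw [h0, norm_zero]; positivity) hz₁ hn

/-- Exhaustion inside the corner `e₂ M e₁`. -/
theorem exhaust_corner (hB : Bi M J) (h₁ : J ξ = ξ) (hs : Sep M ξ) (e₁ e₂ : H →L[ℂ] H) (ρ : H)
    (c₁ : ℝ) {c₂ : ℝ} (hc : 0 ≤ c₂) (Stop : (H →L[ℂ] H) → Prop)
    (loc : ∀ u ∈ M, IsPI u → e₂ * u = u → u * e₁ = u →
      c₁ * ‖u ξ‖ ^ 2 + c₂ * Psi J u ξ ξ ≤ ‖u ρ - rt J u ρ‖ ^ 2 → ¬ Stop u →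
      ∃ v ∈ M, IsPI v ∧ v ≠ 0 ∧ e₂ * v = v ∧ v * e₁ = v ∧ star u * v = 0 ∧ v * star u = 0 ∧
        c₁ * ‖v ξ‖ ^ 2 +
          c₂ * (5 * ‖df J 1 v (cmp J (1 - star u * u) ξ) (cmp J (1 - u * star u) ξ)‖ ^ 2 -
            ‖(star u * u) (rt J (star v * v) ξ)‖ ^ 2 -
            ‖(u * star u) (rt J (v * star v) ξ)‖ ^ 2) ≤ ‖v ρ - rt J v ρ‖ ^ 2) :
    ∃ u ∈ M, IsPI u ∧ c₁ * ‖u ξ‖ ^ 2 + c₂ * Psi J u ξ ξ ≤ ‖u ρ - rt J u ρ‖ ^ 2 ∧ Stop u := by
  have z : IsPI (0 : H →L[ℂ] H) := by simp [IsPI]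
  obtain ⟨⟨u, mu, hu, hi, u2, u1⟩, hmax⟩ := ZornAux.greedy
    (α := {u : H →L[ℂ] H // u ∈ M ∧ IsPI u ∧
      c₁ * ‖u ξ‖ ^ 2 + c₂ * Psi J u ξ ξ ≤ ‖u ρ - rt J u ρ‖ ^ 2 ∧ e₂ * u = u ∧ u * e₁ = u})
    (fun a b => ZornAux.Ext a.1 b.1) (fun a => ⟨rfl, rfl⟩) (fun a b c h k => h.trans a.2.2.1 k)
    (fun a => ‖a.1 ξ‖ ^ 2) (fun a b h => by
      have := ZornAux.norm_add_sq' (u := a.1) (v := b.1 - a.1) (by rw [mul_sub, h.1, sub_self]) ξ
      rw [add_sub_cancel] at this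
      rw [this]
      exact le_add_of_nonneg_right (sq_nonneg _))
    (C := ‖ξ‖ ^ 2) (fun a => pow_le_pow_left₀ (norm_nonneg _) (a.2.2.1.norm_apply_le _) 2)
    ⟨0, zero_mem _, z, by simp [Psi, df, rt_zero], mul_zero _, zero_mul _⟩ (fun x h0 hx => by
      obtain ⟨V, mV, pV, e, l1, l2⟩ := ZornAux.exists_lim (t := fun n => (x n).1)
        (fun n => (x n).2.1) (fun n => (x n).2.2.1) (by rw [h0]) hx
      refine ⟨⟨V, mV, pV, ?_, ?_, ?_⟩, e⟩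
      · exact le_of_tendsto_of_tendsto' ((((l1 ξ).norm.pow 2).const_mul c₁).add
          ((ZornAux.tendsto_psi hB.cj (fun n => (x n).2.2.1) l1 l2 ξ ξ).const_mul c₂))
          (((l1 ρ).sub (hB.cj.tendsto_rt l2 ρ)).norm.pow 2) fun n => (x n).2.2.2.1
      · ext η
        exact tendsto_nhds_unique ((e₂.continuous.tendsto _).comp (l1 η)) ((l1 η).congr fun n =>
          (congrArg (fun T : H →L[ℂ] H => T η) (x n).2.2.2.2.1).symm)
      · ext η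
        exact tendsto_nhds_unique (l1 (e₁ η)) ((l1 η).congr fun n =>
          (congrArg (fun T : H →L[ℂ] H => T η) (x n).2.2.2.2.2).symm))
  refine ⟨u, mu, hu, hi, by_contra fun hS => ?_⟩
  obtain ⟨v, mv, hv, v0, v2, v1, uv, vu, hl⟩ := loc u mu hu u2 u1 hi hS
  have key : ∀ w ∈ M, IsPI w → e₂ * w = w → w * e₁ = w → star u * w = 0 → w * star u = 0 →
      ‖w ξ‖ = ‖v ξ‖ →
      Psi J (u + w) ξ ξ ≤ Psi J u ξ ξ +
        (5 * ‖df J 1 v (cmp J (1 - star u * u) ξ) (cmp J (1 - u * star u) ξ)‖ ^ 2 -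
            ‖(star u * u) (rt J (star v * v) ξ)‖ ^ 2 -
            ‖(u * star u) (rt J (v * star v) ξ)‖ ^ 2) →
      ‖(u + w) ρ - rt J (u + w) ρ‖ ^ 2 < ‖u ρ - rt J u ρ‖ ^ 2 + ‖v ρ - rt J v ρ‖ ^ 2 := by
    intro w mw hw w2 w1 uw wu e hP
    by_contra hlt
    have a1 := ZornAux.norm_add_sq' uw ξ
    have a2 := hmax ⟨u + w, add_mem mu mw, (ZornAux.pi_add hu hw uw wu).1, by
      rw [a1, e]
      nlinarith [mul_le_mul_of_nonneg_left hP hc], by rw [mul_add, u2, w2],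
      by rw [add_mul, u1, w1]⟩ (ZornAux.pi_add hu hw uw wu).2
    simp only [a1, e] at a2
    exact v0 (hs v mv (norm_eq_zero.1 (pow_eq_zero_iff two_ne_zero |>.1
      (le_antisymm (by linarith) (sq_nonneg _)))))
  have hv' : IsPI (-v) := by simpa [IsPI] using hv
  have k1 := key v mv hv v2 v1 uv vu rfl (ZornAux.psi_add hB h₁ h₁ mu mv hu hv uv vu)
  have k2 := key (-v) (neg_mem mv) hv' (by rw [mul_neg, v2]) (by rw [neg_mul, v1])
    (by rw [mul_neg, uv, neg_zero]) (by rw [neg_mul, vu, neg_zero]) (by simp) (by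
      have := ZornAux.psi_add hB h₁ h₁ mu (neg_mem mv) hu hv' (by rw [mul_neg, uv, neg_zero])
        (by rw [neg_mul, vu, neg_zero])
      have e : ∀ X Y, ‖df J 1 (-v) X Y‖ = ‖df J 1 v X Y‖ := fun X Y => by
        rw [← norm_neg, df, df, rt_neg]
        congr 1
        simp [neg_add_eq_sub]
      simpa [e] using this)
  have e1 : (u + v) ρ - rt J (u + v) ρ = (u ρ - rt J u ρ) + (v ρ - rt J v ρ) := by
    rw [rt_add, add_apply, add_apply]; abel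
  have e2 : (u + -v) ρ - rt J (u + -v) ρ = (u ρ - rt J u ρ) - (v ρ - rt J v ρ) := by
    rw [rt_add, rt_neg, add_apply, add_apply, neg_apply, neg_apply]; abel
  rw [e1] at k1
  rw [e2] at k2
  have := parallelogram_law_with_norm ℂ (u ρ - rt J u ρ) (v ρ - rt J v ρ)
  nlinarith

/-- The pinched vector has modular data for the same conjugation. -/
theorem exists_pinch (h : Mod M J ξ F) {r : H →L[ℂ] H} (hM : r ∈ M) (hr : IsStarProjection r) :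
    ∃ F', Mod M J (cmp J (1 - r) ξ + cmp J r ξ) F' := by
  have hJ := h.cj
  have hB := h.bi
  have hM' : 1 - r ∈ M := sub_mem (one_mem _) hM
  have hr' := hr.one_sub
  have fx : ∀ p ∈ M, IsStarProjection p → J (cmp J p ξ) = cmp J p ξ := fun p hp hp' => by
    rw [P132.cmp, hJ.J_apply, hJ.J_rt, hp'.isSelfAdjoint.star_eq, h.fix, hB.comm_apply hp hp]
  have sp : ∀ p ∈ M, IsStarProjection p → ∀ q ∈ M, q * p = 0 → ∀ x ∈ M,
      x (cmp J p ξ + cmp J q ξ) = 0 → x * p = 0 := fun p hp hp' q hq qp x hx h0 => by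
    have h1 := congrArg (rt J p) h0
    rw [← hB.comm_apply hx hp, map_add, P132.cmp, P132.cmp, ← hB.comm_apply hp hp, ← hB.comm_apply hq hp,
      ← hJ.rt_mul_apply, ← hJ.rt_mul_apply, hp'.isIdempotentElem.eq, qp, rt_zero, map_zero,
      zero_apply, map_zero, add_zero] at h1
    refine (h.isSupp_one.cmp hB hp hp').eq_zero hB (mul_mem hx hp)
      (by rw [mul_assoc, hp'.isIdempotentElem.eq]) ?_
    rw [P132.cmp, ← mul_apply_eq_comp, mul_assoc, hp'.isIdempotentElem.eq]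
    exact h1
  have ps : ∀ p ∈ M, IsStarProjection p → ∀ q ∈ M, IsStarProjection q → ∀ w ∈ M,
      0 ≤ (⟪cmp J p ξ, w (rt J (star w) (cmp J q ξ))⟫_ℂ).re := fun p hp hp' q hq hq' w hw => by
    have := h.good (mul_mem (mul_mem hp hw) hq)
    rw [star_mul, star_mul, hp'.isSelfAdjoint.star_eq, hq'.isSelfAdjoint.star_eq,
      hJ.rt_mul_apply, hJ.rt_mul_apply, hB.comm_apply (mul_mem (mul_mem hp hw) hq) hp,
      hJ.inner_rt_right, hp'.isSelfAdjoint.star_eq, mul_apply_eq_comp, mul_apply_eq_comp,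
      ← inner_star_left, hp'.isSelfAdjoint.star_eq, hB.comm_apply hq (star_mem hw)] at this
    exact this
  refine hB.mod_of_good (by rw [map_add, fx _ hM' hr', fx _ hM hr]) (fun x hx h0 => ?_)
    fun w hw => ?_
  · have h1 := sp _ hM' hr' _ hM hr.isIdempotentElem.mul_one_sub_self x hx h0
    have h2 := sp _ hM hr _ hM' hr.isIdempotentElem.one_sub_mul_self x hx (by rwa [add_comm])
    rwa [mul_sub, h2, mul_one, sub_zero] at h1
  · simp only [map_add, inner_add_left, inner_add_right, Complex.add_re]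
    have h1 := ps _ hM' hr' _ hM' hr' w hw
    have h2 := ps _ hM' hr' _ hM hr w hw
    have h3 := ps _ hM hr _ hM' hr' w hw
    have h4 := ps _ hM hr _ hM hr w hw
    linarith

end Vale.Agent.P096
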