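import Vale.Agent.P096.Basic
import Vale.Agent.P132.Std

/-! Notions for the tensor step: centre, tail sequences, legs. -/

open scoped InnerProductSpace Topology
open Filter

namespace Vale.Agent.P096

open Vale.Agent.P104 Vale.Agent.P132

section One

variable {H : Type*} [NormedAddCommGroup H] [InnerProductSpace ℂ H] [CompleteSpace H]

/-- Central elements. -/
def Zc (M : VonNeumannAlgebra H) (z : H →L[ℂ] H) : Prop := z ∈ M ∧ z ∈ M.commutant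

/-- `f` is a projection of `M` under `e` with the same central support. -/
structure Sub (M : VonNeumannAlgebra H) (f e : H →L[ℂ] H) : Prop where
  mem : f ∈ M
  proj : IsStarProjection f
  le : e * f = f
  full : ∀ z, Zc M z → IsStarProjection z → z * f = 0 → z * e = 0

/-- Tail sequences of eigenoperators, described with partners in the commutant. -/
def Tail (M : VonNeumannAlgebra H) (ξ : H) : Prop :=
  ∀ c : ℝ, 0 < c → ∃ Y Y' : ℕ → (H →L[ℂ] H), Bd M Y ∧ (∀ n, Y' n ∈ M.commutant) ∧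
    (∀ n, Y n ξ = Y' n ξ) ∧ (∀ n, star (Y n) ξ = ((c ^ 2 : ℝ) : ℂ) • star (Y' n) ξ) ∧
    (∀ η, Tendsto (fun n => Y n η - Y' n η) atTop (𝓝 0)) ∧
    (∀ η, Tendsto (fun n => star (Y n) η - ((c ^ 2 : ℝ) : ℂ) • star (Y' n) η) atTop (𝓝 0)) ∧
    (∀ η, Tendsto (fun n => ‖Y n η‖) atTop (𝓝 ‖η‖)) ∧
    ∀ η, Tendsto (fun n => ‖star (Y n) η‖) atTop (𝓝 (c * ‖η‖))

/-- Tail sequences of eigenoperators in standard form. -/
def TailJ (M : VonNeumannAlgebra H) (J : H →L⋆[ℂ] H) (ξ : H) : Prop :=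
  ∀ c : ℝ, 0 < c → ∃ Y : ℕ → (H →L[ℂ] H), (∀ n, Y n ∈ M) ∧ (∀ n, df J c (Y n) ξ ξ = 0) ∧
    (∀ b ∈ M, ∀ η, Tendsto (fun n => ‖(Y n * b - b * Y n) η‖) atTop (𝓝 0)) ∧
    (∀ b ∈ M, ∀ η, Tendsto (fun n => ‖rt J (Y n * b - b * Y n) η‖) atTop (𝓝 0)) ∧
    (∀ η, Tendsto (fun n => ‖Y n η‖) atTop (𝓝 ‖η‖)) ∧
    ∀ η, Tendsto (fun n => ‖rt J (Y n) η‖) atTop (𝓝 (c * ‖η‖))

/-- A family of star commuting generators of two by two matrix algebras. -/
structure Car {I : Type*} (A : I → (H →L[ℂ] H)) : Prop where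
  sq : ∀ i, A i * A i = 0
  sum : ∀ i, star (A i) * A i + A i * star (A i) = 1
  comm : ∀ i j, i ≠ j → Commute (A i) (A j)
  comm' : ∀ i j, i ≠ j → Commute (star (A i)) (A j)

end One

section Two

variable {K L : Type*} [NormedAddCommGroup K] [InnerProductSpace ℂ K] [CompleteSpace K]
  [NormedAddCommGroup L] [InnerProductSpace ℂ L] [CompleteSpace L]

/-- The family `A` generates the whole space from the range of `V`. -/
def Gen (V : K →L[ℂ] L) {I : Type*} (A : I → (L →L[ℂ] L)) : Prop :=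
  ∀ W : Submodule ℂ L, IsClosed (W : Set L) → (∀ η, V η ∈ W) →
    (∀ i, ∀ ζ ∈ W, A i ζ ∈ W ∧ star (A i) ζ ∈ W) → ∀ ζ, ζ ∈ W

/-- Four by four matrices acting on one coordinate of the basis index. -/
structure Leg (A : Amp (ℝ × ℕ →₀ Fin 4) K L) where
  leg : ℝ × ℕ → (Matrix (Fin 4) (Fin 4) ℂ →⋆ₐ[ℂ] (L →L[ℂ] L))
  act : ∀ σ m f η, leg σ m (A.J f η) = ∑ k, m k (f σ) • A.J (f.update σ k) η

/-- Tensor product of `K` with an infinite tensor product of two by two matrix algebras in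
standard form. -/
structure Legs (K L : Type*) [NormedAddCommGroup K] [InnerProductSpace ℂ K] [CompleteSpace K]
    [NormedAddCommGroup L] [InnerProductSpace ℂ L] [CompleteSpace L] where
  V : K →L[ℂ] L
  d : (K →L[ℂ] K) →⋆ₐ[ℂ] (L →L[ℂ] L)
  A : ℝ × ℕ → (L →L[ℂ] L)
  B : ℝ × ℕ → (L →L[ℂ] L)
  iso : ∀ η ζ, ⟪V η, V ζ⟫_ℂ = ⟪η, ζ⟫_ℂ
  dV : ∀ x η, d x (V η) = V (x η)
  dA : ∀ x σ, Commute (d x) (A σ)
  dB : ∀ x σ, Commute (d x) (B σ)
  AB : ∀ σ τ, Commute (A σ) (B τ)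
  AB' : ∀ σ τ, Commute (star (A σ)) (B τ)
  carA : Car A
  carB : Car B
  genA : Gen V A
  genB : Gen V B
  vac : ∀ s n η, ((Real.exp (s / 2) : ℝ) : ℂ) • A (s, n) (V η) = star (B (s, n)) (V η)
  vac' : ∀ s n η, star (A (s, n)) (V η) = ((Real.exp (s / 2) : ℝ) : ℂ) • B (s, n) (V η)
  tail : ∀ s ζ, Tendsto (fun n => ((Real.exp (s / 2) : ℝ) : ℂ) • A (s, n) ζ - star (B (s, n)) ζ)
    atTop (𝓝 0)
  tail' : ∀ s ζ, Tendsto (fun n => star (A (s, n)) ζ - ((Real.exp (s / 2) : ℝ) : ℂ) • B (s, n) ζ)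
    atTop (𝓝 0)
  nrm : ∀ s ζ, Tendsto (fun n => (1 + Real.exp s) * ‖A (s, n) ζ‖ ^ 2) atTop (𝓝 (‖ζ‖ ^ 2))

/-- The tensor product algebra. -/
noncomputable def Legs.ten (G : Legs K L) (N : VonNeumannAlgebra K) : VonNeumannAlgebra L :=
  vnc (G.d '' (N.commutant : Set (K →L[ℂ] K)) ∪ Set.range G.B)

end Two

end Vale.Agent.P096
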