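import Vale.Agent.P096.TStep

/-! The bicentralizer is central. -/

open scoped InnerProductSpace Topology
open Filter

namespace Vale.Agent.P096

open Vale.Agent.P104 Vale.Agent.P132

variable {H : Type*} [NormedAddCommGroup H] [InnerProductSpace ℂ H] [CompleteSpace H]
  {M : VonNeumannAlgebra H} {J : H →L⋆[ℂ] H} {ξ : H} {F : FC H}

theorem bic_comm (h : Mod M J ξ F) {a x : H →L[ℂ] H} (ha : a ∈ Bic M J ξ) (hx : x ∈ M)
    (hc : rt J x ξ = x ξ) : a * x = x * a := by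
  have hE : Eig M J ξ 0 fun _ => x := by
    refine ⟨Bd.const hx, ?_⟩
    simp [df, hc]
  have := tendsto_nhds_unique tendsto_const_nhds (ha.2 _ hE)
  exact sub_eq_zero.1 (h.sep _ (sub_mem (mul_mem ha.1 hx) (mul_mem hx ha.1)) this)

theorem tfin_final (h : Mod M J ξ F) (hY : TailJ M J ξ) {e : Fin 2 → Fin 2 → (H →L[ℂ] H)}
    (he : MU2 M J ξ e) {a : H →L[ℂ] H} (ha : a ∈ Bic M J ξ) (han : An M J ξ a) {d : ℝ}
    (hd : 0 < d) : ∃ c, Zc M c ∧ ‖e 0 0 (a ξ - c ξ)‖ < d := by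
  by_contra hne
  push Not at hne
  obtain ⟨a', ha', ea⟩ := han
  have hB := h.bi
  have hJ := hB.cj
  have haM := Bic.mem ha
  have hc : ∀ i j, a * e i j = e i j * a := fun i j => bic_comm h ha (he.mem i j) (he.cen i j)
  have pe : ∀ i, IsStarProjection (e i i) := fun i =>
    ⟨by rw [IsIdempotentElem, he.mu.mul, if_pos rfl], he.mu.star i i⟩
  have hda : d ≤ ‖a‖ * ‖ξ‖ := by
    have := hne 0 Zc.zero
    rw [zero_apply, sub_zero] at this
    exact this.trans ((proj_norm_apply_le (pe 0) _).trans (a.le_opNorm ξ))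
  have hξ : 0 < ‖ξ‖ := by
    by_contra h0
    have : ‖ξ‖ = 0 := le_antisymm (not_lt.1 h0) (norm_nonneg _)
    rw [this, mul_zero] at hda
    linarith
  have ha0 : 0 < ‖a‖ := (mul_pos_iff_of_pos_right hξ).1 (hd.trans_le hda)
  obtain ⟨θ, hθ, θ2⟩ : ∃ θ : ℝ, 0 < θ ∧ (‖a'‖ + ‖a‖) * θ ≤ d / 1600 :=
    ⟨d / (1600 * (‖a'‖ + ‖a‖)), by positivity, le_of_eq (by field_simp)⟩
  set g := d / ‖ξ‖ / 48 with hg
  have hg0 : 0 < g := by positivity
  have hga : g ≤ ‖a‖ := by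
    have : d / ‖ξ‖ ≤ ‖a‖ := (div_le_iff₀ hξ).2 hda
    rw [hg]
    linarith
  obtain ⟨δ, hδ, mo⟩ := Bic.modulus ha (γ := g * θ / 4) (by positivity)
  obtain ⟨μ, hμ, μ1, μ2, μ3, μ4⟩ : ∃ μ : ℝ, 0 < μ ∧ μ ≤ δ ∧ μ ≤ 1 / 2 ∧ ‖a‖ * μ ≤ g * θ / 4 ∧
      μ ≤ θ := by
    refine ⟨min (min (min δ (1 / 2)) (g * θ / 4 / ‖a‖)) θ, by positivity,
      (min_le_left _ _).trans ((min_le_left _ _).trans (min_le_left _ _)),
      (min_le_left _ _).trans ((min_le_left _ _).trans (min_le_right _ _)), ?_, min_le_right _ _⟩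
    exact (mul_le_mul_of_nonneg_left ((min_le_left _ _).trans (min_le_right _ _)) ha0.le).trans
      (le_of_eq (by field_simp))
  obtain ⟨A, A1, A2⟩ : ∃ A : ℝ, ‖a‖ ≤ A ∧ ‖a ξ‖ ≤ A := ⟨_, le_max_left _ _, le_max_right _ _⟩
  have A0 : 0 < A := ha0.trans_le A1
  set c₂ := 4 * A ^ 2 / μ ^ 2 with hc₂
  have k1 : ‖a‖ ^ 2 ≤ c₂ := by
    refine (pow_le_pow_left₀ ha0.le A1 2).trans ?_
    rw [hc₂, le_div_iff₀ (by positivity)]
    nlinarith [mul_le_mul_of_nonneg_left (pow_le_pow_left₀ hμ.le μ2 2) (sq_nonneg A)]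
  have k2 : g ^ 2 ≤ c₂ := le_trans (pow_le_pow_left₀ hg0.le hga 2) k1
  have k0 : 0 < c₂ := lt_of_lt_of_le (by positivity) k2
  have dsm : ∀ u : H →L[ℂ] H, IsPI u →
      g ^ 2 * ‖u ξ‖ ^ 2 + c₂ * Psi J u ξ ξ ≤ ‖u (a ξ) - rt J u (a ξ)‖ ^ 2 →
      ‖df J 1 u ξ ξ‖ ≤ μ := fun u hu hI => by
    have b1 : ‖u (a ξ) - rt J u (a ξ)‖ ≤ 2 * A := by
      have := (hJ.norm_rt_le u (a ξ)).trans (mul_le_of_le_one_left (norm_nonneg _) hu.norm_le)
      linarith [norm_sub_le (u (a ξ)) (rt J u (a ξ)), hu.norm_apply_le (a ξ)]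
    have b2 : c₂ * ‖df J 1 u ξ ξ‖ ^ 2 ≤ c₂ * Psi J u ξ ξ :=
      mul_le_mul_of_nonneg_left (by
        unfold Psi
        nlinarith [sq_nonneg ‖rt J (1 - star u * u) (df J 1 u ξ ξ)‖,
          sq_nonneg ‖(1 - u * star u) (df J 1 u ξ ξ)‖]) k0.le
    have b3 : c₂ * μ ^ 2 = (2 * A) ^ 2 := by rw [hc₂]; field_simp; ring
    have b4 : c₂ * ‖df J 1 u ξ ξ‖ ^ 2 ≤ c₂ * μ ^ 2 := by
      nlinarith [pow_le_pow_left₀ (norm_nonneg _) b1 2, mul_nonneg (sq_nonneg g) (sq_nonneg ‖u ξ‖)]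
    exact (abs_le_of_sq_le_sq' (le_of_mul_le_mul_left b4 k0) hμ.le).2
  obtain ⟨u, hu, hpi, hI, hS⟩ := exhaust_corner hB h.fix h.sep (e 0 0) (e 1 1) (a ξ) (g ^ 2) k0.le
    (fun u => θ < ‖u ξ‖) fun u hu hpi u2 u1 hI hS => by
      have hp := mul_mem (star_mem hu) hu
      have hq := mul_mem hu (star_mem hu)
      have n1 : ‖(star u * u) ξ‖ ≤ θ := by rw [hpi.norm_init]; exact not_lt.1 hS
      have n2 : ‖(u * star u) ξ‖ ≤ 2 * θ := by
        have d1 := dsm u hpi hI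
        rw [df, Complex.ofReal_one, one_smul] at d1
        rw [hpi.norm_fin, ← hJ.norm_rt_fix h.fix]
        linarith [norm_sub_norm_le (rt J u ξ) (u ξ), norm_sub_rev (rt J u ξ) (u ξ), not_lt.1 hS]
      have pe0 : e 0 0 * (star u * u) = star u * u := by rw [← mul_assoc, star_right (pe 0) u1]
      have qe1 : e 1 1 * (u * star u) = u * star u := by rw [← mul_assoc, u2]
      obtain ⟨v, hv, hvi, v1, v2, vR⟩ := tfin_step h hY he haM ha' ea hc hd hne hp hpi.init pe0 hq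
        hpi.fin qe1 n1 n2 θ2 (B := 10 * c₂) (by positivity)
      have w1 : (1 - u * star u) * v = v := by
        have : (1 - u * star u) * (e 1 1 - u * star u) = e 1 1 - u * star u := by
          rw [sub_mul, one_mul, mul_sub, proj_flip (pe 1) hpi.fin qe1,
            hpi.fin.isIdempotentElem.eq, sub_self, sub_zero]
        rw [← v1, ← mul_assoc, this]
      have w2 : v * (1 - star u * u) = v := by
        have : (e 0 0 - star u * u) * (1 - star u * u) = e 0 0 - star u * u := by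
          rw [mul_sub, mul_one, sub_mul, pe0, hpi.init.isIdempotentElem.eq, sub_self, sub_zero]
        rw [← v2, mul_assoc, this]
      refine ⟨v, hv, hvi, fun h1 => by simp [h1, df, rt_zero] at vR, ?_, ?_, ?_, ?_,
        hB.loc_out h.fix haM hp hpi.init hq hpi.fin hv hvi w1 w2 k2 k1 vR⟩
      · rw [← v1, ← mul_assoc, mul_sub, (pe 1).isIdempotentElem.eq, qe1]
      · rw [← v2, mul_assoc, sub_mul, (pe 0).isIdempotentElem.eq, proj_flip (pe 0) hpi.init pe0]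
      · rw [← w1, ← mul_assoc, mul_sub, ← mul_assoc, hpi.init_mul, mul_one, sub_self, zero_mul]
      · rw [← w2, mul_assoc, sub_mul, hpi.init_mul, one_mul, sub_self, mul_zero]
  have d1 := dsm u hpi hI
  have d2 := mo u hu hpi.norm_le (d1.trans μ1)
  have e1 : u (a ξ) - rt J u (a ξ) = a (df J 1 u ξ ξ) - (a * u - u * a) ξ := by
    rw [df, Complex.ofReal_one, one_smul, map_sub, hB.comm_apply haM hu, sub_apply,
      mul_apply_eq_comp, mul_apply_eq_comp]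
    abel
  have d3 : ‖u (a ξ) - rt J u (a ξ)‖ ≤ g * θ / 2 := by
    rw [e1]
    nlinarith [norm_sub_le (a (df J 1 u ξ ξ)) ((a * u - u * a) ξ), a.le_opNorm (df J 1 u ξ ξ),
      mul_le_mul_of_nonneg_left d1 (norm_nonneg a)]
  have d4 : 0 ≤ c₂ * Psi J u ξ ξ := mul_nonneg k0.le (by unfold Psi; positivity)
  have d5 := mul_le_mul_of_nonneg_left (pow_le_pow_left₀ hθ.le hS.le 2) (sq_nonneg g)
  nlinarith [pow_le_pow_left₀ (norm_nonneg _) d3 2, mul_pos hg0 hθ]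

theorem bic_central (h : Mod M J ξ F) (hT : Tail M ξ) (h2 : M22 (Cen M ξ)) {a : H →L[ℂ] H}
    (ha : a ∈ Bic M J ξ) : Zc M a := by
  obtain ⟨e, f, he, -, -, hm⟩ := h2
  have hU : MU2 M J ξ e := ⟨he, fun i j => (hm i j).1.1, fun i j => cen_of_mem h (hm i j).1⟩
  refine zc_of_approx h ha.1 fun γ hγ => ?_
  obtain ⟨a', ha', han, hd, -⟩ := Bic.an_dense h ha (half_pos hγ)
  obtain ⟨c, hc, hlt⟩ := tfin_final h (hT.tailJ h) hU ha' han (d := γ / 4) (by positivity)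
  refine ⟨c, hc, ?_⟩
  have h1 := hU.norm_swap h.bi (sub_mem ha'.1 hc.1) fun i j => by
    rw [sub_mul, mul_sub, bic_comm h ha' (hU.mem i j) (hU.cen i j), hc.comm (hU.mem i j)]
  have hs := he.sum
  rw [Fin.sum_univ_two] at hs
  have h3 : a' ξ - c ξ = e 0 0 (a' ξ - c ξ) + e 1 1 (a' ξ - c ξ) := by
    rw [← add_apply, hs, one_apply_eq_self]
  rw [sub_apply] at h1
  have h4 := (congrArg norm h3).le.trans (norm_add_le _ _)
  linarith [norm_sub_le_norm_sub_add_norm_sub (a ξ) (a' ξ) (c ξ)]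

end Vale.Agent.P096
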