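import Vale.Agent.P096.TDefs
import Vale.Agent.P132.Final

/-! Corners of matrix units in the centralizer. -/

open scoped InnerProductSpace Topology
open Filter

namespace Vale.Agent.P096

open Vale.Agent.P104 Vale.Agent.P132

variable {H : Type*} [NormedAddCommGroup H] [InnerProductSpace ℂ H] [CompleteSpace H]
  {M : VonNeumannAlgebra H} {J : H →L⋆[ℂ] H} {ξ : H} {F : FC H}

/-- Two by two matrix units in the centralizer. -/
structure MU2 (M : VonNeumannAlgebra H) (J : H →L⋆[ℂ] H) (ξ : H)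
    (e : Fin 2 → Fin 2 → (H →L[ℂ] H)) : Prop where
  mu : IsMU 1 e
  mem : ∀ i j, e i j ∈ M
  cen : ∀ i j, rt J (e i j) ξ = e i j ξ

theorem MU2.mul {e : Fin 2 → Fin 2 → (H →L[ℂ] H)} (he : MU2 M J ξ e) (i j k : Fin 2) :
    e i j * e j k = e i k := by rw [he.mu.mul, if_pos rfl]

theorem MU2.proj {e : Fin 2 → Fin 2 → (H →L[ℂ] H)} (he : MU2 M J ξ e) (i : Fin 2) :
    IsStarProjection (e i i) := ⟨he.mul i i i, he.mu.star i i⟩

theorem MU2.orth {e : Fin 2 → Fin 2 → (H →L[ℂ] H)} (he : MU2 M J ξ e) : e 0 0 * e 1 1 = 0 := by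
  rw [he.mu.mul, if_neg (by decide)]

theorem MU2.add {e : Fin 2 → Fin 2 → (H →L[ℂ] H)} (he : MU2 M J ξ e) : e 0 0 + e 1 1 = 1 := by
  rw [← he.mu.sum, Fin.sum_univ_two]

theorem MU2.norm_swap {e : Fin 2 → Fin 2 → (H →L[ℂ] H)} (he : MU2 M J ξ e) (hB : Bi M J)
    {x : H →L[ℂ] H} (hx : x ∈ M) (hc : ∀ i j, x * e i j = e i j * x) :
    ‖e 1 1 (x ξ)‖ = ‖e 0 0 (x ξ)‖ := by
  have c : ∀ i j, e i j (x ξ) = rt J (e i j) (x ξ) := fun i j => by
    rw [← mul_apply_eq_comp, ← hc, mul_apply_eq_comp, ← he.cen, hB.comm_apply hx (he.mem i j)]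
  have n1 : ∀ η, ‖e 1 1 η‖ = ‖e 0 1 η‖ := fun η =>
    norm_apply_congr (by rw [he.mu.star, he.mu.star, he.mul, he.mul]) η
  rw [n1, c, c 0 0, hB.cj.norm_rt_apply, hB.cj.norm_rt_apply]
  exact norm_apply_congr (by rw [star_star, star_star, he.mu.star, he.mu.star, he.mul, he.mul]) _

/-- A subprojection of a projection that centralizes `η`. -/
theorem tf_sub (hB : Bi M J) {E f : H →L[ℂ] H} (hE : E ∈ M) (fE : f * E = f) {η : H}
    (hη : rt J E η = E η) {g : H →L[ℂ] H} (hg : g ∈ M) : f (rt J g η) = f (rt J (E * g) η) := by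
  rw [hB.cj.rt_mul_apply, hη, ← hB.comm_apply hE hg, ← mul_apply_eq_comp f E, fE]

theorem tf_sub' (hB : Bi M J) {E f : H →L[ℂ] H} (hE : E ∈ M) (Ef : E * f = f) {η : H}
    (hη : rt J E η = E η) {g : H →L[ℂ] H} (hg : g ∈ M) : rt J f (g η) = rt J f ((g * E) η) := by
  rw [mul_apply_eq_comp, ← hη, hB.comm_apply hg hE, ← hB.cj.rt_mul_apply, Ef]

/-- Data of a projection `p` under a centralizing projection `E`, inside the projection `r`. -/
structure TfSide (M : VonNeumannAlgebra H) (E p r : H →L[ℂ] H) : Prop where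
  mE : E ∈ M
  mp : p ∈ M
  mr : r ∈ M
  pE : IsStarProjection E
  pp : IsStarProjection p
  pr : IsStarProjection r
  Ep : E * p = p
  Er : E * r = p

namespace TfSide

variable {E p r : H →L[ℂ] H} (s : TfSide M E p r)

include s

theorem pE' : p * E = p := proj_flip s.pE s.pp s.Ep

theorem rE : r * E = p := by
  simpa only [star_mul, s.pE.isSelfAdjoint.star_eq, s.pr.isSelfAdjoint.star_eq,
    s.pp.isSelfAdjoint.star_eq] using congrArg star s.Er

theorem mem : E - p ∈ M := sub_mem s.mE s.mp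

theorem l1 : E * (1 - p) = E - p := by rw [mul_sub, mul_one, s.Ep]

theorem l2 : (1 - p) * E = E - p := by rw [sub_mul, one_mul, s.pE']

theorem l3 : E * (1 - r) = E - p := by rw [mul_sub, mul_one, s.Er]

theorem l4 : (1 - r) * E = E - p := by rw [sub_mul, one_mul, s.rE]

theorem fE : (E - p) * E = E - p := by rw [sub_mul, s.pE.isIdempotentElem.eq, s.pE']

theorem Ef : E * (E - p) = E - p := by rw [mul_sub, s.pE.isIdempotentElem.eq, s.Ep]

theorem fp : (E - p) * (1 - p) = E - p := by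
  rw [← s.l1, mul_assoc, s.pp.one_sub.isIdempotentElem.eq]

theorem pf : (1 - p) * (E - p) = E - p := by
  rw [← s.l2, ← mul_assoc, s.pp.one_sub.isIdempotentElem.eq]

theorem proj : IsStarProjection (E - p) :=
  ⟨by rw [IsIdempotentElem]; nth_rewrite 2 [← s.l2]; rw [← mul_assoc, s.fp, s.fE],
    s.pE.isSelfAdjoint.sub s.pp.isSelfAdjoint⟩

theorem fr : (E - p) * (1 - r) = E - p := by
  rw [← s.l3, mul_assoc, s.pr.one_sub.isIdempotentElem.eq]

theorem rf : (1 - r) * (E - p) = E - p := by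
  rw [← s.l4, ← mul_assoc, s.pr.one_sub.isIdempotentElem.eq]

theorem fr0 : (E - p) * r = 0 := by
  rw [← s.fr, mul_assoc, sub_mul 1, one_mul, s.pr.isIdempotentElem.eq, sub_self, mul_zero]

theorem rf0 : r * (E - p) = 0 := by
  rw [← s.rf, ← mul_assoc, mul_sub r 1, mul_one, s.pr.isIdempotentElem.eq, sub_self, zero_mul]

theorem pinch (hB : Bi M J) (hξ : rt J E ξ = E ξ) :
    (E - p) (P132.cmp J (1 - r) ξ + P132.cmp J r ξ) = P132.cmp J (E - p) ξ ∧
      rt J (E - p) (P132.cmp J (1 - r) ξ + P132.cmp J r ξ) = P132.cmp J (E - p) ξ := by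
  have m1 : 1 - r ∈ M := sub_mem (one_mem M) s.mr
  constructor
  · rw [map_add, P132.cmp, P132.cmp, ← mul_apply_eq_comp, ← mul_apply_eq_comp (E - p) r, s.fr, s.fr0,
      zero_apply, add_zero, tf_sub hB s.mE s.fE hξ m1, s.l3, P132.cmp]
  · rw [map_add, P132.cmp, P132.cmp, ← hB.comm_apply m1 s.mem, ← hB.comm_apply s.mr s.mem,
      ← hB.cj.rt_mul_apply, ← hB.cj.rt_mul_apply, s.rf, s.rf0, rt_zero, zero_apply, map_zero,
      add_zero, hB.comm_apply m1 s.mem, tf_sub' hB s.mE s.Ef hξ m1, s.l4, P132.cmp,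
      hB.comm_apply s.mem s.mem]

theorem left (hB : Bi M J) {η : H} (hη : rt J E η = E η) :
    (E - p) (P132.cmp J (1 - p) η) = P132.cmp J (E - p) η := by
  rw [P132.cmp, ← mul_apply_eq_comp, s.fp,
    tf_sub hB s.mE s.fE hη (sub_mem (one_mem M) s.mp), s.l1, P132.cmp]

theorem right (hB : Bi M J) {η : H} (hη : rt J E η = E η) :
    rt J (E - p) (P132.cmp J (1 - p) η) = P132.cmp J (E - p) η := by
  have m1 : 1 - p ∈ M := sub_mem (one_mem M) s.mp
  rw [P132.cmp, ← hB.comm_apply m1 s.mem, ← hB.cj.rt_mul_apply, s.pf, hB.comm_apply m1 s.mem,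
    tf_sub' hB s.mE s.Ef hη m1, s.l2, P132.cmp, hB.comm_apply s.mem s.mem]

theorem comp (hB : Bi M J) (η : H) : P132.cmp J E (P132.cmp J (1 - p) η) = P132.cmp J (E - p) η := by
  rw [P132.cmp, P132.cmp, ← hB.comm_apply (sub_mem (one_mem M) s.mp) s.mE, ← mul_apply_eq_comp, s.l1,
    ← hB.cj.rt_mul_apply, s.l2, P132.cmp]

theorem fix (hB : Bi M J) {η : H} (hη : rt J E η = E η) : P132.cmp J E η = E η := by
  have _ := hB
  rw [P132.cmp, hη, ← mul_apply_eq_comp, s.pE.isIdempotentElem.eq]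

end TfSide

theorem tf_cmp_le (hJ : IsConj J) {E : H →L[ℂ] H} (hE : IsStarProjection E) (η : H) :
    ‖P132.cmp J E η‖ ≤ ‖η‖ :=
  (proj_norm_apply_le hE _).trans (proj_norm_apply_le (hJ.rt_proj hE) _)

theorem tf_cmp_sub (E : H →L[ℂ] H) (η ζ : H) : P132.cmp J E (η - ζ) = P132.cmp J E η - P132.cmp J E ζ := by
  rw [P132.cmp, map_sub, map_sub, P132.cmp, P132.cmp]

theorem tf_cmp_fix {E : H →L[ℂ] H} (hB : Bi M J) (hM : E ∈ M) (hE : IsStarProjection E) (η : H) :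
    E (P132.cmp J E η) = P132.cmp J E η ∧ rt J E (P132.cmp J E η) = P132.cmp J E η := by
  constructor
  · rw [P132.cmp, ← mul_apply_eq_comp, hE.isIdempotentElem.eq]
  · rw [P132.cmp, ← hB.comm_apply hM hM, ← hB.cj.rt_mul_apply, hE.isIdempotentElem.eq]

theorem tf_cmp_J {E : H →L[ℂ] H} (hB : Bi M J) (hM : E ∈ M) (hE : IsStarProjection E)
    (hξ : J ξ = ξ) : J (P132.cmp J E ξ) = P132.cmp J E ξ := by
  rw [P132.cmp, hB.cj.J_apply, hB.cj.J_rt, hξ, hE.isSelfAdjoint.star_eq, hB.comm_apply hM hM]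

/-- The geometric estimates in the corner. -/
theorem TfSide.geo {E p r : H →L[ℂ] H} (s : TfSide M E p r) (hB : Bi M J) (hξ : J ξ = ξ)
    (hE : rt J E ξ = E ξ) {a a' : H →L[ℂ] H} (ha : a ∈ M) (ha' : a' ∈ M) (ea : a ξ = rt J a' ξ)
    (hc : a * E = E * a) :
    ‖E ξ - P132.cmp J (E - p) ξ‖ ≤ 2 * ‖p ξ‖ ∧
    ‖P132.cmp J (E - p) (a ξ) - rt J ((E - p) * a' * (E - p)) (P132.cmp J (E - p) ξ)‖ ≤ ‖a'‖ * ‖p ξ‖ ∧
    ‖E (a ξ) - P132.cmp J (E - p) (a ξ)‖ ≤ (‖a'‖ + ‖a‖) * ‖p ξ‖ := by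
  have hJ := hB.cj
  obtain ⟨g1, g2, g3⟩ := hB.geo hξ ha ha' ea s.mp s.pp
  have hE' : rt J E (a ξ) = E (a ξ) := by
    rw [← hB.comm_apply ha s.mE, hE, ← mul_apply_eq_comp, hc, mul_apply_eq_comp]
  have m1 : 1 - p ∈ M := sub_mem (one_mem M) s.mp
  refine ⟨le_trans (le_of_eq ?_) ((tf_cmp_le hJ s.pE _).trans g1),
    le_trans (le_of_eq ?_) ((tf_cmp_le hJ s.pE _).trans g2),
    le_trans (le_of_eq ?_) ((tf_cmp_le hJ s.pE _).trans g3)⟩
  · rw [tf_cmp_sub, s.comp hB, s.fix hB hE]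
  · have e1 : E (P132.cmp J (1 - p) ξ) = P132.cmp J (E - p) ξ := by
      rw [P132.cmp, ← mul_apply_eq_comp E, s.l1, tf_sub hB s.mE s.fE hE m1, s.l1, P132.cmp]
    have e2 : (E - p) * ((1 - p) * a' * (1 - p) * E) = (E - p) * a' * (E - p) := by
      rw [mul_assoc _ (1 - p), s.l2, ← mul_assoc, ← mul_assoc, s.fp]
    rw [tf_cmp_sub, s.comp hB, P132.cmp.eq_1 J E, ← hJ.rt_mul_apply,
      hB.comm_apply s.mE (mul_mem (mul_mem (mul_mem m1 ha') m1) s.mE), e1, ← e2,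
      hJ.rt_mul_apply (E - p), (tf_cmp_fix hB s.mem s.proj ξ).2]
  · rw [tf_cmp_sub, s.comp hB, s.fix hB hE']

end Vale.Agent.P096
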