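import Vale.Agent.P096.TDefs
import Vale.Agent.P096.Amp

/-! Matrices acting on one coordinate. -/

open scoped InnerProductSpace Topology
open Filter

namespace Vale.Agent.P096

open Vale.Agent.P104 Vale.Agent.P132

variable {K L : Type*} [NormedAddCommGroup K] [InnerProductSpace ℂ K] [CompleteSpace K]
  [NormedAddCommGroup L] [InnerProductSpace ℂ L] [CompleteSpace L]

theorem tleg_upd (f : ℝ × ℕ →₀ Fin 4) (σ : ℝ × ℕ) (k : Fin 4) : f.update σ k σ = k := by simp

theorem tleg_upd' (f : ℝ × ℕ →₀ Fin 4) {σ τ : ℝ × ℕ} (h : σ ≠ τ) (k : Fin 4) :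
    f.update τ k σ = f σ := by
  classical
  simp [Finsupp.update_apply, h]

theorem tleg_idem (f : ℝ × ℕ →₀ Fin 4) (σ : ℝ × ℕ) (k l : Fin 4) :
    (f.update σ k).update σ l = f.update σ l := by
  classical
  ext τ
  by_cases h : τ = σ <;> simp [Finsupp.update_apply, h]

theorem tleg_comm (f : ℝ × ℕ →₀ Fin 4) {σ τ : ℝ × ℕ} (h : σ ≠ τ) (k l : Fin 4) :
    (f.update σ k).update τ l = (f.update τ l).update σ k := by
  classical
  ext ρ
  by_cases h1 : ρ = σ
  · simp [Finsupp.update_apply, h1, h]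
  · by_cases h2 : ρ = τ <;> simp [Finsupp.update_apply, h1, h2, h.symm]

theorem tleg_unit (A : Amp (ℝ × ℕ →₀ Fin 4) K L) (σ : ℝ × ℕ) (k l : Fin 4) :
    ∃ T : L →L[ℂ] L, ∀ f η, T (A.J f η) = if f σ = l then A.J (f.update σ k) η else 0 := by
  obtain ⟨S, -, hS, -⟩ := A.exists_perm (Function.Involutive.toPerm
    (fun f => f.update σ (Equiv.swap k l (f σ))) fun f => by
      simp only [tleg_idem, tleg_upd, Equiv.swap_apply_self, Finsupp.update_self])
  obtain ⟨D, -, hD, -⟩ := A.exists_diag (fun f => if f σ = l then 1 else 0) zero_le_one fun f => by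
    split_ifs
    · exact ContinuousLinearMap.norm_id_le
    · simp
  refine ⟨S * D, fun f η => ?_⟩
  rw [mul_apply_eq_comp, hD, hS]
  split_ifs with h
  · simp [h, Function.Involutive.toPerm]
  · simp

theorem tleg_inner (A : Amp (ℝ × ℕ →₀ Fin 4) K L) (f g : ℝ × ℕ →₀ Fin 4) (η ζ : K) :
    ⟪A.J f η, A.J g ζ⟫_ℂ = if f = g then ⟪η, ζ⟫_ℂ else 0 := by
  rw [A.adj]
  split_ifs with h
  · rw [h, A.PJ]
  · rw [A.PJ' _ _ h, inner_zero_right]

theorem tleg_star (A : Amp (ℝ × ℕ →₀ Fin 4) K L) {σ : ℝ × ℕ} {k l : Fin 4} {T T' : L →L[ℂ] L}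
    (h : ∀ f η, T (A.J f η) = if f σ = l then A.J (f.update σ k) η else 0)
    (h' : ∀ f η, T' (A.J f η) = if f σ = k then A.J (f.update σ l) η else 0) : T' = star T := by
  refine A.ext_J fun f η => A.ext_vec fun g => ext_inner_left ℂ fun ζ => ?_
  rw [← A.adj, ← A.adj, ContinuousLinearMap.star_eq_adjoint, ContinuousLinearMap.adjoint_inner_right,
    h, h']
  by_cases h1 : f σ = k <;> by_cases h2 : g σ = l
  · rw [if_pos h1, if_pos h2, tleg_inner, tleg_inner]
    refine if_congr ⟨fun e => ?_, fun e => ?_⟩ rfl rfl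
    · rw [e, tleg_idem, ← h1, Finsupp.update_self]
    · rw [← e, tleg_idem, ← h2, Finsupp.update_self]
  · rw [if_pos h1, if_neg h2, tleg_inner, if_neg fun e => h2 (by rw [e, tleg_upd]), inner_zero_left]
  · rw [if_neg h1, if_pos h2, tleg_inner, if_neg fun e => h1 (by rw [← e, tleg_upd]),
      inner_zero_right]
  · rw [if_neg h1, if_neg h2, inner_zero_left, inner_zero_right]

theorem exists_leg (A : Amp (ℝ × ℕ →₀ Fin 4) K L) : Nonempty (Leg A) := by
  choose T hT using tleg_unit A
  have act : ∀ σ (m : Matrix (Fin 4) (Fin 4) ℂ) f η, (∑ k, ∑ l, m k l • T σ k l) (A.J f η) =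
      ∑ k, m k (f σ) • A.J (f.update σ k) η := fun σ m f η => by
    simp [hT]
  refine ⟨⟨fun σ =>
    { toFun := fun m => ∑ k, ∑ l, m k l • T σ k l
      map_one' := A.ext_J fun f η => by
        rw [act]
        simp [Matrix.one_apply]
      map_mul' := fun m m' => A.ext_J fun f η => by
        rw [mul_apply_eq_comp, act, act, map_sum]
        simp only [map_smul, act, tleg_upd, tleg_idem, Finset.smul_sum, smul_smul, Matrix.mul_apply,
          Finset.sum_smul]
        rw [Finset.sum_comm]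
        simp only [mul_comm]
      map_zero' := by simp
      map_add' := fun m m' => by simp [add_smul, Finset.sum_add_distrib]
      commutes' := fun c => A.ext_J fun f η => by
        rw [act]
        simp [Matrix.algebraMap_matrix_apply, Algebra.algebraMap_eq_smul_one]
      map_star' := fun m => by
        rw [star_sum, Finset.sum_comm]
        refine Finset.sum_congr rfl fun k _ => ?_
        rw [star_sum]
        refine Finset.sum_congr rfl fun l _ => ?_
        rw [star_smul, Matrix.star_apply, tleg_star A (hT σ k l) (hT σ l k)] }, act⟩⟩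

namespace Leg

variable {A : Amp (ℝ × ℕ →₀ Fin 4) K L} (G : Leg A)

theorem comm_d (σ : ℝ × ℕ) (m : Matrix (Fin 4) (Fin 4) ℂ) (x : K →L[ℂ] K) :
    Commute (A.d x) (G.leg σ m) := by
  refine A.ext_J fun f η => ?_
  simp only [mul_apply_eq_comp, G.act, A.dJ, map_sum, map_smul]

theorem comm {σ τ : ℝ × ℕ} (h : σ ≠ τ) (m m' : Matrix (Fin 4) (Fin 4) ℂ) :
    Commute (G.leg σ m) (G.leg τ m') := by
  refine A.ext_J fun f η => ?_
  simp only [mul_apply_eq_comp, G.act, map_sum, map_smul, tleg_upd' _ h,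
    tleg_upd' _ h.symm, Finset.smul_sum, smul_smul]
  rw [Finset.sum_comm]
  simp only [mul_comm, tleg_comm f h]

theorem tleg_bd (m : Matrix (Fin 4) (Fin 4) ℂ) : ∃ C : ℝ, ∀ σ, ‖G.leg σ m‖ ≤ C := by
  refine ⟨∑ k, ∑ l, ‖m k l‖, fun σ => ?_⟩
  have h1 : ∀ k l : Fin 4, ‖G.leg σ (Matrix.single k l 1)‖ ≤ 1 := fun k l => by
    have hp : IsStarProjection (star (G.leg σ (Matrix.single k l 1)) *
        G.leg σ (Matrix.single k l 1)) := by
      rw [← map_star, ← map_mul]
      refine IsStarProjection.map ⟨?_, IsSelfAdjoint.star_mul_self _⟩ _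
      simp [IsIdempotentElem, Matrix.star_eq_conjTranspose]
    have := hp.norm_le
    rw [CStarRing.norm_star_mul_self] at this
    nlinarith [norm_nonneg (G.leg σ (Matrix.single k l 1))]
  have h2 : m = ∑ k, ∑ l, m k l • Matrix.single k l 1 := by
    simpa using Matrix.matrix_eq_sum_single m
  conv_lhs => rw [h2]
  simp only [map_sum, map_smul]
  refine (norm_sum_le _ _).trans (Finset.sum_le_sum fun k _ => (norm_sum_le _ _).trans
    (Finset.sum_le_sum fun l _ => ?_))
  rw [norm_smul]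
  exact mul_le_of_le_one_right (norm_nonneg _) (h1 k l)

/-- A bounded family of matrices killing the reference vector tends to zero along the tail. -/
theorem tendsto_zero (s : ℝ) {m : Matrix (Fin 4) (Fin 4) ℂ} (hm : ∀ k, m k 0 = 0) (ζ : L) :
    Tendsto (fun n : ℕ => G.leg (s, n) m ζ) atTop (𝓝 0) := by
  obtain ⟨C, hC⟩ := G.tleg_bd m
  have hC0 : 0 < C + 1 := by linarith [(norm_nonneg _).trans (hC (s, 0))]
  have h1 : ∀ f η, ∀ᶠ n : ℕ in atTop, G.leg (s, n) m (A.J f η) = 0 := fun f η => by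
    have : ∀ᶠ n : ℕ in cofinite, f (s, n) = 0 :=
      (f.hasFiniteSupport.preimage (Prod.mk_right_injective s).injOn)
    rw [Nat.cofinite_eq_atTop] at this
    exact this.mono fun n hn => by simp [G.act, hn, hm]
  refine Metric.tendsto_nhds.2 fun ε hε => ?_
  obtain ⟨S, hS⟩ := (Metric.tendsto_nhds.1 (A.hasSum_JP ζ) _ (div_pos hε hC0)).exists
  filter_upwards [(eventually_all_finset S).2 fun f _ => h1 f (A.P f ζ)] with n hn
  have e : G.leg (s, n) m ζ = G.leg (s, n) m (ζ - ∑ f ∈ S, A.J f (A.P f ζ)) := by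
    rw [map_sub, map_sum, Finset.sum_eq_zero hn, sub_zero]
  rw [dist_comm, dist_eq_norm, lt_div_iff₀' hC0] at hS
  rw [dist_zero_right, e]
  exact ((ContinuousLinearMap.le_opNorm _ _).trans (mul_le_mul_of_nonneg_right
    ((hC _).trans (by linarith)) (norm_nonneg _))).trans_lt hS

/-- Weak convergence to the expectation along the tail. -/
theorem tendsto_inner (s : ℝ) (m : Matrix (Fin 4) (Fin 4) ℂ) (ζ ζ' : L) :
    Tendsto (fun n : ℕ => ⟪ζ, G.leg (s, n) m ζ'⟫_ℂ) atTop (𝓝 (m 0 0 * ⟪ζ, ζ'⟫_ℂ)) := by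
  let m1 : Matrix (Fin 4) (Fin 4) ℂ := Matrix.of fun k l => if l = 0 ∧ k ≠ 0 then m k 0 else 0
  have h1 := G.tendsto_zero s (m := star m1) (fun k => by simp [m1]) ζ
  have h2 := G.tendsto_zero s (m := m - m 0 0 • 1 - m1) (fun k => by
    by_cases h : k = 0 <;> simp [m1, h]) ζ'
  have := ((tendsto_const_nhds (x := m 0 0 * ⟪ζ, ζ'⟫_ℂ)).add
    (h1.inner (𝕜 := ℂ) (tendsto_const_nhds (x := ζ')))).add
      ((tendsto_const_nhds (x := ζ)).inner (𝕜 := ℂ) h2)
  rw [inner_zero_left, inner_zero_right, add_zero, add_zero] at this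
  refine this.congr fun n => ?_
  rw [map_star, ContinuousLinearMap.star_eq_adjoint, ContinuousLinearMap.adjoint_inner_left]
  simp [inner_sub_right, inner_smul_right]

/-- Generation of the whole space. -/
theorem gen (m : ℝ × ℕ → Matrix (Fin 4) (Fin 4) ℂ)
    (hm : ∀ σ (W : Submodule ℂ (Fin 4 → ℂ)), Pi.single 0 1 ∈ W →
      (∀ w ∈ W, (m σ).mulVec w ∈ W ∧ (star (m σ)).mulVec w ∈ W) → ∀ k, Pi.single k 1 ∈ W) :
    Gen (A.J 0) fun σ => G.leg σ (m σ) := by
  intro W hW h0 hA ζ
  have key : ∀ f η, A.J f η ∈ W := fun f η => by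
    induction f using Finsupp.induction with
    | zero => exact h0 η
    | single_add σ b g hσ hb ih =>
      have g0 : g σ = 0 := Finsupp.notMem_support_iff.1 hσ
      let φ : (Fin 4 → ℂ) →ₗ[ℂ] L := Fintype.linearCombination ℂ fun k => A.J (g.update σ k) η
      have hφ : ∀ (m' : Matrix (Fin 4) (Fin 4) ℂ) w, φ (m'.mulVec w) = G.leg σ m' (φ w) := by
        intro m' w
        simp only [φ, Fintype.linearCombination_apply, map_sum, map_smul, G.act, tleg_upd, tleg_idem,
          Finset.smul_sum, smul_smul, Matrix.mulVec, dotProduct, Finset.sum_smul]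
        rw [Finset.sum_comm]
        simp only [mul_comm]
      have := hm σ (W.comap φ) (by
        rw [Submodule.mem_comap, Fintype.linearCombination_apply_single, one_smul, ← g0,
          Finsupp.update_self]
        exact ih) (fun w hw => by
          rw [Submodule.mem_comap, Submodule.mem_comap, hφ, hφ, map_star]
          exact hA σ _ hw) b
      rw [Submodule.mem_comap, Fintype.linearCombination_apply_single, one_smul,
        Finsupp.update_eq_single_add_erase, Finsupp.erase_of_notMem_support hσ] at this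
      exact this
  exact hW.mem_of_tendsto (A.hasSum_JP ζ)
    (Eventually.of_forall fun S => W.sum_mem fun f _ => key f _)

end Leg

end Vale.Agent.P096
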