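import Vale.Agent.P096.TCen
import Vale.Agent.P132.Local

/-! Bands that see a given operator, centre valued version. -/

open scoped InnerProductSpace Topology
open Filter

namespace Vale.Agent.P096

open Vale.Agent.P104 Vale.Agent.P132

variable {H : Type*} [NormedAddCommGroup H] [InnerProductSpace ℂ H] [CompleteSpace H]
  {M : VonNeumannAlgebra H} {J : H →L⋆[ℂ] H} {ξ : H} {F : FC H}

/-- Bessel inequality for bands. -/
theorem sum_band_le_mn (F : FC H) {ε : ℝ} (hε : 0 < ε) (x : H →L[ℂ] H) (t : Finset ℤ) (η : H) :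
    ∑ k ∈ t, ‖F.band (k * ε) ε x η‖ ^ 2 ≤ mn ε fun r => ‖F.σ r x η‖ ^ 2 := by
  obtain ⟨z, hz⟩ : ∃ z : t → H, ∀ k, z k = F.band ((k : ℤ) * ε) ε x η := ⟨_, fun _ => rfl⟩
  rw [← Finset.sum_coe_sort t fun k : ℤ => ‖F.band (k * ε) ε x η‖ ^ 2]
  simp only [← hz]
  have hm : Function.Injective fun k : t => -(k : ℤ) := fun i j hij =>
    Subtype.ext (neg_injective hij)
  have b1 := br_trig₅ (fun k : t => ((-(k : ℤ) : ℤ) : ℝ) * ε) z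
  have b2 := (F.sc_σ x).br η
  have hI : ∀ k : t, MeasureTheory.Integrable fun r => (fej ε r : ℂ) * ex r (-((k : ℤ) * ε)) *
      ⟪z k, F.σ r x η⟫_ℂ := fun k => by
    obtain ⟨hc, C, hC⟩ := (F.sc_σ x).bc (z k) η
    exact (integrable_fejx hε _).mul_bdd hc.aestronglyMeasurable (.of_forall hC)
  have e : ((∑ k, ‖z k‖ ^ 2 : ℝ) : ℂ) = ∫ r, (fej ε r : ℂ) *
      ⟪∑ k : t, ex r (-(((-(k : ℤ) : ℤ) : ℝ) * ε)) • z k, F.σ r x η⟫_ℂ := by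
    have e1 : ∀ k : t, ((‖z k‖ ^ 2 : ℝ) : ℂ) = ∫ r, (fej ε r : ℂ) * ex r (-((k : ℤ) * ε)) *
        ⟪z k, F.σ r x η⟫_ℂ := fun k => by
      rw [← inner_opInt (F.sc_σ x) (integrable_fejx hε _)]
      change _ = ⟪z k, F.band ((k : ℤ) * ε) ε x η⟫_ℂ
      rw [← hz, inner_self_eq_norm_sq_to_K]
      push_cast
      rfl
    rw [Complex.ofReal_sum, Finset.sum_congr rfl fun k _ => e1 k,
      ← MeasureTheory.integral_finsetSum _ fun k _ => hI k]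
    congr 1
    funext r
    simp only [sum_inner, inner_smul_left, Finset.mul_sum]
    refine Finset.sum_congr rfl fun k _ => ?_
    rw [conj_ex, ex_neg_comm₅, mul_assoc]
    push_cast
    rw [neg_neg, neg_mul]
  have h1 : ∑ k, ‖z k‖ ^ 2 ≤ mn ε fun r => 1 / 2 *
      (‖∑ k : t, ex r (-(((-(k : ℤ) : ℤ) : ℝ) * ε)) • z k‖ ^ 2 + ‖F.σ r x η‖ ^ 2) := by
    refine le_trans (le_of_eq (by rw [Complex.norm_real, Real.norm_of_nonneg (by positivity)]))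
      ((congrArg norm e).le.trans ?_)
    refine MeasureTheory.norm_integral_le_of_norm_le (kern_int hε ((b1.add b2).const_mul _))
      (.of_forall fun r => ?_)
    rw [norm_mul, Complex.norm_real, Real.norm_of_nonneg (fej_nonneg hε r)]
    refine mul_le_mul_of_nonneg_left ((norm_inner_le_norm _ _).trans ?_) (fej_nonneg hε r)
    linarith [sq_nonneg (‖∑ k : t, ex r (-(((-(k : ℤ) : ℤ) : ℝ) * ε)) • z k‖ - ‖F.σ r x η‖)]
  rw [mn_const_mul, mn_add hε b1 b2, mn_trig₅ hε _ hm z] at h1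
  linarith

theorem gcol_sigma (F : FC H) {ι : Type*} [Fintype ι] {v : ι → (H →L[ℂ] H)} (hv : GCol 1 v)
    (r : ℝ) : GCol 1 fun i => F.σ r (v i) := fun θ => by
  simpa only [F.σ_apply₃, F.V_norm] using hv (F.V (-r) θ)

theorem sum_band_col (F : FC H) {ε : ℝ} (hε : 0 < ε) {ι : Type*} [Fintype ι]
    {v : ι → (H →L[ℂ] H)} (hv : GCol 1 v) (t : Finset ℤ) (η : H) :
    ∑ i, ∑ k ∈ t, ‖F.band (k * ε) ε (v i) η‖ ^ 2 ≤ ‖η‖ ^ 2 := by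
  refine (Finset.sum_le_sum fun i _ => sum_band_le_mn F hε (v i) t η).trans ?_
  rw [← mn_sum hε _ fun i _ => (F.sc_σ (v i)).br η, ← mn_const hε (‖η‖ ^ 2)]
  refine mn_mono hε (BR.sum _ fun i _ => (F.sc_σ (v i)).br η) (BR.const _) fun r => ?_
  simpa using gcol_sigma F hv r η

theorem tloc_cont (F : FC H) {ε : ℝ} (hε : 0 < ε) (D : H →L[ℂ] H) :
    Continuous fun a => mn ε fun r => ‖D (F.V r a)‖ ^ 2 := by
  simp only [loc_mean F hε]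
  fun_prop

omit [CompleteSpace H] in
theorem tloc_col {f : H →L[ℂ] H} {ι : Type*} [Fintype ι] {v : ι → (H →L[ℂ] H)}
    (hv : ∀ i, v i * f = v i) (vn : GCol 1 v) (η : H) : ∑ i, ‖v i η‖ ^ 2 ≤ ‖f η‖ ^ 2 := by
  have := vn (f η)
  simpa only [← mul_apply_eq_comp, hv, one_pow, one_mul] using this

theorem tloc_upper (h : Mod M J ξ F) {f₁ f₂ : H →L[ℂ] H} (m₁ : f₁ ∈ M)
    (c₁ : rt J f₁ ξ = f₁ ξ) (m₂ : f₂ ∈ M) (c₂ : rt J f₂ ξ = f₂ ξ) {y b : H →L[ℂ] H}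
    (hy : y ∈ M) (ρ : H) {c : ℝ} (hc : 0 ≤ c) {ε : ℝ} (hε : 0 < ε)
    (hno : ∀ s : ℝ, ∀ x ∈ M, f₂ * x = x → x * f₁ = x → F.Supp (x ξ) (Set.Icc (s - ε) (s + ε)) →
      ‖x ρ - b (x ξ)‖ ≤ c * ‖x ξ‖) {ι : Type*} [Fintype ι] {v : ι → (H →L[ℂ] H)}
    (hv : ∀ i, v i ∈ M ∧ f₂ * v i = v i ∧ v i * f₁ = v i) (vn : GCol 1 v) :
    mn ε (fun r => ∑ i, ‖(rt J y - b) (F.V r (v i ξ))‖ ^ 2) ≤
      6 * ‖ρ - rt J y (f₁ ξ)‖ ^ 2 + 6 * c ^ 2 * ‖f₁ ξ‖ ^ 2 := by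
  have _ := hc
  rw [mn_sum hε _ fun i _ => loc_br F _ _]
  refine le_of_tendsto' (tendsto_finsetSum Finset.univ fun i _ =>
    ((tloc_cont F hε (rt J y - b)).tendsto _).comp (F.tendsto_sum_tri hε (v i ξ))) fun n => ?_
  refine (Finset.sum_le_sum fun i _ => F.band_lemma hε le_rfl _ _ _).trans ?_
  generalize Finset.Icc (-(n : ℤ)) n = t
  have hbr : ∀ i, BR fun r =>
      ∑ k ∈ t, ‖(rt J y - b) (F.V r (F.f (tri (k * ε) ε) (v i ξ)))‖ ^ 2 := fun i =>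
    BR.sum t fun k _ => loc_br F _ _
  rw [← Finset.mul_sum, Finset.sum_congr rfl fun i _ => (mn_sum hε t fun k _ => loc_br F _ _).symm,
    ← mn_sum hε _ fun i _ => hbr i]
  have key : mn ε (fun r => ∑ i, ∑ k ∈ t,
      ‖(rt J y - b) (F.V r (F.f (tri (k * ε) ε) (v i ξ)))‖ ^ 2) ≤
      mn ε fun _ => 2 * ‖ρ - rt J y (f₁ ξ)‖ ^ 2 + 2 * c ^ 2 * ‖f₁ ξ‖ ^ 2 := by
    refine mn_mono hε (BR.sum _ fun i _ => hbr i) (BR.const _) fun r => ?_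
    have hk : ∀ i, ∀ k ∈ t, ‖(rt J y - b) (F.V r (F.f (tri (k * ε) ε) (v i ξ)))‖ ^ 2 ≤
        2 * ‖F.band (k * ε) ε (F.σ r (v i)) (ρ - rt J y (f₁ ξ))‖ ^ 2 +
          2 * c ^ 2 * ‖F.f (tri (k * ε) ε) (v i ξ)‖ ^ 2 := by
      intro i k _
      obtain ⟨vM, v₂, v₁⟩ := hv i
      obtain ⟨x, hx⟩ : ∃ x, x = F.band (k * ε) ε (F.σ r (v i)) := ⟨_, rfl⟩
      have xM : x ∈ M := hx ▸ h.band_mem hε _ (h.sigma_mem r _ vM)
      have e2 : f₂ * x * 1 = x := by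
        rw [hx, h.band_corner hε _ m₂ c₂ (one_mem M) (by rw [h.cj.rt_one]), mul_one,
          ← h.σ_of_cen m₂ c₂ r, ← F.σ_mul, v₂]
      have e3 : 1 * x * f₁ = x := by
        rw [hx, h.band_corner hε _ (one_mem M) (by rw [h.cj.rt_one]) m₁ c₁, one_mul,
          ← h.σ_of_cen m₁ c₁ r, ← F.σ_mul, v₁]
      rw [mul_one] at e2
      rw [one_mul] at e3
      have e4 : x ξ = F.V r (F.f (tri (k * ε) ε) (v i ξ)) := by
        rw [hx, ← F.σ_band hε, h.σ_xi, h.band_xi hε]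
      have e5 := hno (k * ε) x xM e2 e3 (hx ▸ h.band_supp hε _ _)
      have e6 : (rt J y - b) (x ξ) = (x ρ - b (x ξ)) - x (ρ - rt J y (f₁ ξ)) := by
        rw [sub_apply, map_sub, h.bi.comm_apply xM hy, ← mul_apply_eq_comp x f₁, e3]
        abel
      have e7 : ‖F.f (tri (k * ε) ε) (v i ξ)‖ = ‖x ξ‖ := by rw [e4, F.V_norm]
      rw [← e4, ← hx, e7, e6]
      have e8 := pow_le_pow_left₀ (norm_nonneg _) ((norm_sub_le (x ρ - b (x ξ))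
        (x (ρ - rt J y (f₁ ξ)))).trans (add_le_add e5 le_rfl)) 2
      linarith [sq_nonneg (c * ‖x ξ‖ - ‖x (ρ - rt J y (f₁ ξ))‖)]
    refine (Finset.sum_le_sum fun i _ => Finset.sum_le_sum (hk i)).trans ?_
    simp only [Finset.sum_add_distrib, ← Finset.mul_sum]
    have s1 := sum_band_col F hε (gcol_sigma F vn r) t (ρ - rt J y (f₁ ξ))
    have s2 := mul_le_mul_of_nonneg_left ((Finset.sum_le_sum fun i _ =>
      F.sum_tri_norm_sq_le hε (v i ξ) t).trans (tloc_col (fun i => (hv i).2.2) vn ξ))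
      (show 0 ≤ 2 * c ^ 2 by positivity)
    linarith
  rw [mn_const hε] at key
  linarith

theorem tloc_row {ι : Type*} [Fintype ι] {v : ι → (H →L[ℂ] H)} (vn : GCol 1 v) (z : ι → H) :
    ‖∑ i, star (v i) (z i)‖ ≤ √(∑ i, ‖z i‖ ^ 2) :=
  Real.le_sqrt_of_sq_le (by simpa using vn.row z)

theorem tloc_lower (h : Mod M J ξ F) {f₁ f : H →L[ℂ] H} (m₁ : f₁ ∈ M) (c₁ : rt J f₁ ξ = f₁ ξ)
    (hf : IsStarProjection f) {y b₀ c : H →L[ℂ] H} (hy : y ∈ M) (hc : Zc M c) {ι : Type*}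
    [Fintype ι] {v : ι → (H →L[ℂ] H)} (hv : ∀ i, v i ∈ M ∧ f * v i = v i ∧ v i * f₁ = v i)
    (vn : GCol 1 v) (r : ℝ) {γ : ℝ} (hb : ‖f * (F.σ (-r) b₀ - c) * f‖ ≤ γ) :
    ‖rt J y (f₁ ξ) - c (f₁ ξ)‖ ≤ √(∑ i, ‖(rt J y - b₀) (F.V r (v i ξ))‖ ^ 2) + γ * ‖f₁ ξ‖ +
      (‖y‖ + ‖c‖) * ‖(f₁ - ∑ i, star (v i) * v i) ξ‖ := by
  have hyr := h.sigma_mem (-r) y hy
  have hγ : 0 ≤ γ := (norm_nonneg _).trans hb
  have a1 : ∀ i, f (v i ξ) = v i ξ := fun i => by rw [← mul_apply_eq_comp, (hv i).2.1]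
  have a2 : ∀ i z, star (v i) (f z) = star (v i) z := fun i z => by
    rw [← mul_apply_eq_comp, star_left hf (hv i).2.1]
  have a3 : F.V (-r) (c (f₁ ξ)) = c (f₁ ξ) := by
    rw [← F.σ_V, hc.sigma h, h.loc_V m₁ c₁]
  have a5 : ∀ i, F.V (-r) (b₀ (F.V r (v i ξ))) = F.σ (-r) b₀ (v i ξ) := fun i => by
    rw [F.σ_apply₃, neg_neg]
  have a4 : F.V (-r) (rt J y (f₁ ξ) - c (f₁ ξ)) =
      ∑ i, star (v i) (F.V (-r) ((rt J y - b₀) (F.V r (v i ξ)))) +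
        ∑ i, star (v i) ((f * (F.σ (-r) b₀ - c) * f) (v i ξ)) +
        (rt J (F.σ (-r) y) - c) ((f₁ - ∑ i, star (v i) * v i) ξ) := by
    rw [← Finset.sum_add_distrib]
    have a6 : ∀ i, star (v i) (F.V (-r) ((rt J y - b₀) (F.V r (v i ξ)))) +
        star (v i) ((f * (F.σ (-r) b₀ - c) * f) (v i ξ)) =
        (rt J (F.σ (-r) y) - c) ((star (v i) * v i) ξ) := fun i => by
      simp only [sub_apply, map_sub, mul_apply_eq_comp, h.pre.V_rt, F.V_neg_V, a1, a2, a5,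
        h.bi.comm_apply (star_mem (hv i).1) hyr, hc.comm_apply (star_mem (hv i).1)]
      abel
    rw [Finset.sum_congr rfl fun i _ => a6 i, ← map_sum, ← map_add, sub_apply f₁, sum_apply,
      add_sub_cancel, map_sub, a3, h.pre.V_rt, h.loc_V m₁ c₁, sub_apply]
  rw [← F.V_norm (-r) (rt J y (f₁ ξ) - c (f₁ ξ)), a4]
  refine norm_add₃_le.trans (add_le_add (add_le_add ?_ ?_) ?_)
  · simpa only [F.V_norm] using tloc_row vn fun i => F.V (-r) ((rt J y - b₀) (F.V r (v i ξ)))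
  · refine (tloc_row vn _).trans (Real.sqrt_le_iff.2 ⟨by positivity, ?_⟩)
    refine le_trans (Finset.sum_le_sum fun i _ => pow_le_pow_left₀ (norm_nonneg _)
      (ContinuousLinearMap.le_of_opNorm_le _ hb _) 2) ?_
    simp only [mul_pow, ← Finset.mul_sum]
    exact mul_le_mul_of_nonneg_left (tloc_col (fun i => (hv i).2.2) vn ξ) (sq_nonneg _)
  · refine ContinuousLinearMap.le_of_opNorm_le _ ((norm_sub_le _ _).trans ?_) _
    rw [h.cj.norm_rt, F.σ_norm]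

theorem tloc_net (h : Mod M J ξ F) {b₀ : H →L[ℂ] H} (hb : b₀ ∈ M)
    (hcont : Continuous fun r => F.σ r b₀) (T : ℝ) {e : H →L[ℂ] H} (heM : e ∈ M)
    (he : IsStarProjection e) {γ : ℝ} (hγ : 0 < γ) :
    ∃ f, Sub M f e ∧ ∀ r, |r| ≤ T →
      ∃ c, Zc M c ∧ ‖c‖ ≤ 2 * ‖b₀‖ ∧ ‖f * (F.σ r b₀ - c) * f‖ ≤ γ := by
  obtain ⟨t, ht, hfin, hcov⟩ := finite_cover_balls_of_compact
    ((isCompact_Icc (a := -T) (b := T)).image hcont) (half_pos hγ)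
  obtain ⟨f, fs, hf⟩ := exists_central_corner M hfin.toFinset (b := fun a => a) (by
    intro a ha
    obtain ⟨r, -, rfl⟩ := ht (hfin.mem_toFinset.1 ha)
    exact h.sigma_mem r b₀ hb) heM he (half_pos hγ)
  refine ⟨f, fs, fun r hr => ?_⟩
  obtain ⟨a, ha, har⟩ := Set.mem_iUnion₂.1 (hcov ⟨r, abs_le.1 hr, rfl⟩)
  obtain ⟨c, hc, hc1, hc2⟩ := hf a (hfin.mem_toFinset.2 ha)
  refine ⟨c, hc, ?_, ?_⟩
  · obtain ⟨r', -, rfl⟩ := ht ha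
    rwa [F.σ_norm] at hc1
  have e1 : f * (F.σ r b₀ - c) * f = f * (F.σ r b₀ - a) * f + f * (a - c) * f := by
    rw [← add_mul, ← mul_add, sub_add_sub_cancel]
  have e2 : ‖f * (F.σ r b₀ - a) * f‖ ≤ ‖F.σ r b₀ - a‖ :=
    (norm_mul_le _ _).trans ((mul_le_of_le_one_right (norm_nonneg _) fs.proj.norm_le).trans
      ((norm_mul_le _ _).trans (mul_le_of_le_one_left (norm_nonneg _) fs.proj.norm_le)))
  rw [Metric.mem_ball, dist_eq_norm] at har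
  rw [e1]
  linarith [norm_add_le (f * (F.σ r b₀ - a) * f) (f * (a - c) * f)]

theorem cmp_two' (p q : ℝ) : (p + q) ^ 2 ≤ 2 * (p ^ 2 + q ^ 2) := by
  linarith [sq_nonneg (p - q)]

theorem tloc_band (h : Mod M J ξ F) {f₁ f₂ : H →L[ℂ] H} (m₁ : f₁ ∈ M)
    (p₁ : IsStarProjection f₁) (c₁ : rt J f₁ ξ = f₁ ξ) (m₂ : f₂ ∈ M) (p₂ : IsStarProjection f₂)
    (c₂ : rt J f₂ ξ = f₂ ξ) {y b : H →L[ℂ] H} (hy : y ∈ M) (hb : b ∈ M) {ρ : H} {d n τ : ℝ}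
    (hd : 0 < d) (hn : 0 < n) (hn₁ : ‖f₁ ξ‖ ≤ n) (hρ : ‖ρ - rt J y (f₁ ξ)‖ ≤ d / 10)
    (hc : ∀ c, Zc M c → ‖c‖ ≤ 2 * ‖b‖ → d ≤ ‖rt J y (f₁ ξ) - c (f₁ ξ)‖)
    (hz : ∀ z, Zc M z → IsStarProjection z → ‖z (f₁ ξ)‖ ≤ ‖z (f₂ ξ)‖ + τ)
    (hτ : (‖y‖ + 2 * ‖b‖) * τ ≤ d / 100) {ε : ℝ} (hε : 0 < ε) :
    ∃ s : ℝ, ∃ x ∈ M, f₂ * x = x ∧ x * f₁ = x ∧ F.Supp (x ξ) (Set.Icc (s - ε) (s + ε)) ∧
      d / (4 * n) * ‖x ξ‖ < ‖x ρ - b (x ξ)‖ := by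
  by_contra hcon
  have hno : ∀ s : ℝ, ∀ x ∈ M, f₂ * x = x → x * f₁ = x →
      F.Supp (x ξ) (Set.Icc (s - ε) (s + ε)) → ‖x ρ - b (x ξ)‖ ≤ d / (4 * n) * ‖x ξ‖ :=
    fun s x a1 a2 a3 a4 => not_lt.1 fun a5 => hcon ⟨s, x, a1, a2, a3, a4, a5⟩
  obtain ⟨A, hA⟩ : ∃ A, A = ‖y‖ + 2 * ‖b‖ := ⟨_, rfl⟩
  have hA0 : 0 ≤ A := by rw [hA]; positivity
  obtain ⟨τ₁, t0, t1⟩ : ∃ τ₁ : ℝ, 0 < τ₁ ∧ A * τ₁ ≤ d / 200 := by
    refine ⟨d / 200 / (A + 1), by positivity, ?_⟩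
    rw [← mul_div_assoc, div_le_iff₀ (by positivity)]
    nlinarith
  obtain ⟨g, hg⟩ : ∃ g, g = d / (10 * n) := ⟨_, rfl⟩
  have g0 : 0 < g := by rw [hg]; positivity
  have gn : g * n = d / 10 := by rw [hg]; field_simp
  obtain ⟨m, hm⟩ := (Metric.tendsto_atTop.1 (F.tendsto_tri_atTop (b (f₂ ξ))) (g * τ₁)
    (by positivity))
  have hm0 : (0 : ℝ) < m + 1 := by positivity
  obtain ⟨b₀, hb₀⟩ : ∃ b₀, b₀ = F.band 0 (m + 1) b := ⟨_, rfl⟩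
  have b₀M : b₀ ∈ M := hb₀ ▸ h.band_mem hm0 0 hb
  have b₀n : ‖b₀‖ ≤ ‖b‖ := hb₀ ▸ F.norm_band_le hm0 0 b
  have hcont : Continuous fun r => F.σ r b₀ := hb₀ ▸ F.continuous_σ_sm (integrable_fejx hm0 0) b
  have hw : ‖(b - b₀) (f₂ ξ)‖ < g * τ₁ := by
    have := hm m le_rfl
    rw [dist_eq_norm, norm_sub_rev] at this
    rwa [sub_apply, hb₀, FC.band, F.sm_apply_fixed (integrable_fejx hm0 0) b (h.loc_V m₂ c₂),
      ft_fejx hm0]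
  have wM : b - b₀ ∈ M := sub_mem hb b₀M
  obtain ⟨f', m', p', l', hf', hl'⟩ := exists_large_corner M
    (h.band_mem hε 0 (mul_mem (star_mem wM) wM))
    (by rw [IsSelfAdjoint, F.star_band hε, neg_zero, star_mul, star_star])
    (fun ζ => by
      rw [← loc_mean F hε]
      exact mn_nonneg hε fun _ => sq_nonneg _) m₂ p₂ (g ^ 2)
  have hsm : ‖f₂ ξ - f' (f₂ ξ)‖ ≤ τ₁ := by
    have a1 := hl' (f₂ ξ) (by rw [← mul_apply_eq_comp, p₂.isIdempotentElem.eq])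
    rw [← loc_mean F hε] at a1
    simp only [h.loc_V m₂ c₂] at a1
    rw [mn_const hε, ← mul_pow] at a1
    exact le_of_mul_le_mul_left ((abs_le_of_sq_le_sq' a1 (norm_nonneg _)).2.trans hw.le) g0
  obtain ⟨T, -, hT'⟩ := le_mn_of_window hε (show (0 : ℝ) < 1 / 100 by norm_num)
  obtain ⟨f, fs, hf⟩ := tloc_net h b₀M hcont T m' p' (show 0 < g / 10 by positivity)
  obtain ⟨k, v, hv, vn, hcov⟩ := exists_fcover M m₁ p₁ fs.mem fs.proj ξ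
    (show τ₁ + τ < 2 * τ₁ + τ by linarith) fun z z1 z2 z3 => by
      refine (hz z z1 z2).trans (add_le_add ?_ le_rfl)
      refine le_trans (le_of_eq ?_) ((proj_norm_apply_le z2 _).trans hsm)
      rw [map_sub, ← mul_apply_eq_comp z f', fs.full z z1 z2 z3, zero_apply, sub_zero]
  have fv : ∀ i, f' * v i = v i := fun i => by rw [← (hv i).2.1, ← mul_assoc, fs.le]
  have hup := tloc_upper h m₁ c₁ m₂ c₂ hy ρ (by positivity) hε hno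
    (fun i => ⟨(hv i).1, by rw [← fv i, ← mul_assoc, l'], (hv i).2.2⟩) vn
  have n2 := pow_le_pow_left₀ (norm_nonneg _) hn₁ 2
  have hs2 : mn ε (fun r => ∑ i, ‖(b - b₀) (F.V r (v i ξ))‖ ^ 2) ≤ (d / 10) ^ 2 := by
    rw [mn_sum hε _ fun i _ => loc_br F _ _]
    simp only [loc_mean F hε]
    refine (Finset.sum_le_sum fun i _ => hf' (v i ξ) (by rw [← mul_apply_eq_comp, fv])).trans ?_
    rw [← Finset.mul_sum, ← gn, mul_pow]
    exact mul_le_mul_of_nonneg_left ((tloc_col (fun i => (hv i).2.2) vn ξ).trans n2) (sq_nonneg _)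
  have b1 : BR fun r => ∑ i, ‖(rt J y - b) (F.V r (v i ξ))‖ ^ 2 := BR.sum _ fun i _ => loc_br F _ _
  have b2 : BR fun r => ∑ i, ‖(b - b₀) (F.V r (v i ξ))‖ ^ 2 := BR.sum _ fun i _ => loc_br F _ _
  have hwin := hT' (fun r => 2 * (∑ i, ‖(rt J y - b) (F.V r (v i ξ))‖ ^ 2 +
      ∑ i, ‖(b - b₀) (F.V r (v i ξ))‖ ^ 2)) (fun _ => (97 / 100 * d) ^ 2) ((b1.add b2).const_mul 2)
    (BR.const _) (d ^ 2) (fun r => by
      have : 0 ≤ 2 * (∑ i, ‖(rt J y - b) (F.V r (v i ξ))‖ ^ 2 +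
        ∑ i, ‖(b - b₀) (F.V r (v i ξ))‖ ^ 2) := by positivity
      linarith [sq_nonneg d]) (by positivity) (fun r hr => by
      obtain ⟨c, c1, c2, c3⟩ := hf (-r) (by rwa [abs_neg])
      have c4 : ‖c‖ ≤ 2 * ‖b‖ := by linarith
      have a1 := (hc c c1 c4).trans (tloc_lower h m₁ c₁ fs.proj hy c1 hv vn r c3)
      have a2 : (‖y‖ + ‖c‖) * ‖(f₁ - ∑ i, star (v i) * v i) ξ‖ ≤ A * (2 * τ₁ + τ) :=
        mul_le_mul (by linarith) hcov (norm_nonneg _) hA0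
      have a3 := mul_le_mul_of_nonneg_left hn₁ g0.le
      rw [← hA] at hτ
      refine ((Real.le_sqrt (by positivity) (by positivity)).1
        (show 97 / 100 * d ≤ √(∑ i, ‖(rt J y - b₀) (F.V r (v i ξ))‖ ^ 2) by linarith)).trans ?_
      rw [← Finset.sum_add_distrib, Finset.mul_sum]
      refine Finset.sum_le_sum fun i _ => ?_
      have a4 : ‖(rt J y - b₀) (F.V r (v i ξ))‖ ≤
          ‖(rt J y - b) (F.V r (v i ξ))‖ + ‖(b - b₀) (F.V r (v i ξ))‖ := by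
        refine le_trans (le_of_eq ?_) (norm_add_le _ _)
        rw [← add_apply, sub_add_sub_cancel]
      exact (pow_le_pow_left₀ (norm_nonneg _) a4 2).trans (cmp_two' _ _))
  rw [mn_const hε, mn_const_mul, mn_add hε b1 b2] at hwin
  have a5 := pow_le_pow_left₀ (norm_nonneg _) hρ 2
  have a6 : (d / (4 * n)) ^ 2 * ‖f₁ ξ‖ ^ 2 ≤ (d / 4) ^ 2 :=
    (mul_le_mul_of_nonneg_left n2 (sq_nonneg _)).trans (le_of_eq (by field_simp))
  have : 0 < d ^ 2 := by positivity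
  linarith

end Vale.Agent.P096
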