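import Vale.Agent.P096.TDefs

/-! Relative commutants of matrix generators in close algebras. -/

open scoped InnerProductSpace Topology
open Filter

namespace Vale.Agent.P096

open Vale.Agent.P104 Vale.Agent.P132

variable {H : Type*} [NormedAddCommGroup H] [InnerProductSpace ℂ H] [CompleteSpace H]

theorem Car.norm_sq {I : Type*} {B : I → (H →L[ℂ] H)} (h : Car B) (i : I) (η : H) :
    ‖B i η‖ ^ 2 + ‖star (B i) η‖ ^ 2 = ‖η‖ ^ 2 := by
  rw [norm_sq_apply, norm_sq_apply, star_star, ← Complex.add_re, ← inner_add_right, ← add_apply,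
    h.sum, one_apply_eq_self, ← inner_self_eq_norm_sq (𝕜 := ℂ)]
  rfl

theorem Car.norm_le {I : Type*} {B : I → (H →L[ℂ] H)} (h : Car B) (i : I) : ‖B i‖ ≤ 1 :=
  ContinuousLinearMap.opNorm_le_bound _ zero_le_one fun η => by
    rw [one_mul]
    exact (abs_le_of_sq_le_sq' (by linarith [h.norm_sq i η, sq_nonneg ‖star (B i) η‖])
      (norm_nonneg _)).2

theorem Car.sq' {I : Type*} {B : I → (H →L[ℂ] H)} (h : Car B) (i : I) :
    star (B i) * star (B i) = 0 := by rw [← star_mul, h.sq, star_zero]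

theorem Car.pi {I : Type*} {B : I → (H →L[ℂ] H)} (h : Car B) (i : I) :
    B i * star (B i) * B i = B i := by
  have := congrArg (· * B i) (h.sum i)
  simpa only [add_mul, mul_assoc (star (B i)), h.sq, mul_zero, zero_add, one_mul] using this

theorem Car.pi' {I : Type*} {B : I → (H →L[ℂ] H)} (h : Car B) (i : I) :
    star (B i) * B i * star (B i) = star (B i) := by
  simpa only [star_mul, star_star, mul_assoc] using congrArg star (h.pi i)

theorem Car.isMU {I : Type*} {B : I → (H →L[ℂ] H)} (h : Car B) (i : I) :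
    IsMU 1 ![![star (B i) * B i, star (B i)], ![B i, B i * star (B i)]] := by
  have a1 := h.sq i
  have a2 := h.sq' i
  have a3 := h.pi i
  have a4 := h.pi' i
  have b1 : ∀ T, B i * (B i * T) = 0 := fun T => by rw [← mul_assoc, a1, zero_mul]
  have b2 : ∀ T, star (B i) * (star (B i) * T) = 0 := fun T => by rw [← mul_assoc, a2, zero_mul]
  have b3 : ∀ T, B i * (star (B i) * (B i * T)) = B i * T := fun T => by
    rw [← mul_assoc, ← mul_assoc, a3]
  have b4 : ∀ T, star (B i) * (B i * (star (B i) * T)) = star (B i) * T := fun T => by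
    rw [← mul_assoc, ← mul_assoc, a4]
  rw [mul_assoc] at a3 a4
  refine ⟨fun s t s' t' => ?_, fun s t => ?_, ?_⟩
  · fin_cases s <;> fin_cases t <;> fin_cases s' <;> fin_cases t' <;>
      simp [mul_assoc, a1, a2, a3, a4, b1, b2, b3, b4]
  · fin_cases s <;> fin_cases t <;> simp
  · rw [Fin.sum_univ_two]
    exact h.sum i

/-- Symmetry averaging. -/
theorem avg_sym {Q : VonNeumannAlgebra H} {u x y : H →L[ℂ] H} (hu : u ∈ Q) (hs : star u = u)
    (huu : u * u = 1) (hx : u * x = x * u) (hy : y ∈ Q) : ∃ y' ∈ Q, ‖x - y'‖ ≤ ‖x - y‖ ∧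
      u * y' = y' * u ∧ ∀ w, w * y = y * w → (w * u = u * w ∨ w * u = -(u * w)) →
        w * y' = y' * w := by
  have nu : ‖u‖ ≤ 1 := by
    have e2 := CStarRing.norm_star_mul_self (x := u)
    rw [hs, huu] at e2
    have e3 : ‖(1 : H →L[ℂ] H)‖ ≤ 1 := ContinuousLinearMap.norm_id_le
    nlinarith [norm_nonneg u]
  refine ⟨(2 : ℂ)⁻¹ • (y + u * y * u), vn_smul _ (add_mem hy (mul_mem (mul_mem hu hy) hu)),
    ?_, ?_, fun w h1 h2 => ?_⟩
  · have e : x - (2 : ℂ)⁻¹ • (y + u * y * u) = (2 : ℂ)⁻¹ • ((x - y) + u * (x - y) * u) := by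
      rw [mul_sub, sub_mul, hx, mul_assoc x, huu, mul_one]
      module
    have n : ‖u * (x - y) * u‖ ≤ ‖x - y‖ :=
      (norm_mul_le _ _).trans ((mul_le_of_le_one_right (norm_nonneg _) nu).trans
        ((norm_mul_le _ _).trans (mul_le_of_le_one_left (norm_nonneg _) nu)))
    rw [e, norm_smul, norm_inv, Complex.norm_two]
    linarith [norm_add_le (x - y) (u * (x - y) * u)]
  · rw [mul_smul_comm, smul_mul_assoc, mul_add, add_mul, ← mul_assoc, ← mul_assoc, huu, one_mul,
      mul_assoc _ u u, huu, mul_one, add_comm]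
  · rw [mul_smul_comm, smul_mul_assoc, mul_add, add_mul, h1]
    congr 2
    rcases h2 with h2 | h2
    · rw [← mul_assoc, ← mul_assoc, h2, mul_assoc u, h1, mul_assoc, mul_assoc, h2]
      simp only [mul_assoc]
    · rw [← mul_assoc, ← mul_assoc, h2, neg_mul, neg_mul, mul_assoc u, h1, mul_assoc, mul_assoc,
        h2]
      simp only [mul_assoc, mul_neg, neg_neg]

theorem Car.step {I : Type*} {B : I → (H →L[ℂ] H)} (h : Car B) {Q : VonNeumannAlgebra H}
    (hB : ∀ i, B i ∈ Q) {x y : H →L[ℂ] H} (hx : x ∈ vnc (Set.range B)) (hy : y ∈ Q) (i : I) :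
    ∃ y' ∈ Q, ‖x - y'‖ ≤ ‖x - y‖ ∧ y' ∈ vnc {B i} ∧
      ∀ j, j ≠ i → y ∈ vnc {B j} → y' ∈ vnc {B j} := by
  obtain ⟨x1, x2⟩ := mem_vnc.1 hx _ ⟨i, rfl⟩
  have a1 := h.sq i
  have a2 := h.sq' i
  have a3 := h.pi i
  have a4 := h.pi' i
  have a5 := h.sum i
  set b := B i
  have q1 : b * (star b * b) = b := by rw [← mul_assoc, a3]
  have q2 : star b * (b * star b) = star b := by rw [← mul_assoc, a4]
  have q3 : star b * b * b = 0 := by rw [mul_assoc, a1, mul_zero]
  have q4 : b * star b * star b = 0 := by rw [mul_assoc, a2, mul_zero]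
  have q5 : b * (b * star b) = 0 := by rw [← mul_assoc, a1, zero_mul]
  have q6 : star b * (star b * b) = 0 := by rw [← mul_assoc, a2, zero_mul]
  have u1 : (b + star b) * (b + star b) = 1 := by
    rw [add_mul, mul_add, mul_add, a1, a2, zero_add, add_zero, add_comm, a5]
  have u2 : (star b * b - b * star b) * (star b * b - b * star b) = 1 := by
    rw [sub_mul, mul_sub, mul_sub, ← mul_assoc, ← mul_assoc, ← mul_assoc, ← mul_assoc, a4, q3, q4,
      a3, zero_mul, zero_mul, sub_zero, zero_sub, sub_neg_eq_add, a5]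
  have u3 : (b + star b) * (star b * b - b * star b) = b - star b := by
    rw [add_mul, mul_sub, mul_sub, q1, q5, q6, q2, sub_zero, zero_sub, sub_eq_add_neg]
  have u4 : (star b * b - b * star b) * (b + star b) = -(b - star b) := by
    rw [mul_add, sub_mul, sub_mul, q3, a3, a4, q4, zero_sub, sub_zero, neg_sub, neg_add_eq_sub]
  obtain ⟨y1, m1, n1, c1, d1⟩ := avg_sym (u := b + star b) (x := x)
    (add_mem (hB i) (star_mem (hB i))) (by rw [star_add, star_star, add_comm]) u1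
    (by rw [add_mul, mul_add, x1, x2]) hy
  obtain ⟨y2, m2, n2, c2, d2⟩ := avg_sym (u := star b * b - b * star b) (x := x)
    (sub_mem (mul_mem (star_mem (hB i)) (hB i)) (mul_mem (hB i) (star_mem (hB i))))
    (by rw [star_sub, star_mul, star_mul, star_star]) u2
    (by rw [sub_mul, mul_sub, mul_assoc, mul_assoc, x1, x2, ← mul_assoc, ← mul_assoc, x1, x2,
      mul_assoc, mul_assoc]) m1
  have c3 := d2 _ c1 (Or.inr (by rw [u3, u4, neg_neg]))
  have c4 : (b - star b) * y2 = y2 * (b - star b) := by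
    rw [← u3, mul_assoc, c2, ← mul_assoc, c3, mul_assoc]
  refine ⟨y2, m2, n2.trans n1, mem_vnc.2 ?_, fun j hj hyj => mem_vnc.2 ?_⟩
  · rintro _ rfl
    rw [add_mul, mul_add] at c3
    rw [sub_mul, mul_sub] at c4
    have t : ∀ S T : H →L[ℂ] H, (2 : ℂ) • S = (2 : ℂ) • T → S = T := fun S T e =>
      smul_right_injective _ two_ne_zero e
    exact ⟨t _ _ (by linear_combination (norm := module) c3 + c4),
      t _ _ (by linear_combination (norm := module) c3 - c4)⟩
  · rintro _ rfl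
    obtain ⟨y3, y4⟩ := mem_vnc.1 hyj _ rfl
    have m1 := h.comm _ _ hj
    have m2 := h.comm' _ _ hj
    have m3 := m2.star_star
    have m4 := m1.star_star
    rw [star_star] at m3
    exact ⟨d2 _ (d1 _ y3 (Or.inl (m1.add_right m3).eq))
        (Or.inl ((m3.mul_right m1).sub_right (m1.mul_right m3)).eq),
      d2 _ (d1 _ y4 (Or.inl (m2.add_right m4).eq))
        (Or.inl ((m4.mul_right m2).sub_right (m2.mul_right m4)).eq)⟩

theorem near_car {I : Type*} {B : I → (H →L[ℂ] H)} (h : Car B) {P Q : VonNeumannAlgebra H}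
    (hB : ∀ i, B i ∈ Q) {γ : ℝ} (hn : Near γ (P : Set (H →L[ℂ] H)) Q) :
    Near γ {x | x ∈ P ∧ x ∈ vnc (Set.range B)} {y | y ∈ Q ∧ y ∈ vnc (Set.range B)} := by
  classical
  rintro x ⟨hx, hx'⟩
  obtain ⟨y, hy, hd⟩ := hn x hx
  have fin : ∀ S : Finset I, ∃ y' ∈ Q, ‖x - y'‖ ≤ γ * ‖x‖ ∧ ∀ j ∈ S, y' ∈ vnc {B j} := by
    intro S
    induction S using Finset.induction_on with
    | empty => exact ⟨y, hy, hd, by simp⟩
    | insert i S hi ih =>
      obtain ⟨y1, m1, n1, c1⟩ := ih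
      obtain ⟨y2, m2, n2, c2, d2⟩ := h.step hB hx' m1 i
      refine ⟨y2, m2, n2.trans n1, fun j hj => ?_⟩
      rcases Finset.mem_insert.1 hj with rfl | hj
      · exact c2
      · exact d2 j (fun e => hi (e ▸ hj)) (c1 j hj)
  choose Y Y1 Y2 Y3 using fin
  let U : Ultrafilter (Finset I) := Ultrafilter.of atTop
  obtain ⟨T, nT, hT⟩ := exists_wlim U (fun S => x - Y S) (Eventually.of_forall Y2)
  have hl : ∀ η ζ, Tendsto (fun S => ⟪η, Y S ζ⟫_ℂ) U (𝓝 ⟪η, (x - T) ζ⟫_ℂ) := fun η ζ => by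
    have := (hT η ζ).const_sub ⟪η, x ζ⟫_ℂ
    simpa only [sub_apply, inner_sub_right, sub_sub_cancel] using this
  refine ⟨x - T, ⟨mem_of_wlim (Eventually.of_forall Y1) hl, mem_vnc.2 ?_⟩, by
    rwa [sub_sub_cancel]⟩
  rintro _ ⟨j, rfl⟩
  have hj : ∀ᶠ S in (U : Filter (Finset I)), Y S ∈ vnc {B j} :=
    (Ultrafilter.of_le atTop) ((eventually_ge_atTop {j}).mono fun S hS =>
      Y3 S j (hS (Finset.mem_singleton_self j)))
  exact mem_vnc.1 (mem_of_wlim hj hl) _ rfl

end Vale.Agent.P096
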