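import Vale.Agent.P096.TLoc
import Vale.Agent.P096.TComp
import Vale.Agent.P096.TFinA

/-! The local step. -/

open scoped InnerProductSpace Topology
open Filter

namespace Vale.Agent.P096

open Vale.Agent.P104 Vale.Agent.P132

variable {H : Type*} [NormedAddCommGroup H] [InnerProductSpace ℂ H] [CompleteSpace H]
  {M : VonNeumannAlgebra H} {J : H →L⋆[ℂ] H} {ξ : H} {F : FC H}

theorem tfin_step (h : Mod M J ξ F) (hY : TailJ M J ξ) {e : Fin 2 → Fin 2 → (H →L[ℂ] H)}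
    (he : MU2 M J ξ e) {a a' : H →L[ℂ] H} (ha : a ∈ M) (ha' : a' ∈ M) (ea : a ξ = rt J a' ξ)
    (hc : ∀ i j, a * e i j = e i j * a) {d θ : ℝ} (hd : 0 < d)
    (far : ∀ c, Zc M c → d ≤ ‖e 0 0 (a ξ - c ξ)‖) {p q : H →L[ℂ] H} (hpM : p ∈ M)
    (hp : IsStarProjection p) (hpe : e 0 0 * p = p) (hqM : q ∈ M) (hq : IsStarProjection q)
    (hqe : e 1 1 * q = q) (t1 : ‖p ξ‖ ≤ θ) (t2 : ‖q ξ‖ ≤ 2 * θ)
    (t3 : (‖a'‖ + ‖a‖) * θ ≤ d / 1600) {B : ℝ} (hB0 : 0 ≤ B) :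
    ∃ v ∈ M, IsPI v ∧ (e 1 1 - q) * v = v ∧ v * (e 0 0 - p) = v ∧
      2 * (d / ‖ξ‖ / 48) ^ 2 * ‖v (P132.cmp J (1 - p) ξ)‖ ^ 2 +
        B * ‖df J 1 v (P132.cmp J (1 - p) ξ) (P132.cmp J (1 - q) ξ)‖ ^ 2 <
      ‖v (P132.cmp J (1 - p) (a ξ)) - rt J v ((1 - q) (a (P132.cmp J (1 - q) ξ)))‖ ^ 2 := by
  have hB := h.bi
  have hJ := hB.cj
  have o1 : e 0 0 * q = 0 := by rw [← hqe, ← mul_assoc, he.orth, zero_mul]
  have o0 : e 1 1 * e 0 0 = 0 := by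
    simpa only [star_mul, he.mu.star, star_zero] using congrArg star he.orth
  have o2 : e 1 1 * p = 0 := by rw [← hpe, ← mul_assoc, o0, zero_mul]
  have o3 : p * q = 0 := by rw [← proj_flip (he.proj 0) hp hpe, mul_assoc, o1, mul_zero]
  have hr : IsStarProjection (p + q) := hp.add hq o3
  have s₁ : TfSide M (e 0 0) p (p + q) := ⟨he.mem 0 0, hpM, add_mem hpM hqM, he.proj 0, hp, hr, hpe,
    by rw [mul_add, hpe, o1, add_zero]⟩
  have s₂ : TfSide M (e 1 1) q (p + q) := ⟨he.mem 1 1, hqM, add_mem hpM hqM, he.proj 1, hq, hr, hqe,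
    by rw [mul_add, hqe, o2, zero_add]⟩
  obtain ⟨F', h'⟩ := exists_pinch h (add_mem hpM hqM) hr
  obtain ⟨k₁, k₁'⟩ := s₁.pinch hB (he.cen 0 0)
  obtain ⟨k₂, k₂'⟩ := s₂.pinch hB (he.cen 1 1)
  obtain ⟨g1, g2, g3⟩ := s₁.geo hB h.fix (he.cen 0 0) ha ha' ea (hc 0 0)
  obtain ⟨g4, -, -⟩ := s₂.geo hB h.fix (he.cen 1 1) ha ha' ea (hc 1 1)
  have hA : rt J (e 0 0) (a ξ) = e 0 0 (a ξ) := by
    rw [← hB.comm_apply ha s₁.mE, he.cen, ← mul_apply_eq_comp, hc, mul_apply_eq_comp]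
  have u1 := s₁.left hB (he.cen 0 0)
  have u2 := s₁.left hB hA
  have u3 := s₂.right hB (he.cen 1 1)
  have u4 : (1 - q) * a * (e 1 1 - q) = (e 1 1 - q) * a * (e 1 1 - q) := by
    conv_lhs => rw [← s₂.Ef, ← mul_assoc, mul_assoc _ a, hc, ← mul_assoc, s₂.l2]
  have m₁ := s₁.mem
  have m₂ := s₂.mem
  have p₁ := s₁.proj
  have p₂ := s₂.proj
  have fE₁ := s₁.fE
  have Ef₁ := s₁.Ef
  generalize P132.cmp J (1 - (p + q)) ξ + P132.cmp J (p + q) ξ = ζ at h' k₁ k₁' k₂ k₂'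
  generalize e 0 0 - p = f₁ at *
  generalize e 1 1 - q = f₂ at *
  have hθ : 0 ≤ θ := (norm_nonneg _).trans t1
  have hn : 0 < ‖ξ‖ := norm_pos_iff.2 fun h0 => by
    have := far 0 Zc.zero
    rw [h0] at this
    simp only [map_zero, sub_zero, norm_zero] at this
    linarith
  have w1 : ‖a'‖ * θ ≤ d / 1600 := by nlinarith [norm_nonneg a]
  have w2 : ‖a‖ * θ ≤ d / 1600 := by nlinarith [norm_nonneg a']
  have g2' := g2.trans (mul_le_mul_of_nonneg_left t1 (norm_nonneg _))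
  have g3' := g3.trans (mul_le_mul_of_nonneg_left t1 (by positivity))
  have nb : ‖f₂ * a‖ ≤ ‖a‖ := (norm_mul_le _ _).trans
    (mul_le_of_le_one_left (norm_nonneg _) p₂.norm_le)
  have ny : ‖f₁ * a' * f₁‖ ≤ ‖a'‖ :=
    (norm_mul_le _ _).trans ((mul_le_of_le_one_right (norm_nonneg _) p₁.norm_le).trans
      ((norm_mul_le _ _).trans (mul_le_of_le_one_left (norm_nonneg _) p₁.norm_le)))
  have hc0 : 0 < d / ‖ξ‖ / 2 / 4 := by positivity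
  have hκ0 : 0 ≤ 4 * (B + ‖a‖ ^ 2 / 2 + 64 * B ^ 2 / (d / ‖ξ‖ / 2 / 4) ^ 2) := by positivity
  have hδ := div_pos hc0 (mul_pos two_pos (add_pos_of_nonneg_of_pos hκ0 one_pos))
  obtain ⟨s, x, hx, x2, x1, xS, xR⟩ := tloc_band h' m₁ p₁ (k₁'.trans k₁.symm) m₂ p₂
    (k₂'.trans k₂.symm) (mul_mem (mul_mem m₁ ha') m₁) (mul_mem m₂ ha) (ρ := P132.cmp J f₁ (a ξ))
    (d := d / 2) (n := ‖ξ‖) (τ := 4 * θ) (half_pos hd) hn (k₁ ▸ tf_cmp_le hJ p₁ ξ)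
    (by rw [k₁]; linarith) (fun c c1 c2 => by
      rw [k₁]
      have e1 : e 0 0 (a ξ - c ξ) = (e 0 0 (a ξ) - P132.cmp J f₁ (a ξ)) +
          (P132.cmp J f₁ (a ξ) - rt J (f₁ * a' * f₁) (P132.cmp J f₁ ξ)) +
          (rt J (f₁ * a' * f₁) (P132.cmp J f₁ ξ) - c (P132.cmp J f₁ ξ)) - c (e 0 0 ξ - P132.cmp J f₁ ξ) := by
        rw [map_sub, map_sub c, c1.comm_apply (he.mem 0 0)]
        abel
      have e2 := (far c c1).trans ((congrArg norm e1).le.trans ((norm_sub_le _ _).trans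
        (add_le_add norm_add₃_le le_rfl)))
      have e3 : ‖c (e 0 0 ξ - P132.cmp J f₁ ξ)‖ ≤ 2 * ‖a‖ * (2 * θ) := (c.le_opNorm _).trans
        (mul_le_mul (by linarith) (by linarith) (norm_nonneg _) (by positivity))
      linarith)
    (fun z z1 z2 => by
      rw [k₁, k₂]
      have e1 : ‖z (P132.cmp J f₁ ξ)‖ ≤ ‖e 0 0 (z ξ)‖ := by
        refine le_trans (le_of_eq ?_) (tf_cmp_le hJ p₁ _)
        rw [P132.cmp, P132.cmp, z1.comm_apply m₁, hB.comm_apply z1.1 m₁, ← hB.comm_apply (he.mem 0 0) m₁,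
          ← mul_apply_eq_comp f₁ (e 0 0), fE₁]
      have e2 := he.norm_swap hB z1.1 fun i j => z1.comm (he.mem i j)
      have e3 : e 1 1 (z ξ) = z (P132.cmp J f₂ ξ) + z (e 1 1 ξ - P132.cmp J f₂ ξ) := by
        rw [← map_add, add_sub_cancel, z1.comm_apply (he.mem 1 1)]
      have e4 := (congrArg norm e3).le.trans ((norm_add_le _ _).trans
        (add_le_add le_rfl (proj_norm_apply_le z2 _)))
      linarith)
    (by nlinarith) (lt_min hδ one_pos)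
  have xd := (h'.df_le_of_supp hx (lt_min hδ one_pos).le (min_le_right _ _) xS).trans
    (mul_le_mul_of_nonneg_right (mul_le_mul_of_nonneg_right (min_le_left _ _)
      (Real.exp_pos _).le) (norm_nonneg _))
  have y1 : x ζ = x (P132.cmp J f₁ ξ) := by rw [← k₁, ← mul_apply_eq_comp, x1]
  have y2 : rt J x ζ = rt J x (P132.cmp J f₂ ξ) := by rw [← k₂', ← hJ.rt_mul_apply, x2]
  rw [df, y1, y2] at xd
  rw [y1, show d / 2 / (4 * ‖ξ‖) = d / ‖ξ‖ / 2 / 4 by field_simp] at xR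
  obtain ⟨z, hz, z2, z1, zR⟩ := hY.comp hB m₁ p₁ hx x2 x1 (mul_mem m₂ ha)
    (tf_cmp_fix hB m₁ p₁ _).1 (P132.cmp J f₂ ξ) (Real.exp_pos _) hδ.le hc0.le hκ0 (kappa_aux hκ0) xd xR
  obtain ⟨v, hv, hpi, v1, v2, vR⟩ := hB.cut (tf_cmp_J hB m₁ p₁ h.fix) (tf_cmp_J hB m₂ p₂ h.fix)
    (P132.cmp J f₁ (a ξ)) (f₂ (a (P132.cmp J f₂ ξ)))
    (A := 2 * (d / ‖ξ‖ / 48) ^ 2) (by positivity) hB0 hz (by
      generalize P132.cmp J f₁ ξ = ζ₁, P132.cmp J f₂ ξ = ζ₂, P132.cmp J f₁ (a ξ) = ρ at zR ⊢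
      have e1 : z ρ - (f₂ * a) (z ζ₁) =
          (z ρ - rt J z (f₂ (a ζ₂))) - f₂ (a (df J 1 z ζ₁ ζ₂)) := by
        rw [← hB.comm_apply m₂ hz, ← hB.comm_apply ha hz, df, Complex.ofReal_one, one_smul,
          map_sub a, map_sub f₂, mul_apply_eq_comp]
        abel
      have b1 := (proj_norm_apply_le p₂ (a (df J 1 z ζ₁ ζ₂))).trans (a.le_opNorm _)
      exact cut_aux rfl hc0 (pow_le_pow_left₀ (norm_nonneg _)
        ((congrArg (fun t : H => ‖t‖) e1).le.trans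
          ((norm_sub_le _ _).trans (add_le_add_right b1 _))) 2) zR)
  have v1' := v1 _ z2
  have v2' := v2 _ p₁ z1
  have r1 : ∀ η, v η = v (f₁ η) := fun η => by rw [← mul_apply_eq_comp, v2']
  have r2 : ∀ η, rt J v η = rt J v (rt J f₂ η) := fun η => by rw [← hJ.rt_mul_apply, v1']
  have m3 : (1 - q) * a ∈ M := mul_mem (sub_mem (one_mem M) hqM) ha
  refine ⟨v, hv, hpi, v1', v2', ?_⟩
  rw [df, r1 (P132.cmp J (1 - p) ξ), r1 (P132.cmp J (1 - p) (a ξ)), u1, u2, r2 (P132.cmp J (1 - q) ξ), u3,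
    r2 ((1 - q) _), ← mul_apply_eq_comp (1 - q), ← hB.comm_apply m3 m₂, u3,
    ← (tf_cmp_fix hB m₂ p₂ ξ).1, ← mul_apply_eq_comp ((1 - q) * a), u4, mul_apply_eq_comp,
    (tf_cmp_fix hB m₂ p₂ ξ).1]
  exact vR

end Vale.Agent.P096
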