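import Vale.Agent.P096.Corner
import Vale.Agent.P104.UniversalAux

/-! Ultrapowers. -/

open scoped InnerProductSpace Topology
open Filter

namespace Vale.Agent.P096

open Vale.Agent.P104 Vale.Agent.P132

universe u v w

section Pre

variable {K : Type u} [NormedAddCommGroup K] [InnerProductSpace ℂ K]

theorem ult_lim (a b : BoundedContinuousFunction ℕ K) :
    ∃ c : ℂ, Tendsto (fun n => ⟪a n, b n⟫_ℂ) (hyperfilter ℕ) (𝓝 c) := by
  obtain ⟨d, -, hd⟩ := (isCompact_closedBall (0 : ℂ) (‖a‖ * ‖b‖)).ultrafilter_le_nhds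
    ((hyperfilter ℕ).map fun n => ⟪a n, b n⟫_ℂ) (by
      rw [le_principal_iff, Ultrafilter.coe_map, mem_map]
      refine Eventually.of_forall fun n => ?_
      rw [mem_closedBall_zero_iff]
      exact (norm_inner_le_norm _ _).trans (mul_le_mul (a.norm_coe_le_norm n)
        (b.norm_coe_le_norm n) (norm_nonneg _) (norm_nonneg _)))
  exact ⟨d, hd⟩

theorem ult_norm {L : Type*} [SeminormedAddCommGroup L] [InnerProductSpace ℂ L] {a : ℕ → K} {v : L}
    {F : Filter ℕ} (h : Tendsto (fun n => ⟪a n, a n⟫_ℂ) F (𝓝 ⟪v, v⟫_ℂ)) :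
    Tendsto (fun n => ‖a n‖) F (𝓝 ‖v‖) := by
  simp only [norm_eq_sqrt_re_inner (𝕜 := ℂ)]
  exact ((RCLike.continuous_re.tendsto _).comp h).sqrt

/-- Bounded sequences, to be equipped with the limit inner product. -/
def UPre (K : Type u) [NormedAddCommGroup K] : Type u := BoundedContinuousFunction ℕ K

noncomputable instance : AddCommGroup (UPre K) :=
  inferInstanceAs (AddCommGroup (BoundedContinuousFunction ℕ K))

noncomputable instance : Module ℂ (UPre K) :=
  inferInstanceAs (Module ℂ (BoundedContinuousFunction ℕ K))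

/-- The identity map. -/
noncomputable def toUPre : BoundedContinuousFunction ℕ K ≃ₗ[ℂ] UPre K := LinearEquiv.refl ℂ _

/-- The limit inner product. -/
noncomputable abbrev upCore (K : Type u) [NormedAddCommGroup K] [InnerProductSpace ℂ K] :
    PreInnerProductSpace.Core ℂ (UPre K) where
  inner a b := (ult_lim (toUPre.symm a) (toUPre.symm b)).choose
  conj_inner_symm a b := tendsto_nhds_unique
    ((Complex.continuous_conj.tendsto _).comp (ult_lim _ _).choose_spec)
    ((ult_lim _ _).choose_spec.congr fun _ => (inner_conj_symm _ _).symm)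
  re_inner_nonneg a := ge_of_tendsto' ((RCLike.continuous_re.tendsto _).comp
    (ult_lim (toUPre.symm a) (toUPre.symm a)).choose_spec) fun _ => inner_self_nonneg
  add_left a b c := tendsto_nhds_unique (ult_lim _ _).choose_spec
    (((ult_lim _ _).choose_spec.add (ult_lim _ _).choose_spec).congr fun _ =>
      (inner_add_left _ _ _).symm)
  smul_left a b r := tendsto_nhds_unique (ult_lim _ _).choose_spec
    (((ult_lim _ _).choose_spec.const_mul _).congr fun _ => (inner_smul_left _ _ _).symm)

noncomputable instance : SeminormedAddCommGroup (UPre K) :=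
  InnerProductSpace.Core.toSeminormedAddCommGroup (c := upCore K)

noncomputable instance : InnerProductSpace ℂ (UPre K) := InnerProductSpace.ofCore (upCore K)

theorem ult_space (K : Type u) [NormedAddCommGroup K] [InnerProductSpace ℂ K] :
    ∃ (L : Type u) (_ : NormedAddCommGroup L) (_ : InnerProductSpace ℂ L) (_ : CompleteSpace L)
      (q : BoundedContinuousFunction ℕ K →L[ℂ] L), DenseRange q ∧
      ∀ a b, Tendsto (fun n => ⟪a n, b n⟫_ℂ) (hyperfilter ℕ) (𝓝 ⟪q a, q b⟫_ℂ) := by
  let f : BoundedContinuousFunction ℕ K →ₗ[ℂ] UniformSpace.Completion (UPre K) :=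
    (UniformSpace.Completion.toComplL (𝕜 := ℂ) (E := UPre K)).toLinearMap ∘ₗ toUPre.toLinearMap
  have hf : ∀ a, f a = (toUPre a : UPre K) := fun _ => rfl
  have hi : ∀ a b, Tendsto (fun n => ⟪a n, b n⟫_ℂ) (hyperfilter ℕ) (𝓝 ⟪f a, f b⟫_ℂ) := fun a b => by
    rw [hf, hf, UniformSpace.Completion.inner_coe]
    exact (ult_lim a b).choose_spec
  refine ⟨UniformSpace.Completion (UPre K), inferInstance, inferInstance, inferInstance,
    f.mkContinuous 1 fun a => ?_, ?_, hi⟩
  · rw [one_mul]
    exact le_of_tendsto' (ult_norm (hi a a)) a.norm_coe_le_norm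
  · exact UniformSpace.Completion.denseRange_coe.comp toUPre.surjective.denseRange
      (UniformSpace.Completion.continuous_coe _)

/-- Pointwise action on bounded sequences. -/
noncomputable def ultAct (x : BoundedContinuousFunction ℕ (K →L[ℂ] K)) :
    BoundedContinuousFunction ℕ K →ₗ[ℂ] BoundedContinuousFunction ℕ K where
  toFun a := BoundedContinuousFunction.ofNormedAddCommGroupDiscrete (fun n => x n (a n))
    (‖x‖ * ‖a‖) fun n => ((x n).le_opNorm _).trans (mul_le_mul (x.norm_coe_le_norm n)
      (a.norm_coe_le_norm n) (norm_nonneg _) ((norm_nonneg _).trans (x.norm_coe_le_norm n)))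
  map_add' a b := BoundedContinuousFunction.ext fun n => map_add (x n) (a n) (b n)
  map_smul' c a := BoundedContinuousFunction.ext fun n => map_smul (x n) c (a n)

theorem ultAct_apply (x : BoundedContinuousFunction ℕ (K →L[ℂ] K))
    (a : BoundedContinuousFunction ℕ K) (n : ℕ) : ultAct x a n = x n (a n) := rfl

end Pre

theorem exists_up (K : Type u) [NormedAddCommGroup K] [InnerProductSpace ℂ K] [CompleteSpace K] :
    ∃ (L : Type u) (_ : NormedAddCommGroup L) (_ : InnerProductSpace ℂ L) (_ : CompleteSpace L),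
      Nonempty (UP K L) := by
  obtain ⟨L, _, _, _, q, hd, hi⟩ := ult_space K
  have hn : ∀ x a, ‖(q.toLinearMap ∘ₗ ultAct x) a‖ ≤ ‖x‖ * ‖q.toLinearMap a‖ := fun x a =>
    le_of_tendsto_of_tendsto' (ult_norm (hi _ _)) ((ult_norm (hi a a)).const_mul ‖x‖) fun n =>
      ((x n).le_opNorm _).trans (mul_le_mul_of_nonneg_right (x.norm_coe_le_norm n) (norm_nonneg _))
  let π : BoundedContinuousFunction ℕ (K →L[ℂ] K) → (L →L[ℂ] L) := fun x =>
    (q.toLinearMap ∘ₗ ultAct x).extendOfNorm q.toLinearMap
  have hπ : ∀ x a, π x (q a) = q (ultAct x a) := fun x a =>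
    LinearMap.extendOfNorm_eq (e := q.toLinearMap) hd ⟨_, hn x⟩ a
  have ext : ∀ S T : L →L[ℂ] L, (∀ a, S (q a) = T (q a)) → S = T := fun S T h =>
    DFunLike.coe_injective (hd.equalizer S.continuous T.continuous (funext h))
  have hs : ∀ (c : ℂ) x, π (c • x) = c • π x := fun c x => ext _ _ fun a => by
    rw [smul_apply, hπ, hπ, ← map_smul]
    rfl
  have h1 : π 1 = 1 := ext _ _ fun a => by
    rw [hπ]
    rfl
  refine ⟨L, inferInstance, inferInstance, inferInstance, ⟨⟨q,
    { toFun := π
      map_one' := h1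
      map_mul' := fun x y => ext _ _ fun a => ?_
      map_zero' := ext _ _ fun a => (hπ _ _).trans (map_zero q)
      map_add' := fun x y => ext _ _ fun a => ?_
      commutes' := fun c => by
        rw [Algebra.algebraMap_eq_smul_one, hs, h1, Algebra.algebraMap_eq_smul_one]
      map_star' := fun x => ext _ _ fun a => ext_inner_left ℂ fun v => ?_ }, hd, hi,
    fun x a b h => ?_⟩⟩⟩
  · rw [mul_apply_eq_comp, hπ, hπ, hπ]
    rfl
  · rw [add_apply, hπ, hπ, hπ, ← map_add]
    rfl
  · refine hd.induction_on v (isClosed_eq (by fun_prop) (by fun_prop)) fun b => ?_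
    rw [inner_star_right, hπ, hπ]
    exact tendsto_nhds_unique (hi _ _) ((hi _ _).congr fun n => (inner_star_right _ _ _).symm)
  · exact (hπ x a).trans (congrArg q (BoundedContinuousFunction.ext fun n => (h n).symm))

end Vale.Agent.P096
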